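import Mathlib

/-!
# P328 : tables and their margins
-/

namespace P328

open Finset

section Abstract

variable {E : Type*} [Fintype E] [DecidableEq E] {B : Type*} [AddCommGroup B] [DecidableEq B]

/-- the points of the box `[lo, hi]` with margins `b` -/
noncomputable def S (M : (E → ℤ) →+ B) (b : B) (lo hi : E → ℤ) : Finset (E → ℤ) :=
  (Icc lo hi).filter fun z => M z = b

end Abstract

section Tables

variable {m n : ℕ}

/-- the margins of a table -/
def mar : (Fin m × Fin n → ℤ) →+ (Fin m → ℤ) × (Fin n → ℤ) where
  toFun x := (fun i => ∑ j, x (i, j), fun j => ∑ i, x (i, j))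
  map_zero' := by
    ext <;> simp
  map_add' x y := by
    ext <;> simp [Finset.sum_add_distrib]

/-- the table with a single `1` in the cell `(i, j)` -/
def one (i : Fin m) (j : Fin n) : Fin m × Fin n → ℤ := Pi.single (i, j) 1

/-- the unit `2 × 2` move `+1` in `(i, j), (i', j')`, `-1` in `(i, j'), (i', j)` -/
def quad (q : (Fin m × Fin m) × (Fin n × Fin n)) : Fin m × Fin n → ℤ :=
  one q.1.1 q.2.1 + one q.1.2 q.2.2 - one q.1.1 q.2.2 - one q.1.2 q.2.1

/-- the nonnegative integer tables with margins `b` and entries at most `N` -/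
noncomputable def tab (N : ℤ) (b : (Fin m → ℤ) × (Fin n → ℤ)) : Finset (Fin m × Fin n → ℤ) :=
  S mar b 0 (fun _ => N)

end Tables

end P328
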