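import Vale.Agent.P328.Defs

/-!
# P328, module B : bookkeeping
-/

namespace P328

open Finset

variable {E : Type*} [Fintype E] [DecidableEq E] {B : Type*} [AddCommGroup B] [DecidableEq B]
  {M : (E → ℤ) →+ B} {b : B} {lo hi : E → ℤ}

theorem mem_S {z : E → ℤ} : z ∈ S M b lo hi ↔ (lo ≤ z ∧ z ≤ hi) ∧ M z = b := by
  unfold S
  rw [Finset.mem_filter, Finset.mem_Icc]

theorem Lo_add_Hi (lo hi u : E → ℤ) : Lo lo hi u + Hi lo hi u = u := by
  ext e
  simp only [Lo, Hi, Pi.add_apply, Pi.sup_apply, Pi.inf_apply, Pi.sub_apply]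
  omega

theorem Dn_add_Up (u : E → ℤ) : Dn u + Up u = u := by
  ext e
  simp only [Dn, Up, Pi.add_apply]
  omega

theorem M_of_mem_U {u : E → ℤ} (hu : u ∈ U M b lo hi) : M u = b + b := by
  unfold U at hu
  obtain ⟨p, hp, rfl⟩ := Finset.mem_image.mp hu
  obtain ⟨h1, h2⟩ := Finset.mem_product.mp hp
  rw [map_add, (mem_S.mp h1).2, (mem_S.mp h2).2]

theorem mem_U {u : E → ℤ} :
    u ∈ U M b lo hi ↔ ∃ x ∈ S M b lo hi, ∃ y ∈ S M b lo hi, x + y = u := by
  unfold U
  simp only [Finset.mem_image, Finset.mem_product, Prod.exists]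
  constructor
  · rintro ⟨x, y, ⟨h1, h2⟩, h3⟩
    exact ⟨x, h1, y, h2, h3⟩
  · rintro ⟨x, h1, y, h2, h3⟩
    exact ⟨x, y, ⟨h1, h2⟩, h3⟩

theorem mem_sub {u x : E → ℤ} (hu : M u = b + b) :
    x ∈ S M b (Lo lo hi u) (Hi lo hi u) ↔ x ∈ S M b lo hi ∧ u - x ∈ S M b lo hi := by
  rw [mem_S, mem_S, mem_S]
  simp only [Lo, Hi, sup_le_iff, le_inf_iff, map_sub]
  constructor
  · rintro ⟨⟨⟨h1, h2⟩, h3, h4⟩, h5⟩
    refine ⟨⟨⟨h1, h3⟩, h5⟩, ⟨?_, ?_⟩, ?_⟩
    · intro e
      have := h4 e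
      simp only [Pi.sub_apply] at *
      omega
    · intro e
      have := h2 e
      simp only [Pi.sub_apply] at *
      omega
    · rw [hu, h5]
      abel
  · rintro ⟨⟨⟨h1, h3⟩, h5⟩, ⟨h2, h4⟩, -⟩
    refine ⟨⟨⟨h1, ?_⟩, h3, ?_⟩, h5⟩
    · intro e
      have := h4 e
      simp only [Pi.sub_apply] at *
      omega
    · intro e
      have := h2 e
      simp only [Pi.sub_apply] at *
      omega

/-- the points of `[Dn u, Up u]` lie in the sub-box of `u` -/
theorem Dn_Up_sub {u : E → ℤ} (hu : u ∈ U M b lo hi) :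
    Lo lo hi u ≤ Dn u ∧ Up u ≤ Hi lo hi u := by
  obtain ⟨x, hx, y, hy, rfl⟩ := mem_U.mp hu
  obtain ⟨⟨h1, h2⟩, -⟩ := mem_S.mp hx
  obtain ⟨⟨h3, h4⟩, -⟩ := mem_S.mp hy
  constructor
  · intro e
    have := h1 e
    have := h2 e
    have := h3 e
    have := h4 e
    simp only [Lo, Dn, Pi.sup_apply, Pi.sub_apply, Pi.add_apply] at *
    omega
  · intro e
    have := h1 e
    have := h2 e
    have := h3 e
    have := h4 e
    simp only [Hi, Up, Pi.inf_apply, Pi.sub_apply, Pi.add_apply] at *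
    omega

/-- for a box of width at most one, the sub-box of `u` is `[Dn u, Up u]` -/
theorem Lo_Hi_of_width {u v : E → ℤ} (hu : u ∈ U M b (Dn v) (Up v)) :
    Lo (Dn v) (Up v) u = Dn u ∧ Hi (Dn v) (Up v) u = Up u := by
  obtain ⟨x, hx, y, hy, rfl⟩ := mem_U.mp hu
  obtain ⟨⟨h1, h2⟩, -⟩ := mem_S.mp hx
  obtain ⟨⟨h3, h4⟩, -⟩ := mem_S.mp hy
  constructor
  · ext e
    have := h1 e
    have := h2 e
    have := h3 e
    have := h4 e
    simp only [Lo, Dn, Up, Pi.sup_apply, Pi.sub_apply, Pi.add_apply] at *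
    omega
  · ext e
    have := h1 e
    have := h2 e
    have := h3 e
    have := h4 e
    simp only [Hi, Dn, Up, Pi.inf_apply, Pi.sub_apply, Pi.add_apply] at *
    omega

theorem sum_fiber (F : (E → ℤ) → (E → ℤ) → ℝ) :
    ∑ u ∈ U M b lo hi, ∑ x ∈ S M b (Lo lo hi u) (Hi lo hi u), F u x =
      ∑ x ∈ S M b lo hi, ∑ y ∈ S M b lo hi, F (x + y) x := by
  rw [← Finset.sum_product', Finset.sum_sigma']
  refine Finset.sum_bij' (fun p _ => (p.2, p.1 - p.2)) (fun q _ => ⟨q.1 + q.2, q.1⟩) ?_ ?_ ?_ ?_ ?_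
  · rintro ⟨u, x⟩ h
    obtain ⟨h1, h2⟩ := Finset.mem_sigma.mp h
    exact Finset.mem_product.mpr ((mem_sub (M_of_mem_U h1)).mp h2)
  · rintro ⟨x, y⟩ h
    obtain ⟨h1, h2⟩ := Finset.mem_product.mp h
    have h3 : x + y ∈ U M b lo hi := mem_U.mpr ⟨x, h1, y, h2, rfl⟩
    refine Finset.mem_sigma.mpr ⟨h3, (mem_sub (M_of_mem_U h3)).mpr ⟨h1, ?_⟩⟩
    simpa using h2
  · rintro ⟨u, x⟩ h
    simp
  · rintro ⟨x, y⟩ h
    simp
  · rintro ⟨u, x⟩ h
    simp

theorem sum_card_fiber :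
    ∑ u ∈ U M b lo hi, ((S M b (Lo lo hi u) (Hi lo hi u)).card : ℝ) =
      ((S M b lo hi).card : ℝ) ^ 2 := by
  have h := sum_fiber (M := M) (b := b) (lo := lo) (hi := hi) fun _ _ => (1 : ℝ)
  simp only [Finset.sum_const, nsmul_eq_mul, mul_one] at h
  rw [h]
  ring

/-! ### the halving operator -/

theorem halve_mono {F G : (E → ℤ) → (E → ℤ) → ℝ}
    (h : ∀ u ∈ U M b lo hi, F (Lo lo hi u) (Hi lo hi u) ≤ G (Lo lo hi u) (Hi lo hi u)) :
    halve M b F lo hi ≤ halve M b G lo hi := by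
  unfold halve
  exact mul_le_mul_of_nonneg_left (Finset.sum_le_sum h) (by positivity)

/-- monotonicity, with an invariant of boxes -/
theorem iter_mono {Inv : (E → ℤ) → (E → ℤ) → Prop}
    (hInv : ∀ lo hi, Inv lo hi → ∀ u ∈ U M b lo hi, Inv (Lo lo hi u) (Hi lo hi u))
    {F G : (E → ℤ) → (E → ℤ) → ℝ} (h : ∀ lo hi, Inv lo hi → F lo hi ≤ G lo hi) (L : ℕ)
    (hI : Inv lo hi) : (halve M b)^[L] F lo hi ≤ (halve M b)^[L] G lo hi := by
  induction L generalizing lo hi with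
  | zero => exact h lo hi hI
  | succ L ih =>
    rw [Function.iterate_succ_apply', Function.iterate_succ_apply']
    exact halve_mono fun u hu => ih (hInv lo hi hI u hu)

theorem halve_add (F G : (E → ℤ) → (E → ℤ) → ℝ) :
    halve M b (fun lo hi => F lo hi + G lo hi) =
      fun lo hi => halve M b F lo hi + halve M b G lo hi := by
  ext lo hi
  unfold halve
  rw [Finset.sum_add_distrib, mul_add]

theorem halve_mul (a : ℝ) (F : (E → ℤ) → (E → ℤ) → ℝ) :
    halve M b (fun lo hi => a * F lo hi) = fun lo hi => a * halve M b F lo hi := by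
  ext lo hi
  unfold halve
  rw [← Finset.mul_sum]
  ring

theorem halve_sum {ι : Type*} (s : Finset ι) (F : ι → (E → ℤ) → (E → ℤ) → ℝ) :
    halve M b (fun lo hi => ∑ i ∈ s, F i lo hi) = fun lo hi => ∑ i ∈ s, halve M b (F i) lo hi := by
  ext lo hi
  unfold halve
  rw [Finset.sum_comm, Finset.mul_sum]

theorem iter_add (F G : (E → ℤ) → (E → ℤ) → ℝ) (L : ℕ) :
    (halve M b)^[L] (fun lo hi => F lo hi + G lo hi) lo hi =
      (halve M b)^[L] F lo hi + (halve M b)^[L] G lo hi := by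
  induction L generalizing F G with
  | zero => rfl
  | succ L ih =>
    rw [Function.iterate_succ_apply, Function.iterate_succ_apply, Function.iterate_succ_apply,
      halve_add, ih]

theorem iter_mul (a : ℝ) (F : (E → ℤ) → (E → ℤ) → ℝ) (L : ℕ) :
    (halve M b)^[L] (fun lo hi => a * F lo hi) lo hi = a * (halve M b)^[L] F lo hi := by
  induction L generalizing F with
  | zero => rfl
  | succ L ih =>
    rw [Function.iterate_succ_apply, Function.iterate_succ_apply, halve_mul, ih]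

theorem iter_sum {ι : Type*} (s : Finset ι) (F : ι → (E → ℤ) → (E → ℤ) → ℝ) (L : ℕ) :
    (halve M b)^[L] (fun lo hi => ∑ i ∈ s, F i lo hi) lo hi =
      ∑ i ∈ s, (halve M b)^[L] (F i) lo hi := by
  induction L generalizing F with
  | zero => rfl
  | succ L ih =>
    simp only [Function.iterate_succ_apply]
    rw [halve_sum, ih]

theorem iter_card {F : (E → ℤ) → (E → ℤ) → ℝ} {C : ℝ}
    (h : ∀ lo hi, F lo hi ≤ C * (S M b lo hi).card) (L : ℕ) :
    (halve M b)^[L] F lo hi ≤ C * 2 ^ L * (S M b lo hi).card := by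
  induction L generalizing lo hi with
  | zero => simpa using h lo hi
  | succ L ih =>
    rw [Function.iterate_succ_apply']
    rcases Nat.eq_zero_or_pos (S M b lo hi).card with h0 | h0
    · unfold halve
      rw [h0]
      simp
    have hc : (0 : ℝ) < (S M b lo hi).card := by exact_mod_cast h0
    have h1 : ∑ u ∈ U M b lo hi, (halve M b)^[L] F (Lo lo hi u) (Hi lo hi u) ≤
        C * 2 ^ L * ((S M b lo hi).card : ℝ) ^ 2 := by
      rw [← sum_card_fiber, Finset.mul_sum]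
      exact Finset.sum_le_sum fun u _ => ih
    calc halve M b ((halve M b)^[L] F) lo hi
        ≤ 2 / ((S M b lo hi).card : ℝ) * (C * 2 ^ L * ((S M b lo hi).card : ℝ) ^ 2) :=
          mul_le_mul_of_nonneg_left h1 (by positivity)
      _ = _ := by
          rw [pow_succ (2 : ℝ) L]
          field_simp

theorem T_zero (g : (E → ℤ) → (E → ℤ) → ℝ) : T M b g 0 lo hi = T0 M b g lo hi := rfl

theorem T_succ (g : (E → ℤ) → (E → ℤ) → ℝ) (L : ℕ) :
    T M b g (L + 1) lo hi = halve M b (T M b g L) lo hi := by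
  unfold T
  rw [Function.iterate_succ_apply']

theorem T0_mono {g g' : (E → ℤ) → (E → ℤ) → ℝ}
    (h : ∀ x ∈ S M b lo hi, ∀ y ∈ S M b lo hi, g x y ≤ g' x y) :
    T0 M b g lo hi ≤ T0 M b g' lo hi := by
  unfold T0
  exact div_le_div_of_nonneg_right
    (Finset.sum_le_sum fun x hx => Finset.sum_le_sum fun y hy => h x hx y hy) (by positivity)

theorem T_mono {g g' : (E → ℤ) → (E → ℤ) → ℝ} (L : ℕ)
    (h : ∀ x ∈ S M b lo hi, ∀ y ∈ S M b lo hi, g x y ≤ g' x y) :
    T M b g L lo hi ≤ T M b g' L lo hi := by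
  induction L generalizing lo hi with
  | zero => exact T0_mono h
  | succ L ih =>
    rw [T_succ, T_succ]
    refine halve_mono fun u hu => ih fun x hx y hy => ?_
    have hM := M_of_mem_U hu
    exact h x ((mem_sub hM).mp hx).1 y ((mem_sub hM).mp hy).1

theorem T_add (g g' : (E → ℤ) → (E → ℤ) → ℝ) (L : ℕ) :
    T M b (fun x y => g x y + g' x y) L lo hi = T M b g L lo hi + T M b g' L lo hi := by
  unfold T
  have h : T0 M b (fun x y => g x y + g' x y) =
      fun lo hi => T0 M b g lo hi + T0 M b g' lo hi := by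
    ext lo hi
    unfold T0
    simp only [Finset.sum_add_distrib, add_div]
  rw [h, iter_add]

theorem T_mul (a : ℝ) (g : (E → ℤ) → (E → ℤ) → ℝ) (L : ℕ) :
    T M b (fun x y => a * g x y) L lo hi = a * T M b g L lo hi := by
  unfold T
  have h : T0 M b (fun x y => a * g x y) = fun lo hi => a * T0 M b g lo hi := by
    ext lo hi
    unfold T0
    simp only [← Finset.mul_sum, mul_div_assoc]
  rw [h, iter_mul]

theorem T_sum {ι : Type*} (s : Finset ι) (g : ι → (E → ℤ) → (E → ℤ) → ℝ) (L : ℕ) :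
    T M b (fun x y => ∑ i ∈ s, g i x y) L lo hi = ∑ i ∈ s, T M b (g i) L lo hi := by
  unfold T
  have h : T0 M b (fun x y => ∑ i ∈ s, g i x y) =
      fun lo hi => ∑ i ∈ s, T0 M b (g i) lo hi := by
    ext lo hi
    unfold T0
    rw [← Finset.sum_div]
    congr 1
    rw [Finset.sum_comm (s := s)]
    refine Finset.sum_congr rfl fun x _ => ?_
    rw [Finset.sum_comm (s := s)]
  rw [h, iter_sum]

theorem T_const (a : ℝ) (ha : 0 ≤ a) (L : ℕ) :
    T M b (fun _ _ => a) L lo hi ≤ a * 2 ^ L * (S M b lo hi).card := by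
  unfold T
  refine iter_card (fun lo hi => ?_) L
  unfold T0
  simp only [Finset.sum_const, nsmul_eq_mul]
  rcases Nat.eq_zero_or_pos (S M b lo hi).card with h0 | h0
  · rw [h0]
    simp
  have hc : (0 : ℝ) < (S M b lo hi).card := by exact_mod_cast h0
  rw [div_le_iff₀ hc]
  nlinarith

end P328
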