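import Vale.Agent.P328.Phase1

/-!
# P328 : module P, covariance of a Lipschitz function of one cell and of a bounded function of
some cells
-/

namespace P328

open Finset

section Cov

variable {E : Type*} [Fintype E] [DecidableEq E] {B : Type*} [AddCommGroup B] [DecidableEq B]
  {M : (E → ℤ) →+ B} {b : B} {lo hi : E → ℤ}

/-- the double sum -/
noncomputable def cs (M : (E → ℤ) →+ B) (b : B) (f g : (E → ℤ) → ℝ) (lo hi : E → ℤ) : ℝ :=
  ∑ x ∈ S M b lo hi, ∑ y ∈ S M b lo hi, (f x - f y) * (g x - g y)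

theorem cs_eq (f g : (E → ℤ) → ℝ) :
    cs M b f g lo hi = 2 * (S M b lo hi).card * ∑ x ∈ S M b lo hi, f x * g x -
      2 * (∑ x ∈ S M b lo hi, f x) * ∑ x ∈ S M b lo hi, g x := by
  unfold cs
  have h : ∀ x y : E → ℤ, (f x - f y) * (g x - g y) =
      f x * g x - f x * g y - f y * g x + f y * g y := fun x y => by ring
  simp only [h, Finset.sum_add_distrib, Finset.sum_sub_distrib, Finset.sum_const, nsmul_eq_mul,
    ← Finset.mul_sum, ← Finset.sum_mul]
  ring

/-- the odd part of `g` with respect to the reflection `x ↦ u - x` -/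
noncomputable def odd (g : (E → ℤ) → ℝ) (u : E → ℤ) : (E → ℤ) → ℝ := fun x => (g x - g (u - x)) / 2

theorem sum_reflect {u : E → ℤ} (hu : M u = b + b) (g : (E → ℤ) → ℝ) :
    ∑ x ∈ S M b (Lo lo hi u) (Hi lo hi u), g (u - x) =
      ∑ x ∈ S M b (Lo lo hi u) (Hi lo hi u), g x := by
  refine Finset.sum_bij' (fun x _ => u - x) (fun x _ => u - x) ?_ ?_ ?_ ?_ ?_
  · intro x hx
    rw [mem_sub hu] at hx ⊢
    refine ⟨hx.2, ?_⟩
    rw [sub_sub_cancel]
    exact hx.1
  · intro x hx
    rw [mem_sub hu] at hx ⊢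
    refine ⟨hx.2, ?_⟩
    rw [sub_sub_cancel]
    exact hx.1
  · intro x _
    simp
  · intro x _
    simp
  · intro x _
    rfl

theorem sum_odd {u : E → ℤ} (hu : M u = b + b) (g : (E → ℤ) → ℝ) :
    ∑ x ∈ S M b (Lo lo hi u) (Hi lo hi u), odd g u x = 0 := by
  unfold odd
  rw [← Finset.sum_div, Finset.sum_sub_distrib, sum_reflect hu, sub_self, zero_div]

theorem sub_card_pos {u : E → ℤ} (hu : u ∈ U M b lo hi) :
    0 < ((S M b (Lo lo hi u) (Hi lo hi u)).card : ℝ) := by
  obtain ⟨x, hx, y, hy, rfl⟩ := mem_U.mp hu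
  have : x ∈ S M b (Lo lo hi (x + y)) (Hi lo hi (x + y)) :=
    (mem_sub (M_of_mem_U hu)).mpr ⟨hx, by simpa using hy⟩
  exact_mod_cast Finset.card_pos.mpr ⟨x, this⟩

/-- the halving identity for the covariance -/
theorem cs_halve (f g : (E → ℤ) → ℝ) (hS : (S M b lo hi).Nonempty) :
    cs M b f g lo hi / (2 * (S M b lo hi).card) = 2 / (S M b lo hi).card *
      ∑ u ∈ U M b lo hi, cs M b f (odd g u) (Lo lo hi u) (Hi lo hi u) /
        (2 * (S M b (Lo lo hi u) (Hi lo hi u)).card) := by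
  have hpos : (0 : ℝ) < (S M b lo hi).card := by exact_mod_cast hS.card_pos
  have h1 : ∀ u ∈ U M b lo hi, cs M b f (odd g u) (Lo lo hi u) (Hi lo hi u) /
      (2 * (S M b (Lo lo hi u) (Hi lo hi u)).card) =
      ∑ x ∈ S M b (Lo lo hi u) (Hi lo hi u), f x * odd g u x := by
    intro u hu
    have hp := sub_card_pos hu
    rw [cs_eq, sum_odd (M_of_mem_U hu)]
    field_simp
    try ring
  rw [Finset.sum_congr rfl h1, sum_fiber (fun u x => f x * odd g u x), cs_eq]
  unfold odd
  have h2 : ∀ x y : E → ℤ, f x * ((g x - g (x + y - x)) / 2) =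
      f x * g x / 2 - f x * g y / 2 := by
    intro x y
    rw [add_sub_cancel_left]
    ring
  simp only [h2, Finset.sum_sub_distrib, Finset.sum_const, nsmul_eq_mul, ← Finset.sum_div,
    ← Finset.mul_sum, ← Finset.sum_mul]
  field_simp

open Classical in
/-- the pairs which differ on `A` -/
noncomputable def dif (f : (E → ℤ) → ℝ) (A : Finset E) (x y : E → ℤ) : ℝ :=
  if ∀ e ∈ A, x e = y e then 0 else |f x - f y|

theorem cs_base (A : Finset E) (f g : (E → ℤ) → ℝ) (hg : ∀ x, |g x| ≤ 1)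
    (hgA : ∀ x y, (∀ e ∈ A, x e = y e) → g x = g y) :
    |cs M b f g lo hi / (2 * (S M b lo hi).card)| ≤ T0 M b (dif f A) lo hi := by
  rcases (S M b lo hi).eq_empty_or_nonempty with hS | hS
  · unfold cs T0
    rw [hS]
    simp
  have hpos : (0 : ℝ) < (S M b lo hi).card := by exact_mod_cast hS.card_pos
  unfold T0
  rw [abs_div, abs_of_pos (by positivity : (0 : ℝ) < 2 * (S M b lo hi).card), div_le_div_iff₀
    (by positivity) hpos]
  have h1 : |cs M b f g lo hi| ≤
      2 * ∑ x ∈ S M b lo hi, ∑ y ∈ S M b lo hi, dif f A x y := by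
    unfold cs
    refine (Finset.abs_sum_le_sum_abs _ _).trans ?_
    rw [Finset.mul_sum]
    refine Finset.sum_le_sum fun x _ => ?_
    refine (Finset.abs_sum_le_sum_abs _ _).trans ?_
    rw [Finset.mul_sum]
    refine Finset.sum_le_sum fun y _ => ?_
    unfold dif
    split_ifs with h
    · rw [hgA x y h]
      simp
    · rw [abs_mul]
      have h2 : |g x - g y| ≤ 2 := by
        have := abs_sub (g x) (g y)
        linarith [hg x, hg y]
      nlinarith [abs_nonneg (f x - f y)]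
  nlinarith

theorem cs_le_T (A : Finset E) (f : (E → ℤ) → ℝ) (L : ℕ) :
    ∀ (lo hi : E → ℤ) (g : (E → ℤ) → ℝ), (∀ x, |g x| ≤ 1) →
    (∀ x y, (∀ e ∈ A, x e = y e) → g x = g y) →
    |cs M b f g lo hi / (2 * (S M b lo hi).card)| ≤ T M b (dif f A) L lo hi := by
  induction L with
  | zero =>
    intro lo hi g hg hgA
    rw [T_zero]
    exact cs_base A f g hg hgA
  | succ L ih =>
    intro lo hi g hg hgA
    rcases (S M b lo hi).eq_empty_or_nonempty with hS | hS
    · have h0 : U M b lo hi = ∅ := by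
        unfold U
        rw [hS]
        simp
      rw [T_succ]
      unfold cs halve
      rw [hS, h0]
      simp
    rw [cs_halve f g hS, T_succ]
    unfold halve
    rw [abs_mul, abs_of_nonneg (by positivity : (0 : ℝ) ≤ 2 / (S M b lo hi).card)]
    refine mul_le_mul_of_nonneg_left ?_ (by positivity)
    refine (Finset.abs_sum_le_sum_abs _ _).trans (Finset.sum_le_sum fun u hu => ?_)
    refine ih _ _ _ (fun x => ?_) (fun x y h => ?_)
    · unfold odd
      rw [abs_div, abs_of_pos (by norm_num : (0 : ℝ) < 2), div_le_one (by norm_num)]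
      have := abs_sub (g x) (g (u - x))
      linarith [hg x, hg (u - x)]
    · unfold odd
      rw [hgA x y h, hgA (u - x) (u - y) (fun e he => by simp [h e he])]

/-- squared difference in a cell -/
noncomputable def q2 (c : E) (x y : E → ℤ) : ℝ := ((x c - y c : ℤ) : ℝ) ^ 2

theorem halve_q2 (c : E) : halve M b (T0 M b (q2 c)) lo hi ≤ T0 M b (q2 c) lo hi := by
  have h1 : ∀ u ∈ U M b lo hi, T0 M b (q2 c) (Lo lo hi u) (Hi lo hi u) ≤
      ∑ x ∈ S M b (Lo lo hi u) (Hi lo hi u), (1 / 2) * q2 c x (u - x) := by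
    intro u hu
    have hp := sub_card_pos hu
    unfold T0
    rw [div_le_iff₀ hp]
    set s := S M b (Lo lo hi u) (Hi lo hi u) with hs
    -- expand around the center
    set ζ : (E → ℤ) → ℝ := fun x => (x c : ℝ) - (u c : ℝ) / 2 with hζ
    have e1 : ∀ x y : E → ℤ, q2 c x y = ζ x ^ 2 - 2 * (ζ x * ζ y) + ζ y ^ 2 := by
      intro x y
      unfold q2
      simp only [hζ]
      push_cast
      ring
    have e2 : ∀ x : E → ℤ, (1 / 2) * q2 c x (u - x) = 2 * ζ x ^ 2 := by
      intro x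
      unfold q2
      simp only [hζ, Pi.sub_apply]
      push_cast
      ring
    rw [Finset.sum_congr rfl fun x _ => e2 x]
    simp only [e1, Finset.sum_add_distrib, Finset.sum_sub_distrib, Finset.sum_const,
      nsmul_eq_mul, ← Finset.mul_sum, ← Finset.sum_mul]
    nlinarith [sq_nonneg (∑ x ∈ s, ζ x)]
  unfold halve
  refine (mul_le_mul_of_nonneg_left (Finset.sum_le_sum h1) (by positivity)).trans ?_
  rw [sum_fiber (fun u x => (1 / 2) * q2 c x (u - x))]
  unfold T0
  simp only [add_sub_cancel_left, ← Finset.mul_sum]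
  apply le_of_eq
  ring

theorem T_q2 (c : E) (L : ℕ) : ∀ lo hi : E → ℤ, T M b (q2 c) L lo hi ≤ T0 M b (q2 c) lo hi := by
  induction L with
  | zero => exact fun lo hi => le_of_eq (T_zero _)
  | succ L ih =>
    intro lo hi
    rw [T_succ]
    exact (halve_mono fun u _ => ih _ _).trans (halve_q2 c)

theorem T0_q2 (c : E) {K : ℝ}
    (hK : ∀ x ∈ S M b lo hi, ∀ y ∈ S M b lo hi, |((x c - y c : ℤ) : ℝ)| ≤ K) :
    T0 M b (q2 c) lo hi ≤ K ^ 2 * (S M b lo hi).card := by
  rcases (S M b lo hi).eq_empty_or_nonempty with hS | hS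
  · unfold T0
    rw [hS]
    simp
  have hpos : (0 : ℝ) < (S M b lo hi).card := by exact_mod_cast hS.card_pos
  unfold T0
  rw [div_le_iff₀ hpos]
  have : ∑ x ∈ S M b lo hi, ∑ y ∈ S M b lo hi, q2 c x y ≤
      ∑ x ∈ S M b lo hi, ∑ y ∈ S M b lo hi, K ^ 2 := by
    refine Finset.sum_le_sum fun x hx => Finset.sum_le_sum fun y hy => ?_
    unfold q2
    rw [← sq_abs]
    exact pow_le_pow_left₀ (abs_nonneg _) (hK x hx y hy) 2
  refine this.trans (le_of_eq ?_)
  simp only [Finset.sum_const, nsmul_eq_mul]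
  ring

theorem cov_le (hR : Rounding M b) (A : Finset E) (f g : (E → ℤ) → ℝ) (c : E) {l K : ℝ}
    (hl : 0 ≤ l) (hf : ∀ x y, |f x - f y| ≤ l * |((x c - y c : ℤ) : ℝ)|) (hg : ∀ x, |g x| ≤ 1)
    (hgA : ∀ x y, (∀ e ∈ A, x e = y e) → g x = g y)
    (hK : ∀ x ∈ S M b lo hi, ∀ y ∈ S M b lo hi, ∀ e ∈ A, |((x e - y e : ℤ) : ℝ)| ≤ K) :
    |∑ x ∈ S M b lo hi, ∑ y ∈ S M b lo hi, (f x - f y) * (g x - g y)| ≤
      2 * l * A.card * K ^ 2 * ((S M b lo hi).card : ℝ) ^ 2 := by
  rcases (S M b lo hi).eq_empty_or_nonempty with hS | hS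
  · rw [hS]
    simp
  have hpos : (0 : ℝ) < (S M b lo hi).card := by exact_mod_cast hS.card_pos
  -- the pointwise bound
  have hpt : ∀ x y : E → ℤ, dif f A x y ≤ l * ∑ e ∈ A, q2 e x y + l * gc c x y := by
    intro x y
    have hgc : ∀ d : ℤ, (0 : ℝ) ≤ (d : ℝ) ^ 2 * ((d : ℝ) ^ 2 - 1) ∧
        (2 ≤ |d| → |(d : ℝ)| ≤ (d : ℝ) ^ 2 * ((d : ℝ) ^ 2 - 1)) := by
      intro d
      have h0 : (d : ℝ) ^ 2 = |(d : ℝ)| ^ 2 := (sq_abs _).symm
      constructor
      · by_cases hd : d = 0
        · simp [hd]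
        · have h1 : (1 : ℝ) ≤ |(d : ℝ)| := by
            have : 1 ≤ |d| := Int.one_le_abs hd
            exact_mod_cast this
          rw [h0]
          have h2 : (1 : ℝ) ≤ |(d : ℝ)| ^ 2 := by nlinarith
          nlinarith
      · intro hd
        have h1 : (2 : ℝ) ≤ |(d : ℝ)| := by exact_mod_cast hd
        rw [h0]
        have h2 : (4 : ℝ) ≤ |(d : ℝ)| ^ 2 := by nlinarith
        nlinarith
    have hq : 0 ≤ ∑ e ∈ A, q2 e x y := Finset.sum_nonneg fun e _ => sq_nonneg _
    have hc := hgc (x c - y c)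
    unfold dif
    split_ifs with h
    · have : 0 ≤ gc c x y := hc.1
      positivity
    · push Not at h
      obtain ⟨e, he, hne⟩ := h
      have hq1 : 1 ≤ ∑ e ∈ A, q2 e x y := by
        refine le_trans ?_ (Finset.single_le_sum (fun e _ => sq_nonneg _) he)
        have h1 : 1 ≤ |x e - y e| := Int.one_le_abs (sub_ne_zero.mpr hne)
        have h2 : (1 : ℝ) ≤ |((x e - y e : ℤ) : ℝ)| := by exact_mod_cast h1
        show (1 : ℝ) ≤ ((x e - y e : ℤ) : ℝ) ^ 2
        rw [← sq_abs]
        nlinarith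
      refine (hf x y).trans ?_
      rw [← mul_add]
      refine mul_le_mul_of_nonneg_left ?_ hl
      rcases le_or_gt 2 |x c - y c| with h2 | h2
      · have := hc.2 h2
        have h3 : gc c x y = ((x c - y c : ℤ) : ℝ) ^ 2 * (((x c - y c : ℤ) : ℝ) ^ 2 - 1) := rfl
        rw [h3]
        linarith
      · have h3 : |x c - y c| ≤ 1 := by omega
        have h4 : |((x c - y c : ℤ) : ℝ)| ≤ 1 := by exact_mod_cast h3
        have h5 : 0 ≤ gc c x y := hc.1
        linarith
  -- the bound for every number of halvings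
  have hL : ∀ L : ℕ, |cs M b f g lo hi / (2 * (S M b lo hi).card)| ≤
      l * (A.card * (K ^ 2 * (S M b lo hi).card)) +
        l * ((2 / 3) ^ L * T0 M b (gc c) lo hi) := by
    intro L
    refine (cs_le_T A f L lo hi g hg hgA).trans ?_
    refine (T_mono L (g' := fun x y => l * (∑ e ∈ A, q2 e x y) + l * gc c x y)
      (fun x _ y _ => hpt x y)).trans ?_
    rw [T_add (fun x y => l * ∑ e ∈ A, q2 e x y) (fun x y => l * gc c x y),
      T_mul l (fun x y => ∑ e ∈ A, q2 e x y), T_mul l (fun x y => gc c x y),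
      T_sum A (fun e x y => q2 e x y)]
    refine add_le_add (mul_le_mul_of_nonneg_left ?_ hl) (mul_le_mul_of_nonneg_left ?_ hl)
    · have : ∀ e ∈ A, T M b (q2 e) L lo hi ≤ K ^ 2 * (S M b lo hi).card := fun e he =>
        (T_q2 e L lo hi).trans (T0_q2 e fun x hx y hy => hK x hx y hy e he)
      calc ∑ e ∈ A, T M b (fun x y => q2 e x y) L lo hi
          ≤ ∑ _e ∈ A, K ^ 2 * ((S M b lo hi).card : ℝ) := Finset.sum_le_sum this
        _ = _ := by rw [Finset.sum_const, nsmul_eq_mul]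
    · exact T_cell hR c L
  have hlim : Filter.Tendsto (fun L : ℕ => l * (A.card * (K ^ 2 * (S M b lo hi).card)) +
      l * ((2 / 3) ^ L * T0 M b (gc c) lo hi)) Filter.atTop
      (nhds (l * (A.card * (K ^ 2 * (S M b lo hi).card)) + l * (0 * T0 M b (gc c) lo hi))) := by
    refine Filter.Tendsto.const_add _ (Filter.Tendsto.const_mul _ (Filter.Tendsto.mul_const _ ?_))
    exact tendsto_pow_atTop_nhds_zero_of_lt_one (by norm_num) (by norm_num)
  have hfin := ge_of_tendsto' hlim hL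
  rw [zero_mul, mul_zero, add_zero, abs_div, abs_of_pos
    (by positivity : (0 : ℝ) < 2 * (S M b lo hi).card), div_le_iff₀ (by positivity)] at hfin
  refine hfin.trans (le_of_eq ?_)
  ring

end Cov

end P328
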