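import Vale.Agent.P328.Om

/-!
# P328, module Q : the law of one cell is flat near zero
-/

namespace P328.FL

open Finset

variable {m n : ℕ}

theorem row_erase {b : Mg m n} {X : Tb m n} (hX : X ∈ Om b) (i : Fin m) (j : Fin n) :
    ∑ j' ∈ univ.erase j, X (i, j') = b.1 i - X (i, j) := by
  have h1 := congrFun (congrArg Prod.fst (P328.mem_Om.mp hX).2) i
  rw [mar_fst] at h1
  rw [← h1, ← Finset.add_sum_erase univ (fun j' => X (i, j')) (mem_univ j)]
  ring

theorem col_erase {b : Mg m n} {X : Tb m n} (hX : X ∈ Om b) (i : Fin m) (j : Fin n) :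
    ∑ i' ∈ univ.erase i, X (i', j) = b.2 j - X (i, j) := by
  have h1 := congrFun (congrArg Prod.snd (P328.mem_Om.mp hX).2) j
  rw [mar_snd] at h1
  rw [← h1, ← Finset.add_sum_erase univ (fun i' => X (i', j)) (mem_univ i)]
  ring

theorem quad_vals {i i' : Fin m} {j j' : Fin n} (hi : i' ≠ i) (hj : j' ≠ j) :
    quad ((i, i'), (j, j')) (i, j) = 1 ∧ quad ((i, i'), (j, j')) (i, j') = -1 ∧
      quad ((i, i'), (j, j')) (i', j) = -1 ∧
      ∀ p, p ≠ (i, j') → p ≠ (i', j) → 0 ≤ quad ((i, i'), (j, j')) p := by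
  unfold quad
  simp only [Pi.add_apply, Pi.sub_apply, one_apply, Prod.mk.injEq, hi, hj, hi.symm, hj.symm,
    and_true, and_false, if_true, if_false]
  refine ⟨by norm_num, by norm_num, by norm_num, fun p h1 h2 => ?_⟩
  rw [if_neg h1, if_neg h2]
  split_ifs <;> norm_num

theorem mar_quad' (q : (Fin m × Fin m) × (Fin n × Fin n)) :
    mar (quad q : Fin m × Fin n → ℤ) = 0 := by
  unfold quad
  rw [map_sub, map_sub, map_add, mar_quad]
  abel

theorem inner {b : Mg m n} {i i' : Fin m} {j j' : Fin n} (hi : i' ≠ i) (hj : j' ≠ j) (k : ℤ) :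
    ∑ X ∈ (Om b).filter (fun X => X (i, j) = k), X (i, j') * X (i', j) ≤
      ∑ Y ∈ (Om b).filter (fun Y => Y (i, j) = k + 1), (Y (i, j') + 1) * (Y (i', j) + 1) := by
  classical
  obtain ⟨q1, q2, q3, q4⟩ := quad_vals hi hj
  set A := (Om b).filter (fun X => X (i, j) = k) with hA
  set B := (Om b).filter (fun Y => Y (i, j) = k + 1) with hB
  set A' := A.filter (fun X => 1 ≤ X (i, j') ∧ 1 ≤ X (i', j)) with hA'
  have hnn : ∀ X ∈ Om b, ∀ p, 0 ≤ X p := fun X hX p => (P328.mem_Om.mp hX).1 p
  have h1 : ∑ X ∈ A, X (i, j') * X (i', j) = ∑ X ∈ A', X (i, j') * X (i', j) := by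
    symm
    refine Finset.sum_subset (Finset.filter_subset _ _) fun X hX hX' => ?_
    have hX0 := (Finset.mem_filter.mp hX).1
    have h2 : ¬ (1 ≤ X (i, j') ∧ 1 ≤ X (i', j)) := fun h => hX' (Finset.mem_filter.mpr ⟨hX, h⟩)
    have h3 := hnn X hX0 (i, j')
    have h4 := hnn X hX0 (i', j)
    by_cases h5 : X (i, j') = 0
    · rw [h5, zero_mul]
    · have h6 : X (i', j) = 0 := by
        by_contra h7
        exact h2 ⟨by omega, by omega⟩
      rw [h6, mul_zero]
  have h2 : ∑ X ∈ A', X (i, j') * X (i', j) =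
      ∑ Y ∈ A'.image (fun X => X + quad ((i, i'), (j, j'))),
        (Y (i, j') + 1) * (Y (i', j) + 1) := by
    rw [Finset.sum_image fun X _ X' _ h => add_right_cancel h]
    refine Finset.sum_congr rfl fun X _ => ?_
    rw [Pi.add_apply, Pi.add_apply, q2, q3]
    ring
  rw [h1, h2]
  refine Finset.sum_le_sum_of_subset_of_nonneg ?_ fun Y hY _ => ?_
  · intro Y hY
    obtain ⟨X, hX, rfl⟩ := Finset.mem_image.mp hY
    rw [hA', hA, Finset.mem_filter, Finset.mem_filter] at hX
    obtain ⟨⟨hX0, hXk⟩, hX1, hX2⟩ := hX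
    rw [hB, Finset.mem_filter, P328.mem_Om]
    refine ⟨⟨fun p => ?_, ?_⟩, ?_⟩
    · change 0 ≤ X p + quad ((i, i'), (j, j')) p
      have h3 := hnn X hX0 p
      by_cases hp1 : p = (i, j')
      · subst hp1
        rw [q2]
        omega
      · by_cases hp2 : p = (i', j)
        · subst hp2
          rw [q3]
          omega
        · have := q4 p hp1 hp2
          omega
    · rw [map_add, mar_quad', add_zero]
      exact (P328.mem_Om.mp hX0).2
    · rw [Pi.add_apply, q1, hXk]
  · have hY0 := (Finset.mem_filter.mp hY).1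
    have h3 := hnn Y hY0 (i, j')
    have h4 := hnn Y hY0 (i', j)
    positivity

end P328.FL

namespace P328

open Finset

variable {m n : ℕ}

theorem flat_step {b : Mg m n} (i : Fin m) (j : Fin n) {k : ℤ} (hk : 0 ≤ k) (hi : k < b.1 i)
    (hj : k < b.2 j) :
    (b.1 i - k) * (b.2 j - k) * ((Om b).filter fun X => X (i, j) = k).card ≤
      (b.1 i - k + n) * (b.2 j - k + m) * ((Om b).filter fun X => X (i, j) = k + 1).card := by
  classical
  have hm : (1 : ℤ) ≤ m := by
    have := i.pos
    omega
  have hn : (1 : ℤ) ≤ n := by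
    have := j.pos
    omega
  have h1 : (b.1 i - k) * (b.2 j - k) * ((Om b).filter fun X => X (i, j) = k).card =
      ∑ i' ∈ univ.erase i, ∑ j' ∈ univ.erase j,
        ∑ X ∈ (Om b).filter (fun X => X (i, j) = k), X (i, j') * X (i', j) := by
    have h2 : ∀ X ∈ (Om b).filter (fun X => X (i, j) = k),
        ∑ i' ∈ univ.erase i, ∑ j' ∈ univ.erase j, X (i, j') * X (i', j) =
          (b.1 i - k) * (b.2 j - k) := by
      intro X hX
      obtain ⟨hX0, hXk⟩ := Finset.mem_filter.mp hX
      rw [← hXk, ← FL.row_erase hX0, ← FL.col_erase hX0, mul_comm, Finset.sum_mul_sum]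
      exact Finset.sum_congr rfl fun i' _ => Finset.sum_congr rfl fun j' _ => mul_comm _ _
    calc (b.1 i - k) * (b.2 j - k) * ((Om b).filter fun X => X (i, j) = k).card =
        ∑ X ∈ (Om b).filter (fun X => X (i, j) = k), (b.1 i - k) * (b.2 j - k) := by
          rw [Finset.sum_const, nsmul_eq_mul]
          ring
      _ = ∑ X ∈ (Om b).filter (fun X => X (i, j) = k),
          ∑ i' ∈ univ.erase i, ∑ j' ∈ univ.erase j, X (i, j') * X (i', j) :=
          (Finset.sum_congr rfl h2).symm
      _ = _ := by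
          rw [Finset.sum_comm]
          exact Finset.sum_congr rfl fun i' _ => Finset.sum_comm
  have h3 : ∑ i' ∈ univ.erase i, ∑ j' ∈ univ.erase j,
      ∑ Y ∈ (Om b).filter (fun Y => Y (i, j) = k + 1), (Y (i, j') + 1) * (Y (i', j) + 1) ≤
      (b.1 i - k + n) * (b.2 j - k + m) * ((Om b).filter fun X => X (i, j) = k + 1).card := by
    have h4 : ∀ Y ∈ (Om b).filter (fun Y => Y (i, j) = k + 1),
        ∑ i' ∈ univ.erase i, ∑ j' ∈ univ.erase j, (Y (i, j') + 1) * (Y (i', j) + 1) ≤
          (b.1 i - k + n) * (b.2 j - k + m) := by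
      intro Y hY
      obtain ⟨hY0, hYk⟩ := Finset.mem_filter.mp hY
      have h5 : ∑ i' ∈ univ.erase i, ∑ j' ∈ univ.erase j, (Y (i, j') + 1) * (Y (i', j) + 1) =
          (∑ i' ∈ univ.erase i, (Y (i', j) + 1)) * ∑ j' ∈ univ.erase j, (Y (i, j') + 1) := by
        rw [Finset.sum_mul_sum]
        exact Finset.sum_congr rfl fun i' _ => Finset.sum_congr rfl fun j' _ => mul_comm _ _
      rw [h5, Finset.sum_add_distrib, Finset.sum_add_distrib, FL.row_erase hY0,
        FL.col_erase hY0, hYk, Finset.sum_const, Finset.sum_const,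
        Finset.card_erase_of_mem (mem_univ _), Finset.card_erase_of_mem (mem_univ _),
        Finset.card_univ, Finset.card_univ, Fintype.card_fin, Fintype.card_fin, nsmul_eq_mul,
        nsmul_eq_mul, mul_one, mul_one, Nat.cast_sub (by omega), Nat.cast_sub (by omega),
        Nat.cast_one, mul_comm]
      exact mul_le_mul (by omega) (by omega) (by omega) (by omega)
    calc ∑ i' ∈ univ.erase i, ∑ j' ∈ univ.erase j,
      ∑ Y ∈ (Om b).filter (fun Y => Y (i, j) = k + 1), (Y (i, j') + 1) * (Y (i', j) + 1) =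
        ∑ Y ∈ (Om b).filter (fun Y => Y (i, j) = k + 1),
          ∑ i' ∈ univ.erase i, ∑ j' ∈ univ.erase j, (Y (i, j') + 1) * (Y (i', j) + 1) := by
          symm
          rw [Finset.sum_comm]
          exact Finset.sum_congr rfl fun i' _ => Finset.sum_comm
      _ ≤ ∑ Y ∈ (Om b).filter (fun Y => Y (i, j) = k + 1),
          (b.1 i - k + n) * (b.2 j - k + m) := Finset.sum_le_sum h4
      _ = _ := by
          rw [Finset.sum_const, nsmul_eq_mul]
          ring
  rw [h1]
  refine le_trans (Finset.sum_le_sum fun i' hi' => Finset.sum_le_sum fun j' hj' => ?_) h3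
  exact FL.inner (Finset.ne_of_mem_erase hi') (Finset.ne_of_mem_erase hj') k

end P328

namespace P328.FL

open Finset

variable {m n : ℕ}

theorem one_step {b : Mg m n} (i : Fin m) (j : Fin n) {t k : ℤ} (ht : 0 < t) (hi : t ≤ b.1 i)
    (hj : t ≤ b.2 j) (hk : 0 ≤ k) (hkt : 2 * k ≤ t) :
    (((Om b).filter fun X => X (i, j) = k).card : ℝ) ≤
      Real.exp (2 * (m + n) / t) * ((Om b).filter fun X => X (i, j) = k + 1).card := by
  have h1 := flat_step (b := b) i j hk (by omega) (by omega)
  have ht0 : (0 : ℝ) < t := by exact_mod_cast ht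
  have h2 : ((b.1 i : ℝ) - k) * (b.2 j - k) * ((Om b).filter fun X => X (i, j) = k).card ≤
      (b.1 i - k + n) * (b.2 j - k + m) * ((Om b).filter fun X => X (i, j) = k + 1).card := by
    exact_mod_cast h1
  have hkt' : 2 * (k : ℝ) ≤ t := by exact_mod_cast hkt
  have hi' : (t : ℝ) ≤ b.1 i := by exact_mod_cast hi
  have hj' : (t : ℝ) ≤ b.2 j := by exact_mod_cast hj
  set x : ℝ := (b.1 i : ℝ) - k with hx
  set y : ℝ := (b.2 j : ℝ) - k with hy
  have hx0 : (t : ℝ) / 2 ≤ x := by linarith
  have hy0 : (t : ℝ) / 2 ≤ y := by linarith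
  have hxp : 0 < x := by linarith
  have hyp : 0 < y := by linarith
  have key : ∀ (z c : ℝ), (t : ℝ) / 2 ≤ z → 0 ≤ c → z + c ≤ z * Real.exp (2 * c / t) := by
    intro z c hz hc
    have h3 := Real.add_one_le_exp (2 * c / (t : ℝ))
    have h4 : (t : ℝ) / 2 * (2 * c / t) ≤ z * (2 * c / t) :=
      mul_le_mul_of_nonneg_right hz (by positivity)
    have h5 : (t : ℝ) / 2 * (2 * c / t) = c := by
      field_simp
    calc z + c ≤ z + z * (2 * c / t) := by linarith
      _ = z * (2 * c / t + 1) := by ring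
      _ ≤ _ := mul_le_mul_of_nonneg_left h3 (by linarith)
  have h3 := key x n hx0 (Nat.cast_nonneg n)
  have h4 := key y m hy0 (Nat.cast_nonneg m)
  have h5 : (x + n) * (y + m) ≤ x * y * Real.exp (2 * (m + n) / t) := by
    have h6 : Real.exp (2 * ((m : ℝ) + n) / t) =
        Real.exp (2 * n / t) * Real.exp (2 * m / t) := by
      rw [← Real.exp_add]
      congr 1
      ring
    rw [h6]
    calc (x + n) * (y + m) ≤ (x * Real.exp (2 * n / t)) * (y * Real.exp (2 * m / t)) :=
          mul_le_mul h3 h4 (by positivity) (by positivity)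
      _ = _ := by ring
  have hc0 : (0 : ℝ) ≤ ((Om b).filter fun X => X (i, j) = k + 1).card := Nat.cast_nonneg _
  have h7 := h2.trans (mul_le_mul_of_nonneg_right h5 hc0)
  have h8 : x * y * (((Om b).filter fun X => X (i, j) = k).card : ℝ) ≤ x * y *
      (Real.exp (2 * (m + n) / t) * ((Om b).filter fun X => X (i, j) = k + 1).card) := by
    linarith
  exact le_of_mul_le_mul_left h8 (mul_pos hxp hyp)

theorem many_steps {b : Mg m n} (i : Fin m) (j : Fin n) {t k : ℤ} (ht : 0 < t) (hi : t ≤ b.1 i)
    (hj : t ≤ b.2 j) (hk : 0 ≤ k) (r : ℕ) (hkt : 2 * (k + r) ≤ t) :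
    (((Om b).filter fun X => X (i, j) = k).card : ℝ) ≤
      Real.exp (2 * (m + n) / t) ^ r * ((Om b).filter fun X => X (i, j) = k + r).card := by
  induction r with
  | zero => simp
  | succ r ih =>
    refine (ih (by push_cast at hkt; linarith)).trans ?_
    rw [pow_succ, mul_assoc]
    have h1 := one_step (b := b) i j ht hi hj (k := k + r) (by omega) (by push_cast at hkt; omega)
    have h2 : k + (r : ℤ) + 1 = k + ((r + 1 : ℕ) : ℤ) := by push_cast; ring
    rw [h2] at h1
    exact mul_le_mul_of_nonneg_left h1 (by positivity)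

end P328.FL

namespace P328

open Finset

variable {m n : ℕ}

theorem flat {b : Mg m n} (i : Fin m) (j : Fin n) {t k : ℤ} (ht : 0 < t) (hi : t ≤ b.1 i)
    (hj : t ≤ b.2 j) (hk : 0 ≤ k) :
    (((Om b).filter fun X => X (i, j) < k).card : ℝ) ≤
      24 * (m + n) * k / t * (Om b).card := by
  classical
  have hm : (1 : ℤ) ≤ m := by
    have := i.pos
    omega
  have hn : (1 : ℤ) ≤ n := by
    have := j.pos
    omega
  have hmR : (1 : ℝ) ≤ m := by exact_mod_cast hm
  have hnR : (1 : ℝ) ≤ n := by exact_mod_cast hn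
  have ht0 : (0 : ℝ) < t := by exact_mod_cast ht
  have hk0 : (0 : ℝ) ≤ k := by exact_mod_cast hk
  have hc0 : (0 : ℝ) ≤ (Om b).card := Nat.cast_nonneg _
  by_cases hbig : t ≤ 24 * (m + n) * k
  · have h1 : (1 : ℝ) ≤ 24 * (m + n) * k / t := by
      rw [le_div_iff₀ ht0, one_mul]
      exact_mod_cast hbig
    have h2 : (((Om b).filter fun X => X (i, j) < k).card : ℝ) ≤ (Om b).card := by
      exact_mod_cast Finset.card_filter_le _ _
    exact h2.trans (le_mul_of_one_le_left hc0 h1)
  · have hsmall : 24 * (m + n) * k < t := not_le.mp hbig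
    by_cases hkz : k = 0
    · subst hkz
      have h1 : (Om b).filter (fun X => X (i, j) < 0) = ∅ := by
        refine Finset.filter_eq_empty_iff.mpr fun X hX => ?_
        have : 0 ≤ X (i, j) := (mem_Om.mp hX).1 (i, j)
        omega
      rw [h1]
      simp
    · have hk1 : 1 ≤ k := by omega
      set H : ℤ := t / (4 * (m + n)) with hH
      have hs : (0 : ℤ) < 4 * (m + n) := by positivity
      have hH1 : H * (4 * (m + n)) ≤ t := Int.ediv_mul_le t hs.ne'
      have hH2 : t < (H + 1) * (4 * (m + n)) := Int.lt_ediv_add_one_mul_self t hs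
      have hH3 : 1 ≤ H := by
        rw [hH, Int.le_ediv_iff_mul_le hs]
        nlinarith
      have hH4 : t ≤ H * (8 * (m + n)) := by nlinarith
      have hkH : 2 * (k + H) ≤ t := by nlinarith
      have hstep : ∀ κ ∈ Ico 0 k, ∀ v ∈ Ioc κ (κ + H),
          (((Om b).filter fun X => X (i, j) = κ).card : ℝ) ≤
            3 * ((Om b).filter fun X => X (i, j) = v).card := by
        intro κ hκ v hv
        rw [Finset.mem_Ico] at hκ
        rw [Finset.mem_Ioc] at hv
        obtain ⟨r, hr⟩ : ∃ r : ℕ, v = κ + r := ⟨(v - κ).toNat, by omega⟩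
        have hrH : (r : ℤ) ≤ H := by omega
        have h1 := FL.many_steps (b := b) i j ht hi hj hκ.1 r (by omega)
        rw [← hr] at h1
        refine h1.trans (mul_le_mul_of_nonneg_right ?_ (Nat.cast_nonneg _))
        rw [← Real.exp_nat_mul]
        have h2 : (r : ℝ) * (2 * (m + n) / t) ≤ 1 := by
          rw [← mul_div_assoc, div_le_one ht0]
          have h3 : (r : ℝ) ≤ H := by exact_mod_cast hrH
          have h4 : (H : ℝ) * (4 * (m + n)) ≤ t := by exact_mod_cast hH1
          have h5 : (r : ℝ) * (2 * (m + n)) ≤ H * (2 * (m + n)) :=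
            mul_le_mul_of_nonneg_right h3 (by positivity)
          nlinarith
        calc Real.exp ((r : ℝ) * (2 * (m + n) / t)) ≤ Real.exp 1 := Real.exp_le_exp.mpr h2
          _ ≤ 3 := by
            have := Real.exp_one_lt_d9
            linarith
      have hdisj : ∀ κ : ℤ, ∑ v ∈ Ioc κ (κ + H),
          (((Om b).filter fun X => X (i, j) = v).card : ℝ) ≤ (Om b).card := by
        intro κ
        have h1 := Finset.card_eq_sum_card_fiberwise (f := fun X : Tb m n => X (i, j))
          (s := (Om b).filter fun X => X (i, j) ∈ Ioc κ (κ + H)) (t := Ioc κ (κ + H))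
          (fun X hX => (Finset.mem_filter.mp hX).2)
        have h2 : ∀ v ∈ Ioc κ (κ + H),
            (((Om b).filter fun X => X (i, j) ∈ Ioc κ (κ + H)).filter
              fun X => X (i, j) = v).card = ((Om b).filter fun X => X (i, j) = v).card := by
          intro v hv
          congr 1
          ext X
          simp only [Finset.mem_filter]
          constructor
          · exact fun h => ⟨h.1.1, h.2⟩
          · exact fun h => ⟨⟨h.1, h.2 ▸ hv⟩, h.2⟩
        rw [Finset.sum_congr rfl h2] at h1
        have h3 := Finset.card_filter_le (Om b) fun X => X (i, j) ∈ Ioc κ (κ + H)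
        rw [h1] at h3
        exact_mod_cast h3
      have hone : ∀ κ ∈ Ico 0 k, (((Om b).filter fun X => X (i, j) = κ).card : ℝ) ≤
          24 * (m + n) / t * (Om b).card := by
        intro κ hκ
        have h1 : ∑ v ∈ Ioc κ (κ + H), (((Om b).filter fun X => X (i, j) = κ).card : ℝ) ≤
            ∑ v ∈ Ioc κ (κ + H), 3 * (((Om b).filter fun X => X (i, j) = v).card : ℝ) :=
          Finset.sum_le_sum (hstep κ hκ)
        rw [Finset.sum_const, Int.card_Ioc, nsmul_eq_mul, ← Finset.mul_sum] at h1
        have h2 : (((κ + H - κ).toNat : ℕ) : ℝ) = H := by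
          have h3 : ((κ + H - κ).toNat : ℤ) = H := by omega
          exact_mod_cast h3
        rw [h2] at h1
        have h3 : (H : ℝ) * ((Om b).filter fun X => X (i, j) = κ).card ≤ 3 * (Om b).card :=
          h1.trans (mul_le_mul_of_nonneg_left (hdisj κ) (by norm_num))
        have h4 : (t : ℝ) ≤ H * (8 * (m + n)) := by exact_mod_cast hH4
        have h5 : (0 : ℝ) ≤ ((Om b).filter fun X => X (i, j) = κ).card := Nat.cast_nonneg _
        rw [div_mul_eq_mul_div, le_div_iff₀ ht0]
        calc (((Om b).filter fun X => X (i, j) = κ).card : ℝ) * t ≤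
              ((Om b).filter fun X => X (i, j) = κ).card * (H * (8 * (m + n))) :=
              mul_le_mul_of_nonneg_left h4 h5
          _ = (8 * (m + n)) * (H * ((Om b).filter fun X => X (i, j) = κ).card) := by ring
          _ ≤ (8 * (m + n)) * (3 * (Om b).card) :=
              mul_le_mul_of_nonneg_left h3 (by positivity)
          _ = _ := by ring
      have hall := Finset.card_eq_sum_card_fiberwise (f := fun X : Tb m n => X (i, j))
        (s := (Om b).filter fun X => X (i, j) < k) (t := Ico 0 k) (fun X hX => by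
          obtain ⟨h1, h2⟩ := Finset.mem_filter.mp hX
          have h3 : 0 ≤ X (i, j) := (mem_Om.mp h1).1 (i, j)
          exact Finset.mem_coe.mpr (Finset.mem_Ico.mpr ⟨h3, h2⟩))
      have hall' : (((Om b).filter fun X => X (i, j) < k).card : ℝ) =
          ∑ κ ∈ Ico 0 k, ((((Om b).filter fun X => X (i, j) < k).filter
            fun X => X (i, j) = κ).card : ℝ) := by
        exact_mod_cast hall
      rw [hall']
      calc ∑ κ ∈ Ico 0 k, ((((Om b).filter fun X => X (i, j) < k).filter
            fun X => X (i, j) = κ).card : ℝ) ≤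
            ∑ κ ∈ Ico 0 k, 24 * (m + n) / t * ((Om b).card : ℝ) := by
            refine Finset.sum_le_sum fun κ hκ => le_trans ?_ (hone κ hκ)
            have := Finset.card_le_card (Finset.filter_subset_filter
              (fun X : Tb m n => X (i, j) = κ) (Finset.filter_subset
              (fun X : Tb m n => X (i, j) < k) (Om b)))
            exact_mod_cast this
        _ = _ := by
            rw [Finset.sum_const, Int.card_Ico, nsmul_eq_mul]
            have h2 : (((k - 0).toNat : ℕ) : ℝ) = k := by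
              have h3 : ((k - 0).toNat : ℤ) = k := by omega
              exact_mod_cast h3
            rw [h2]
            ring

end P328
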