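import Vale.Agent.P328.Om
import Vale.Agent.P328.Cov
import Vale.Agent.P328.Flat

/-!
# P328 : adding many units to a big cell does not change the law of the small cells
-/

namespace P328

open Finset

variable {m n : ℕ}

namespace HopAux

/-- truncation of `x` to `[0, q]` -/
def cl (q x : ℤ) : ℤ := min (max x 0) q

theorem cl_lip {q : ℤ} (hq : 0 ≤ q) (x y : ℤ) : |cl q x - cl q y| ≤ |x - y| := by
  unfold cl
  rw [abs_le]
  rcases le_total 0 (x - y) with h | h
  · rw [abs_of_nonneg h]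
    constructor <;> simp only [min_def, max_def] <;> split_ifs <;> omega
  · rw [abs_of_nonpos h]
    constructor <;> simp only [min_def, max_def] <;> split_ifs <;> omega

theorem cl_nonneg {q : ℤ} (hq : 0 ≤ q) (x : ℤ) : 0 ≤ cl q x := by
  unfold cl
  exact le_min (le_max_right _ _) hq

theorem cl_of_ge {q : ℤ} (hq : 0 ≤ q) {x : ℤ} (hx : q ≤ x) : cl q x = q := by
  unfold cl
  rw [max_eq_left (hq.trans hx), min_eq_right hx]

theorem cl_of_nonpos {q : ℤ} (hq : 0 ≤ q) {x : ℤ} (hx : x ≤ 0) : cl q x = 0 := by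
  unfold cl
  rw [max_eq_right hx, min_eq_left hq]

/-- comparison of the mean of `g` with a weighted mean -/
theorem weighted {b : Mg m n} (hb : Ok b) (i : Fin m) (j : Fin n) (A : Finset (Fin m × Fin n))
    {K : ℝ} (hK : ∀ X ∈ Om b, ∀ Y ∈ Om b, ∀ p ∈ A, |((X p - Y p : ℤ) : ℝ)| ≤ K)
    (g : Tb m n → ℝ) (hg : ∀ X, |g X| ≤ 1) (hgA : ∀ X Y, (∀ p ∈ A, X p = Y p) → g X = g Y)
    {q a : ℤ} (hq : 0 < q)
    (hZ : ((Om b).card : ℝ) / 2 ≤ ∑ X ∈ Om b, (cl q (X (i, j) - a) : ℝ) / q) :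
    |(∑ X ∈ Om b, (cl q (X (i, j) - a) : ℝ) / q * g X) /
      (∑ X ∈ Om b, (cl q (X (i, j) - a) : ℝ) / q) - Ex b g| ≤ 2 * (m * n) * K ^ 2 / q := by
  have hq' : (0 : ℝ) < q := by exact_mod_cast hq
  have hs : (0 : ℝ) < (Om b).card := by exact_mod_cast (Om_nonempty hb).card_pos
  have h1 := cov_le (M := mar) (lo := 0) (hi := fun _ => tot b) (rounding b) A
    (fun X => (cl q (X (i, j) - a) : ℝ) / q) g (i, j) (l := 1 / q) (K := K) (by positivity)
    (by
      intro x y
      have h2 := cl_lip hq.le (x (i, j) - a) (y (i, j) - a)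
      have h3 : x (i, j) - a - (y (i, j) - a) = x (i, j) - y (i, j) := by ring
      rw [h3] at h2
      have h4 : |((cl q (x (i, j) - a) - cl q (y (i, j) - a) : ℤ) : ℝ)| ≤
          |((x (i, j) - y (i, j) : ℤ) : ℝ)| := by
        rw [← Int.cast_abs, ← Int.cast_abs]
        exact_mod_cast h2
      have h5 : (cl q (x (i, j) - a) : ℝ) / q - (cl q (y (i, j) - a) : ℝ) / q =
          ((cl q (x (i, j) - a) - cl q (y (i, j) - a) : ℤ) : ℝ) / q := by
        push_cast
        ring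
      rw [h5, abs_div, abs_of_pos hq', one_div, div_eq_inv_mul]
      gcongr) hg hgA hK
  change |cs mar b (fun X => (cl q (X (i, j) - a) : ℝ) / q) g 0 (fun _ => tot b)| ≤
    2 * (1 / q) * A.card * K ^ 2 * ((Om b).card : ℝ) ^ 2 at h1
  rw [cs_eq] at h1
  change |2 * ((Om b).card : ℝ) * ∑ X ∈ Om b, (cl q (X (i, j) - a) : ℝ) / q * g X -
    2 * (∑ X ∈ Om b, (cl q (X (i, j) - a) : ℝ) / q) * ∑ X ∈ Om b, g X| ≤ _ at h1
  set V := ∑ X ∈ Om b, (cl q (X (i, j) - a) : ℝ) / q * g X with hV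
  set Z := ∑ X ∈ Om b, (cl q (X (i, j) - a) : ℝ) / q with hZdef
  set s := ((Om b).card : ℝ) with hsdef
  have hZpos : 0 < Z := by linarith
  have hA : (A.card : ℝ) ≤ m * n := by
    have h6 : A.card ≤ m * n := by
      calc A.card ≤ (univ : Finset (Fin m × Fin n)).card := Finset.card_le_card (subset_univ A)
        _ = m * n := by simp
    exact_mod_cast h6
  unfold Ex
  rw [← hsdef]
  have h7 : V / Z - (∑ X ∈ Om b, g X) / s = (2 * s * V - 2 * Z * ∑ X ∈ Om b, g X) / (2 * s * Z) := by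
    field_simp
  rw [h7, abs_div, abs_of_pos (show 0 < 2 * s * Z by positivity), div_le_div_iff₀ (by positivity) hq']
  have h8 : |2 * s * V - 2 * Z * ∑ X ∈ Om b, g X| * q ≤ 2 * (m * n) * K ^ 2 * s ^ 2 := by
    calc |2 * s * V - 2 * Z * ∑ X ∈ Om b, g X| * q
        ≤ (2 * (1 / q) * A.card * K ^ 2 * s ^ 2) * q := by gcongr
      _ = 2 * A.card * K ^ 2 * s ^ 2 := by field_simp
      _ ≤ 2 * (m * n) * K ^ 2 * s ^ 2 := by gcongr
  refine h8.trans ?_
  have h9 : 0 ≤ 2 * ((m : ℝ) * n) * K ^ 2 := by positivity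
  have h10 : s ^ 2 ≤ 2 * s * Z := by nlinarith
  nlinarith

/-- most tables have many units in a big cell -/
theorem half_le {b : Mg m n} (i : Fin m) (j : Fin n) {t q a : ℤ} (hi : t ≤ b.1 i)
    (hj : t ≤ b.2 j) (hq : 0 < q) (ha : 0 ≤ a) (haq : a ≤ q)
    (hqt : 96 * (m + n) * q ≤ t) (ht : 0 < t) :
    ((Om b).card : ℝ) / 2 ≤ ∑ X ∈ Om b, (cl q (X (i, j) - a) : ℝ) / q := by
  have hq' : (0 : ℝ) < q := by exact_mod_cast hq
  have ht' : (0 : ℝ) < t := by exact_mod_cast ht
  have h1 := flat (b := b) i j ht hi hj (k := a + q) (by omega)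
  have h2 : (((Om b).filter fun X => X (i, j) < a + q).card : ℝ) ≤ (Om b).card / 2 := by
    refine h1.trans ?_
    have h3 : 24 * ((m : ℝ) + n) * ((a + q : ℤ) : ℝ) / t ≤ 1 / 2 := by
      rw [div_le_iff₀ ht']
      have h4 : ((a + q : ℤ) : ℝ) ≤ 2 * q := by
        have : a + q ≤ 2 * q := by omega
        exact_mod_cast this
      have h5 : 96 * ((m : ℝ) + n) * q ≤ t := by exact_mod_cast hqt
      have h6 : (0 : ℝ) ≤ (m : ℝ) + n := by positivity
      nlinarith
    have h7 : (0 : ℝ) ≤ (Om b).card := by positivity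
    nlinarith
  have h8 : (((Om b).filter fun X => ¬ X (i, j) < a + q).card : ℝ) ≤
      ∑ X ∈ Om b, (cl q (X (i, j) - a) : ℝ) / q := by
    rw [Finset.card_eq_sum_ones, Nat.cast_sum, Finset.sum_filter]
    apply Finset.sum_le_sum
    intro X _
    by_cases h9 : X (i, j) < a + q
    · rw [if_neg (not_not.mpr h9)]
      have := cl_nonneg hq.le (X (i, j) - a)
      have : (0 : ℝ) ≤ cl q (X (i, j) - a) := by exact_mod_cast this
      positivity
    · rw [if_pos h9]
      have : (cl q (X (i, j) - a) : ℝ) = q := by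
        rw [cl_of_ge hq.le (by omega)]
      rw [this, div_self hq'.ne']
      simp
  have h10 := Finset.card_filter_add_card_filter_not (s := Om b) (fun X => X (i, j) < a + q)
  have h11 : (((Om b).filter fun X => X (i, j) < a + q).card : ℝ) +
      (((Om b).filter fun X => ¬ X (i, j) < a + q).card : ℝ) = (Om b).card := by
    exact_mod_cast h10
  linarith

end HopAux

open HopAux in
theorem hop {b : Mg m n} (hb : Ok b) (i : Fin m) (j : Fin n) (A : Finset (Fin m × Fin n))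
    (hA : (i, j) ∉ A) {K : ℝ}
    (hK : ∀ p ∈ A, ((b.1 p.1 : ℝ) ≤ K ∧ p.1 ≠ i) ∨ ((b.2 p.2 : ℝ) ≤ K ∧ p.2 ≠ j))
    (g : Tb m n → ℝ) (hg : ∀ X, |g X| ≤ 1) (hgA : ∀ X Y, (∀ p ∈ A, X p = Y p) → g X = g Y)
    {t h q : ℤ} (hh : 0 ≤ h) (hhq : h ≤ q) (hq : 0 < q) (hi : t ≤ b.1 i) (hj : t ≤ b.2 j)
    (hqt : 96 * (m + n) * q ≤ t) :
    |Ex (b + h • mar (one i j)) g - Ex b g| ≤ 4 * (m * n) * K ^ 2 / q := by
  have hm : 1 ≤ m := Fin.pos i
  have ht : 0 < t := by
    have h1 : (1 : ℤ) ≤ m := by exact_mod_cast hm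
    have h2 : (0 : ℤ) ≤ n := by positivity
    have h3 : 0 < 96 * ((m : ℤ) + n) * q := by positivity
    omega
  set b' := b + h • mar (one i j) with hb'
  -- margins of `b'`
  have hb1 : ∀ k, b'.1 k = b.1 k + if k = i then h else 0 := by
    intro k
    change b.1 k + h • (mar (one i j)).1 k = _
    rw [mar_one_fst]
    split_ifs <;> simp
  have hb2 : ∀ k, b'.2 k = b.2 k + if k = j then h else 0 := by
    intro k
    change b.2 k + h • (mar (one i j)).2 k = _
    rw [mar_one_snd]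
    split_ifs <;> simp
  have hok' : Ok b' := by
    refine ⟨fun k => ?_, fun k => ?_, ?_⟩
    · rw [hb1]
      have := hb.1 k
      split_ifs <;> omega
    · rw [hb2]
      have := hb.2.1 k
      split_ifs <;> omega
    · simp only [hb1, hb2, Finset.sum_add_distrib, Finset.sum_ite_eq', mem_univ, if_true]
      rw [hb.2.2]
  -- entries in `A`
  have hKb : ∀ c : Mg m n, (∀ k, k ≠ i → c.1 k = b.1 k) → (∀ k, k ≠ j → c.2 k = b.2 k) →
      ∀ X ∈ Om c, ∀ Y ∈ Om c, ∀ p ∈ A, |((X p - Y p : ℤ) : ℝ)| ≤ K := by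
    intro c hc1 hc2 X hX Y hY p hp
    have hX0 : 0 ≤ X p := (mem_Om.mp hX).1 p
    have hY0 : 0 ≤ Y p := (mem_Om.mp hY).1 p
    have hX1 := le_row hX p
    have hY1 := le_row hY p
    have hX0' : (0 : ℝ) ≤ X p := by exact_mod_cast hX0
    have hY0' : (0 : ℝ) ≤ Y p := by exact_mod_cast hY0
    push_cast
    rcases hK p hp with ⟨h1, h2⟩ | ⟨h1, h2⟩
    · rw [hc1 _ h2] at hX1 hY1
      have a1 : (X p : ℝ) ≤ b.1 p.1 := by exact_mod_cast hX1.1
      have a2 : (Y p : ℝ) ≤ b.1 p.1 := by exact_mod_cast hY1.1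
      rw [abs_le]
      constructor <;> linarith
    · rw [hc2 _ h2] at hX1 hY1
      have a1 : (X p : ℝ) ≤ b.2 p.2 := by exact_mod_cast hX1.2
      have a2 : (Y p : ℝ) ≤ b.2 p.2 := by exact_mod_cast hY1.2
      rw [abs_le]
      constructor <;> linarith
  -- shift
  have hshift : ∀ F : Tb m n → ℝ, (∀ X, F (X + h • one i j) = F X) →
      ∑ X ∈ Om b', (cl q (X (i, j) - h) : ℝ) / q * F X =
        ∑ X ∈ Om b, (cl q (X (i, j) - 0) : ℝ) / q * F X := by
    intro F hF
    have e1 := sum_shift (b := b) hh i j (fun X => (cl q (X (i, j) - h) : ℝ) / q * F X)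
    rw [← hb'] at e1
    have e2 : ∑ X ∈ (Om b').filter (fun X => h ≤ X (i, j)),
        (cl q (X (i, j) - h) : ℝ) / q * F X =
        ∑ X ∈ Om b', (cl q (X (i, j) - h) : ℝ) / q * F X := by
      apply Finset.sum_subset (Finset.filter_subset _ _)
      intro X hX hX'
      rw [mem_filter, not_and] at hX'
      have h3 := hX' hX
      rw [cl_of_nonpos hq.le (by omega)]
      simp
    rw [← e2, ← e1]
    apply Finset.sum_congr rfl
    intro X _
    have e3 : (X + h • one i j) (i, j) - h = X (i, j) - 0 := by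
      have : (h • one i j : Tb m n) (i, j) = h := by simp [one_apply]
      change X (i, j) + (h • one i j : Tb m n) (i, j) - h = _
      rw [this]
      ring
    rw [e3, hF]
  have hginv : ∀ X, g (X + h • one i j) = g X := by
    intro X
    apply hgA
    intro p hp
    have hpij : p ≠ (i, j) := fun hh => hA (hh ▸ hp)
    have : (h • one i j : Tb m n) p = 0 := by
      have : (one i j : Tb m n) p = 0 := by
        rw [one_apply]
        exact if_neg hpij
      simp [this]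
    change X p + (h • one i j : Tb m n) p = X p
    rw [this, add_zero]
  have hVV := hshift g hginv
  have hZZ := hshift (fun _ => 1) (fun _ => rfl)
  simp only [mul_one] at hZZ
  have w1 := weighted hok' i j A (hKb b' (fun k hk => by rw [hb1, if_neg hk, add_zero])
    (fun k hk => by rw [hb2, if_neg hk, add_zero])) g hg hgA hq
    (half_le i j (t := t) (by rw [hb1, if_pos rfl]; omega) (by rw [hb2, if_pos rfl]; omega)
      hq hh hhq hqt ht)
  have w2 := weighted hb i j A (hKb b (fun k _ => rfl) (fun k _ => rfl)) g hg hgA hq (a := 0)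
    (half_le i j hi hj hq le_rfl hq.le hqt ht)
  rw [hVV, hZZ] at w1
  rw [abs_le] at w1 w2 ⊢
  have e : 4 * ((m : ℝ) * n) * K ^ 2 / q = 2 * (m * n) * K ^ 2 / q + 2 * (m * n) * K ^ 2 / q := by
    ring
  rw [e]
  constructor <;> linarith [w1.1, w1.2, w2.1, w2.2]

end P328
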