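import Vale.Agent.P328.Kappa
import Vale.Agent.P328.Hop

/-!
# P328 : cutting down the large margins
-/

namespace P328

open Finset

variable {m n : ℕ}

namespace CapAux

theorem smul_mar_fst (c : ℤ) (i : Fin m) (j : Fin n) (k : Fin m) :
    (c • mar (one i j)).1 k = if k = i then c else 0 := by
  rw [Prod.smul_fst, Pi.smul_apply, mar_one_fst, smul_eq_mul]
  split_ifs <;> simp

theorem smul_mar_snd (c : ℤ) (i : Fin m) (j : Fin n) (k : Fin n) :
    (c • mar (one i j)).2 k = if k = j then c else 0 := by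
  rw [Prod.smul_snd, Pi.smul_apply, mar_one_snd, smul_eq_mul]
  split_ifs <;> simp

theorem sub_fst (b : Mg m n) (c : ℤ) (i : Fin m) (j : Fin n) (k : Fin m) :
    (b - c • mar (one i j)).1 k = if k = i then b.1 k - c else b.1 k := by
  rw [Prod.fst_sub, Pi.sub_apply, smul_mar_fst]
  split_ifs <;> simp

theorem sub_snd (b : Mg m n) (c : ℤ) (i : Fin m) (j : Fin n) (k : Fin n) :
    (b - c • mar (one i j)).2 k = if k = j then b.2 k - c else b.2 k := by
  rw [Prod.snd_sub, Pi.sub_apply, smul_mar_snd]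
  split_ifs <;> simp

theorem add_fst (b : Mg m n) (c : ℤ) (i : Fin m) (j : Fin n) (k : Fin m) :
    (b + c • mar (one i j)).1 k = if k = i then b.1 k + c else b.1 k := by
  rw [Prod.fst_add, Pi.add_apply, smul_mar_fst]
  split_ifs <;> simp

theorem add_snd (b : Mg m n) (c : ℤ) (i : Fin m) (j : Fin n) (k : Fin n) :
    (b + c • mar (one i j)).2 k = if k = j then b.2 k + c else b.2 k := by
  rw [Prod.snd_add, Pi.add_apply, smul_mar_snd]
  split_ifs <;> simp

theorem sum_smul_fst (c : ℤ) (i : Fin m) (j : Fin n) :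
    ∑ k, (c • mar (one i j)).1 k = c := by
  simp_rw [smul_mar_fst]
  simp

theorem sum_smul_snd (c : ℤ) (i : Fin m) (j : Fin n) :
    ∑ k, (c • mar (one i j)).2 k = c := by
  simp_rw [smul_mar_snd]
  simp

theorem ok_sub {b : Mg m n} (hb : Ok b) {c : ℤ} {i : Fin m} {j : Fin n} (h1 : c ≤ b.1 i)
    (h2 : c ≤ b.2 j) : Ok (b - c • mar (one i j)) := by
  refine ⟨fun k => ?_, fun k => ?_, ?_⟩
  · rw [sub_fst]
    split_ifs with h
    · subst h; omega
    · exact hb.1 k
  · rw [sub_snd]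
    split_ifs with h
    · subst h; omega
    · exact hb.2.1 k
  · simp only [Prod.fst_sub, Prod.snd_sub, Pi.sub_apply, Finset.sum_sub_distrib,
      sum_smul_fst, sum_smul_snd, hb.2.2]

theorem ok_add {b : Mg m n} (hb : Ok b) {c : ℤ} (hc : 0 ≤ c) (i : Fin m) (j : Fin n) :
    Ok (b + c • mar (one i j)) := by
  refine ⟨fun k => ?_, fun k => ?_, ?_⟩
  · rw [add_fst]
    have := hb.1 k
    split_ifs <;> omega
  · rw [add_snd]
    have := hb.2.1 k
    split_ifs <;> omega
  · simp only [Prod.fst_add, Prod.snd_add, Pi.add_apply, Finset.sum_add_distrib,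
      sum_smul_fst, sum_smul_snd, hb.2.2]

/-- the relation kept by the steps -/
structure Rel (K2 : ℤ) (b b' : Mg m n) : Prop where
  le1 : ∀ i, b'.1 i ≤ b.1 i
  le2 : ∀ j, b'.2 j ≤ b.2 j
  sm1 : ∀ i, b.1 i ≤ K2 → b'.1 i = b.1 i
  sm2 : ∀ j, b.2 j ≤ K2 → b'.2 j = b.2 j
  bg1 : ∀ i, K2 ≤ b.1 i → K2 ≤ b'.1 i
  bg2 : ∀ j, K2 ≤ b.2 j → K2 ≤ b'.2 j

theorem Rel.refl (K2 : ℤ) (b : Mg m n) : Rel K2 b b :=
  ⟨fun _ => le_rfl, fun _ => le_rfl, fun _ _ => rfl, fun _ _ => rfl, fun _ h => h, fun _ h => h⟩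

theorem Rel.trans {K2 : ℤ} {b b' b'' : Mg m n} (h : Rel K2 b b') (h' : Rel K2 b' b'') :
    Rel K2 b b'' :=
  ⟨fun i => (h'.le1 i).trans (h.le1 i), fun i => (h'.le2 i).trans (h.le2 i),
    fun i hi => by rw [h'.sm1 i ((h.sm1 i hi).le.trans hi), h.sm1 i hi],
    fun i hi => by rw [h'.sm2 i ((h.sm2 i hi).le.trans hi), h.sm2 i hi],
    fun i hi => h'.bg1 i (h.bg1 i hi), fun i hi => h'.bg2 i (h.bg2 i hi)⟩

theorem rel_capStep (K2 : ℤ) (b : Mg m n) (p : Fin m × Fin n) : Rel K2 b (capStep K2 b p) := by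
  unfold capStep
  split_ifs with h
  · refine ⟨fun i => ?_, fun i => ?_, fun i hi => ?_, fun i hi => ?_, fun i hi => ?_,
      fun i hi => ?_⟩
    · rw [sub_fst]; split_ifs <;> omega
    · rw [sub_snd]; split_ifs <;> omega
    · rw [sub_fst]; split_ifs with h1
      · subst h1; omega
      · rfl
    · rw [sub_snd]; split_ifs with h1
      · subst h1; omega
      · rfl
    · rw [sub_fst]; split_ifs with h1
      · subst h1; omega
      · exact hi
    · rw [sub_snd]; split_ifs with h1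
      · subst h1; omega
      · exact hi
  · exact Rel.refl K2 b

theorem ok_capStep {b : Mg m n} (hb : Ok b) {K2 : ℤ} (hK2 : 0 ≤ K2) (p : Fin m × Fin n) :
    Ok (capStep K2 b p) := by
  unfold capStep
  split_ifs with h
  · exact ok_sub hb (by omega) (by omega)
  · exact hb

theorem min_capStep (K2 : ℤ) (b : Mg m n) (p : Fin m × Fin n) :
    (capStep K2 b p).1 p.1 ≤ K2 ∨ (capStep K2 b p).2 p.2 ≤ K2 := by
  unfold capStep
  split_ifs with h
  · rw [sub_fst, sub_snd, if_pos rfl, if_pos rfl]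
    omega
  · omega

theorem rel_foldl (K2 : ℤ) (l : List (Fin m × Fin n)) :
    ∀ b : Mg m n, Rel K2 b (l.foldl (capStep K2) b) := by
  induction l with
  | nil => exact fun b => Rel.refl K2 b
  | cons p l ih =>
    intro b
    rw [List.foldl_cons]
    exact (rel_capStep K2 b p).trans (ih _)

theorem ok_foldl {K2 : ℤ} (hK2 : 0 ≤ K2) (l : List (Fin m × Fin n)) :
    ∀ b : Mg m n, Ok b → Ok (l.foldl (capStep K2) b) := by
  induction l with
  | nil => exact fun b hb => hb
  | cons p l ih =>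
    intro b hb
    rw [List.foldl_cons]
    exact ih _ (ok_capStep hb hK2 p)

theorem min_foldl (K2 : ℤ) (l : List (Fin m × Fin n)) :
    ∀ b : Mg m n, ∀ p ∈ l, (l.foldl (capStep K2) b).1 p.1 ≤ K2 ∨
      (l.foldl (capStep K2) b).2 p.2 ≤ K2 := by
  induction l with
  | nil => intro b p hp; simp at hp
  | cons p l ih =>
    intro b p' hp'
    rw [List.foldl_cons]
    rcases List.mem_cons.1 hp' with h | h
    · subst h
      have h1 := min_capStep K2 b p'
      have h2 := rel_foldl K2 l (capStep K2 b p')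
      rcases h1 with h1 | h1
      · exact Or.inl ((h2.le1 _).trans h1)
      · exact Or.inr ((h2.le2 _).trans h1)
    · exact ih _ p' h

/-- the cost of removing `D` units from a large row and a large column -/
theorem long_hop (i : Fin m) (j : Fin n) (A : Finset (Fin m × Fin n))
    (hA : (i, j) ∉ A) {K : ℝ} (g : Tb m n → ℝ) (hg : ∀ X, |g X| ≤ 1)
    (hgA : ∀ X Y, (∀ p ∈ A, X p = Y p) → g X = g Y) (D : ℕ) :
    ∀ (b : Mg m n) (t : ℤ), Ok b →
      (∀ p ∈ A, ((b.1 p.1 : ℝ) ≤ K ∧ p.1 ≠ i) ∨ ((b.2 p.2 : ℝ) ≤ K ∧ p.2 ≠ j)) →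
      t ≤ b.1 i → t ≤ b.2 j → 200 * (m + n) ≤ t →
      |Ex (b + (D : ℤ) • mar (one i j)) g - Ex b g| ≤
        10 ^ 6 * ((m * n) * (m + n) ^ 2) * K ^ 2 / t := by
  induction D using Nat.strong_induction_on with
  | _ D ih =>
    intro b t hb hK h1 h2 h3
    have hm : 1 ≤ m := by have := i.2; omega
    have hn : 1 ≤ n := by have := j.2; omega
    have hm' : (1 : ℝ) ≤ m := by exact_mod_cast hm
    have hn' : (1 : ℝ) ≤ n := by exact_mod_cast hn
    have hmn0 : (0 : ℤ) < 96 * (m + n) := by positivity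
    have ht0 : (0 : ℤ) < t := by
      have : (0 : ℤ) < 200 * (m + n) := by positivity
      omega
    have ht0' : (0 : ℝ) < t := by exact_mod_cast ht0
    obtain ⟨q, hqdef⟩ : ∃ q, q = t / (96 * (m + n)) := ⟨_, rfl⟩
    have hq1 : 96 * (m + n) * q ≤ t := by
      rw [hqdef]
      exact Int.mul_ediv_self_le hmn0.ne'
    have hq2 : t < 96 * (m + n) * q + 96 * (m + n) := by
      rw [hqdef]
      exact Int.lt_mul_ediv_self_add hmn0
    have hq3 : 2 ≤ q := by
      rw [hqdef, Int.le_ediv_iff_mul_le hmn0]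
      omega
    have hq0 : 0 < q := by omega
    have hq0' : (0 : ℝ) < q := by exact_mod_cast hq0
    -- `q ≥ t / (192 (m + n))`
    have hq4 : (t : ℝ) ≤ 192 * (m + n) * q := by
      have h4 : (t : ℝ) < 96 * (m + n) * q + 96 * (m + n) := by exact_mod_cast hq2
      have h5 : (2 : ℝ) ≤ q := by exact_mod_cast hq3
      nlinarith
    -- the cost of one hop
    have hcost : 4 * (m * n) * K ^ 2 / q ≤ 768 * ((m * n) * (m + n)) * K ^ 2 / t := by
      rw [div_le_div_iff₀ hq0' ht0']
      have h5 : 0 ≤ (m : ℝ) * n * K ^ 2 := by positivity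
      nlinarith [mul_le_mul_of_nonneg_left hq4 h5]
    rcases Nat.lt_or_ge q.toNat D with hD | hD
    · -- a full hop
      have hqn : ((q.toNat : ℕ) : ℤ) = q := Int.toNat_of_nonneg hq0.le
      have hstep := hop hb i j A hA hK g hg hgA hq0.le le_rfl hq0 h1 h2 hq1
      have hD' : D - q.toNat < D := by omega
      have key := ih (D - q.toNat) hD' (b + q • mar (one i j)) (t + q) (ok_add hb hq0.le i j) ?_
        ?_ ?_ ?_
      · have e : b + q • mar (one i j) + ((D - q.toNat : ℕ) : ℤ) • mar (one i j) =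
            b + (D : ℤ) • mar (one i j) := by
          rw [add_assoc, ← add_smul]
          congr 2
          omega
        rw [e] at key
        have htri := abs_sub_le (Ex (b + (D : ℤ) • mar (one i j)) g)
          (Ex (b + q • mar (one i j)) g) (Ex b g)
        have hfin : 768 * ((m * n) * (m + n)) * K ^ 2 / t +
            10 ^ 6 * ((m * n) * (m + n) ^ 2) * K ^ 2 / ((t + q : ℤ) : ℝ) ≤
            10 ^ 6 * ((m * n) * (m + n) ^ 2) * K ^ 2 / t := by
          push_cast
          have htq : (0 : ℝ) < t + q := by positivity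
          rw [div_add_div _ _ ht0'.ne' htq.ne', div_le_div_iff₀ (by positivity) ht0']
          have h6 : 768 * (t + q : ℝ) ≤ 10 ^ 6 * (m + n) * q := by
            nlinarith
          have h7 : 0 ≤ (m : ℝ) * n * (m + n) * K ^ 2 * t := by positivity
          nlinarith [mul_le_mul_of_nonneg_left h6 h7]
        linarith
      · intro p hp
        rw [add_fst, add_snd]
        rcases hK p hp with h | h
        · left
          rw [if_neg h.2]
          exact h
        · right
          rw [if_neg h.2]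
          exact h
      · rw [add_fst, if_pos rfl]
        omega
      · rw [add_snd, if_pos rfl]
        omega
      · omega
    · have hstep := hop hb i j A hA hK g hg hgA (h := (D : ℤ)) (q := q) (by positivity)
        (by omega) hq0 h1 h2 hq1
      refine hstep.trans (hcost.trans ?_)
      rw [div_le_div_iff_of_pos_right ht0']
      have h5 : 0 ≤ (m : ℝ) * n * (m + n) * K ^ 2 := by positivity
      nlinarith

end CapAux

open CapAux

theorem cap_ok {b : Mg m n} (hb : Ok b) {K2 : ℤ} (hK2 : 0 ≤ K2) : Ok (cap K2 b) :=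
  ok_foldl hK2 _ b hb

theorem cap_le {b : Mg m n} (K2 : ℤ) :
    (∀ i, (cap K2 b).1 i ≤ b.1 i) ∧ ∀ j, (cap K2 b).2 j ≤ b.2 j :=
  ⟨(rel_foldl K2 _ b).le1, (rel_foldl K2 _ b).le2⟩

theorem cap_small {b : Mg m n} (K2 : ℤ) :
    (∀ i, b.1 i ≤ K2 → (cap K2 b).1 i = b.1 i) ∧ (∀ j, b.2 j ≤ K2 → (cap K2 b).2 j = b.2 j) ∧
    (∀ i, K2 ≤ b.1 i → K2 ≤ (cap K2 b).1 i) ∧ ∀ j, K2 ≤ b.2 j → K2 ≤ (cap K2 b).2 j :=
  ⟨(rel_foldl K2 _ b).sm1, (rel_foldl K2 _ b).sm2, (rel_foldl K2 _ b).bg1,
    (rel_foldl K2 _ b).bg2⟩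

theorem cap_tot {b : Mg m n} (hb : Ok b) {K2 : ℤ} (hK2 : 0 ≤ K2) :
    tot (cap K2 b) ≤ (m + n) * K2 := by
  have hmin : ∀ i j, (cap K2 b).1 i ≤ K2 ∨ (cap K2 b).2 j ≤ K2 := by
    intro i j
    refine min_foldl K2 _ b (i, j) ?_
    exact List.pair_mem_product.2 ⟨List.mem_finRange _, List.mem_finRange _⟩
  have hok := cap_ok hb hK2
  by_cases h : ∀ i, (cap K2 b).1 i ≤ K2
  · have h1 : tot (cap K2 b) ≤ ∑ _i : Fin m, K2 := Finset.sum_le_sum fun i _ => h i
    rw [Finset.sum_const, Finset.card_univ, Fintype.card_fin, nsmul_eq_mul] at h1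
    have : 0 ≤ (n : ℤ) * K2 := by positivity
    nlinarith
  · push Not at h
    obtain ⟨i, hi⟩ := h
    have h2 : ∀ j, (cap K2 b).2 j ≤ K2 := fun j => by
      rcases hmin i j with h3 | h3
      · omega
      · exact h3
    have h1 : tot (cap K2 b) ≤ ∑ _j : Fin n, K2 := by
      unfold tot
      rw [hok.2.2]
      exact Finset.sum_le_sum fun j _ => h2 j
    rw [Finset.sum_const, Finset.card_univ, Fintype.card_fin, nsmul_eq_mul] at h1
    have : 0 ≤ (m : ℤ) * K2 := by positivity
    nlinarith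

namespace CapAux

theorem err_capStep {b b' : Mg m n} {K K2 : ℤ} (hrel : Rel K2 b b') (hb' : Ok b')
    (hK : 0 ≤ K) (hKK : K ≤ K2)
    (hK2 : 200 * (m + n) ≤ K2) (g : Tb m n → ℝ) (hg : ∀ X, |g X| ≤ 1)
    (hgA : ∀ X Y, small K b X = small K b Y → g X = g Y) (p : Fin m × Fin n) :
    |Ex b' g - Ex (capStep K2 b' p) g| ≤ 10 ^ 6 * ((m * n) * (m + n) ^ 2) * K ^ 2 / K2 := by
  have hK20 : (0 : ℝ) ≤ K2 := by
    have : (0 : ℤ) ≤ K2 := hK.trans hKK
    exact_mod_cast this
  by_cases h : K2 < b'.1 p.1 ∧ K2 < b'.2 p.2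
  · have hD : ((min (b'.1 p.1) (b'.2 p.2) - K2).toNat : ℤ) = min (b'.1 p.1) (b'.2 p.2) - K2 :=
      Int.toNat_of_nonneg (by omega)
    have hstep : capStep K2 b' p = b' - (min (b'.1 p.1) (b'.2 p.2) - K2) • mar (one p.1 p.2) := by
      unfold capStep
      rw [if_pos h]
    have hp1 : K ≤ b.1 p.1 := by
      have := hrel.le1 p.1
      omega
    have hp2 : K ≤ b.2 p.2 := by
      have := hrel.le2 p.2
      omega
    have key := long_hop (K := (K : ℝ)) p.1 p.2
      (univ.filter fun p : Fin m × Fin n => b.1 p.1 < K ∨ b.2 p.2 < K) ?_ g hg ?_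
      (min (b'.1 p.1) (b'.2 p.2) - K2).toNat
      (b' - (min (b'.1 p.1) (b'.2 p.2) - K2) • mar (one p.1 p.2)) K2 ?_ ?_ ?_ ?_ hK2
    · rw [hD, sub_add_cancel] at key
      rw [hstep]
      exact key
    · simp only [Finset.mem_filter, Finset.mem_univ, true_and]
      omega
    · intro X Y hXY
      apply hgA
      funext p'
      unfold small
      split_ifs with h5
      · exact hXY p' (by simpa using h5)
      · rfl
    · exact ok_sub hb' (by omega) (by omega)
    · intro p' hp'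
      rw [Finset.mem_filter] at hp'
      rw [sub_fst, sub_snd]
      rcases hp'.2 with h5 | h5
      · left
        have h6 : p'.1 ≠ p.1 := by
          intro h7
          rw [h7] at h5
          omega
        have h7 := hrel.sm1 p'.1 (by omega)
        rw [if_neg h6, h7]
        exact ⟨by exact_mod_cast h5.le, h6⟩
      · right
        have h6 : p'.2 ≠ p.2 := by
          intro h7
          rw [h7] at h5
          omega
        have h7 := hrel.sm2 p'.2 (by omega)
        rw [if_neg h6, h7]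
        exact ⟨by exact_mod_cast h5.le, h6⟩
    · rw [sub_fst, if_pos rfl]
      omega
    · rw [sub_snd, if_pos rfl]
      omega
  · have hstep : capStep K2 b' p = b' := by
      unfold capStep
      rw [if_neg h]
    rw [hstep, sub_self, abs_zero]
    positivity

theorem err_foldl {b : Mg m n} {K K2 : ℤ} (hK : 0 ≤ K) (hKK : K ≤ K2)
    (hK2 : 200 * (m + n) ≤ K2) (g : Tb m n → ℝ) (hg : ∀ X, |g X| ≤ 1)
    (hgA : ∀ X Y, small K b X = small K b Y → g X = g Y) (l : List (Fin m × Fin n)) :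
    ∀ b' : Mg m n, Rel K2 b b' → Ok b' →
      |Ex b' g - Ex (l.foldl (capStep K2) b') g| ≤
        l.length * (10 ^ 6 * ((m * n) * (m + n) ^ 2) * K ^ 2 / K2) := by
  induction l with
  | nil =>
    intro b' _ _
    simp
  | cons p l ih =>
    intro b' hrel hb'
    rw [List.foldl_cons, List.length_cons]
    have h1 := err_capStep hrel hb' hK hKK hK2 g hg hgA p
    have h2 := ih (capStep K2 b' p) (hrel.trans (rel_capStep K2 b' p))
      (ok_capStep hb' (hK.trans hKK) p)
    have h3 := abs_sub_le (Ex b' g) (Ex (capStep K2 b' p) g)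
      (Ex (l.foldl (capStep K2) (capStep K2 b' p)) g)
    push_cast
    linarith

end CapAux

/-- the law of the small rows and columns does not feel the cutting -/
theorem cap_err {b : Mg m n} (hb : Ok b) {K K2 : ℤ} (hK : 0 ≤ K) (hKK : K ≤ K2)
    (hK2 : 200 * (m + n) ≤ K2) (g : Tb m n → ℝ) (hg : ∀ X, |g X| ≤ 1)
    (hgA : ∀ X Y, small K b X = small K b Y → g X = g Y) :
    |Ex b g - Ex (cap K2 b) g| ≤ 10 ^ 6 * ((m * n) ^ 2 * (m + n) ^ 2) * K ^ 2 / K2 := by
  have h := err_foldl hK hKK hK2 g hg hgA ((List.finRange m).product (List.finRange n)) b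
    (Rel.refl K2 b) hb
  refine h.trans (le_of_eq ?_)
  have hlen : ((List.finRange m).product (List.finRange n)).length = m * n := by
    have h1 := List.length_product (List.finRange m) (List.finRange n)
    rw [List.length_finRange, List.length_finRange] at h1
    exact h1
  rw [hlen]
  push_cast
  ring

end P328
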