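import Mathlib

/-!
# P328 : mixing from a warm start
-/

namespace P328

open Finset

section Chain

variable {X : Type*} [Fintype X]

/-- lazy step applied to a density -/
noncomputable def lazy (K : X → X → ℝ) (h : X → ℝ) : X → ℝ :=
  fun x => (h x + ∑ y, K x y * h y) / 2

/-- Jensen -/
theorem sq_sum_le (k a : X → ℝ) (h0 : ∀ y, 0 ≤ k y) (h1 : ∑ y, k y = 1) :
    (∑ y, k y * a y) ^ 2 ≤ ∑ y, k y * a y ^ 2 := by
  set m := ∑ y, k y * a y with hm
  have h2 : 0 ≤ ∑ y, k y * (a y - m) ^ 2 :=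
    Finset.sum_nonneg fun y _ => mul_nonneg (h0 y) (sq_nonneg _)
  have h3 : ∑ y, k y * (a y - m) ^ 2 = ∑ y, k y * a y ^ 2 - m ^ 2 := by
    have : ∀ y, k y * (a y - m) ^ 2 = k y * a y ^ 2 - 2 * m * (k y * a y) + m ^ 2 * k y :=
      fun y => by ring
    rw [Finset.sum_congr rfl fun y _ => this y, Finset.sum_add_distrib, Finset.sum_sub_distrib,
      ← Finset.mul_sum, ← Finset.mul_sum, h1, ← hm]
    ring
  linarith

section

variable (K : X → X → ℝ) (h0 : ∀ x y, 0 ≤ K x y)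
    (hs : ∀ x y, K x y = K y x) (h1 : ∀ x, ∑ y, K x y = 1)

include hs h1 in
theorem sum_K_mul (h : X → ℝ) : ∑ x, ∑ y, K x y * h y = ∑ y, h y := by
  rw [Finset.sum_comm]
  refine Finset.sum_congr rfl fun y _ => ?_
  rw [← Finset.sum_mul, Finset.sum_congr rfl fun x _ => hs x y, h1, one_mul]

include hs h1 in
theorem sum_lazy (h : X → ℝ) : ∑ x, lazy K h x = ∑ x, h x := by
  simp only [lazy]
  rw [← Finset.sum_div, Finset.sum_add_distrib, sum_K_mul K hs h1]
  ring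

include h0 in
theorem lazy_nonneg {h : X → ℝ} (hh : ∀ x, 0 ≤ h x) (x : X) : 0 ≤ lazy K h x := by
  have : 0 ≤ ∑ y, K x y * h y := Finset.sum_nonneg fun y _ => mul_nonneg (h0 x y) (hh y)
  have := hh x
  unfold lazy
  positivity

include h0 h1 in
theorem lazy_le {h : X → ℝ} {Q : ℝ} (hh : ∀ x, h x ≤ Q) (x : X) : lazy K h x ≤ Q := by
  have h2 : ∑ y, K x y * h y ≤ ∑ y, K x y * Q :=
    Finset.sum_le_sum fun y _ => mul_le_mul_of_nonneg_left (hh y) (h0 x y)
  rw [← Finset.sum_mul, h1, one_mul] at h2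
  have := hh x
  unfold lazy
  linarith

include h0 hs h1 in
theorem lazy_sq (h : X → ℝ) :
    ∑ x, (lazy K h x - 1) ^ 2 ≤
      ∑ x, (h x - 1) ^ 2 - (∑ x, ∑ y, K x y * (h x - h y) ^ 2) / 4 := by
  have e1 : ∀ x, lazy K h x - 1 = ∑ y, K x y * ((h x - 1 + (h y - 1)) / 2) := by
    intro x
    have : ∀ y, K x y * ((h x - 1 + (h y - 1)) / 2) =
        (h x / 2 - 1) * K x y + K x y * h y / 2 := fun y => by ring
    rw [Finset.sum_congr rfl fun y _ => this y, Finset.sum_add_distrib, ← Finset.mul_sum, h1,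
      ← Finset.sum_div]
    unfold lazy
    ring
  have e2 : ∀ x, (lazy K h x - 1) ^ 2 ≤ ∑ y, K x y * ((h x - 1 + (h y - 1)) / 2) ^ 2 := by
    intro x
    rw [e1]
    exact sq_sum_le _ _ (h0 x) (h1 x)
  refine (Finset.sum_le_sum fun x _ => e2 x).trans (le_of_eq ?_)
  have e3 : ∀ x y, K x y * ((h x - 1 + (h y - 1)) / 2) ^ 2 =
      (h x - 1) ^ 2 / 2 * K x y + K x y * ((h y - 1) ^ 2 / 2) - K x y * (h x - h y) ^ 2 / 4 :=
    fun x y => by ring
  have e4 : ∑ x, ∑ y, K x y * ((h x - 1 + (h y - 1)) / 2) ^ 2 =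
      ∑ x, (h x - 1) ^ 2 / 2 + ∑ x, ∑ y, K x y * ((h y - 1) ^ 2 / 2) -
        (∑ x, ∑ y, K x y * (h x - h y) ^ 2) / 4 := by
    rw [Finset.sum_div, ← Finset.sum_add_distrib, ← Finset.sum_sub_distrib]
    refine Finset.sum_congr rfl fun x _ => ?_
    rw [Finset.sum_congr rfl fun y _ => e3 x y, Finset.sum_sub_distrib, Finset.sum_add_distrib,
      ← Finset.mul_sum, h1, mul_one, Finset.sum_div]
  rw [e4, sum_K_mul K hs h1 (fun y => (h y - 1) ^ 2 / 2), ← Finset.sum_div]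
  ring

end

theorem sum_sum_sq (g : X → ℝ) :
    ∑ x, ∑ y, (g x - g y) ^ 2 = 2 * Fintype.card X * ∑ x, g x ^ 2 - 2 * (∑ x, g x) ^ 2 := by
  have e1 : ∀ x, ∑ y, (g x - g y) ^ 2 =
      Fintype.card X * g x ^ 2 - 2 * (g x * ∑ y, g y) + ∑ y, g y ^ 2 := by
    intro x
    have : ∀ y, (g x - g y) ^ 2 = g x ^ 2 - 2 * (g x * g y) + g y ^ 2 := fun y => by ring
    rw [Finset.sum_congr rfl fun y _ => this y, Finset.sum_add_distrib, Finset.sum_sub_distrib,
      Finset.sum_const, Finset.card_univ, nsmul_eq_mul, ← Finset.mul_sum, ← Finset.mul_sum]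
  rw [Finset.sum_congr rfl fun x _ => e1 x, Finset.sum_add_distrib, Finset.sum_sub_distrib,
    ← Finset.mul_sum, ← Finset.mul_sum, ← Finset.sum_mul, Finset.sum_const, Finset.card_univ,
    nsmul_eq_mul]
  ring

theorem warm_mixing [Nonempty X] (K : X → X → ℝ) (h0 : ∀ x y, 0 ≤ K x y)
    (hs : ∀ x y, K x y = K y x) (h1 : ∀ x, ∑ y, K x y = 1) {A η : ℝ} (hA : 1 ≤ A) (hη : 0 ≤ η)
    (hP : ∀ (f : X → ℝ) (W : ℝ), (∀ x y, (f x - f y) ^ 2 ≤ W) →
      (∑ x, ∑ y, (f x - f y) ^ 2) / Fintype.card X ≤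
        A * ∑ x, ∑ y, K x y * (f x - f y) ^ 2 + η * W * Fintype.card X)
    {h : X → ℝ} {Q : ℝ} (hh0 : ∀ x, 0 ≤ h x) (hhQ : ∀ x, h x ≤ Q)
    (hh1 : ∑ x, h x = Fintype.card X) (t : ℕ) :
    ((∑ x, |(lazy K)^[t] h x - 1|) / Fintype.card X) ^ 2 ≤
      Q ^ 2 * ((1 - 1 / (2 * A)) ^ t + η) := by
  have hn : (0 : ℝ) < Fintype.card X := by exact_mod_cast Fintype.card_pos
  set n : ℝ := (Fintype.card X : ℝ) with hn'
  -- invariants
  have inv : ∀ t, (∀ x, 0 ≤ (lazy K)^[t] h x) ∧ (∀ x, (lazy K)^[t] h x ≤ Q) ∧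
      ∑ x, (lazy K)^[t] h x = n := by
    intro t
    induction t with
    | zero => exact ⟨hh0, hhQ, hh1⟩
    | succ t ih =>
      rw [Function.iterate_succ_apply']
      exact ⟨lazy_nonneg K h0 ih.1, lazy_le K h0 h1 ih.2.1,
        (sum_lazy K hs h1 _).trans ih.2.2⟩
  have hA0 : 0 < A := by linarith
  have hr : 0 ≤ 1 - 1 / (2 * A) := by
    have : 1 / (2 * A) ≤ 1 := by
      rw [div_le_one (by positivity)]; linarith
    linarith
  -- the recursion
  have rec' : ∀ t, ∑ x, ((lazy K)^[t] h x - 1) ^ 2 ≤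
      n * (Q ^ 2 * ((1 - 1 / (2 * A)) ^ t + η)) := by
    intro t
    suffices hsuf : ∑ x, ((lazy K)^[t] h x - 1) ^ 2 ≤
        (1 - 1 / (2 * A)) ^ t * (n * Q ^ 2) + η * Q ^ 2 * n / 2 by
      have : 0 ≤ η * Q ^ 2 * n := by positivity
      nlinarith
    induction t with
    | zero =>
      rw [pow_zero, one_mul]
      have e1 : ∑ x, (h x - 1) ^ 2 ≤ ∑ x, (Q * h x - 2 * h x + 1) := by
        refine Finset.sum_le_sum fun x _ => ?_
        have := mul_le_mul_of_nonneg_right (hhQ x) (hh0 x)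
        nlinarith
      rw [Finset.sum_add_distrib, Finset.sum_sub_distrib, ← Finset.mul_sum, ← Finset.mul_sum, hh1,
        Finset.sum_const, Finset.card_univ, nsmul_eq_mul, mul_one] at e1
      have e2 : 0 ≤ η * Q ^ 2 * n / 2 := by positivity
      have e3 : Q * n - 2 * n + n ≤ n * Q ^ 2 := by nlinarith [sq_nonneg (Q - 1 / 2)]
      change ∑ x, (h x - 1) ^ 2 ≤ _
      linarith
    | succ t ih =>
      obtain ⟨i0, iQ, i1⟩ := inv t
      rw [Function.iterate_succ_apply']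
      set g := (lazy K)^[t] h with hg
      have e1 := lazy_sq K h0 hs h1 g
      have e2 := hP g (Q ^ 2) (fun x y => by
        have a1 := i0 x; have a2 := iQ x; have a3 := i0 y; have a4 := iQ y
        exact sq_le_sq' (by linarith) (by linarith))
      have e3 : ∑ x, ∑ y, (g x - g y) ^ 2 = 2 * n * ∑ x, (g x - 1) ^ 2 := by
        have := sum_sum_sq (fun x => g x - 1)
        have e4 : ∑ x, (g x - 1) = 0 := by
          rw [Finset.sum_sub_distrib, i1, Finset.sum_const, Finset.card_univ, nsmul_eq_mul,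
            mul_one]
          simp [hn']
        rw [e4] at this
        have e5 : ∀ x y, (g x - 1 - (g y - 1)) ^ 2 = (g x - g y) ^ 2 := fun x y => by ring
        simp only [e5] at this
        rw [this, ← hn']
        ring
      rw [e3] at e2
      set V := ∑ x, (g x - 1) ^ 2 with hV
      set D := ∑ x, ∑ y, K x y * (g x - g y) ^ 2 with hD
      have e6 : 2 * V ≤ A * D + η * Q ^ 2 * n := by
        have : 2 * n * V / n = 2 * V := by field_simp
        rw [this] at e2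
        exact e2
      -- `V' ≤ V - D / 4 ≤ (1 - 1/(2A)) V + η Q² n / (4A)`
      have e7 : (2 * V - η * Q ^ 2 * n) / A ≤ D := by
        rw [div_le_iff₀ hA0]; linarith
      have e8 : V - (2 * V - η * Q ^ 2 * n) / A / 4 =
          (1 - 1 / (2 * A)) * V + η * Q ^ 2 * n / (4 * A) := by
        field_simp
        ring
      have e9 := mul_le_mul_of_nonneg_left ih hr
      have e10 : (1 - 1 / (2 * A)) * ((1 - 1 / (2 * A)) ^ t * (n * Q ^ 2) + η * Q ^ 2 * n / 2) +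
          η * Q ^ 2 * n / (4 * A) =
          (1 - 1 / (2 * A)) ^ (t + 1) * (n * Q ^ 2) + η * Q ^ 2 * n / 2 := by
        rw [pow_succ (1 - 1 / (2 * A)) t]
        generalize (1 - 1 / (2 * A)) ^ t = P
        field_simp
        ring
      linarith
  -- Cauchy-Schwarz
  have cs : (∑ x, |(lazy K)^[t] h x - 1|) ^ 2 ≤ n * ∑ x, ((lazy K)^[t] h x - 1) ^ 2 := by
    have := sq_sum_le_card_mul_sum_sq (s := Finset.univ)
      (f := fun x => |(lazy K)^[t] h x - 1|)
    simpa [sq_abs] using this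
  rw [div_pow, div_le_iff₀ (by positivity)]
  calc (∑ x, |(lazy K)^[t] h x - 1|) ^ 2 ≤ n * ∑ x, ((lazy K)^[t] h x - 1) ^ 2 := cs
    _ ≤ n * (n * (Q ^ 2 * ((1 - 1 / (2 * A)) ^ t + η))) :=
      mul_le_mul_of_nonneg_left (rec' t) hn.le
    _ = Q ^ 2 * ((1 - 1 / (2 * A)) ^ t + η) * n ^ 2 := by ring

end Chain

end P328
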