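import Vale.Agent.P328.Base

/-!
# P328 : randomized programs, the sampler and the approximate counter
-/

namespace P328

open Finset

/-! ## Randomized programs with a step counter -/

/-- A randomized program with output in `α`: the joint law of the output and of the number of
elementary steps used. -/
abbrev Prog (α : Type) := PMF (α × ℕ)

/-- return a value, without any step -/
noncomputable def ret {α : Type} (a : α) : Prog α := PMF.pure (a, 0)

/-- run `p`, then run `f` on its output; the numbers of steps are added -/
noncomputable def andThen {α β : Type} (p : Prog α) (f : α → Prog β) : Prog β :=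
  p.bind fun x => (f x.1).map fun y => (y.1, x.2 + y.2)

/-- charge `k` steps, then continue with `p` -/
noncomputable def charge {α : Type} (k : ℕ) (p : Prog α) : Prog α :=
  p.map fun y => (y.1, k + y.2)

/-- a uniformly random element of `Fin k`, one step -/
noncomputable def draw (k : ℕ) [NeZero k] : Prog (Fin k) :=
  (PMF.uniformOfFintype (Fin k)).map fun a => (a, 1)

/-- a fair coin, one step -/
noncomputable def coin : Prog Bool :=
  (PMF.uniformOfFintype Bool).map fun a => (a, 1)

/-- the law of the output of a program -/
noncomputable def law {α : Type} (p : Prog α) : PMF α := p.map Prod.fst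

/-- the program never uses more than `t` steps -/
def TimeLe {α : Type} (p : Prog α) (t : ℕ) : Prop := ∀ x ∈ p.support, x.2 ≤ t

/-- total variation distance -/
noncomputable def tv {α : Type} (μ ν : PMF α) : ℝ :=
  (∑' a, |(μ a).toReal - (ν a).toReal|) / 2

/-! ## Tables and margins -/

/-- tables -/
abbrev Tb (m n : ℕ) := Fin m × Fin n → ℤ

/-- margins -/
abbrev Mg (m n : ℕ) := (Fin m → ℤ) × (Fin n → ℤ)

variable {m n : ℕ}

/-- the total -/
def tot (b : Mg m n) : ℤ := ∑ i, b.1 i

/-- admissible margins -/
def Ok (b : Mg m n) : Prop := (∀ i, 0 ≤ b.1 i) ∧ (∀ j, 0 ≤ b.2 j) ∧ ∑ i, b.1 i = ∑ j, b.2 j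

/-- the set of contingency tables with margins `b` -/
noncomputable def Om (b : Mg m n) : Finset (Tb m n) := tab (tot b) b

/-- the mean of `g` over `Om b` -/
noncomputable def Ex (b : Mg m n) (g : Tb m n → ℝ) : ℝ :=
  (∑ X ∈ Om b, g X) / (Om b).card

open Classical in
/-- the uniform law on the tables with margins `b` -/
noncomputable def unifOm (b : Mg m n) : PMF (Tb m n) :=
  if h : (Om b).Nonempty then PMF.uniformOfFinset (Om b) h else PMF.pure 0

/-! ## The chain of unit moves and the sampler for small totals -/

section Programs

variable [NeZero m] [NeZero n]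

open Classical in
/-- one step of the lazy chain of unit `2 × 2` moves -/
noncomputable def step (X : Tb m n) : Prog (Tb m n) :=
  andThen coin fun c => andThen (draw m) fun i => andThen (draw m) fun i' =>
    andThen (draw n) fun j => andThen (draw n) fun j' => charge 20 <| ret <|
      if c = true ∧ 0 ≤ X + quad ((i, i'), (j, j')) then X + quad ((i, i'), (j, j')) else X

/-- `T` steps of the chain -/
noncomputable def mix : ℕ → Tb m n → Prog (Tb m n)
  | 0, X => ret X
  | T + 1, X => andThen (step X) (mix T)

/-- a list of cells with margins `b` -/
def cells (b : Mg m n) : List (Fin m × Fin n) :=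
  List.zip ((List.finRange m).flatMap fun i => List.replicate (b.1 i).toNat i)
    ((List.finRange n).flatMap fun j => List.replicate (b.2 j).toNat j)

/-- add the units of the list one by one, with `T` steps of the chain after each of them -/
noncomputable def grow (T : ℕ) : List (Fin m × Fin n) → Prog (Tb m n)
  | [] => ret 0
  | c :: l => andThen (grow T l) fun X => charge 3 (mix T (X + one c.1 c.2))

/-- the sampler for small totals -/
noncomputable def unary (T : ℕ) (b : Mg m n) : Prog (Tb m n) :=
  charge (10 * (m * n)) (grow T (cells b))

/-! ## The general sampler -/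

/-- reduce the margins of the row and of the column of a cell, down to `K2` -/
def capStep (K2 : ℤ) (b : Mg m n) (p : Fin m × Fin n) : Mg m n :=
  if K2 < b.1 p.1 ∧ K2 < b.2 p.2 then b - (min (b.1 p.1) (b.2 p.2) - K2) • mar (one p.1 p.2)
  else b

/-- reduce all the margins above `K2` -/
def cap (K2 : ℤ) (b : Mg m n) : Mg m n :=
  ((List.finRange m).product (List.finRange n)).foldl (capStep K2) b

/-- the part of the table `X` in the rows and columns with margins less than `K` -/
def small (K : ℤ) (b : Mg m n) (X : Tb m n) : Tb m n :=
  fun p => if b.1 p.1 < K ∨ b.2 p.2 < K then X p else 0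

/-- the rows with margins at least `K` -/
def bigR (K : ℤ) (b : Mg m n) : Finset (Fin m) := univ.filter fun i => K ≤ b.1 i

/-- the columns with margins at least `K` -/
def bigC (K : ℤ) (b : Mg m n) : Finset (Fin n) := univ.filter fun j => K ≤ b.2 j

/-- the first element of a set of rows (or columns) -/
noncomputable def first {k : ℕ} [NeZero k] (I : Finset (Fin k)) : Fin k :=
  if h : I.Nonempty then I.min' h else 0

/-- independent fair bits in all the cells: `m * n` steps -/
noncomputable def bits : Prog (Fin m × Fin n → Bool) :=
  (PMF.uniformOfFintype (Fin m × Fin n → Bool)).map fun β => (β, m * n)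

/-- the value of a bit -/
def bv (c : Bool) : ℤ := if c then 1 else 0

/-- the `0-1` table supported on `I × J` which agrees with the bits `β` outside of the first row
and of the first column of `I × J`, and whose margins have the parities of `b` -/
noncomputable def comp (I : Finset (Fin m)) (J : Finset (Fin n)) (b : Mg m n)
    (β : Fin m × Fin n → Bool) : Tb m n :=
  fun p =>
    if p.1 ∈ I ∧ p.2 ∈ J then
      if p.1 ≠ first I then
        if p.2 ≠ first J then bv (β p)
        else (b.1 p.1 - ∑ j ∈ J.erase (first J), bv (β (p.1, j))) % 2
      else
        if p.2 ≠ first J then (b.2 p.2 - ∑ i ∈ I.erase (first I), bv (β (i, p.2))) % 2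
        else (b.1 (first I) - ∑ j ∈ J.erase (first J),
          ((b.2 j - ∑ i ∈ I.erase (first I), bv (β (i, j))) % 2)) % 2
    else 0

/-- the parity patterns supported on `I × J` -/
noncomputable def Par (I : Finset (Fin m)) (J : Finset (Fin n)) (b : Mg m n) : Finset (Tb m n) :=
  (Icc 0 1).filter fun R => (∀ p, ¬ (p.1 ∈ I ∧ p.2 ∈ J) → R p = 0) ∧
    (∀ i, (b.1 i - ∑ j, R (i, j)) % 2 = 0) ∧ ∀ j, (b.2 j - ∑ i, R (i, j)) % 2 = 0

/-- half of the margins `b - mar R` -/
def half (b : Mg m n) (R : Tb m n) : Mg m n :=
  (fun i => (b.1 i - ∑ j, R (i, j)) / 2, fun j => (b.2 j - ∑ i, R (i, j)) / 2)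

open Classical in
/-- The general sampler. If the total is small, use `unary`. Otherwise sample the small rows and
columns from the margins cut down to `K2`, sample the parities of the rest, and call the sampler
on the halved margins. The first argument bounds the depth of the recursion. (The test fails
only with a small probability, and then the output `0` is replaced in `sampler`.) -/
noncomputable def samp (K K2 : ℤ) (T : ℕ) : ℕ → Mg m n → Prog (Tb m n)
  | 0, b => unary T b
  | f + 1, b =>
    if tot b ≤ (m + n) * K2 then unary T b
    else
      charge (100 * (m * n)) <| andThen (unary T (cap K2 b)) fun X =>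
        andThen bits fun β =>
          if Ok (half (b - mar (small K b X))
              (comp (bigR K b) (bigC K b) (b - mar (small K b X)) β)) then
            andThen (samp K K2 T f (half (b - mar (small K b X))
              (comp (bigR K b) (bigC K b) (b - mar (small K b X)) β))) fun Q =>
              ret (small K b X + comp (bigR K b) (bigC K b) (b - mar (small K b X)) β + 2 • Q)
          else ret 0

/-- partial sums -/
def pre {k : ℕ} (f : Fin k → ℤ) (i : ℕ) : ℤ := ∑ i' : Fin k, if (i' : ℕ) < i then f i' else 0

/-- the table with margins `b` given by the north-west corner rule -/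
def corner (b : Mg m n) : Tb m n := fun p =>
  max 0 (min (pre b.1 (p.1 + 1)) (pre b.2 (p.2 + 1)) - max (pre b.1 p.1) (pre b.2 p.2))

/-- the number of binary digits of the total -/
def len (b : Mg m n) : ℕ := Nat.log 2 (tot b).toNat + 1

/-- `s * ℓ * e`, with `s = m + n`, `ℓ` the number of digits of the total, `e` the precision -/
def prm (b : Mg m n) (e : ℕ) : ℕ := (m + n) * len b * e

/-- threshold of the small margins -/
def KK (b : Mg m n) (e : ℕ) : ℕ := 2 ^ 20 * prm b e ^ 5

/-- threshold of the margins which are cut down -/
def KK2 (b : Mg m n) (e : ℕ) : ℕ := 2 ^ 80 * prm b e ^ 16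

/-- length of the runs of the chain -/
def TT (b : Mg m n) (e : ℕ) : ℕ :=
  (50 * (m + n) * ((m + n) * KK2 b e + 1) * (8 * len b * e)) ^ 100

open Classical in
/-- the sampler with precision `1 / e` -/
noncomputable def sampler (b : Mg m n) (e : ℕ) : Prog (Tb m n) :=
  andThen (samp (KK b e) (KK2 b e) (TT b e) (len b) b) fun X =>
    charge (100 * (m * n * len b)) (ret (if X ∈ Om b then X else corner b))

/-! ## The approximate counter -/

/-- the first index of a largest row (or column) -/
noncomputable def amax {k : ℕ} [NeZero k] (f : Fin k → ℤ) : Fin k :=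
  first (univ.filter fun i => ∀ i', f i' ≤ f i)

/-- the number of units removed at once from a cell whose row and column have margins `≥ t` -/
def jump (m n : ℕ) (t : ℤ) : ℤ := max 1 (t / (48 * (m + n)))

/-- count the samples with at least `h` units in the cell `(i, j)`, among `k` samples -/
noncomputable def count (b : Mg m n) (e : ℕ) (i : Fin m) (j : Fin n) (h : ℤ) : ℕ → Prog ℕ
  | 0 => ret 0
  | k + 1 => andThen (count b e i j h k) fun z => andThen (sampler b e) fun X =>
      charge 3 (ret (if h ≤ X (i, j) then z + 1 else z))

/-- product of the estimated ratios, at most `f` factors; `N` samples of precision `1 / e` are used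
for each of them -/
noncomputable def ratios (e N : ℕ) : ℕ → Mg m n → Prog ℚ
  | 0, _ => ret 1
  | f + 1, b =>
    if tot b ≤ 0 then ret 1
    else
      let i := amax b.1
      let j := amax b.2
      let h := jump m n (min (b.1 i) (b.2 j))
      charge (100 * (m * n * len b)) <| andThen (count b e i j h N) fun z =>
        andThen (ratios e N f (b - h • mar (one i j))) fun w => ret (w * (N / z))

/-- the approximate counter with precision `1 / e` and failure probability `exp (-d)` -/
noncomputable def counter (b : Mg m n) (e d : ℕ) : Prog ℚ :=
  charge (100 * (m * n * len b)) <| ratios (1600 * (m + n) ^ 4 * len b * e)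
    (4 * (1600 * (m + n) ^ 4 * len b * e) ^ 2 * (d + 200 * (m + n) ^ 2 * len b))
    (100 * (m + n) ^ 2 * len b) b

end Programs

end P328
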