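import Vale.Agent.P328.Round

/-!
# P328, module K : adding one unit to the margins
-/

namespace P328

open Finset

variable {m n : ℕ}

theorem mem_tab {N : ℤ} {b : (Fin m → ℤ) × (Fin n → ℤ)} {z : Fin m × Fin n → ℤ} :
    z ∈ tab N b ↔ 0 ≤ z ∧ (∀ p, z p ≤ N) ∧ mar z = b := by
  unfold tab S
  rw [Finset.mem_filter, Finset.mem_Icc, and_assoc]
  rfl

theorem mar_fst (z : Fin m × Fin n → ℤ) (i : Fin m) : (mar z).1 i = ∑ j, z (i, j) := rfl

theorem mar_snd (z : Fin m × Fin n → ℤ) (j : Fin n) : (mar z).2 j = ∑ i, z (i, j) := rfl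

/-- the entries of a nonnegative table are bounded by the total -/
theorem le_of_mar {N : ℤ} {b : (Fin m → ℤ) × (Fin n → ℤ)} (hN : ∑ i, b.1 i ≤ N)
    {z : Fin m × Fin n → ℤ} (h0 : 0 ≤ z) (hz : mar z = b) (p : Fin m × Fin n) : z p ≤ N := by
  have hr : ∀ i, b.1 i = ∑ j, z (i, j) := fun i => by rw [← hz, mar_fst]
  have h1 : ∀ i, 0 ≤ b.1 i := fun i => by
    rw [hr]
    exact Finset.sum_nonneg fun j _ => h0 (i, j)
  have h2 : z p ≤ b.1 p.1 := by
    rw [hr]
    exact Finset.single_le_sum (f := fun j => z (p.1, j)) (fun j _ => h0 (p.1, j))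
      (Finset.mem_univ p.2)
  have h3 : b.1 p.1 ≤ ∑ i, b.1 i :=
    Finset.single_le_sum (fun i _ => h1 i) (Finset.mem_univ p.1)
  linarith

theorem mem_tab' {N : ℤ} {b : (Fin m → ℤ) × (Fin n → ℤ)} (hN : ∑ i, b.1 i ≤ N)
    {z : Fin m × Fin n → ℤ} : z ∈ tab N b ↔ 0 ≤ z ∧ mar z = b := by
  rw [mem_tab]
  exact ⟨fun h => ⟨h.1, h.2.2⟩, fun h => ⟨h.1, le_of_mar hN h.1 h.2, h.2⟩⟩

theorem mar_one_fst (i : Fin m) (j : Fin n) (k : Fin m) :
    (mar (one i j)).1 k = if k = i then 1 else 0 := by
  rw [mar_fst, row_one]

theorem mar_one_snd (i : Fin m) (j : Fin n) (k : Fin n) :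
    (mar (one i j)).2 k = if k = j then 1 else 0 := by
  rw [mar_snd, col_one]

theorem mar_quad (i i' : Fin m) (j j' : Fin n) :
    mar (one i j) + mar (one i' j') = mar (one i j') + mar (one i' j) := by
  refine Prod.ext (funext fun k => ?_) (funext fun k => ?_)
  · simp only [Prod.fst_add, Pi.add_apply, mar_one_fst]
  · simp only [Prod.snd_add, Pi.add_apply, mar_one_snd]
    ring

theorem tab_card_add {N : ℤ} {b : (Fin m → ℤ) × (Fin n → ℤ)} (hN : ∑ i, b.1 i ≤ N) {i : Fin m}
    {j : Fin n} (hi : 0 ≤ b.1 i) (hj : 0 ≤ b.2 j) :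
    ((tab N (b + mar (one i j))).card : ℝ) ≤ ((m : ℝ) * n + 1) * (tab N b).card := by
  classical
  have hsub : tab N (b + mar (one i j)) ⊆ (tab N b).image (fun z => z + one i j) ∪
      (Finset.univ : Finset (Fin m × Fin n)).biUnion fun p =>
        (tab N b).image fun z => z + one i p.2 + one p.1 j - one p.1 p.2 := by
    intro Y hY
    obtain ⟨h0, -, hM⟩ := mem_tab.mp hY
    rw [Finset.mem_union]
    by_cases hij : 1 ≤ Y (i, j)
    · left
      rw [Finset.mem_image]
      refine ⟨Y - one i j, (mem_tab' hN).mpr ⟨?_, ?_⟩, by abel⟩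
      · intro p
        simp only [Pi.zero_apply, Pi.sub_apply, one_apply]
        split_ifs with h
        · subst h
          linarith
        · simpa using h0 p
      · rw [map_sub, hM]
        abel
    · right
      have hij0 : Y (i, j) = 0 := le_antisymm (by omega) (h0 (i, j))
      have hrow : ∑ l, Y (i, l) = b.1 i + 1 := by
        have h1 := congrFun (congrArg Prod.fst hM) i
        rw [mar_fst] at h1
        rw [h1]
        simp [mar_one_fst]
      have hcol : ∑ l, Y (l, j) = b.2 j + 1 := by
        have h1 := congrFun (congrArg Prod.snd hM) j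
        rw [mar_snd] at h1
        rw [h1]
        simp [mar_one_snd]
      obtain ⟨j', -, hj'⟩ : ∃ j' ∈ Finset.univ, 0 < Y (i, j') :=
        Finset.exists_lt_of_sum_lt (f := fun _ => (0 : ℤ)) (by simp; omega)
      obtain ⟨i', -, hi'⟩ : ∃ i' ∈ Finset.univ, 0 < Y (i', j) :=
        Finset.exists_lt_of_sum_lt (f := fun _ => (0 : ℤ)) (by simp; omega)
      have hjj : j' ≠ j := by
        rintro rfl
        omega
      have hii : i' ≠ i := by
        rintro rfl
        omega
      rw [Finset.mem_biUnion]
      refine ⟨(i', j'), Finset.mem_univ _, ?_⟩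
      rw [Finset.mem_image]
      refine ⟨Y - one i j' - one i' j + one i' j', (mem_tab' hN).mpr ⟨?_, ?_⟩, by
        simp only
        abel⟩
      · intro p
        have h1 := h0 p
        simp only [Pi.zero_apply] at h1
        simp only [Pi.zero_apply, Pi.sub_apply, Pi.add_apply, one_apply]
        by_cases h2 : p = (i, j')
        · subst h2
          simp only [Prod.mk.injEq, hii.symm, hjj, and_false, and_true, if_false, if_true]
          omega
        · by_cases h3 : p = (i', j)
          · subst h3
            simp only [Prod.mk.injEq, hii, hjj.symm, and_false, if_false, if_true]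
            omega
          · simp only [h2, h3, if_false]
            split_ifs <;> omega
      · rw [map_add, map_sub, map_sub, hM]
        have h1 := mar_quad i i' j j'
        have h2 : b + mar (one i j) - mar (one i j') - mar (one i' j) + mar (one i' j') =
            b + ((mar (one i j) + mar (one i' j')) - (mar (one i j') + mar (one i' j))) := by
          abel
        rw [h2, h1]
        abel
  have h1 : (tab N (b + mar (one i j))).card ≤ (m * n + 1) * (tab N b).card := by
    refine (Finset.card_le_card hsub).trans ((Finset.card_union_le _ _).trans ?_)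
    have h2 : ((tab N b).image (fun z => z + one i j)).card ≤ (tab N b).card :=
      Finset.card_image_le
    have h3 : ((Finset.univ : Finset (Fin m × Fin n)).biUnion fun p =>
        (tab N b).image fun z => z + one i p.2 + one p.1 j - one p.1 p.2).card ≤
        (Finset.univ : Finset (Fin m × Fin n)).card * (tab N b).card :=
      Finset.card_biUnion_le_card_mul _ _ _ fun p _ => Finset.card_image_le
    rw [Finset.card_univ, Fintype.card_prod, Fintype.card_fin, Fintype.card_fin] at h3
    nlinarith
  calc ((tab N (b + mar (one i j))).card : ℝ) ≤ (((m * n + 1) * (tab N b).card : ℕ) : ℝ) := by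
        exact_mod_cast h1
    _ = _ := by push_cast; ring

end P328
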