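import Vale.Agent.P328.Defs
import Vale.Agent.P328.Defs2
import Vale.Agent.P328.Kappa

/-!
# P328 : basic facts on the tables with given margins
-/

namespace P328

open Finset

variable {m n : ℕ}

theorem mem_Om {b : Mg m n} {X : Tb m n} : X ∈ Om b ↔ 0 ≤ X ∧ mar X = b := mem_tab' le_rfl

theorem ok_of_mem {b : Mg m n} {X : Tb m n} (hX : X ∈ Om b) : Ok b := by
  obtain ⟨h0, h⟩ := mem_Om.mp hX
  subst h
  refine ⟨fun i => ?_, fun j => ?_, ?_⟩
  · rw [mar_fst]
    exact Finset.sum_nonneg fun j _ => h0 (i, j)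
  · rw [mar_snd]
    exact Finset.sum_nonneg fun i _ => h0 (i, j)
  · simp only [mar_fst, mar_snd]
    exact Finset.sum_comm

theorem le_row {b : Mg m n} {X : Tb m n} (hX : X ∈ Om b) (p : Fin m × Fin n) :
    X p ≤ b.1 p.1 ∧ X p ≤ b.2 p.2 := by
  obtain ⟨h0, h⟩ := mem_Om.mp hX
  subst h
  constructor
  · exact Finset.single_le_sum (f := fun j => X (p.1, j)) (fun j _ => h0 (p.1, j)) (mem_univ p.2)
  · exact Finset.single_le_sum (f := fun i => X (i, p.2)) (fun i _ => h0 (i, p.2)) (mem_univ p.1)

theorem sum_mar_fst (l : List (Fin m × Fin n)) (i : Fin m) :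
    ((l.map fun c => mar (one c.1 c.2)).sum).1 i = ((l.map Prod.fst).count i : ℤ) := by
  induction l with
  | nil => simp
  | cons c l ih =>
    rw [List.map_cons, List.sum_cons, List.map_cons, List.count_cons]
    change (mar (one c.1 c.2)).1 i + ((l.map fun c => mar (one c.1 c.2)).sum).1 i = _
    rw [ih, mar_one_fst]
    by_cases h : c.1 = i
    · subst h
      simp
      ring
    · have h' : ¬ i = c.1 := fun hh => h hh.symm
      simp [h, h']

theorem sum_mar_snd (l : List (Fin m × Fin n)) (j : Fin n) :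
    ((l.map fun c => mar (one c.1 c.2)).sum).2 j = ((l.map Prod.snd).count j : ℤ) := by
  induction l with
  | nil => simp
  | cons c l ih =>
    rw [List.map_cons, List.sum_cons, List.map_cons, List.count_cons]
    change (mar (one c.1 c.2)).2 j + ((l.map fun c => mar (one c.1 c.2)).sum).2 j = _
    rw [ih, mar_one_snd]
    by_cases h : c.2 = j
    · subst h
      simp
      ring
    · have h' : ¬ j = c.2 := fun hh => h hh.symm
      simp [h, h']

theorem length_rows {k : ℕ} (f : Fin k → ℤ) (hf : ∀ i, 0 ≤ f i) :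
    ((((List.finRange k).flatMap fun i => List.replicate (f i).toNat i).length : ℕ) : ℤ) =
      ∑ i, f i := by
  rw [List.length_flatMap]
  have h1 : (List.finRange k).map (fun a => (List.replicate (f a).toNat a).length) =
      (List.finRange k).map fun a => (f a).toNat := by
    apply List.map_congr_left
    intro a _
    exact List.length_replicate
  rw [h1, ← Fin.sum_univ_def]
  push_cast
  exact Finset.sum_congr rfl fun i _ => Int.toNat_of_nonneg (hf i)

theorem count_rows {k : ℕ} (f : Fin k → ℤ) (hf : ∀ i, 0 ≤ f i) (i : Fin k) :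
    ((((List.finRange k).flatMap fun i => List.replicate (f i).toNat i).count i : ℕ) : ℤ) =
      f i := by
  rw [List.count_flatMap]
  have h1 : (List.finRange k).map (List.count i ∘ fun a => List.replicate (f a).toNat a) =
      (List.finRange k).map fun a => if a = i then (f a).toNat else 0 := by
    apply List.map_congr_left
    intro a _
    simp [List.count_replicate]
  rw [h1, ← Fin.sum_univ_def]
  simp [Int.toNat_of_nonneg (hf i)]

theorem card_cells {b : Mg m n} (hb : Ok b) : ((cells b).length : ℤ) = tot b := by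
  unfold cells tot
  rw [List.length_zip]
  have h1 := length_rows b.1 hb.1
  have h2 := length_rows b.2 hb.2.1
  have h3 := hb.2.2
  push_cast
  rw [h1, h2, ← h3, min_self]

theorem mar_cells {b : Mg m n} (hb : Ok b) :
    ((cells b).map fun c => mar (one c.1 c.2)).sum = b := by
  have h1 := length_rows b.1 hb.1
  have h2 := length_rows b.2 hb.2.1
  have h3 := hb.2.2
  refine Prod.ext (funext fun i => ?_) (funext fun j => ?_)
  · rw [sum_mar_fst]
    unfold cells
    rw [List.map_fst_zip (by omega)]
    exact count_rows b.1 hb.1 i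
  · rw [sum_mar_snd]
    unfold cells
    rw [List.map_snd_zip (by omega)]
    exact count_rows b.2 hb.2.1 j

theorem Om_nonempty {b : Mg m n} (hb : Ok b) : (Om b).Nonempty := by
  refine ⟨((cells b).map fun c => one c.1 c.2).sum, ?_⟩
  rw [mem_Om]
  constructor
  · apply List.sum_nonneg
    intro x hx
    obtain ⟨c, _, rfl⟩ := List.mem_map.mp hx
    intro p
    rw [one_apply]
    split_ifs <;> simp
  · rw [map_list_sum, List.map_map]
    exact mar_cells hb

/-! the north-west corner rule -/

theorem pre_zero {k : ℕ} (f : Fin k → ℤ) : pre f 0 = 0 := by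
  simp [pre]

theorem pre_succ {k : ℕ} (f : Fin k → ℤ) (i : Fin k) : pre f (i + 1) = pre f i + f i := by
  unfold pre
  have h : ∀ i' : Fin k, (if (i' : ℕ) < i + 1 then f i' else 0) =
      (if (i' : ℕ) < i then f i' else 0) + if i' = i then f i' else 0 := by
    intro i'
    by_cases h1 : i' = i
    · subst h1
      simp
    · have h2 : (i' : ℕ) ≠ i := fun hh => h1 (Fin.ext hh)
      by_cases h3 : (i' : ℕ) < i
      · rw [if_pos (by omega), if_pos h3, if_neg h1, add_zero]
      · rw [if_neg (by omega), if_neg h3, if_neg h1, add_zero]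
  rw [Finset.sum_congr rfl fun i' _ => h i', Finset.sum_add_distrib]
  simp

theorem pre_last {k : ℕ} (f : Fin k → ℤ) : pre f k = ∑ i, f i := by
  unfold pre
  exact Finset.sum_congr rfl fun i _ => if_pos i.2

/-- truncation to the interval `[R, R']` -/
def trunc (R R' x : ℤ) : ℤ := min (max x R) R'

theorem trunc_sub {R R' C C' : ℤ} (hR : R ≤ R') (hC : C ≤ C') :
    max 0 (min R' C' - max R C) = trunc R R' C' - trunc R R' C := by
  unfold trunc
  simp only [min_def, max_def]
  split_ifs <;> omega

theorem sum_trunc {k : ℕ} (f : Fin k → ℤ) {R R' : ℤ} (hR : R ≤ R') (h0 : 0 ≤ R)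
    (h1 : R' ≤ ∑ j, f j) :
    ∑ j : Fin k, (trunc R R' (pre f (j + 1)) - trunc R R' (pre f j)) = R' - R := by
  have h := Finset.sum_range_sub (fun j => trunc R R' (pre f j)) k
  rw [← Fin.sum_univ_eq_sum_range (fun j => trunc R R' (pre f (j + 1)) - trunc R R' (pre f j))] at h
  rw [h, pre_last, pre_zero]
  unfold trunc
  simp only [min_def, max_def]
  split_ifs <;> omega

theorem pre_nonneg {k : ℕ} {f : Fin k → ℤ} (hf : ∀ i, 0 ≤ f i) (i : ℕ) : 0 ≤ pre f i := by
  unfold pre
  refine Finset.sum_nonneg fun j _ => ?_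
  split_ifs
  · exact hf j
  · exact le_rfl

theorem pre_le {k : ℕ} {f : Fin k → ℤ} (hf : ∀ i, 0 ≤ f i) (i : ℕ) : pre f i ≤ ∑ j, f j := by
  unfold pre
  refine Finset.sum_le_sum fun j _ => ?_
  split_ifs
  · exact le_rfl
  · exact hf j

theorem corner_mem {b : Mg m n} (hb : Ok b) : corner b ∈ Om b := by
  rw [mem_Om]
  have hr : ∀ i : Fin m, pre b.1 i ≤ pre b.1 (i + 1) := fun i => by
    rw [pre_succ]
    have := hb.1 i
    omega
  have hc : ∀ j : Fin n, pre b.2 j ≤ pre b.2 (j + 1) := fun j => by
    rw [pre_succ]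
    have := hb.2.1 j
    omega
  refine ⟨fun p => le_max_left _ _, Prod.ext (funext fun i => ?_) (funext fun j => ?_)⟩
  · rw [mar_fst]
    have h1 : ∀ j : Fin n, corner b (i, j) =
        trunc (pre b.1 i) (pre b.1 (i + 1)) (pre b.2 (j + 1)) -
          trunc (pre b.1 i) (pre b.1 (i + 1)) (pre b.2 j) :=
      fun j => trunc_sub (hr i) (hc j)
    rw [Finset.sum_congr rfl fun j _ => h1 j, sum_trunc b.2 (hr i) (pre_nonneg hb.1 _)
      (by rw [← hb.2.2]; exact pre_le hb.1 _), pre_succ]
    ring
  · rw [mar_snd]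
    have h1 : ∀ i : Fin m, corner b (i, j) =
        trunc (pre b.2 j) (pre b.2 (j + 1)) (pre b.1 (i + 1)) -
          trunc (pre b.2 j) (pre b.2 (j + 1)) (pre b.1 i) := by
      intro i
      rw [← trunc_sub (hc j) (hr i)]
      unfold corner
      rw [min_comm, max_comm (pre b.1 _)]
    rw [Finset.sum_congr rfl fun i _ => h1 i, sum_trunc b.1 (hc j) (pre_nonneg hb.2.1 _)
      (by rw [hb.2.2]; exact pre_le hb.2.1 _), pre_succ]
    ring

/-- adding `k` units to the cell `(i, j)` -/
theorem sum_shift {b : Mg m n} {k : ℤ} (hk : 0 ≤ k) (i : Fin m) (j : Fin n) (F : Tb m n → ℝ) :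
    ∑ X ∈ Om b, F (X + k • one i j) =
      ∑ X ∈ (Om (b + k • mar (one i j))).filter (fun X => k ≤ X (i, j)), F X := by
  have h1 : (k • one i j : Tb m n) (i, j) = k := by
    simp [one_apply]
  have h2 : ∀ p, p ≠ (i, j) → (k • one i j : Tb m n) p = 0 := by
    intro p hp
    have : (one i j : Tb m n) p = 0 := by
      rw [one_apply]
      exact if_neg hp
    simp [this]
  refine Finset.sum_nbij' (fun X => X + k • one i j) (fun X => X - k • one i j) ?_ ?_ ?_ ?_ ?_
  · intro X hX
    rw [mem_Om] at hX
    rw [mem_filter, mem_Om]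
    refine ⟨⟨fun p => ?_, ?_⟩, ?_⟩
    · have h3 : 0 ≤ X p := hX.1 p
      change 0 ≤ X p + (k • one i j : Tb m n) p
      by_cases hp : p = (i, j)
      · subst hp
        rw [h1]
        omega
      · rw [h2 p hp]
        omega
    · rw [map_add, map_zsmul, hX.2]
    · have h3 : 0 ≤ X (i, j) := hX.1 (i, j)
      change k ≤ X (i, j) + (k • one i j : Tb m n) (i, j)
      rw [h1]
      omega
  · intro X hX
    rw [mem_filter, mem_Om] at hX
    rw [mem_Om]
    refine ⟨fun p => ?_, ?_⟩
    · have h3 : 0 ≤ X p := hX.1.1 p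
      change 0 ≤ X p - (k • one i j : Tb m n) p
      by_cases hp : p = (i, j)
      · subst hp
        rw [h1]
        have := hX.2
        omega
      · rw [h2 p hp]
        omega
    · rw [map_sub, map_zsmul, hX.1.2]
      abel
  · intro X _
    abel
  · intro X _
    abel
  · intro X _
    rfl

end P328
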