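import Vale.Agent.P328.Flat
import Vale.Agent.P328.Om

/-!
# P328 : halving of the tables (module T)
-/

namespace P328

open Finset

variable {m n : ℕ}

theorem mem_Par_iff {I : Finset (Fin m)} {J : Finset (Fin n)} {b : Mg m n} {R : Tb m n} :
    R ∈ Par I J b ↔ (0 ≤ R ∧ R ≤ 1) ∧ (∀ p, ¬ (p.1 ∈ I ∧ p.2 ∈ J) → R p = 0) ∧
    (∀ i, (b.1 i - ∑ j, R (i, j)) % 2 = 0) ∧ ∀ j, (b.2 j - ∑ i, R (i, j)) % 2 = 0 := by
  unfold Par
  rw [mem_filter, mem_Icc]

theorem sum_half {b : Mg m n} {I : Finset (Fin m)} {J : Finset (Fin n)} (hI : ∀ i, i ∉ I → b.1 i = 0)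
    (hJ : ∀ j, j ∉ J → b.2 j = 0) (F : Tb m n → ℝ) :
    ∑ X ∈ Om b, F X = ∑ R ∈ Par I J b, ∑ Q ∈ Om (half b R), F (R + 2 • Q) := by
  rw [Finset.sum_sigma']
  refine Finset.sum_bij'
    (fun X _ => (⟨fun p => X p % 2, fun p => X p / 2⟩ : (_ : Tb m n) × Tb m n))
    (fun RQ _ => RQ.1 + 2 • RQ.2) ?_ ?_ ?_ ?_ ?_
  · intro X hX
    have h0 := mem_Om.1 hX
    have hsum1 : ∀ i, ∑ j, X (i, j) = b.1 i := by
      intro i; rw [← h0.2]; rfl
    have hsum2 : ∀ j, ∑ i, X (i, j) = b.2 j := by
      intro j; rw [← h0.2]; rfl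
    have e1 : ∀ i, b.1 i - ∑ j, X (i, j) % 2 = 2 * ∑ j, X (i, j) / 2 := by
      intro i
      rw [← hsum1 i, Finset.mul_sum, ← Finset.sum_sub_distrib]
      apply Finset.sum_congr rfl
      intro j _
      omega
    have e2 : ∀ j, b.2 j - ∑ i, X (i, j) % 2 = 2 * ∑ i, X (i, j) / 2 := by
      intro j
      rw [← hsum2 j, Finset.mul_sum, ← Finset.sum_sub_distrib]
      apply Finset.sum_congr rfl
      intro i _
      omega
    rw [mem_sigma, mem_Par_iff, mem_Om]
    refine ⟨⟨⟨?_, ?_⟩, ?_, ?_, ?_⟩, ?_, ?_⟩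
    · intro p
      change 0 ≤ X p % 2
      omega
    · intro p
      change X p % 2 ≤ 1
      omega
    · intro p hp
      have hX0 : 0 ≤ X p := h0.1 p
      have hle := le_row hX p
      have : X p = 0 := by
        by_cases h1 : p.1 ∈ I
        · have h2 : p.2 ∉ J := fun h2 => hp ⟨h1, h2⟩
          have := hJ _ h2
          omega
        · have := hI _ h1
          omega
      change X p % 2 = 0
      rw [this]; rfl
    · intro i
      change (b.1 i - ∑ j, X (i, j) % 2) % 2 = 0
      rw [e1]; omega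
    · intro j
      change (b.2 j - ∑ i, X (i, j) % 2) % 2 = 0
      rw [e2]; omega
    · intro p
      change 0 ≤ X p / 2
      have hX0 : 0 ≤ X p := h0.1 p
      omega
    · apply Prod.ext
      · funext i
        change ∑ j, X (i, j) / 2 = (b.1 i - ∑ j, X (i, j) % 2) / 2
        rw [e1]; omega
      · funext j
        change ∑ i, X (i, j) / 2 = (b.2 j - ∑ i, X (i, j) % 2) / 2
        rw [e2]; omega
  · rintro ⟨R, Q⟩ hRQ
    rw [mem_sigma, mem_Par_iff, mem_Om] at hRQ
    obtain ⟨⟨⟨h0, h1⟩, h2, h3, h4⟩, h5, h6⟩ := hRQ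
    dsimp only at h0 h1 h2 h3 h4 h5 h6 ⊢
    have q1 : ∀ i, ∑ j, Q (i, j) = (b.1 i - ∑ j, R (i, j)) / 2 := by
      intro i
      have := congrFun (congrArg Prod.fst h6) i
      exact this
    have q2 : ∀ j, ∑ i, Q (i, j) = (b.2 j - ∑ i, R (i, j)) / 2 := by
      intro j
      have := congrFun (congrArg Prod.snd h6) j
      exact this
    rw [mem_Om]
    refine ⟨?_, ?_⟩
    · intro p
      have a1 : 0 ≤ R p := h0 p
      have a2 : 0 ≤ Q p := h5 p
      change 0 ≤ R p + 2 • Q p
      rw [two_nsmul]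
      omega
    · apply Prod.ext
      · funext i
        change ∑ j, (R (i, j) + 2 • Q (i, j)) = b.1 i
        simp only [two_nsmul]
        rw [Finset.sum_add_distrib, Finset.sum_add_distrib, q1]
        have := h3 i
        omega
      · funext j
        change ∑ i, (R (i, j) + 2 • Q (i, j)) = b.2 j
        simp only [two_nsmul]
        rw [Finset.sum_add_distrib, Finset.sum_add_distrib, q2]
        have := h4 j
        omega
  · intro X _
    funext p
    change X p % 2 + 2 • (X p / 2) = X p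
    rw [two_nsmul]
    omega
  · rintro ⟨R, Q⟩ hRQ
    rw [mem_sigma, mem_Par_iff] at hRQ
    obtain ⟨⟨⟨h0, h1⟩, _⟩, _⟩ := hRQ
    dsimp only at h0 h1 ⊢
    have r1 : (fun p => (R + 2 • Q) p % 2) = R := by
      funext p
      have a0 : 0 ≤ R p := h0 p
      have a1 : R p ≤ 1 := h1 p
      change (R p + 2 • Q p) % 2 = R p
      rw [two_nsmul]
      omega
    have r2 : (fun p => (R + 2 • Q) p / 2) = Q := by
      funext p
      have a0 : 0 ≤ R p := h0 p
      have a1 : R p ≤ 1 := h1 p
      change (R p + 2 • Q p) / 2 = Q p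
      rw [two_nsmul]
      omega
    rw [r1, r2]
  · intro X _
    congr 1
    funext p
    change X p = X p % 2 + 2 • (X p / 2)
    rw [two_nsmul]
    omega

/-- `mar (one i j)` -/
theorem mar_one (i : Fin m) (j : Fin n) (i' : Fin m) (j' : Fin n) :
    (mar (one i j)).1 i' = (if i' = i then 1 else 0) ∧
      (mar (one i j)).2 j' = (if j' = j then 1 else 0) := by
  constructor
  · change ∑ l, one i j (i', l) = _
    unfold one
    by_cases h : i' = i
    · subst h
      rw [if_pos rfl, Finset.sum_eq_single j]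
      · exact Pi.single_eq_same _ _
      · intro l _ hl
        exact Pi.single_eq_of_ne (fun h => hl (Prod.ext_iff.1 h).2) _
      · intro h; exact absurd (mem_univ _) h
    · rw [if_neg h]
      apply Finset.sum_eq_zero
      intro l _
      exact Pi.single_eq_of_ne (fun h' => h (Prod.ext_iff.1 h').1) _
  · change ∑ l, one i j (l, j') = _
    unfold one
    by_cases h : j' = j
    · subst h
      rw [if_pos rfl, Finset.sum_eq_single i]
      · exact Pi.single_eq_same _ _
      · intro l _ hl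
        exact Pi.single_eq_of_ne (fun h => hl (Prod.ext_iff.1 h).1) _
      · intro h; exact absurd (mem_univ _) h
    · rw [if_neg h]
      apply Finset.sum_eq_zero
      intro l _
      exact Pi.single_eq_of_ne (fun h' => h (Prod.ext_iff.1 h').2) _

/-- adding one unit -/
theorem card_add_one (b : Mg m n) (i : Fin m) (j : Fin n) :
    ((Om b).card : ℝ) =
      (((Om (b + mar (one i j))).filter fun X => 1 ≤ X (i, j)).card : ℝ) := by
  have h := sum_shift (b := b) (k := 1) (by norm_num) i j (fun _ => (1 : ℝ))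
  rw [one_smul] at h
  simpa using h

theorem card_mono_one (b : Mg m n) (i : Fin m) (j : Fin n) :
    ((Om b).card : ℝ) ≤ (Om (b + mar (one i j))).card := by
  rw [card_add_one b i j]
  exact_mod_cast Finset.card_filter_le _ _

theorem card_add_one_ge (b : Mg m n) (i : Fin m) (j : Fin n) {t : ℤ} (ht : 0 < t)
    (hi : t ≤ b.1 i) (hj : t ≤ b.2 j) :
    (1 - 24 * (m + n) / t) * ((Om (b + mar (one i j))).card : ℝ) ≤ (Om b).card := by
  have h1 := card_add_one b i j
  have h2 := flat (b := b + mar (one i j)) i j (t := t) (k := 1) ht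
    (by
      have := (mar_one i j i j).1
      rw [if_pos rfl] at this
      change t ≤ b.1 i + (mar (one i j)).1 i
      omega)
    (by
      have := (mar_one i j i j).2
      rw [if_pos rfl] at this
      change t ≤ b.2 j + (mar (one i j)).2 j
      omega) (by norm_num)
  have h3 : (((Om (b + mar (one i j))).filter fun X => 1 ≤ X (i, j)).card : ℝ) +
      (((Om (b + mar (one i j))).filter fun X => X (i, j) < 1).card : ℝ) =
      (Om (b + mar (one i j))).card := by
    have := Finset.card_filter_add_card_filter_not (s := Om (b + mar (one i j)))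
      (fun X => 1 ≤ X (i, j))
    simp only [not_le] at this
    exact_mod_cast this
  have h4 : (24 : ℝ) * (m + n) * ((1 : ℤ) : ℝ) / t = 24 * (m + n) / t := by
    push_cast; ring
  rw [h4] at h2
  rw [h1]
  linarith

/-- comparison of the numbers of tables for `b₁ ≤ b₂` -/
theorem chain {I : Finset (Fin m)} {J : Finset (Fin n)} {t : ℤ} (ht : 0 < t)
    (hx : (24 : ℝ) * (m + n) / t ≤ 1) {b2 : Mg m n} (h2 : Ok b2) (hI : ∀ i, i ∉ I → b2.1 i = 0)
    (hJ : ∀ j, j ∉ J → b2.2 j = 0) (D : ℕ) :
    ∀ b1 : Mg m n, Ok b1 → (∀ i, b1.1 i ≤ b2.1 i) → (∀ j, b1.2 j ≤ b2.2 j) →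
      (∀ i ∈ I, t ≤ b1.1 i) → (∀ j ∈ J, t ≤ b1.2 j) → tot b2 = tot b1 + D →
      ((Om b1).card : ℝ) ≤ (Om b2).card ∧
        (1 - 24 * (m + n) / t) ^ D * ((Om b2).card : ℝ) ≤ (Om b1).card := by
  induction D with
  | zero =>
    intro b1 h1 hr hc _ _ htot
    have hb : b1 = b2 := by
      unfold tot at htot
      have e1 : ∀ i ∈ (univ : Finset (Fin m)), b1.1 i = b2.1 i :=
        (Finset.sum_eq_sum_iff_of_le fun i _ => hr i).1 (by push_cast at htot; omega)
      have e2 : ∀ j ∈ (univ : Finset (Fin n)), b1.2 j = b2.2 j :=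
        (Finset.sum_eq_sum_iff_of_le fun j _ => hc j).1 (by
          have a1 := h1.2.2
          have a2 := h2.2.2
          push_cast at htot; omega)
      exact Prod.ext (funext fun i => e1 i (mem_univ _)) (funext fun j => e2 j (mem_univ _))
    rw [hb]
    simp
  | succ D ih =>
    intro b1 h1 hr hc hti htj htot
    have hlt1 : ∑ i, b1.1 i < ∑ i, b2.1 i := by
      unfold tot at htot; push_cast at htot; omega
    have hlt2 : ∑ j, b1.2 j < ∑ j, b2.2 j := by
      rw [← h1.2.2, ← h2.2.2]; exact hlt1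
    obtain ⟨i, _, hi⟩ := Finset.exists_lt_of_sum_lt hlt1
    obtain ⟨j, _, hj⟩ := Finset.exists_lt_of_sum_lt hlt2
    have hiI : i ∈ I := by
      by_contra h
      have a1 := hI i h
      have a2 := h1.1 i
      omega
    have hjJ : j ∈ J := by
      by_contra h
      have a1 := hJ j h
      have a2 := h1.2.1 j
      omega
    have f1 : ∀ i', (b1 + mar (one i j)).1 i' = b1.1 i' + if i' = i then 1 else 0 := by
      intro i'
      have := (mar_one i j i' j).1
      change b1.1 i' + (mar (one i j)).1 i' = _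
      rw [this]
    have f2 : ∀ j', (b1 + mar (one i j)).2 j' = b1.2 j' + if j' = j then 1 else 0 := by
      intro j'
      have := (mar_one i j i j').2
      change b1.2 j' + (mar (one i j)).2 j' = _
      rw [this]
    have s1 : ∑ i', (b1 + mar (one i j)).1 i' = ∑ i', b1.1 i' + 1 := by
      simp only [f1, Finset.sum_add_distrib, Finset.sum_ite_eq', mem_univ, if_true]
    have s2 : ∑ j', (b1 + mar (one i j)).2 j' = ∑ j', b1.2 j' + 1 := by
      simp only [f2, Finset.sum_add_distrib, Finset.sum_ite_eq', mem_univ, if_true]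
    have hok : Ok (b1 + mar (one i j)) := by
      refine ⟨?_, ?_, ?_⟩
      · intro i'
        rw [f1]
        have := h1.1 i'
        split_ifs <;> omega
      · intro j'
        rw [f2]
        have := h1.2.1 j'
        split_ifs <;> omega
      · rw [s1, s2, h1.2.2]
    have key := ih (b1 + mar (one i j)) hok
      (by
        intro i'
        rw [f1]
        have := hr i'
        split_ifs with h
        · subst h; omega
        · omega)
      (by
        intro j'
        rw [f2]
        have := hc j'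
        split_ifs with h
        · subst h; omega
        · omega)
      (by
        intro i' hi'
        rw [f1]
        have := hti i' hi'
        split_ifs <;> omega)
      (by
        intro j' hj'
        rw [f2]
        have := htj j' hj'
        split_ifs <;> omega)
      (by
        unfold tot at htot ⊢
        rw [s1]
        push_cast at htot ⊢
        omega)
    have g1 := card_mono_one b1 i j
    have g2 := card_add_one_ge b1 i j ht (hti i hiI) (htj j hjJ)
    refine ⟨g1.trans key.1, ?_⟩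
    have hx0 : 0 ≤ 1 - (24 : ℝ) * (m + n) / t := by linarith
    calc (1 - 24 * ((m : ℝ) + n) / t) ^ (D + 1) * ((Om b2).card : ℝ)
        = (1 - 24 * ((m : ℝ) + n) / t) *
          ((1 - 24 * ((m : ℝ) + n) / t) ^ D * ((Om b2).card : ℝ)) := by ring
      _ ≤ (1 - 24 * ((m : ℝ) + n) / t) * ((Om (b1 + mar (one i j))).card : ℝ) :=
          mul_le_mul_of_nonneg_left key.2 hx0
      _ ≤ (Om b1).card := g2

theorem half_spec {b : Mg m n} (hb : Ok b) {I : Finset (Fin m)} {J : Finset (Fin n)}
    (hI : ∀ i, i ∉ I → b.1 i = 0) (hJ : ∀ j, j ∉ J → b.2 j = 0) {t : ℤ}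
    (hIt : ∀ i ∈ I, t ≤ b.1 i) (hJt : ∀ j ∈ J, t ≤ b.2 j)
    (ht : 200 * (m + n) * (m * n) ≤ t) (ht0 : 0 < t) {R : Tb m n} (hR : R ∈ Par I J b) :
    Ok (half b R) ∧ (∀ i, 2 * (half b R).1 i = b.1 i - ∑ j, R (i, j)) ∧
      (∀ j, 2 * (half b R).2 j = b.2 j - ∑ i, R (i, j)) ∧
      (∀ i, 0 ≤ ∑ j, R (i, j) ∧ ∑ j, R (i, j) ≤ n) ∧
      (∀ j, 0 ≤ ∑ i, R (i, j) ∧ ∑ i, R (i, j) ≤ m) ∧
      (∀ i, i ∉ I → ∑ j, R (i, j) = 0) ∧ (∀ j, j ∉ J → ∑ i, R (i, j) = 0) := by
  rw [mem_Par_iff] at hR
  obtain ⟨⟨h0, h1⟩, h2, h3, h4⟩ := hR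
  have r1 : ∀ i, 2 * (half b R).1 i = b.1 i - ∑ j, R (i, j) := by
    intro i
    have := h3 i
    change 2 * ((b.1 i - ∑ j, R (i, j)) / 2) = _
    omega
  have r2 : ∀ j, 2 * (half b R).2 j = b.2 j - ∑ i, R (i, j) := by
    intro j
    have := h4 j
    change 2 * ((b.2 j - ∑ i, R (i, j)) / 2) = _
    omega
  have b1 : ∀ i, 0 ≤ ∑ j, R (i, j) ∧ ∑ j, R (i, j) ≤ n := by
    intro i
    refine ⟨Finset.sum_nonneg fun j _ => h0 (i, j), ?_⟩
    calc ∑ j, R (i, j) ≤ ∑ _j : Fin n, (1 : ℤ) := Finset.sum_le_sum fun j _ => h1 (i, j)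
      _ = n := by simp
  have b2 : ∀ j, 0 ≤ ∑ i, R (i, j) ∧ ∑ i, R (i, j) ≤ m := by
    intro j
    refine ⟨Finset.sum_nonneg fun i _ => h0 (i, j), ?_⟩
    calc ∑ i, R (i, j) ≤ ∑ _i : Fin m, (1 : ℤ) := Finset.sum_le_sum fun i _ => h1 (i, j)
      _ = m := by simp
  have z1 : ∀ i, i ∉ I → ∑ j, R (i, j) = 0 := fun i hi =>
    Finset.sum_eq_zero fun j _ => h2 (i, j) fun h => hi h.1
  have z2 : ∀ j, j ∉ J → ∑ i, R (i, j) = 0 := fun j hj =>
    Finset.sum_eq_zero fun i _ => h2 (i, j) fun h => hj h.2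
  refine ⟨⟨?_, ?_, ?_⟩, r1, r2, b1, b2, z1, z2⟩
  · intro i
    have a := r1 i
    by_cases hi : i ∈ I
    · have a1 := hIt i hi
      have a2 := (b1 i).2
      have hm : (1 : ℤ) ≤ m := by
        have := i.pos
        omega
      have hn : (0 : ℤ) ≤ n := by omega
      have : (n : ℤ) ≤ t := by
        calc (n : ℤ) ≤ 200 * (m + n) * (m * n) := by
              rcases Nat.eq_zero_or_pos n with h | h
              · subst h; simp
              · have hn1 : (1 : ℤ) ≤ n := by omega
                nlinarith [mul_nonneg (by omega : (0 : ℤ) ≤ m - 1) hn,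
                  mul_nonneg (mul_nonneg (by omega : (0 : ℤ) ≤ m) hn) (by omega : (0 : ℤ) ≤ m + n)]
          _ ≤ t := ht
      omega
    · have a1 := hI i hi
      have a2 := z1 i hi
      omega
  · intro j
    have a := r2 j
    by_cases hj : j ∈ J
    · have a1 := hJt j hj
      have a2 := (b2 j).2
      have hn : (1 : ℤ) ≤ n := by
        have := j.pos
        omega
      have hm : (0 : ℤ) ≤ m := by omega
      have : (m : ℤ) ≤ t := by
        calc (m : ℤ) ≤ 200 * (m + n) * (m * n) := by
              rcases Nat.eq_zero_or_pos m with h | h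
              · subst h; simp
              · have hm1 : (1 : ℤ) ≤ m := by omega
                nlinarith [mul_nonneg (by omega : (0 : ℤ) ≤ n - 1) hm,
                  mul_nonneg (mul_nonneg (by omega : (0 : ℤ) ≤ n) hm) (by omega : (0 : ℤ) ≤ m + n)]
          _ ≤ t := ht
      omega
    · have a1 := hJ j hj
      have a2 := z2 j hj
      omega
  · have e1 : 2 * ∑ i, (half b R).1 i = 2 * ∑ j, (half b R).2 j := by
      rw [Finset.mul_sum, Finset.mul_sum, Finset.sum_congr rfl fun i _ => r1 i,
        Finset.sum_congr rfl fun j _ => r2 j, Finset.sum_sub_distrib, Finset.sum_sub_distrib,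
        hb.2.2, Finset.sum_comm]
    omega

theorem final_est {A B C x z : ℝ} {D : ℕ} (hA : 0 ≤ A) (hx : x ≤ 1)
    (hy : D * x ≤ 60 * z) (hz : z ≤ 1 / 200) (hz0 : 0 ≤ z)
    (h1 : A ≤ B) (h2 : (1 - x) ^ D * B ≤ C) : A ≤ (1 + 200 * z) * C := by
  have hB : 0 ≤ B := hA.trans h1
  have h3 : 1 + (D : ℝ) * (-x) ≤ (1 + (-x)) ^ D := one_add_mul_le_pow (by linarith) D
  have h4 : 1 - 60 * z ≤ (1 - x) ^ D := by
    rw [sub_eq_add_neg 1 x]
    linarith
  have h5 : (1 - 60 * z) * B ≤ C := (mul_le_mul_of_nonneg_right h4 hB).trans h2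
  have h6 : 1 ≤ (1 + 200 * z) * (1 - 60 * z) := by nlinarith
  calc A ≤ B := h1
    _ = 1 * B := (one_mul B).symm
    _ ≤ ((1 + 200 * z) * (1 - 60 * z)) * B := mul_le_mul_of_nonneg_right h6 hB
    _ = (1 + 200 * z) * ((1 - 60 * z) * B) := by ring
    _ ≤ (1 + 200 * z) * C := mul_le_mul_of_nonneg_left h5 (by linarith)

theorem coarse {b : Mg m n} (hb : Ok b) {I : Finset (Fin m)} {J : Finset (Fin n)}
    (hI : ∀ i, i ∉ I → b.1 i = 0) (hJ : ∀ j, j ∉ J → b.2 j = 0) {t : ℤ}
    (hIt : ∀ i ∈ I, t ≤ b.1 i) (hJt : ∀ j ∈ J, t ≤ b.2 j)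
    (ht : 200 * (m + n) * (m * n) ≤ t) (ht0 : 0 < t) {R R' : Tb m n} (hR : R ∈ Par I J b)
    (hR' : R' ∈ Par I J b) :
    ((Om (half b R)).card : ℝ) ≤
      (1 + 200 * (m + n) * (m * n) / t) * (Om (half b R')).card := by
  obtain ⟨ok1, r1, s1, br1, bs1, zr1, zs1⟩ := half_spec hb hI hJ hIt hJt ht ht0 hR
  obtain ⟨ok2, r2, s2, br2, bs2, zr2, zs2⟩ := half_spec hb hI hJ hIt hJt ht ht0 hR'
  have ht0' : (0 : ℝ) < t := by exact_mod_cast ht0
  generalize hc : half b R = c at *
  generalize hc' : half b R' = c' at *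
  by_cases hne : I.Nonempty ∧ J.Nonempty
  swap
  · have hcc : c = c' := by
      have hz : (∀ i, c.1 i = 0 ∧ c'.1 i = 0) ∧ (∀ j, c.2 j = 0 ∧ c'.2 j = 0) := by
        rw [not_and_or, Finset.not_nonempty_iff_eq_empty, Finset.not_nonempty_iff_eq_empty] at hne
        rcases hne with h | h
        · subst h
          have a1 : ∀ i, c.1 i = 0 := by
            intro i
            have e1 := r1 i
            have e2 := hI i (Finset.notMem_empty i)
            have e3 := zr1 i (Finset.notMem_empty i)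
            omega
          have a2 : ∀ i, c'.1 i = 0 := by
            intro i
            have e1 := r2 i
            have e2 := hI i (Finset.notMem_empty i)
            have e3 := zr2 i (Finset.notMem_empty i)
            omega
          have b1 : ∑ j, c.2 j = 0 := by
            rw [← ok1.2.2]
            exact Finset.sum_eq_zero fun i _ => a1 i
          have b2 : ∑ j, c'.2 j = 0 := by
            rw [← ok2.2.2]
            exact Finset.sum_eq_zero fun i _ => a2 i
          rw [Finset.sum_eq_zero_iff_of_nonneg fun j _ => ok1.2.1 j] at b1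
          rw [Finset.sum_eq_zero_iff_of_nonneg fun j _ => ok2.2.1 j] at b2
          exact ⟨fun i => ⟨a1 i, a2 i⟩, fun j => ⟨b1 j (mem_univ _), b2 j (mem_univ _)⟩⟩
        · subst h
          have a1 : ∀ j, c.2 j = 0 := by
            intro j
            have e1 := s1 j
            have e2 := hJ j (Finset.notMem_empty j)
            have e3 := zs1 j (Finset.notMem_empty j)
            omega
          have a2 : ∀ j, c'.2 j = 0 := by
            intro j
            have e1 := s2 j
            have e2 := hJ j (Finset.notMem_empty j)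
            have e3 := zs2 j (Finset.notMem_empty j)
            omega
          have b1 : ∑ i, c.1 i = 0 := by
            rw [ok1.2.2]
            exact Finset.sum_eq_zero fun i _ => a1 i
          have b2 : ∑ i, c'.1 i = 0 := by
            rw [ok2.2.2]
            exact Finset.sum_eq_zero fun i _ => a2 i
          rw [Finset.sum_eq_zero_iff_of_nonneg fun i _ => ok1.1 i] at b1
          rw [Finset.sum_eq_zero_iff_of_nonneg fun i _ => ok2.1 i] at b2
          exact ⟨fun i => ⟨b1 i (mem_univ _), b2 i (mem_univ _)⟩, fun j => ⟨a1 j, a2 j⟩⟩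
      refine Prod.ext (funext fun i => ?_) (funext fun j => ?_)
      · rw [(hz.1 i).1, (hz.1 i).2]
      · rw [(hz.2 j).1, (hz.2 j).2]
    rw [hcc]
    refine le_mul_of_one_le_left (Nat.cast_nonneg _) ?_
    have : (0 : ℝ) ≤ 200 * (m + n) * (m * n) / t := by positivity
    linarith
  · obtain ⟨⟨i0, hi0⟩, ⟨j0, hj0⟩⟩ := hne
    have hm : (1 : ℤ) ≤ m := by
      have := i0.pos
      omega
    have hn : (1 : ℤ) ≤ n := by
      have := j0.pos
      omega
    have hmn1 : (1 : ℤ) ≤ m * n := by nlinarith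
    have ht400 : 400 ≤ t := by nlinarith
    have htn : 200 * n ≤ t := by nlinarith
    have htm : 200 * m ≤ t := by nlinarith
    -- the common upper bound
    obtain ⟨ρ, hρ⟩ : ∃ ρ, ρ = ∑ i, max (c.1 i) (c'.1 i) := ⟨_, rfl⟩
    obtain ⟨σ, hσ⟩ : ∃ σ, σ = ∑ j, max (c.2 j) (c'.2 j) := ⟨_, rfl⟩
    obtain ⟨bp, hbp⟩ : ∃ bp : Mg m n, bp =
        (fun i => max (c.1 i) (c'.1 i) + if i = i0 then max 0 (σ - ρ) else 0,
         fun j => max (c.2 j) (c'.2 j) + if j = j0 then max 0 (ρ - σ) else 0) := ⟨_, rfl⟩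
    have p1 : ∀ i, bp.1 i = max (c.1 i) (c'.1 i) + if i = i0 then max 0 (σ - ρ) else 0 := by
      intro i; rw [hbp]
    have p2 : ∀ j, bp.2 j = max (c.2 j) (c'.2 j) + if j = j0 then max 0 (ρ - σ) else 0 := by
      intro j; rw [hbp]
    have q1 : ∑ i, bp.1 i = ρ + max 0 (σ - ρ) := by
      simp only [p1, Finset.sum_add_distrib, Finset.sum_ite_eq', mem_univ, if_true, ← hρ]
    have q2 : ∑ j, bp.2 j = σ + max 0 (ρ - σ) := by
      simp only [p2, Finset.sum_add_distrib, Finset.sum_ite_eq', mem_univ, if_true, ← hσ]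
    have d1 : ∀ i, c.1 i ≤ bp.1 i ∧ c'.1 i ≤ bp.1 i := by
      intro i
      rw [p1]
      split_ifs <;> omega
    have d2 : ∀ j, c.2 j ≤ bp.2 j ∧ c'.2 j ≤ bp.2 j := by
      intro j
      rw [p2]
      split_ifs <;> omega
    have okp : Ok bp := by
      refine ⟨?_, ?_, ?_⟩
      · intro i
        exact (ok1.1 i).trans (d1 i).1
      · intro j
        exact (ok1.2.1 j).trans (d2 j).1
      · rw [q1, q2]; omega
    have zp1 : ∀ i, i ∉ I → bp.1 i = 0 := by
      intro i hi
      have e1 := r1 i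
      have e2 := r2 i
      have e3 := hI i hi
      have e4 := zr1 i hi
      have e5 := zr2 i hi
      have e6 : i ≠ i0 := fun h => hi (by rw [h]; exact hi0)
      rw [p1, if_neg e6]
      omega
    have zp2 : ∀ j, j ∉ J → bp.2 j = 0 := by
      intro j hj
      have e1 := s1 j
      have e2 := s2 j
      have e3 := hJ j hj
      have e4 := zs1 j hj
      have e5 := zs2 j hj
      have e6 : j ≠ j0 := fun h => hj (by rw [h]; exact hj0)
      rw [p2, if_neg e6]
      omega
    -- the distance
    have g1 : 2 * (ρ - tot c') ≤ m * n := by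
      unfold tot
      rw [hρ, ← Finset.sum_sub_distrib, Finset.mul_sum]
      calc ∑ i, 2 * (max (c.1 i) (c'.1 i) - c'.1 i) ≤ ∑ _i : Fin m, (n : ℤ) := by
            apply Finset.sum_le_sum
            intro i _
            have e1 := r1 i
            have e2 := r2 i
            have e3 := br1 i
            have e4 := br2 i
            omega
        _ = m * n := by simp
    have g2 : 2 * (σ - tot c') ≤ m * n := by
      unfold tot
      rw [ok2.2.2, hσ, ← Finset.sum_sub_distrib, Finset.mul_sum]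
      calc ∑ j, 2 * (max (c.2 j) (c'.2 j) - c'.2 j) ≤ ∑ _j : Fin n, (m : ℤ) := by
            apply Finset.sum_le_sum
            intro j _
            have e1 := s1 j
            have e2 := s2 j
            have e3 := bs1 j
            have e4 := bs2 j
            omega
        _ = m * n := by simp [mul_comm]
    have htot1 : tot c ≤ tot bp := Finset.sum_le_sum fun i _ => (d1 i).1
    have htot2 : tot c' ≤ tot bp := Finset.sum_le_sum fun i _ => (d1 i).2
    have htp : tot bp = ρ + max 0 (σ - ρ) := q1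
    obtain ⟨D1, hD1⟩ := Int.eq_ofNat_of_zero_le (sub_nonneg.2 htot1)
    obtain ⟨D, hD⟩ := Int.eq_ofNat_of_zero_le (sub_nonneg.2 htot2)
    have hDle : 2 * (D : ℤ) ≤ m * n := by
      rw [← hD, htp]
      omega
    -- the threshold
    obtain ⟨t', ht'⟩ : ∃ t' : ℤ, t' = t / 4 := ⟨_, rfl⟩
    have ht'0 : 0 < t' := by omega
    have ht'5 : t ≤ 5 * t' := by omega
    have hmr : (1 : ℝ) ≤ m := by exact_mod_cast hm
    have hnr : (1 : ℝ) ≤ n := by exact_mod_cast hn
    have hT : (200 : ℝ) * (m + n) * (m * n) ≤ t := by exact_mod_cast ht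
    have hT' : (t : ℝ) ≤ 5 * t' := by exact_mod_cast ht'5
    have ht'0r : (0 : ℝ) < t' := by exact_mod_cast ht'0
    have hx : (24 : ℝ) * (m + n) / t' ≤ 120 * (m + n) / t := by
      rw [div_le_div_iff₀ ht'0r ht0']
      have : (0 : ℝ) ≤ m + n := by positivity
      nlinarith
    have hx1 : (120 : ℝ) * (m + n) / t ≤ 1 := by
      rw [div_le_one ht0']
      have h1 : (m : ℝ) + n ≤ (m + n) * (m * n) := by
        have : (1 : ℝ) ≤ m * n := by nlinarith
        nlinarith
      nlinarith
    have k1 := (chain ht'0 (hx.trans hx1) okp zp1 zp2 D1 c ok1 (fun i => (d1 i).1)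
      (fun j => (d2 j).1)
      (by
        intro i hi
        have e1 := r1 i
        have e2 := br1 i
        have e3 := hIt i hi
        omega)
      (by
        intro j hj
        have e1 := s1 j
        have e2 := bs1 j
        have e3 := hJt j hj
        omega)
      (by rw [← hD1]; omega)).1
    have k2 := (chain ht'0 (hx.trans hx1) okp zp1 zp2 D c' ok2 (fun i => (d1 i).2)
      (fun j => (d2 j).2)
      (by
        intro i hi
        have e1 := r2 i
        have e2 := br2 i
        have e3 := hIt i hi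
        omega)
      (by
        intro j hj
        have e1 := s2 j
        have e2 := bs2 j
        have e3 := hJt j hj
        omega)
      (by rw [← hD]; omega)).2
    have hDr : 2 * (D : ℝ) ≤ m * n := by exact_mod_cast hDle
    have hz0 : (0 : ℝ) ≤ (m + n) * (m * n) / t := by positivity
    have hz : ((m : ℝ) + n) * (m * n) / t ≤ 1 / 200 := by
      rw [div_le_div_iff₀ ht0' (by norm_num)]
      linarith
    have hy : (D : ℝ) * (24 * (m + n) / t') ≤ 60 * (((m : ℝ) + n) * (m * n) / t) := by
      calc (D : ℝ) * (24 * (m + n) / t') ≤ D * (120 * (m + n) / t) :=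
            mul_le_mul_of_nonneg_left hx (Nat.cast_nonneg D)
        _ ≤ ((m : ℝ) * n / 2) * (120 * (m + n) / t) :=
            mul_le_mul_of_nonneg_right (by linarith) (by positivity)
        _ = 60 * (((m : ℝ) + n) * (m * n) / t) := by ring
    have fin := final_est (Nat.cast_nonneg _) (hx.trans hx1) hy hz hz0 k1 k2
    calc ((Om c).card : ℝ) ≤ (1 + 200 * (((m : ℝ) + n) * (m * n) / t)) * (Om c').card := fin
      _ = _ := by ring

end P328
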