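import Vale.Agent.P328.Tv

/-!
# P328, module W : concentration of the counts
-/

namespace P328

open Finset
open scoped ENNReal

section ENN

variable {α β : Type}

/-- expectation with values in `[0, ∞]` -/
noncomputable def Ee (μ : PMF α) (g : α → ℝ≥0∞) : ℝ≥0∞ := ∑' a, μ a * g a

theorem Ee_bind (μ : PMF α) (f : α → PMF β) (g : β → ℝ≥0∞) :
    Ee (μ.bind f) g = Ee μ fun a => Ee (f a) g := by
  unfold Ee
  simp_rw [PMF.bind_apply, ← ENNReal.tsum_mul_right, ← ENNReal.tsum_mul_left]
  rw [ENNReal.tsum_comm]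
  refine tsum_congr fun a => tsum_congr fun b => ?_
  rw [mul_assoc]

theorem Ee_pure (a : α) (g : α → ℝ≥0∞) : Ee (PMF.pure a) g = g a := by
  unfold Ee
  rw [tsum_eq_single a]
  · rw [PMF.pure_apply_self, one_mul]
  · intro b hb
    rw [PMF.pure_apply_of_ne _ _ hb, zero_mul]

theorem Ee_mono (μ : PMF α) {g g' : α → ℝ≥0∞} (h : ∀ a, g a ≤ g' a) : Ee μ g ≤ Ee μ g' :=
  ENNReal.tsum_le_tsum fun a => mul_le_mul_right (h a) _

theorem Ee_mul_const (μ : PMF α) (g : α → ℝ≥0∞) (c : ℝ≥0∞) :
    Ee μ (fun a => c * g a) = c * Ee μ g := by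
  unfold Ee
  rw [← ENNReal.tsum_mul_left]
  exact tsum_congr fun a => by ring

open Classical in
/-- expectation of a function with two values -/
theorem Ee_ite (μ : PMF α) (s : Set α) {x y : ℝ} (hx : 0 ≤ x) (hy : 0 ≤ y) :
    Ee μ (fun a => if a ∈ s then ENNReal.ofReal x else ENNReal.ofReal y) =
      ENNReal.ofReal ((μ.toOuterMeasure s).toReal * x + (1 - (μ.toOuterMeasure s).toReal) * y) := by
  have hs : μ.toOuterMeasure s ≤ 1 := by
    rw [PMF.toOuterMeasure_apply, ← μ.tsum_coe]
    exact ENNReal.tsum_le_tsum fun a => Set.indicator_le_self _ _ _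
  have hst : μ.toOuterMeasure s ≠ ⊤ := (hs.trans_lt ENNReal.one_lt_top).ne
  have hadd : μ.toOuterMeasure s + μ.toOuterMeasure sᶜ = 1 := by
    rw [PMF.toOuterMeasure_apply, PMF.toOuterMeasure_apply, ← ENNReal.tsum_add, ← μ.tsum_coe]
    refine tsum_congr fun a => ?_
    by_cases h : a ∈ s
    · rw [Set.indicator_of_mem h, Set.indicator_of_notMem (Set.notMem_compl_iff.mpr h), add_zero]
    · rw [Set.indicator_of_notMem h, Set.indicator_of_mem (show a ∈ sᶜ from h), zero_add]
  have hsc : μ.toOuterMeasure sᶜ = ENNReal.ofReal (1 - (μ.toOuterMeasure s).toReal) := by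
    rw [ENNReal.ofReal_sub _ ENNReal.toReal_nonneg, ENNReal.ofReal_one, ENNReal.ofReal_toReal hst,
      ← hadd, add_comm, ENNReal.add_sub_cancel_right hst]
  have h1 : (μ.toOuterMeasure s).toReal ≤ 1 := by
    rw [← ENNReal.toReal_one]
    exact ENNReal.toReal_mono ENNReal.one_ne_top hs
  have h2 : Ee μ (fun a => if a ∈ s then ENNReal.ofReal x else ENNReal.ofReal y) =
      μ.toOuterMeasure s * ENNReal.ofReal x + μ.toOuterMeasure sᶜ * ENNReal.ofReal y := by
    unfold Ee
    rw [PMF.toOuterMeasure_apply, PMF.toOuterMeasure_apply, ← ENNReal.tsum_mul_right,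
      ← ENNReal.tsum_mul_right, ← ENNReal.tsum_add]
    refine tsum_congr fun a => ?_
    beta_reduce
    by_cases h : a ∈ s
    · rw [Set.indicator_of_mem h, Set.indicator_of_notMem (Set.notMem_compl_iff.mpr h), if_pos h,
        zero_mul, add_zero]
    · rw [Set.indicator_of_notMem h, Set.indicator_of_mem (show a ∈ sᶜ from h), if_neg h, zero_mul,
        zero_add]
  have h3 : ENNReal.ofReal ((μ.toOuterMeasure s).toReal * x) =
      μ.toOuterMeasure s * ENNReal.ofReal x := by
    rw [ENNReal.ofReal_mul ENNReal.toReal_nonneg, ENNReal.ofReal_toReal hst]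
  rw [h2, hsc, ENNReal.ofReal_add (mul_nonneg ENNReal.toReal_nonneg hx)
    (mul_nonneg (by linarith) hy), h3, ENNReal.ofReal_mul (by linarith)]

/-- Markov -/
theorem markov (μ : PMF α) (g : α → ℝ≥0∞) (s : Set α) {c : ℝ≥0∞} (h : ∀ a ∈ s, c ≤ g a) :
    c * μ.toOuterMeasure s ≤ Ee μ g := by
  rw [PMF.toOuterMeasure_apply, ← ENNReal.tsum_mul_left]
  refine ENNReal.tsum_le_tsum fun a => ?_
  by_cases ha : a ∈ s
  · rw [Set.indicator_of_mem ha, mul_comm]
    exact mul_le_mul_right (h a ha) _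
  · rw [Set.indicator_of_notMem ha, mul_zero]
    exact zero_le

theorem outer_le_one {α : Type} (μ : PMF α) (s : Set α) : (μ.toOuterMeasure s).toReal ≤ 1 := by
  have hs : μ.toOuterMeasure s ≤ 1 := by
    rw [PMF.toOuterMeasure_apply, ← μ.tsum_coe]
    exact ENNReal.tsum_le_tsum fun a => Set.indicator_le_self _ _ _
  rw [← ENNReal.toReal_one]
  exact ENNReal.toReal_mono ENNReal.one_ne_top hs

end ENN

variable {m n : ℕ} [NeZero m] [NeZero n]

theorem law_count_succ (b : Mg m n) (e : ℕ) (i : Fin m) (j : Fin n) (h : ℤ) (k : ℕ) :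
    law (count b e i j h (k + 1)) = (law (count b e i j h k)).bind fun z =>
      (law (sampler b e)).bind fun X => PMF.pure (if h ≤ X (i, j) then z + 1 else z) := by
  show law (andThen (count b e i j h k) fun z => andThen (sampler b e) fun X =>
      charge 3 (ret (if h ≤ X (i, j) then z + 1 else z))) = _
  rw [law_andThen]
  congr 1
  funext z
  rw [law_andThen]
  congr 1
  funext X
  rw [law_charge, law_ret]

/-- the exponential moments of the counts -/
theorem Ee_count (b : Mg m n) (e : ℕ) (i : Fin m) (j : Fin n) (h : ℤ) (l : ℝ) (N : ℕ) :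
    Ee (law (count b e i j h N)) (fun z => ENNReal.ofReal (Real.exp (l * z))) =
      ENNReal.ofReal ((((law (sampler b e)).toOuterMeasure {X | h ≤ X (i, j)}).toReal *
        Real.exp l + (1 - ((law (sampler b e)).toOuterMeasure {X | h ≤ X (i, j)}).toReal) * 1) ^ N)
      := by
  classical
  induction N with
  | zero =>
    show Ee (law (ret 0)) _ = _
    rw [law_ret, Ee_pure]
    simp
  | succ N ih =>
    rw [law_count_succ, Ee_bind]
    have h1 : ∀ z : ℕ, Ee ((law (sampler b e)).bind fun X =>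
        PMF.pure (if h ≤ X (i, j) then z + 1 else z))
        (fun z => ENNReal.ofReal (Real.exp (l * z))) =
        ENNReal.ofReal (((law (sampler b e)).toOuterMeasure {X | h ≤ X (i, j)}).toReal *
          Real.exp l + (1 - ((law (sampler b e)).toOuterMeasure {X | h ≤ X (i, j)}).toReal) * 1) *
          ENNReal.ofReal (Real.exp (l * z)) := by
      intro z
      rw [Ee_bind]
      simp_rw [Ee_pure]
      have h2 := Ee_ite (law (sampler b e)) {X | h ≤ X (i, j)} (Real.exp_nonneg l) zero_le_one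
      rw [← h2, mul_comm, ← Ee_mul_const]
      unfold Ee
      refine tsum_congr fun X => ?_
      congr 1
      beta_reduce
      by_cases hX : h ≤ X (i, j)
      · rw [if_pos hX, if_pos (show X ∈ {X : Tb m n | h ≤ X (i, j)} from hX),
          ← ENNReal.ofReal_mul (Real.exp_nonneg _), ← Real.exp_add]
        congr 2
        push_cast
        ring
      · rw [if_neg hX, if_neg (show X ∉ {X : Tb m n | h ≤ X (i, j)} from hX), ENNReal.ofReal_one,
          mul_one]
    simp_rw [h1]
    rw [Ee_mul_const, ih, ← ENNReal.ofReal_mul, pow_succ, mul_comm]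
    have h3 : ((law (sampler b e)).toOuterMeasure {X | h ≤ X (i, j)}).toReal ≤ 1 :=
      outer_le_one _ _
    have h4 : 0 ≤ ((law (sampler b e)).toOuterMeasure {X | h ≤ X (i, j)}).toReal :=
      ENNReal.toReal_nonneg
    have h5 := Real.exp_pos l
    nlinarith [mul_nonneg h4 h5.le]

theorem exp_bound {p l : ℝ} (hp0 : 0 ≤ p) (hp1 : p ≤ 1) (hl : |l| ≤ 1) :
    p * Real.exp l + (1 - p) * 1 ≤ Real.exp (p * l + l ^ 2) := by
  have h1 := (abs_le.mp (Real.abs_exp_sub_one_sub_id_le hl)).2
  have h2 := Real.add_one_le_exp (p * l + l ^ 2)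
  nlinarith [mul_le_mul_of_nonneg_left h1 hp0, sq_nonneg l]

theorem count_conc (b : Mg m n) (e : ℕ) (i : Fin m) (j : Fin n) (h : ℤ) {N : ℕ} (hN : 1 ≤ N)
    {τ : ℝ} (h0 : 0 < τ) (h1 : τ ≤ 1) :
    ((law (count b e i j h N)).toOuterMeasure {z | τ < |(z : ℝ) / N -
      ((law (sampler b e)).toOuterMeasure {X | h ≤ X (i, j)}).toReal|}).toReal ≤
      2 * Real.exp (-(N * τ ^ 2 / 4)) := by
  set μ := law (count b e i j h N) with hμ
  set p := ((law (sampler b e)).toOuterMeasure {X | h ≤ X (i, j)}).toReal with hp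
  have hp0 : 0 ≤ p := ENNReal.toReal_nonneg
  have hp1 : p ≤ 1 := outer_le_one _ _
  have hN' : (0 : ℝ) < N := by exact_mod_cast hN
  have key : ∀ l : ℝ, |l| ≤ 1 → ∀ (s : Set ℕ) (x : ℝ), (∀ z ∈ s, x ≤ l * z) →
      μ.toOuterMeasure s ≤ ENNReal.ofReal (Real.exp (N * (p * l + l ^ 2) - x)) := by
    intro l hl s x hs
    have h2 := markov μ (fun z => ENNReal.ofReal (Real.exp (l * z))) s
      (c := ENNReal.ofReal (Real.exp x)) fun z hz =>
        ENNReal.ofReal_le_ofReal (Real.exp_le_exp.mpr (hs z hz))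
    rw [hμ, Ee_count, ← hp] at h2
    have h3 : ENNReal.ofReal ((p * Real.exp l + (1 - p) * 1) ^ N) ≤
        ENNReal.ofReal (Real.exp (N * (p * l + l ^ 2))) := by
      refine ENNReal.ofReal_le_ofReal ?_
      rw [Real.exp_nat_mul]
      refine pow_le_pow_left₀ ?_ (exp_bound hp0 hp1 hl) N
      have := Real.exp_pos l
      have h5 : 0 ≤ 1 - p := by linarith
      positivity
    have h4 := h2.trans h3
    have h5 : ENNReal.ofReal (Real.exp x) ≠ 0 := by
      rw [Ne, ENNReal.ofReal_eq_zero, not_le]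
      exact Real.exp_pos x
    have h6 : ENNReal.ofReal (Real.exp (N * (p * l + l ^ 2))) = ENNReal.ofReal (Real.exp x) *
        ENNReal.ofReal (Real.exp (N * (p * l + l ^ 2) - x)) := by
      rw [← ENNReal.ofReal_mul (Real.exp_nonneg x), ← Real.exp_add]
      congr 2
      ring
    rw [h6] at h4
    exact (ENNReal.mul_le_mul_iff_right h5 ENNReal.ofReal_ne_top).mp h4
  have hA := key (τ / 2) (by rw [abs_of_pos (by positivity)]; linarith)
    {z | τ < (z : ℝ) / N - p} (τ / 2 * (N * (p + τ))) fun z hz => by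
      have hz' : τ < (z : ℝ) / N - p := hz
      have h2 : p + τ < (z : ℝ) / N := by linarith
      rw [lt_div_iff₀ hN'] at h2
      refine mul_le_mul_of_nonneg_left ?_ (by positivity)
      linarith
  have hB := key (-(τ / 2)) (by rw [abs_neg, abs_of_pos (by positivity)]; linarith)
    {z | (z : ℝ) / N - p < -τ} (-(τ / 2) * (N * (p - τ))) fun z hz => by
      have hz' : (z : ℝ) / N - p < -τ := hz
      have h2 : (z : ℝ) / N < p - τ := by linarith
      rw [div_lt_iff₀ hN'] at h2
      nlinarith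
  have eA : N * (p * (τ / 2) + (τ / 2) ^ 2) - τ / 2 * (N * (p + τ)) = -(N * τ ^ 2 / 4) := by ring
  have eB : N * (p * (-(τ / 2)) + (-(τ / 2)) ^ 2) - -(τ / 2) * (N * (p - τ)) =
      -(N * τ ^ 2 / 4) := by ring
  rw [eA] at hA
  rw [eB] at hB
  have hsub : {z : ℕ | τ < |(z : ℝ) / N - p|} ⊆ {z : ℕ | τ < (z : ℝ) / N - p} ∪
      {z : ℕ | (z : ℝ) / N - p < -τ} := by
    intro z hz
    have hz' : τ < |(z : ℝ) / N - p| := hz
    rcases lt_abs.mp hz' with h2 | h2
    · exact Or.inl h2
    · refine Or.inr ?_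
      show (z : ℝ) / N - p < -τ
      linarith
  have hle : μ.toOuterMeasure {z : ℕ | τ < |(z : ℝ) / N - p|} ≤
      ENNReal.ofReal (2 * Real.exp (-(N * τ ^ 2 / 4))) := by
    refine (MeasureTheory.measure_mono hsub).trans ((MeasureTheory.measure_union_le _ _).trans ?_)
    rw [two_mul, ENNReal.ofReal_add (Real.exp_nonneg _) (Real.exp_nonneg _)]
    exact add_le_add hA hB
  exact ENNReal.toReal_le_of_le_ofReal (by positivity) hle

end P328
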