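import Vale.Agent.P328.Ratio
import Vale.Agent.P328.Basic

/-!
# P328 : congestion
-/

namespace P328

open Finset

section Abstract

variable {E : Type*} [Fintype E] [DecidableEq E] {B : Type*} [AddCommGroup B] [DecidableEq B]
  {M : (E → ℤ) →+ B} {b : B} {lo hi : E → ℤ}

/-- `F` vanishes on the boxes which do not contain `z` and is at most `C` on symmetric boxes -/
def CB (M : (E → ℤ) →+ B) (b : B) (z : E → ℤ) (F : (E → ℤ) → (E → ℤ) → ℝ) (C : ℝ) : Prop :=
  (∀ lo hi, ¬ (lo ≤ z ∧ z ≤ hi) → F lo hi = 0) ∧ ∀ lo hi, M (lo + hi) = b + b → F lo hi ≤ C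

theorem CB.sum_le {z : E → ℤ} {F : (E → ℤ) → (E → ℤ) → ℝ} {C : ℝ} (hF : CB M b z F C)
    (hC : 0 ≤ C) {P Q : (E → ℤ) → (E → ℤ)} (h1 : ∀ u ∈ U M b lo hi, lo ≤ P u ∧ Q u ≤ hi)
    (h2 : ∀ u, P u + Q u = u) :
    ∑ u ∈ U M b lo hi, F (P u) (Q u) ≤ C * (S M (b + b - M z) lo hi).card := by
  classical
  have hle : ∀ u ∈ U M b lo hi, F (P u) (Q u) ≤ if P u ≤ z ∧ z ≤ Q u then C else 0 := by
    intro u hu
    split_ifs with h
    · exact hF.2 _ _ (by rw [h2]; exact M_of_mem_U hu)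
    · rw [hF.1 _ _ h]
  refine (Finset.sum_le_sum hle).trans ?_
  rw [← Finset.sum_filter, Finset.sum_const, nsmul_eq_mul, mul_comm]
  refine mul_le_mul_of_nonneg_left ?_ hC
  rw [Nat.cast_le]
  refine Finset.card_le_card_of_injOn (fun u => u - z) ?_ ?_
  · intro u hu
    obtain ⟨hu1, hu2, hu3⟩ := Finset.mem_filter.1 hu
    obtain ⟨h4, h5⟩ := h1 u hu1
    refine mem_S.2 ⟨⟨?_, ?_⟩, ?_⟩
    · intro e
      have a1 := hu3 e
      have a2 := h4 e
      have a3 := congrFun (h2 u) e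
      simp only [Pi.add_apply, Pi.sub_apply] at *
      linarith
    · intro e
      have a1 := hu2 e
      have a2 := h5 e
      have a3 := congrFun (h2 u) e
      simp only [Pi.add_apply, Pi.sub_apply] at *
      linarith
    · rw [map_sub, M_of_mem_U hu1]
  · intro u _ v _ h
    exact sub_left_injective h

theorem CB.sum_zero {z : E → ℤ} {F : (E → ℤ) → (E → ℤ) → ℝ} {C : ℝ} (hF : CB M b z F C)
    {P Q : (E → ℤ) → (E → ℤ)} (h1 : ∀ u ∈ U M b lo hi, lo ≤ P u ∧ Q u ≤ hi)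
    (h : ¬ (lo ≤ z ∧ z ≤ hi)) : ∑ u ∈ U M b lo hi, F (P u) (Q u) = 0 := by
  refine Finset.sum_eq_zero fun u hu => hF.1 _ _ fun h3 => h ?_
  exact ⟨(h1 u hu).1.trans h3.1, h3.2.trans (h1 u hu).2⟩

theorem two_div_mul_le {s s' C κ : ℝ} (hs : 0 ≤ s) (hC : 0 ≤ C) (hκ : 0 ≤ κ) {X : ℝ}
    (hX : X ≤ C * s') (h : s' ≤ κ * s) : 2 / s * X ≤ κ * (2 * C) := by
  rcases hs.eq_or_lt with h0 | h0
  · rw [← h0]; simp only [div_zero, zero_mul]; positivity
  · rw [div_mul_eq_mul_div, div_le_iff₀ h0]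
    have : C * s' ≤ C * (κ * s) := mul_le_mul_of_nonneg_left h hC
    nlinarith

theorem CB.halve (hR : Rounding M b) {z : E → ℤ} {F : (E → ℤ) → (E → ℤ) → ℝ} {C : ℝ}
    (hF : CB M b z F C) (hC : 0 ≤ C) : CB M b z (halve M b F) (2 * C) := by
  have hsub : ∀ lo hi : E → ℤ, ∀ u ∈ U M b lo hi, lo ≤ Lo lo hi u ∧ Hi lo hi u ≤ hi :=
    fun lo hi u _ => ⟨le_sup_left, inf_le_left⟩
  constructor
  · intro lo hi h
    rw [P328.halve, hF.sum_zero (hsub lo hi) h, mul_zero]
  · intro lo hi h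
    have h1 := hF.sum_le hC (hsub lo hi) (Lo_add_Hi lo hi)
    have h2 := near_card hR h (b + b - M z)
    have h3 : ((S M (b + b - M z) lo hi).card : ℝ) ≤ 1 * (S M b lo hi).card := by
      rw [one_mul]; exact_mod_cast h2
    have := two_div_mul_le (Nat.cast_nonneg _) hC zero_le_one h1 h3
    rw [one_mul] at this
    exact this

theorem CB.iterate (hR : Rounding M b) {z : E → ℤ} {F : (E → ℤ) → (E → ℤ) → ℝ} {C : ℝ}
    (hF : CB M b z F C) (hC : 0 ≤ C) (L : ℕ) : CB M b z ((P328.halve M b)^[L] F) (2 ^ L * C) := by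
  induction L with
  | zero => simpa using hF
  | succ L ih =>
    rw [Function.iterate_succ_apply']
    have := ih.halve hR (by positivity)
    rw [pow_succ]
    convert this using 1
    ring

open Classical in
/-- the function of pairs -/
noncomputable def hz (M : (E → ℤ) →+ B) (b : B) (z x y : E → ℤ) : ℝ :=
  if Near x y ∧ ¬ Bad M b x y ∧ x ⊓ y ≤ z ∧ z ≤ x ⊔ y then 1 else 0

theorem sum_hz_le (z lo hi : E → ℤ) :
    ∑ x ∈ S M b lo hi, ∑ y ∈ S M b lo hi, hz M b z x y ≤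
      2 * (S M (b + b - M z) lo hi).card := by
  classical
  have e1 : ∑ x ∈ S M b lo hi, ∑ y ∈ S M b lo hi, hz M b z x y =
      ((((S M b lo hi) ×ˢ (S M b lo hi)).filter fun p => Near p.1 p.2 ∧ ¬ Bad M b p.1 p.2 ∧
        p.1 ⊓ p.2 ≤ z ∧ z ≤ p.1 ⊔ p.2).card : ℝ) := by
    rw [← Finset.sum_product', Finset.card_filter]
    push_cast
    refine Finset.sum_congr rfl fun p _ => ?_
    rw [hz]
  rw [e1]
  have key := Finset.card_le_mul_card_image_of_maps_to
    (s := ((S M b lo hi) ×ˢ (S M b lo hi)).filter fun p => Near p.1 p.2 ∧ ¬ Bad M b p.1 p.2 ∧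
        p.1 ⊓ p.2 ≤ z ∧ z ≤ p.1 ⊔ p.2) (t := S M (b + b - M z) lo hi)
    (f := fun p => p.1 + p.2 - z) ?_ 2 ?_
  · exact_mod_cast key
  · intro p hp
    obtain ⟨hp1, -, -, hp4, hp5⟩ := Finset.mem_filter.1 hp
    obtain ⟨hx, hy⟩ := Finset.mem_product.1 hp1
    obtain ⟨⟨x1, x2⟩, x3⟩ := mem_S.1 hx
    obtain ⟨⟨y1, y2⟩, y3⟩ := mem_S.1 hy
    refine mem_S.2 ⟨⟨?_, ?_⟩, ?_⟩
    · intro e
      have a1 := x1 e
      have a2 := y1 e
      have a3 := hp5 e
      simp only [Pi.add_apply, Pi.sub_apply, Pi.sup_apply] at *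
      rcases le_total (p.1 e) (p.2 e) with h | h
      · rw [sup_eq_right.2 h] at a3; linarith
      · rw [sup_eq_left.2 h] at a3; linarith
    · intro e
      have a1 := x2 e
      have a2 := y2 e
      have a3 := hp4 e
      simp only [Pi.add_apply, Pi.sub_apply, Pi.inf_apply] at *
      rcases le_total (p.1 e) (p.2 e) with h | h
      · rw [inf_eq_left.2 h] at a3; linarith
      · rw [inf_eq_right.2 h] at a3; linarith
    · rw [map_sub, map_add, x3, y3]
  · intro w _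
    by_contra hcon
    push Not at hcon
    obtain ⟨p, hp⟩ := Finset.card_pos.1 (lt_trans zero_lt_two hcon)
    obtain ⟨hp0, hpw⟩ := Finset.mem_filter.1 hp
    obtain ⟨hp1, -, hp3, -, -⟩ := Finset.mem_filter.1 hp0
    refine hp3 ?_
    have hpw' : p.1 + p.2 = z + w := by rw [← hpw]; abel
    rw [Bad, hpw']
    refine hcon.trans_le ?_
    refine Finset.card_le_card_of_injOn Prod.fst ?_ ?_
    · intro q hq
      obtain ⟨hq0, hqw⟩ := Finset.mem_filter.1 hq
      obtain ⟨hq1, hq2, -, -, -⟩ := Finset.mem_filter.1 hq0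
      obtain ⟨hx, hy⟩ := Finset.mem_product.1 hq1
      have hqw' : q.1 + q.2 = z + w := by
        have : q.1 + q.2 - z = w := hqw
        rw [← this]; abel
      rw [← hqw']
      refine mem_S.2 ⟨⟨?_, ?_⟩, (mem_S.1 hx).2⟩
      · intro e
        have := abs_le.1 (hq2 e)
        simp only [Dn, Pi.add_apply]
        omega
      · intro e
        have := abs_le.1 (hq2 e)
        simp only [Up, Pi.add_apply]
        omega
    · intro q hq r hr h
      obtain ⟨_, hqw⟩ := Finset.mem_filter.1 hq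
      obtain ⟨_, hrw⟩ := Finset.mem_filter.1 hr
      have h1 : q.1 + q.2 - z = r.1 + r.2 - z := hqw.trans hrw.symm
      have h2 : q.1 = r.1 := h
      rw [h2] at h1
      have h3 : q.2 = r.2 := by
        have := sub_left_injective h1
        exact add_left_cancel this
      exact Prod.ext h2 h3

theorem CB.base (hR : Rounding M b) (z : E → ℤ) : CB M b z (T0 M b (hz M b z)) 2 := by
  constructor
  · intro lo hi h
    rw [T0]
    have : ∑ x ∈ S M b lo hi, ∑ y ∈ S M b lo hi, hz M b z x y = 0 := by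
      refine Finset.sum_eq_zero fun x hx => Finset.sum_eq_zero fun y hy => ?_
      rw [hz, if_neg]
      rintro ⟨-, -, h3, h4⟩
      obtain ⟨⟨x1, x2⟩, x3⟩ := mem_S.1 hx
      obtain ⟨⟨y1, y2⟩, y3⟩ := mem_S.1 hy
      exact h ⟨(le_inf x1 y1).trans h3, h4.trans (sup_le x2 y2)⟩
    rw [this, zero_div]
  · intro lo hi h
    rw [T0]
    have h1 := sum_hz_le (M := M) (b := b) z lo hi
    have h2 := near_card hR h (b + b - M z)
    rcases (Nat.cast_nonneg (α := ℝ) (S M b lo hi).card).eq_or_lt with h0 | h0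
    · rw [← h0, div_zero]; norm_num
    · rw [div_le_iff₀ h0]
      have : ((S M (b + b - M z) lo hi).card : ℝ) ≤ (S M b lo hi).card := by exact_mod_cast h2
      linarith

theorem CB.B0 (hR : Rounding M b) (z : E → ℤ) (L : ℕ) :
    CB M b z (B0 M b (hz M b z) L) (2 * (2 ^ L * 2)) := by
  have hT : CB M b z (T M b (hz M b z) L) (2 ^ L * 2) :=
    (CB.base hR z).iterate hR zero_le_two L
  have hsub : ∀ lo hi : E → ℤ, ∀ u ∈ U M b lo hi, lo ≤ Dn u ∧ Up u ≤ hi := by
    intro lo hi u hu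
    obtain ⟨h1, h2⟩ := Dn_Up_sub hu
    exact ⟨le_trans le_sup_left h1, h2.trans inf_le_left⟩
  constructor
  · intro lo hi h
    rw [P328.B0, hT.sum_zero (hsub lo hi) h, mul_zero]
  · intro lo hi h
    have h1 := hT.sum_le (by positivity) (hsub lo hi) Dn_add_Up
    have h2 := near_card hR h (b + b - M z)
    have h3 : ((S M (b + b - M z) lo hi).card : ℝ) ≤ 1 * (S M b lo hi).card := by
      rw [one_mul]; exact_mod_cast h2
    have := two_div_mul_le (Nat.cast_nonneg _) (by positivity) zero_le_one h1 h3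
    rw [one_mul] at this
    exact this

open Classical in
/-- congestion -/
theorem cong (hR : Rounding M b) (z : E → ℤ) {κ : ℝ} (hκ : 0 ≤ κ)
    (h : ((S M (b + b - M z) lo hi).card : ℝ) ≤ κ * (S M b lo hi).card) (L1 L2 : ℕ) :
    (halve M b)^[L1 + 1] (B0 M b (fun x y => if Near x y ∧ ¬ Bad M b x y ∧ x ⊓ y ≤ z ∧ z ≤ x ⊔ y
      then 1 else 0) L2) lo hi ≤ κ * 2 ^ (L1 + L2 + 3) := by
  have h1 := (CB.B0 hR z L2).iterate hR (by positivity) L1
  have e : (fun x y => if Near x y ∧ ¬ Bad M b x y ∧ x ⊓ y ≤ z ∧ z ≤ x ⊔ y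
      then (1 : ℝ) else 0) = hz M b z := rfl
  rw [e, Function.iterate_succ_apply', P328.halve]
  have h2 := h1.sum_le (lo := lo) (hi := hi) (by positivity)
    (fun u _ => ⟨le_sup_left, inf_le_left⟩) (Lo_add_Hi lo hi)
  have h3 := two_div_mul_le (Nat.cast_nonneg _) (by positivity) hκ h2 h
  refine h3.trans (le_of_eq ?_)
  ring

end Abstract

end P328
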