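import Vale.Agent.P328.StageAux

/-!
# P328, module O2 : mixing of the chain of unit moves from a warm start
-/

namespace P328

open Finset

variable {m n : ℕ} [NeZero m] [NeZero n]

theorem poinc_K {b : Mg m n} {N0 : ℕ} (hN0 : (N0 : ℤ) = tot b)
    (L1 L2 : ℕ) (f : {X // X ∈ Om b} → ℝ) {W : ℝ} (hfW : ∀ x y, (f x - f y) ^ 2 ≤ W) :
    (∑ x, ∑ y, (f x - f y) ^ 2) / (Om b).card ≤
      ((m : ℝ) * n) ^ 5 * ((m : ℝ) * n + 1) * 2 ^ (L1 + L2 + 3) *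
        ∑ x, ∑ y, KK' b x y * (f x - f y) ^ 2 +
      ((m : ℝ) * n * N0 ^ 4 * (2 / 3) ^ (L1 + 1) +
        2 ^ (L1 + 2) * ((m : ℝ) * n) ^ 2 * (1 / 2) ^ L2) * W * (Om b).card := by
  classical
  have hOm : Om b = tab (N0 : ℤ) b := by rw [hN0]; rfl
  obtain ⟨F, hFx⟩ : ∃ F : Tb m n → ℝ, ∀ x : {X // X ∈ Om b}, F x.1 = f x :=
    ⟨fun X => if h : X ∈ Om b then f ⟨X, h⟩ else 0, fun x => by
      simp only
      rw [dif_pos x.2]⟩
  have hW' : ∀ x ∈ tab (N0 : ℤ) b, ∀ y ∈ tab (N0 : ℤ) b, (F x - F y) ^ 2 ≤ W := by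
    rw [← hOm]
    intro x hx y hy
    have := hfW ⟨x, hx⟩ ⟨y, hy⟩
    rwa [← hFx, ← hFx] at this
  have hsum : ∑ i, b.1 i ≤ (N0 : ℤ) := by rw [hN0]; exact le_rfl
  have hpo := poincare (N := N0) (b := b) hsum F hW' L1 L2
  rw [← hOm] at hpo
  have e1 : ∑ x ∈ Om b, ∑ y ∈ Om b, (F x - F y) ^ 2 =
      ∑ x : {X // X ∈ Om b}, ∑ y : {X // X ∈ Om b}, (f x - f y) ^ 2 := by
    rw [← Finset.sum_coe_sort (Om b)]
    refine Finset.sum_congr rfl fun x _ => ?_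
    rw [← Finset.sum_coe_sort (Om b)]
    refine Finset.sum_congr rfl fun y _ => ?_
    rw [hFx, hFx]
  have e2 : ∑ x : {X // X ∈ Om b}, ∑ y, KK' b x y * (f x - f y) ^ 2 =
      (∑ X ∈ Om b, DD F X) / ((m : ℝ) * n) ^ 2 := by
    rw [← sum_KK'_sq b F]
    refine Finset.sum_congr rfl fun x _ => Finset.sum_congr rfl fun y _ => ?_
    rw [hFx, hFx]
  rw [← e1, e2]
  refine hpo.trans (le_of_eq ?_)
  have hx0 : ((m : ℝ) * n) ≠ 0 := (mn_pos (m := m) (n := n)).ne'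
  generalize (∑ X ∈ Om b, DD F X) = D
  generalize ((Om b).card : ℝ) = c
  generalize hx : (m : ℝ) * n = x at hx0
  have e3 : x ^ 5 * (x + 1) * 2 ^ (L1 + L2 + 3) * (D / x ^ 2) =
      x ^ 3 * (x + 1) * 2 ^ (L1 + L2 + 3) * D := by
    field_simp
  rw [e3]
  ring

theorem stage_final {m' n' N e R P : ℝ} (hs : 1 ≤ m' + n') (hNe : 1 ≤ (N + 1) * e)
    (hP : P = (m' + n') * (N + 1) * e) (h1 : R ^ 2 ≤ 3 / P ^ 2) :
    R / 2 ≤ 1 / ((N + 1) * e) := by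
  have hPe : P = (m' + n') * ((N + 1) * e) := by rw [hP]; ring
  generalize (N + 1) * e = v at *
  have hPN : v ≤ P := by rw [hPe]; nlinarith
  have hP0 : 0 < P := by linarith
  have h2 : R ^ 2 ≤ (2 / v) ^ 2 := by
    refine h1.trans ?_
    rw [div_pow, div_le_div_iff₀ (by positivity) (by positivity)]
    have h3 : v ^ 2 ≤ P ^ 2 := pow_le_pow_left₀ (by linarith) hPN 2
    nlinarith [sq_nonneg P]
  have h4 : R ≤ 2 / v := (abs_le.1 (abs_le_of_sq_le_sq h2 (by positivity))).2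
  have h5 : 1 / v = 2 / v / 2 := by ring
  rw [h5]
  linarith

theorem stage_T {N e T : ℕ} {P : ℝ} (hP : P = ((m : ℝ) + n) * (N + 1) * e)
    (hT : (50 * (m + n) * (N + 1) * e) ^ 100 ≤ T) : (50 * P) ^ 100 ≤ (T : ℝ) := by
  have h1 : (((50 * (m + n) * (N + 1) * e) ^ 100 : ℕ) : ℝ) ≤ (T : ℝ) := Nat.cast_le.2 hT
  rw [Nat.cast_pow] at h1
  have h2 : ((50 * (m + n) * (N + 1) * e : ℕ) : ℝ) = 50 * P := by rw [hP]; push_cast; ring
  rwa [h2] at h1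

theorem stage_sizes {N e : ℕ} (he : 1 ≤ e) {P : ℝ} (hP : P = ((m : ℝ) + n) * (N + 1) * e) :
    1 ≤ (m : ℝ) + n ∧ 1 ≤ ((N : ℝ) + 1) * e ∧ 1 ≤ P ∧ (m : ℝ) * n + 1 ≤ P ^ 2 ∧ (N : ℝ) ≤ P ∧
      (1 : ℝ) ≤ (m : ℝ) * n := by
  have hm1 : (1 : ℝ) ≤ m := by exact_mod_cast Nat.pos_of_ne_zero (NeZero.ne m)
  have hn1 : (1 : ℝ) ≤ n := by exact_mod_cast Nat.pos_of_ne_zero (NeZero.ne n)
  have he1 : (1 : ℝ) ≤ e := by exact_mod_cast he
  have hN0 : (0 : ℝ) ≤ N := Nat.cast_nonneg _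
  generalize (m : ℝ) = x at *
  generalize (n : ℝ) = y at *
  generalize (N : ℝ) = z at *
  generalize (e : ℝ) = w at *
  have hNe : 1 ≤ (z + 1) * w := by nlinarith
  have hP' : P = (x + y) * ((z + 1) * w) := by rw [hP]; ring
  have hzv : z ≤ (z + 1) * w := by nlinarith
  generalize (z + 1) * w = v at *
  have hPs : x + y ≤ P := by rw [hP']; nlinarith
  have hPN : v ≤ P := by rw [hP']; nlinarith
  have h1 : (x + y) ^ 2 ≤ P ^ 2 := pow_le_pow_left₀ (by linarith) hPs 2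
  refine ⟨by linarith, hNe, by linarith, by nlinarith, by linarith, by nlinarith⟩

theorem stage_mix {b : Mg m n} {N0 T : ℕ} (hN0 : (N0 : ℤ) = tot b) (hne : (Om b).Nonempty)
    {L1 L2 : ℕ} {A η : ℝ} (hA : A = ((m : ℝ) * n) ^ 5 * ((m : ℝ) * n + 1) * 2 ^ (L1 + L2 + 3))
    (hA1 : 1 ≤ A) (hη : η = (m : ℝ) * n * N0 ^ 4 * (2 / 3) ^ (L1 + 1) +
      2 ^ (L1 + 2) * ((m : ℝ) * n) ^ 2 * (1 / 2) ^ L2) (μ : PMF (Tb m n))
    (hμ : ∀ X, X ∉ Om b → μ X = 0)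
    (hQ : ∀ X, (μ X).toReal ≤ ((m : ℝ) * n + 1) / (Om b).card) :
    ((∑ x, |(lazy (KK' b))^[T] (dens b μ) x - 1|) / (Om b).card) ^ 2 ≤
      ((m : ℝ) * n + 1) ^ 2 * ((1 - 1 / (2 * A)) ^ T + η) := by
  haveI : Nonempty {X // X ∈ Om b} := ⟨⟨hne.choose, hne.choose_spec⟩⟩
  have hcard : Fintype.card {X // X ∈ Om b} = (Om b).card := Fintype.card_coe _
  have hc : (0 : ℝ) < (Om b).card := by exact_mod_cast Finset.card_pos.2 hne
  have hη0 : 0 ≤ η := by rw [hη]; positivity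
  rw [← hcard]
  refine warm_mixing (KK' b) (KK'_nonneg b) (KK'_symm b) (KK'_row b) hA1 hη0 ?_ ?_ ?_ ?_ T
  · intro f W hfW
    rw [hcard, hA, hη]
    exact poinc_K hN0 L1 L2 f hfW
  · intro x
    exact mul_nonneg hc.le ENNReal.toReal_nonneg
  · intro x
    have := hQ x.1
    rw [le_div_iff₀ hc] at this
    unfold dens
    linarith
  · rw [hcard]
    unfold dens
    rw [← Finset.mul_sum, Finset.sum_coe_sort (Om b) (fun X => (μ X).toReal)]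
    have h1 : ∑ X ∈ Om b, (μ X).toReal = 1 := by
      rw [← tsum_pmf μ, tsum_eq_sum (s := Om b)]
      intro X hX
      rw [hμ X hX, ENNReal.toReal_zero]
    rw [h1, mul_one]

theorem mix_tv {b : Mg m n} (hb : Ok b) {N e T : ℕ} (hN : tot b ≤ N) (he : 1 ≤ e)
    (hT : (50 * (m + n) * (N + 1) * e) ^ 100 ≤ T) (μ : PMF (Tb m n))
    (hμ : ∀ X, X ∉ Om b → μ X = 0)
    (hQ : ∀ X, (μ X).toReal ≤ ((m : ℝ) * n + 1) / (Om b).card) :
    tv (μ.bind fun X => law (mix T X)) (unifOm b) ≤ 1 / ((N + 1) * e) := by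
  -- `Om b` is not empty
  have hne : (Om b).Nonempty := by
    by_contra hcon
    rw [Finset.not_nonempty_iff_eq_empty] at hcon
    have h1 := μ.tsum_coe
    have h2 : ∑' a, μ a = 0 := ENNReal.tsum_eq_zero.2 fun a => hμ a (by rw [hcon]; simp)
    rw [h2] at h1
    exact zero_ne_one h1
  obtain ⟨hz, hd⟩ := dens_mix (b := b) T μ hμ
  rw [tv_dens _ hz hne, hd]
  -- the total
  have htot : 0 ≤ tot b := Finset.sum_nonneg fun i _ => hb.1 i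
  obtain ⟨N0, hN0⟩ : ∃ N0 : ℕ, (N0 : ℤ) = tot b := ⟨(tot b).toNat, Int.toNat_of_nonneg htot⟩
  have hN0N : (N0 : ℝ) ≤ N := by
    have : (N0 : ℤ) ≤ N := by rw [hN0]; exact hN
    exact_mod_cast this
  obtain ⟨P, hP⟩ : ∃ P : ℝ, P = ((m : ℝ) + n) * (N + 1) * e := ⟨_, rfl⟩
  obtain ⟨g1, g2, g3, g4, g5, g6⟩ := stage_sizes he hP
  obtain ⟨L1, L2, hA1, hfin⟩ := stage_numeric (T := T) (N0 := N0) g6 g4 g3 (hN0N.trans g5)
    (stage_T hP hT)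
  have h1 := stage_mix (T := T) hN0 hne rfl hA1 rfl μ hμ hQ
  exact stage_final g1 g2 hP (h1.trans hfin)

end P328
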