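import Vale.Agent.P328.Defs
import Vale.Agent.P328.Defs2

/-!
# P328, module N : tools for the total variation distance and for programs
-/

namespace P328

open Finset

section Tools

variable {α β : Type}

theorem pmf_ne_top (μ : PMF α) (a : α) : μ a ≠ ⊤ := μ.apply_ne_top a

theorem summable_pmf (μ : PMF α) : Summable fun a => (μ a).toReal := by
  refine ENNReal.summable_toReal ?_
  rw [μ.tsum_coe]
  exact ENNReal.one_ne_top

theorem tsum_pmf (μ : PMF α) : ∑' a, (μ a).toReal = 1 := by
  rw [← ENNReal.tsum_toReal_eq (pmf_ne_top μ), μ.tsum_coe, ENNReal.toReal_one]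

theorem summable_diff (μ ν : PMF α) : Summable fun a => |(μ a).toReal - (ν a).toReal| :=
  ((summable_pmf μ).sub (summable_pmf ν)).abs

theorem tv_nonneg (μ ν : PMF α) : 0 ≤ tv μ ν := by
  unfold tv
  have : 0 ≤ ∑' a, |(μ a).toReal - (ν a).toReal| := tsum_nonneg fun a => abs_nonneg _
  linarith

theorem tv_comm (μ ν : PMF α) : tv μ ν = tv ν μ := by
  unfold tv
  simp only [abs_sub_comm]

theorem tv_le_one (μ ν : PMF α) : tv μ ν ≤ 1 := by
  unfold tv
  have h1 : ∑' a, |(μ a).toReal - (ν a).toReal| ≤ ∑' a, ((μ a).toReal + (ν a).toReal) := by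
    refine Summable.tsum_le_tsum (fun a => ?_) (summable_diff μ ν)
      ((summable_pmf μ).add (summable_pmf ν))
    have h2 : 0 ≤ (μ a).toReal := ENNReal.toReal_nonneg
    have h3 : 0 ≤ (ν a).toReal := ENNReal.toReal_nonneg
    rw [abs_le]
    constructor <;> linarith
  rw [(summable_pmf μ).tsum_add (summable_pmf ν), tsum_pmf, tsum_pmf] at h1
  linarith

theorem tv_triangle (μ ν ξ : PMF α) : tv μ ξ ≤ tv μ ν + tv ν ξ := by
  unfold tv
  have h1 : ∑' a, |(μ a).toReal - (ξ a).toReal| ≤
      ∑' a, (|(μ a).toReal - (ν a).toReal| + |(ν a).toReal - (ξ a).toReal|) := by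
    refine Summable.tsum_le_tsum (fun a => ?_) (summable_diff μ ξ)
      ((summable_diff μ ν).add (summable_diff ν ξ))
    exact abs_sub_le _ _ _
  rw [(summable_diff μ ν).tsum_add (summable_diff ν ξ)] at h1
  linarith

theorem tv_self (μ : PMF α) : tv μ μ = 0 := by
  unfold tv
  simp

/-- test functions with values in `[0, 1]` -/
theorem tv_test (μ ν : PMF α) (f : α → ℝ) (h0 : ∀ a, 0 ≤ f a) (h1 : ∀ a, f a ≤ 1) :
    |∑' a, (μ a).toReal * f a - ∑' a, (ν a).toReal * f a| ≤ tv μ ν := by
  have hf : ∀ a, ‖f a‖ ≤ 1 := fun a => by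
    rw [Real.norm_of_nonneg (h0 a)]
    exact h1 a
  have hsμ : Summable fun a => (μ a).toReal * f a := by
    refine Summable.of_nonneg_of_le (fun a => mul_nonneg ENNReal.toReal_nonneg (h0 a))
      (fun a => ?_) (summable_pmf μ)
    exact mul_le_of_le_one_right ENNReal.toReal_nonneg (h1 a)
  have hsν : Summable fun a => (ν a).toReal * f a := by
    refine Summable.of_nonneg_of_le (fun a => mul_nonneg ENNReal.toReal_nonneg (h0 a))
      (fun a => ?_) (summable_pmf ν)
    exact mul_le_of_le_one_right ENNReal.toReal_nonneg (h1 a)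
  have hd : Summable fun a => (μ a).toReal - (ν a).toReal := (summable_pmf μ).sub (summable_pmf ν)
  have hd0 : ∑' a, ((μ a).toReal - (ν a).toReal) = 0 := by
    rw [(summable_pmf μ).tsum_sub (summable_pmf ν), tsum_pmf, tsum_pmf, sub_self]
  have h2 : ∑' a, (μ a).toReal * f a - ∑' a, (ν a).toReal * f a =
      ∑' a, ((μ a).toReal - (ν a).toReal) * (f a - 1 / 2) := by
    have h3 : ∑' a, (((μ a).toReal * f a - (ν a).toReal * f a) -
        ((μ a).toReal - (ν a).toReal) * (1 / 2)) =
        (∑' a, (μ a).toReal * f a - ∑' a, (ν a).toReal * f a) - 0 * (1 / 2) := by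
      rw [(hsμ.sub hsν).tsum_sub (hd.mul_right _), hsμ.tsum_sub hsν, tsum_mul_right, hd0]
    rw [zero_mul, sub_zero] at h3
    rw [← h3]
    exact tsum_congr fun a => by ring
  have hs2 : Summable fun a => |(μ a).toReal - (ν a).toReal| * (1 / 2) :=
    (summable_diff μ ν).mul_right _
  have hb : ∀ a, ‖((μ a).toReal - (ν a).toReal) * (f a - 1 / 2)‖ ≤
      |(μ a).toReal - (ν a).toReal| * (1 / 2) := by
    intro a
    rw [norm_mul, Real.norm_eq_abs, Real.norm_eq_abs]
    refine mul_le_mul_of_nonneg_left ?_ (abs_nonneg _)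
    rw [abs_le]
    constructor <;> linarith [h0 a, h1 a]
  rw [h2, ← Real.norm_eq_abs]
  refine (tsum_of_norm_bounded hs2.hasSum hb).trans ?_
  rw [tsum_mul_right]
  unfold tv
  linarith

theorem toReal_outer (μ : PMF α) (s : Set α) :
    (μ.toOuterMeasure s).toReal = ∑' a, (μ a).toReal * s.indicator (fun _ => (1 : ℝ)) a := by
  rw [PMF.toOuterMeasure_apply, ENNReal.tsum_toReal_eq]
  · refine tsum_congr fun a => ?_
    by_cases h : a ∈ s
    · rw [Set.indicator_of_mem h, Set.indicator_of_mem h, mul_one]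
    · rw [Set.indicator_of_notMem h, Set.indicator_of_notMem h, mul_zero, ENNReal.toReal_zero]
  · intro a
    by_cases h : a ∈ s
    · rw [Set.indicator_of_mem h]
      exact pmf_ne_top μ a
    · rw [Set.indicator_of_notMem h]
      exact ENNReal.zero_ne_top

theorem tv_event (μ ν : PMF α) (s : Set α) :
    |(μ.toOuterMeasure s).toReal - (ν.toOuterMeasure s).toReal| ≤ tv μ ν := by
  rw [toReal_outer, toReal_outer]
  refine tv_test μ ν _ (fun a => ?_) fun a => ?_
  · exact Set.indicator_nonneg (fun _ _ => zero_le_one) a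
  · exact Set.indicator_le_self' (fun _ _ => zero_le_one) a

theorem toReal_bind (μ : PMF α) (f : α → PMF β) (b : β) :
    ((μ.bind f) b).toReal = ∑' a, (μ a).toReal * (f a b).toReal := by
  rw [PMF.bind_apply, ENNReal.tsum_toReal_eq]
  · exact tsum_congr fun a => ENNReal.toReal_mul
  · exact fun a => ENNReal.mul_ne_top (pmf_ne_top μ a) (pmf_ne_top _ b)

theorem summable_bind (μ : PMF α) (f : α → PMF β) (b : β) :
    Summable fun a => (μ a).toReal * (f a b).toReal := by
  refine Summable.of_nonneg_of_le (fun a => mul_nonneg ENNReal.toReal_nonneg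
    ENNReal.toReal_nonneg) (fun a => ?_) (summable_pmf μ)
  refine mul_le_of_le_one_right ENNReal.toReal_nonneg ?_
  rw [← ENNReal.toReal_one]
  exact ENNReal.toReal_mono ENNReal.one_ne_top (PMF.coe_le_one _ _)

theorem tsum_swap_le {G : α → β → ℝ} (hG : ∀ a b, 0 ≤ G a b) (h1 : ∀ a, Summable (G a))
    (h2 : Summable fun a => ∑' b, G a b) {F : β → ℝ}
    (hF : ∀ b, |F b| ≤ ∑' a, G a b) : ∑' b, |F b| ≤ ∑' a, ∑' b, G a b := by
  have hs : Summable fun p : α × β => G p.1 p.2 :=
    (summable_prod_of_nonneg fun p => hG p.1 p.2).mpr ⟨h1, h2⟩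
  have hs' : Summable fun p : β × α => G p.2 p.1 := hs.prod_symm
  have h3 : Summable fun b => ∑' a, G a b :=
    ((summable_prod_of_nonneg fun p : β × α => hG p.2 p.1).mp hs').2
  have h4 : Summable fun b => |F b| := Summable.of_nonneg_of_le (fun _ => abs_nonneg _) hF h3
  refine (Summable.tsum_le_tsum hF h4 h3).trans (le_of_eq ?_)
  exact Summable.tsum_comm (f := fun a b => G a b) hs

theorem tv_bind_left (μ ν : PMF α) (f : α → PMF β) : tv (μ.bind f) (ν.bind f) ≤ tv μ ν := by
  unfold tv
  have hG : ∀ a b, 0 ≤ |(μ a).toReal - (ν a).toReal| * (f a b).toReal := fun a b =>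
    mul_nonneg (abs_nonneg _) ENNReal.toReal_nonneg
  have hs : ∀ a, ∑' b, |(μ a).toReal - (ν a).toReal| * (f a b).toReal =
      |(μ a).toReal - (ν a).toReal| := fun a => by rw [tsum_mul_left, tsum_pmf, mul_one]
  have h1 := tsum_swap_le (F := fun b => ((μ.bind f) b).toReal - ((ν.bind f) b).toReal) hG
    (fun a => (summable_pmf (f a)).mul_left _) (by simp_rw [hs]; exact summable_diff μ ν)
    (fun b => by
      have hs3 : Summable fun a => |(μ a).toReal - (ν a).toReal| * (f a b).toReal := by
        refine Summable.of_nonneg_of_le (fun a => hG a b) (fun a => ?_) (summable_diff μ ν)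
        refine mul_le_of_le_one_right (abs_nonneg _) ?_
        rw [← ENNReal.toReal_one]
        exact ENNReal.toReal_mono ENNReal.one_ne_top (PMF.coe_le_one _ _)
      rw [toReal_bind, toReal_bind, ← (summable_bind μ f b).tsum_sub (summable_bind ν f b),
        ← Real.norm_eq_abs]
      refine tsum_of_norm_bounded hs3.hasSum fun a => ?_
      rw [← sub_mul, norm_mul, Real.norm_eq_abs, Real.norm_of_nonneg ENNReal.toReal_nonneg])
  simp_rw [hs] at h1
  linarith

theorem tv_map (μ ν : PMF α) (f : α → β) : tv (μ.map f) (ν.map f) ≤ tv μ ν := by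
  rw [← PMF.bind_pure_comp, ← PMF.bind_pure_comp]
  exact tv_bind_left μ ν _

/-- comparison of two kernels outside of a set `s` of small probability -/
theorem tv_bind_right (μ : PMF α) (f g : α → PMF β) (s : Set α) {ε : ℝ} (hε : 0 ≤ ε)
    (h : ∀ a ∈ μ.support, a ∉ s → tv (f a) (g a) ≤ ε) :
    tv (μ.bind f) (μ.bind g) ≤ ε + (μ.toOuterMeasure s).toReal := by
  have hG : ∀ a b, 0 ≤ (μ a).toReal * |(f a b).toReal - (g a b).toReal| := fun a b =>
    mul_nonneg ENNReal.toReal_nonneg (abs_nonneg _)
  have hs : ∀ a, ∑' b, (μ a).toReal * |(f a b).toReal - (g a b).toReal| =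
      (μ a).toReal * (2 * tv (f a) (g a)) := fun a => by
    rw [tsum_mul_left]
    unfold tv
    ring
  have hs1 : ∀ a, (μ a).toReal * (2 * tv (f a) (g a)) ≤ (μ a).toReal * 2 := fun a =>
    mul_le_mul_of_nonneg_left (by linarith [tv_le_one (f a) (g a)]) ENNReal.toReal_nonneg
  have hs2 : Summable fun a => (μ a).toReal * (2 * tv (f a) (g a)) :=
    Summable.of_nonneg_of_le (fun a => mul_nonneg ENNReal.toReal_nonneg
      (by linarith [tv_nonneg (f a) (g a)])) hs1 ((summable_pmf μ).mul_right 2)
  have h1 := tsum_swap_le (F := fun b => ((μ.bind f) b).toReal - ((μ.bind g) b).toReal) hG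
    (fun a => (summable_diff (f a) (g a)).mul_left _) (by simp_rw [hs]; exact hs2)
    (fun b => by
      have hs3 : Summable fun a => (μ a).toReal * |(f a b).toReal - (g a b).toReal| := by
        refine Summable.of_nonneg_of_le (fun a => hG a b) (fun a => ?_) (summable_pmf μ)
        refine mul_le_of_le_one_right ENNReal.toReal_nonneg ?_
        have e1 : (f a b).toReal ≤ 1 := by
          rw [← ENNReal.toReal_one]
          exact ENNReal.toReal_mono ENNReal.one_ne_top (PMF.coe_le_one _ _)
        have e2 : (g a b).toReal ≤ 1 := by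
          rw [← ENNReal.toReal_one]
          exact ENNReal.toReal_mono ENNReal.one_ne_top (PMF.coe_le_one _ _)
        have e3 : 0 ≤ (f a b).toReal := ENNReal.toReal_nonneg
        have e4 : 0 ≤ (g a b).toReal := ENNReal.toReal_nonneg
        rw [abs_le]
        constructor <;> linarith
      rw [toReal_bind, toReal_bind, ← (summable_bind μ f b).tsum_sub (summable_bind μ g b),
        ← Real.norm_eq_abs]
      refine tsum_of_norm_bounded hs3.hasSum fun a => ?_
      rw [← mul_sub, norm_mul, Real.norm_eq_abs (_ - _), Real.norm_of_nonneg ENNReal.toReal_nonneg])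
  simp_rw [hs] at h1
  have hind : Summable fun a => (μ a).toReal * s.indicator (fun _ => (1 : ℝ)) a := by
    refine Summable.of_nonneg_of_le (fun a => mul_nonneg ENNReal.toReal_nonneg
      (Set.indicator_nonneg (fun _ _ => zero_le_one) a)) (fun a => ?_) (summable_pmf μ)
    exact mul_le_of_le_one_right ENNReal.toReal_nonneg
      (Set.indicator_le_self' (fun _ _ => zero_le_one) a)
  have h2 : ∑' a, (μ a).toReal * (2 * tv (f a) (g a)) ≤
      ∑' a, ((μ a).toReal * (2 * ε) + 2 * ((μ a).toReal * s.indicator (fun _ => (1 : ℝ)) a)) := by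
    refine Summable.tsum_le_tsum (fun a => ?_) hs2
      (((summable_pmf μ).mul_right _).add (hind.mul_left 2))
    have h0 : 0 ≤ (μ a).toReal := ENNReal.toReal_nonneg
    by_cases ha : a ∈ s
    · rw [Set.indicator_of_mem ha, mul_one]
      have := hs1 a
      have h3 : 0 ≤ (μ a).toReal * (2 * ε) := by positivity
      linarith
    · rw [Set.indicator_of_notMem ha, mul_zero, mul_zero, add_zero]
      by_cases hm : μ a = 0
      · rw [hm, ENNReal.toReal_zero, zero_mul, zero_mul]
      · have h4 := h a ((PMF.mem_support_iff _ _).mpr hm) ha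
        exact mul_le_mul_of_nonneg_left (by linarith) h0
  rw [((summable_pmf μ).mul_right _).tsum_add (hind.mul_left 2), tsum_mul_right, tsum_pmf,
    tsum_mul_left, ← toReal_outer] at h2
  have h5 : tv (μ.bind f) (μ.bind g) = (∑' b, |((μ.bind f) b).toReal -
      ((μ.bind g) b).toReal|) / 2 := rfl
  rw [h5]
  linarith

/-- two laws whose expectations agree up to `ε` on the functions bounded by one -/
theorem tv_le_of_test (μ ν : PMF α) {ε : ℝ} (s : Finset α) (hμ : ∀ a, a ∉ s → μ a = 0)
    (hν : ∀ a, a ∉ s → ν a = 0)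
    (h : ∀ g : α → ℝ, (∀ a, |g a| ≤ 1) →
      |∑ a ∈ s, (μ a).toReal * g a - ∑ a ∈ s, (ν a).toReal * g a| ≤ ε) : tv μ ν ≤ ε / 2 := by
  unfold tv
  have h1 : ∑' a, |(μ a).toReal - (ν a).toReal| = ∑ a ∈ s, |(μ a).toReal - (ν a).toReal| := by
    refine tsum_eq_sum fun a ha => ?_
    rw [hμ a ha, hν a ha, sub_self, abs_zero]
  have h2 := h (fun a => if 0 ≤ (μ a).toReal - (ν a).toReal then 1 else -1) fun a => by
    split_ifs
    · rw [abs_one]
    · rw [abs_neg, abs_one]
  rw [← Finset.sum_sub_distrib] at h2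
  have h3 : ∑ a ∈ s, |(μ a).toReal - (ν a).toReal| ≤ ε := by
    refine le_trans (le_of_eq ?_) ((le_abs_self _).trans h2)
    refine Finset.sum_congr rfl fun a _ => ?_
    split_ifs with h0
    · rw [abs_of_nonneg h0]
      ring
    · rw [abs_of_neg (not_le.mp h0)]
      ring
  rw [h1]
  linarith

theorem law_ret (a : α) : law (ret a) = PMF.pure a := by
  unfold law ret
  rw [PMF.pure_map]

theorem law_andThen (p : Prog α) (f : α → Prog β) :
    law (andThen p f) = (law p).bind fun a => law (f a) := by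
  unfold law andThen
  rw [PMF.map_bind, PMF.bind_map]
  congr 1
  funext x
  simp only [Function.comp_apply]
  rw [PMF.map_comp]
  rfl

theorem law_charge (k : ℕ) (p : Prog α) : law (charge k p) = law p := by
  unfold law charge
  rw [PMF.map_comp]
  rfl

theorem law_draw (k : ℕ) [NeZero k] : law (draw k) = PMF.uniformOfFintype (Fin k) := by
  unfold law draw
  rw [PMF.map_comp]
  exact PMF.map_id _

theorem law_coin : law coin = PMF.uniformOfFintype Bool := by
  unfold law coin
  rw [PMF.map_comp]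
  exact PMF.map_id _

theorem mem_support_law {p : Prog α} {x : α × ℕ} (hx : x ∈ p.support) : x.1 ∈ (law p).support := by
  unfold law
  rw [PMF.mem_support_map_iff]
  exact ⟨x, hx, rfl⟩

theorem timeLe_mono {p : Prog α} {t t' : ℕ} (h : TimeLe p t) (htt : t ≤ t') : TimeLe p t' :=
  fun x hx => (h x hx).trans htt

theorem timeLe_ret (a : α) : TimeLe (ret a) 0 := by
  intro x hx
  unfold ret at hx
  rw [PMF.support_pure, Set.mem_singleton_iff] at hx
  rw [hx]

theorem timeLe_andThen {p : Prog α} {f : α → Prog β} {s t : ℕ} (hp : TimeLe p s)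
    (hf : ∀ a ∈ (law p).support, TimeLe (f a) t) : TimeLe (andThen p f) (s + t) := by
  intro x hx
  unfold andThen at hx
  rw [PMF.mem_support_bind_iff] at hx
  obtain ⟨y, hy, hx⟩ := hx
  rw [PMF.mem_support_map_iff] at hx
  obtain ⟨z, hz, rfl⟩ := hx
  exact add_le_add (hp y hy) (hf y.1 (mem_support_law hy) z hz)

theorem timeLe_charge {p : Prog α} {k t : ℕ} (hp : TimeLe p t) : TimeLe (charge k p) (k + t) := by
  intro x hx
  unfold charge at hx
  rw [PMF.mem_support_map_iff] at hx
  obtain ⟨z, hz, rfl⟩ := hx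
  exact add_le_add le_rfl (hp z hz)

theorem timeLe_draw (k : ℕ) [NeZero k] : TimeLe (draw k) 1 := by
  intro x hx
  unfold draw at hx
  rw [PMF.mem_support_map_iff] at hx
  obtain ⟨z, hz, rfl⟩ := hx
  exact le_rfl

theorem timeLe_coin : TimeLe coin 1 := by
  intro x hx
  unfold coin at hx
  rw [PMF.mem_support_map_iff] at hx
  obtain ⟨z, hz, rfl⟩ := hx
  exact le_rfl

end Tools

end P328
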