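import Vale.Agent.P328.Om
import Vale.Agent.P328.Tv
import Vale.Agent.P328.Stage

/-!
# P328 : the sampler for small totals
-/

namespace P328

open Finset

variable {m n : ℕ}

/-- the margins of a list of cells -/
def marL (l : List (Fin m × Fin n)) : Mg m n := (l.map fun c => mar (one c.1 c.2)).sum

theorem marL_cons (c : Fin m × Fin n) (l : List (Fin m × Fin n)) :
    marL (c :: l) = marL l + mar (one c.1 c.2) := by
  unfold marL
  rw [List.map_cons, List.sum_cons, add_comm]

theorem sum_one_mem (l : List (Fin m × Fin n)) : (l.map fun c => one c.1 c.2).sum ∈ Om (marL l) := by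
  rw [mem_Om]
  constructor
  · apply List.sum_nonneg
    intro x hx
    obtain ⟨c, _, rfl⟩ := List.mem_map.mp hx
    intro p
    rw [one_apply]
    split_ifs <;> simp
  · rw [map_list_sum, List.map_map]
    rfl

theorem ok_marL (l : List (Fin m × Fin n)) : Ok (marL l) := ok_of_mem (sum_one_mem l)

theorem tot_add (b b' : Mg m n) : tot (b + b') = tot b + tot b' := by
  unfold tot
  rw [← Finset.sum_add_distrib]
  rfl

theorem tot_mar_one (i : Fin m) (j : Fin n) : tot (mar (one i j)) = 1 := by
  unfold tot
  simp only [mar_one_fst]
  simp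

theorem tot_marL (l : List (Fin m × Fin n)) : tot (marL l) = l.length := by
  induction l with
  | nil => simp [marL, tot]
  | cons c l ih =>
    rw [marL_cons, tot_add, ih, tot_mar_one, List.length_cons]
    push_cast
    ring

theorem unifOm_apply {b : Mg m n} (hb : Ok b) (X : Tb m n) :
    ((unifOm b) X).toReal = if X ∈ Om b then 1 / ((Om b).card : ℝ) else 0 := by
  unfold unifOm
  rw [dif_pos (Om_nonempty hb), PMF.uniformOfFinset_apply]
  split_ifs <;> simp

theorem card_Om_add {b : Mg m n} (hb : Ok b) (i : Fin m) (j : Fin n) :
    ((Om (b + mar (one i j))).card : ℝ) ≤ ((m : ℝ) * n + 1) * (Om b).card := by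
  have h1 : tot b ≤ tot (b + mar (one i j)) := by
    rw [tot_add, tot_mar_one]
    omega
  have h2 : Om b = tab (tot (b + mar (one i j))) b := by
    ext X
    rw [mem_Om, mem_tab' h1]
  rw [h2]
  exact tab_card_add h1 (hb.1 i) (hb.2.1 j)

section Programs

variable [NeZero m] [NeZero n]

theorem step_support {b : Mg m n} {X : Tb m n} (hX : X ∈ Om b) :
    ∀ Y ∈ (law (step X)).support, Y ∈ Om b := by
  intro Y hY
  unfold step at hY
  simp only [law_andThen, law_charge, law_ret, PMF.mem_support_bind_iff] at hY
  obtain ⟨c, _, i, _, i', _, j, _, j', _, hY⟩ := hY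
  rw [PMF.mem_support_pure_iff] at hY
  subst hY
  split_ifs with h
  · rw [mem_Om] at hX ⊢
    refine ⟨h.2, ?_⟩
    have : mar (quad ((i, i'), (j, j'))) = 0 := by
      unfold quad
      simp only [map_sub, map_add]
      have := mar_quad i i' j j'
      rw [this]
      abel
    rw [map_add, this, hX.2, add_zero]
  · exact hX

theorem mix_support {b : Mg m n} (T : ℕ) {X : Tb m n} (hX : X ∈ Om b) :
    ∀ Y ∈ (law (mix T X)).support, Y ∈ Om b := by
  induction T generalizing X with
  | zero =>
    intro Y hY
    rw [mix, law_ret, PMF.mem_support_pure_iff] at hY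
    subst hY
    exact hX
  | succ T ih =>
    intro Y hY
    rw [mix, law_andThen, PMF.mem_support_bind_iff] at hY
    obtain ⟨Z, hZ, hY⟩ := hY
    exact ih (step_support hX Z hZ) Y hY

omit [NeZero m] [NeZero n] in
theorem add_one_mem {b : Mg m n} {X : Tb m n} (hX : X ∈ Om b) (i : Fin m) (j : Fin n) :
    X + one i j ∈ Om (b + mar (one i j)) := by
  rw [mem_Om] at hX ⊢
  refine ⟨fun p => ?_, ?_⟩
  · have h1 : 0 ≤ X p := hX.1 p
    have h2 : (0 : ℤ) ≤ (one i j : Tb m n) p := by
      rw [one_apply]
      split_ifs <;> simp
    exact add_nonneg h1 h2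
  · rw [map_add, hX.2]

theorem grow_support (T : ℕ) (l : List (Fin m × Fin n)) :
    ∀ Y ∈ (law (grow T l)).support, Y ∈ Om (marL l) := by
  induction l with
  | nil =>
    intro Y hY
    rw [grow, law_ret, PMF.mem_support_pure_iff] at hY
    subst hY
    exact sum_one_mem []
  | cons c l ih =>
    intro Y hY
    rw [grow, law_andThen, PMF.mem_support_bind_iff] at hY
    obtain ⟨Z, hZ, hY⟩ := hY
    rw [law_charge] at hY
    rw [marL_cons]
    exact mix_support T (add_one_mem (ih Z hZ) c.1 c.2) Y hY

theorem unary_support {b : Mg m n} (hb : Ok b) (T : ℕ) :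
    ∀ Y ∈ (law (unary T b)).support, Y ∈ Om b := by
  intro Y hY
  unfold unary at hY
  rw [law_charge] at hY
  have := grow_support T (cells b) Y hY
  have h2 : marL (cells b) = b := mar_cells hb
  rwa [h2] at this

theorem grow_tv {N e T : ℕ} (he : 1 ≤ e)
    (hT : (50 * (m + n) * (N + 1) * e) ^ 100 ≤ T) (l : List (Fin m × Fin n))
    (hl : l.length ≤ N) :
    tv (law (grow T l)) (unifOm (marL l)) ≤ l.length * (1 / (((N : ℝ) + 1) * e)) := by
  induction l with
  | nil =>
    have h1 : law (grow (m := m) (n := n) T []) = PMF.pure 0 := law_ret _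
    have h2 : unifOm (marL ([] : List (Fin m × Fin n))) = PMF.pure 0 := by
      have h0 : Om (marL ([] : List (Fin m × Fin n))) = {0} := by
        ext X
        rw [mem_Om, mem_singleton]
        constructor
        · rintro ⟨hX0, hX⟩
          have hX' : X ∈ Om (marL ([] : List (Fin m × Fin n))) := mem_Om.mpr ⟨hX0, hX⟩
          funext p
          have h3 := (le_row hX' p).1
          have h4 : (marL ([] : List (Fin m × Fin n))).1 p.1 = 0 := rfl
          have h5 : 0 ≤ X p := hX0 p
          have h6 : (0 : Tb m n) p = 0 := rfl
          omega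
        · rintro rfl
          exact ⟨le_rfl, map_zero _⟩
      unfold unifOm
      rw [dif_pos (by rw [h0]; exact singleton_nonempty 0)]
      ext X
      rw [PMF.uniformOfFinset_apply, PMF.pure_apply, h0]
      simp
    rw [h1, h2, tv_self]
    simp
  | cons c l ih =>
    have hl' : l.length ≤ N := by
      rw [List.length_cons] at hl
      omega
    have ih' := ih hl'
    have e1 : law (grow T (c :: l)) =
        (law (grow T l)).bind fun X => law (mix T (X + one c.1 c.2)) := by
      rw [grow, law_andThen]
      congr 1
      funext X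
      exact law_charge _ _
    have e2 : ((unifOm (marL l)).map fun X => X + one c.1 c.2).bind (fun X => law (mix T X)) =
        (unifOm (marL l)).bind fun X => law (mix T (X + one c.1 c.2)) := by
      rw [PMF.bind_map]
      rfl
    have hok := ok_marL l
    have hoks := ok_marL (c :: l)
    have hcard : (0 : ℝ) < (Om (marL l)).card := by
      exact_mod_cast (Om_nonempty hok).card_pos
    have hcards : (0 : ℝ) < (Om (marL (c :: l))).card := by
      exact_mod_cast (Om_nonempty hoks).card_pos
    have hkap := card_Om_add hok c.1 c.2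
    rw [← marL_cons] at hkap
    have hval : ∀ X, ((unifOm (marL l)).map fun X => X + one c.1 c.2) X =
        (unifOm (marL l)) (X - one c.1 c.2) := by
      intro X
      rw [PMF.map_apply, tsum_eq_single (X - one c.1 c.2)]
      · rw [if_pos (by abel)]
      · intro Z hZ
        apply if_neg
        intro h
        apply hZ
        rw [h]
        abel
    have h3 : tv (((unifOm (marL l)).map fun X => X + one c.1 c.2).bind fun X => law (mix T X))
        (unifOm (marL (c :: l))) ≤ 1 / (((N : ℝ) + 1) * e) := by
      refine mix_tv hoks (N := N) (e := e) ?_ he hT _ ?_ ?_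
      · rw [tot_marL]
        exact_mod_cast hl
      · intro X hX
        rw [hval]
        have h4 : X - one c.1 c.2 ∉ Om (marL l) := by
          intro h
          apply hX
          have := add_one_mem h c.1 c.2
          rw [sub_add_cancel, ← marL_cons] at this
          exact this
        have h5 := unifOm_apply hok (X - one c.1 c.2)
        rw [if_neg h4] at h5
        exact (ENNReal.toReal_eq_zero_iff _).mp h5 |>.resolve_right (PMF.apply_ne_top _ _)
      · intro X
        rw [hval, unifOm_apply hok]
        split_ifs
        · rw [div_le_div_iff₀ hcard hcards]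
          linarith
        · positivity
    rw [e1]
    have h6 := tv_triangle ((law (grow T l)).bind fun X => law (mix T (X + one c.1 c.2)))
      ((unifOm (marL l)).bind fun X => law (mix T (X + one c.1 c.2))) (unifOm (marL (c :: l)))
    have h7 := tv_bind_left (law (grow T l)) (unifOm (marL l))
      (fun X => law (mix T (X + one c.1 c.2)))
    rw [e2] at h3
    rw [List.length_cons]
    push_cast
    linarith

theorem unary_tv {b : Mg m n} (hb : Ok b) {N e T : ℕ} (hN : tot b ≤ N) (he : 1 ≤ e)
    (hT : (50 * (m + n) * (N + 1) * e) ^ 100 ≤ T) :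
    tv (law (unary T b)) (unifOm b) ≤ 1 / e := by
  have hlen : (cells b).length ≤ N := by
    have := card_cells hb
    omega
  have h1 := grow_tv he hT (cells b) hlen
  have h2 : marL (cells b) = b := mar_cells hb
  rw [h2] at h1
  unfold unary
  rw [law_charge]
  refine h1.trans ?_
  have h3 : ((cells b).length : ℝ) ≤ N := by exact_mod_cast hlen
  have he' : (0 : ℝ) < e := by exact_mod_cast he
  have hN' : (0 : ℝ) ≤ N := by positivity
  rw [mul_one_div, div_le_div_iff₀ (by positivity) he']
  nlinarith

end Programs

end P328
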