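import Vale.Agent.P328.Parity
import Vale.Agent.P328.Unary
import Vale.Agent.P328.Cap

/-!
# P328 : bounds on the number of steps
-/

namespace P328

open Finset

section Arith

theorem mul_le_powN {x a b i j : ℕ} (ha : a ≤ x ^ i) (hb : b ≤ x ^ j) : a * b ≤ x ^ (i + j) := by
  rw [pow_add]
  exact Nat.mul_le_mul ha hb

theorem add_le_powN {x a b i j : ℕ} (hx : 2 ≤ x) (ha : a ≤ x ^ i) (hb : b ≤ x ^ j) :
    a + b ≤ x ^ (i + j + 1) := by
  have h1 : x ^ i ≤ x ^ (i + j) := Nat.pow_le_pow_right (by omega) (by omega)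
  have h2 : x ^ j ≤ x ^ (i + j) := Nat.pow_le_pow_right (by omega) (by omega)
  have h3 : x ^ (i + j + 1) = x * x ^ (i + j) := by rw [pow_succ]; ring
  rw [h3]
  nlinarith [Nat.zero_le (x ^ (i + j))]

theorem pow_le_powN {x a i j : ℕ} (ha : a ≤ x ^ i) : a ^ j ≤ x ^ (i * j) := by
  rw [pow_mul]
  exact Nat.pow_le_pow_left ha j

end Arith

variable {m n : ℕ}

theorem tot_nonneg {b : Mg m n} (hb : Ok b) : 0 ≤ tot b := Finset.sum_nonneg fun i _ => hb.1 i

section Programs

variable [NeZero m] [NeZero n]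

theorem time_step (X : Tb m n) : TimeLe (step X) 25 := by
  unfold step
  refine timeLe_mono (timeLe_andThen timeLe_coin (t := 24) fun c _ => ?_) (by norm_num)
  refine timeLe_mono (timeLe_andThen (timeLe_draw m) (t := 23) fun i _ => ?_)
    (by norm_num)
  refine timeLe_mono (timeLe_andThen (timeLe_draw m) (t := 22) fun i' _ => ?_)
    (by norm_num)
  refine timeLe_mono (timeLe_andThen (timeLe_draw n) (t := 21) fun j _ => ?_)
    (by norm_num)
  refine timeLe_mono (timeLe_andThen (timeLe_draw n) (t := 20) fun j' _ => ?_)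
    (by norm_num)
  exact timeLe_mono (timeLe_charge (timeLe_ret _)) (by norm_num)

theorem time_mix (T : ℕ) (X : Tb m n) : TimeLe (mix T X) (25 * T) := by
  induction T generalizing X with
  | zero => exact timeLe_ret _
  | succ T ih =>
    refine timeLe_mono (timeLe_andThen (time_step X) fun a _ => ih a) ?_
    omega

theorem time_grow (T : ℕ) (l : List (Fin m × Fin n)) :
    TimeLe (grow T l) (l.length * (3 + 25 * T)) := by
  induction l with
  | nil => exact timeLe_mono (timeLe_ret _) (Nat.zero_le _)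
  | cons c l ih =>
    refine timeLe_mono (timeLe_andThen ih fun a _ =>
      timeLe_charge (k := 3) (time_mix T (a + one c.1 c.2))) ?_
    rw [List.length_cons]
    ring_nf
    omega

theorem time_unary {b : Mg m n} (hb : Ok b) {N : ℕ} (hN : tot b ≤ N) (T : ℕ) :
    TimeLe (unary T b) (10 * (m * n) + N * (3 + 25 * T)) := by
  unfold unary
  refine timeLe_mono (timeLe_charge (time_grow T (cells b))) ?_
  have h : (cells b).length ≤ N := by
    have := card_cells hb
    omega
  gcongr

omit [NeZero m] [NeZero n] in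
theorem time_bits : TimeLe (bits (m := m) (n := n)) (m * n) := by
  intro x hx
  unfold bits at hx
  rw [PMF.support_map] at hx
  obtain ⟨y, _, rfl⟩ := hx
  exact le_refl _

theorem comp_nonneg (I : Finset (Fin m)) (J : Finset (Fin n)) (b : Mg m n)
    (β : Fin m × Fin n → Bool) (p : Fin m × Fin n) : 0 ≤ comp I J b β p := by
  unfold comp
  split_ifs
  · rcases bv_eq (β p) with h | h
    · rw [h]
    · rw [h]
      norm_num
  · exact Int.emod_nonneg _ (by norm_num)
  · exact Int.emod_nonneg _ (by norm_num)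
  · exact Int.emod_nonneg _ (by norm_num)
  · exact le_refl _

omit [NeZero m] [NeZero n] in
theorem tot_half_le {b : Mg m n} {A R : Tb m n} (hA : ∀ p, 0 ≤ A p) (hR : ∀ p, 0 ≤ R p) :
    2 * tot (half (b - mar A) R) ≤ tot b := by
  unfold tot
  rw [Finset.mul_sum]
  apply Finset.sum_le_sum
  intro i _
  have h1 : (0 : ℤ) ≤ ∑ j, A (i, j) := Finset.sum_nonneg fun j _ => hA (i, j)
  have h2 : (0 : ℤ) ≤ ∑ j, R (i, j) := Finset.sum_nonneg fun j _ => hR (i, j)
  have h3 : (half (b - mar A) R).1 i = (b.1 i - ∑ j, A (i, j) - ∑ j, R (i, j)) / 2 := rfl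
  rw [h3]
  omega

omit [NeZero m] [NeZero n] in
theorem small_nonneg {K : ℤ} {b b' : Mg m n} {X : Tb m n} (hX : X ∈ Om b') (p : Fin m × Fin n) :
    0 ≤ small K b X p := by
  unfold small
  split_ifs
  · exact (mem_Om.mp hX).1 p
  · exact le_refl _

/-- the cost of one level of the sampler -/
def lev (m n K2 T : ℕ) : ℕ := 101 * (m * n) + (10 * (m * n) + ((m + n) * K2) * (3 + 25 * T))

theorem time_samp {K : ℤ} {K2 T : ℕ} (f : ℕ) {b : Mg m n} (hb : Ok b) (hf : tot b < 2 ^ f) :
    TimeLe (samp K K2 T f b) ((f + 1) * lev m n K2 T) := by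
  have key : ∀ (b' : Mg m n), Ok b' → tot b' ≤ (m + n) * (K2 : ℤ) →
      TimeLe (unary T b') (10 * (m * n) + ((m + n) * K2) * (3 + 25 * T)) := by
    intro b' hb' ht
    refine time_unary hb' ?_ T
    push_cast
    exact ht
  induction f generalizing b with
  | zero =>
    refine timeLe_mono (key b hb ?_) ?_
    · have h0 : tot b ≤ 0 := by
        rw [pow_zero] at hf
        omega
      have : (0 : ℤ) ≤ (m + n) * (K2 : ℤ) := by positivity
      omega
    · unfold lev
      omega
  | succ f ih =>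
    rw [samp]
    split_ifs with ht
    · refine timeLe_mono (key b hb ht) ?_
      unfold lev
      nlinarith [Nat.zero_le (m * n), Nat.zero_le (f * lev m n K2 T),
        Nat.zero_le (((m + n) * K2) * (3 + 25 * T)),
        Nat.zero_le (f * (101 * (m * n) + (10 * (m * n) + ((m + n) * K2) * (3 + 25 * T))))]
    · refine timeLe_mono (timeLe_charge (k := 100 * (m * n)) (timeLe_andThen
        (key (cap K2 b) (cap_ok hb (by positivity)) (cap_tot hb (by positivity)))
        (t := m * n + (f + 1) * lev m n K2 T) fun X hX => ?_)) ?_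
      · have hXm := unary_support (cap_ok hb (K2 := (K2 : ℤ)) (by positivity)) T X hX
        refine timeLe_andThen time_bits fun β _ => ?_
        split_ifs with hok
        · refine timeLe_mono (timeLe_andThen (ih hok ?_) fun Q _ => timeLe_ret _) ?_
          · have := tot_half_le (b := b) (A := small K b X)
              (R := comp (bigR K b) (bigC K b) (b - mar (small K b X)) β)
              (fun p => small_nonneg hXm p) (fun p => comp_nonneg _ _ _ _ p)
            rw [pow_succ] at hf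
            omega
          · omega
        · exact timeLe_mono (timeLe_ret _) (Nat.zero_le _)
      · have h1 : (f + 1 + 1) * lev m n K2 T = lev m n K2 T + (f + 1) * lev m n K2 T := by ring
        rw [h1]
        unfold lev
        omega

omit [NeZero m] [NeZero n] in
theorem tot_lt (b : Mg m n) : tot b < 2 ^ len b := by
  unfold len
  have h := Nat.lt_pow_succ_log_self (b := 2) (by norm_num) (tot b).toNat
  have h2 : tot b ≤ (tot b).toNat := Int.self_le_toNat _
  have h3 : ((tot b).toNat : ℤ) < 2 ^ (Nat.log 2 (tot b).toNat + 1) := by exact_mod_cast h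
  omega

/-- a bound for the number of steps of the sampler -/
def stime (b : Mg m n) (e : ℕ) : ℕ :=
  (len b + 1) * lev m n (KK2 b e) (TT b e) + 100 * (m * n * len b)

theorem time_sampler' {b : Mg m n} (hb : Ok b) (e : ℕ) : TimeLe (sampler b e) (stime b e) := by
  unfold sampler stime
  refine timeLe_andThen (time_samp (len b) hb (tot_lt b)) fun X _ => ?_
  exact timeLe_charge (k := 100 * (m * n * len b)) (timeLe_ret _)

end Programs

section Bounds

theorem len_pos (b : Mg m n) : 1 ≤ len b := by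
  unfold len
  omega

/-- polynomial bound, in terms of any `x` which dominates the parameters -/
theorem stime_le {b : Mg m n} {e x : ℕ} (hx : 2 ≤ x) (h1 : m + n ≤ x) (h2 : len b ≤ x)
    (h3 : e ≤ x) (h4 : prm b e ≤ x) : stime b e ≤ x ^ 13000 := by
  have a1 : m + n ≤ x ^ 1 := by simpa using h1
  have a2 : len b ≤ x ^ 1 := by simpa using h2
  have a3 : e ≤ x ^ 1 := by simpa using h3
  have a4 : prm b e ≤ x ^ 1 := by simpa using h4
  have a5 : 1 ≤ x ^ 0 := by simp
  have a6 : m * n ≤ x ^ 2 := by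
    have : m * n ≤ (m + n) * (m + n) := Nat.mul_le_mul (by omega) (by omega)
    exact this.trans (mul_le_powN a1 a1)
  have h2x : ∀ k : ℕ, 2 ^ k ≤ x ^ k := fun k => Nat.pow_le_pow_left hx k
  have a7 : KK2 b e ≤ x ^ 96 := by
    unfold KK2
    exact mul_le_powN (h2x 80) (pow_le_powN (j := 16) a4)
  have b1 : (m + n) * KK2 b e + 1 ≤ x ^ 98 := add_le_powN hx (mul_le_powN a1 a7) a5
  have b2 : 8 * len b * e ≤ x ^ 5 := mul_le_powN (mul_le_powN (h2x 3) a2) a3
  have b3 : 50 * (m + n) ≤ x ^ 7 := by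
    refine (Nat.mul_le_mul_right (m + n) (show 50 ≤ 2 ^ 6 by norm_num)).trans ?_
    exact mul_le_powN (h2x 6) a1
  have b4 : TT b e ≤ x ^ 11000 := by
    unfold TT
    exact pow_le_powN (j := 100) (mul_le_powN (mul_le_powN b3 b1) b2)
  have b5 : 25 * TT b e ≤ x ^ 11005 := by
    refine (Nat.mul_le_mul_right _ (show 25 ≤ 2 ^ 5 by norm_num)).trans ?_
    refine (mul_le_powN (h2x 5) b4).trans (le_of_eq ?_)
    norm_num
  have b5' : 3 ≤ x ^ 2 := (show 3 ≤ 2 ^ 2 by norm_num).trans (h2x 2)
  have b6 : 3 + 25 * TT b e ≤ x ^ 11008 := by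
    refine (add_le_powN hx b5' b5).trans (le_of_eq ?_)
    norm_num
  have b7 : (m + n) * KK2 b e ≤ x ^ 97 := mul_le_powN a1 a7
  have b8 : ((m + n) * KK2 b e) * (3 + 25 * TT b e) ≤ x ^ 11105 := by
    refine (mul_le_powN b7 b6).trans (le_of_eq ?_)
    norm_num
  have b9' : 10 * (m * n) ≤ x ^ 6 := by
    refine (Nat.mul_le_mul_right _ (show 10 ≤ 2 ^ 4 by norm_num)).trans ?_
    exact mul_le_powN (h2x 4) a6
  have b9 : 10 * (m * n) + ((m + n) * KK2 b e) * (3 + 25 * TT b e) ≤ x ^ 11112 := by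
    refine (add_le_powN hx b9' b8).trans (le_of_eq ?_)
    norm_num
  have b10 : 101 * (m * n) ≤ x ^ 9 := by
    refine (Nat.mul_le_mul_right _ (show 101 ≤ 2 ^ 7 by norm_num)).trans ?_
    exact mul_le_powN (h2x 7) a6
  have b11 : lev m n (KK2 b e) (TT b e) ≤ x ^ 11122 := by
    unfold lev
    refine (add_le_powN hx b10 b9).trans (le_of_eq ?_)
    norm_num
  have b12 : len b + 1 ≤ x ^ 2 := add_le_powN hx a2 a5
  have b13 : (len b + 1) * lev m n (KK2 b e) (TT b e) ≤ x ^ 11124 := by
    refine (mul_le_powN b12 b11).trans (le_of_eq ?_)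
    norm_num
  have b14 : 100 * (m * n * len b) ≤ x ^ 10 := by
    refine (Nat.mul_le_mul_right _ (show 100 ≤ 2 ^ 7 by norm_num)).trans ?_
    exact mul_le_powN (h2x 7) (mul_le_powN a6 a2)
  unfold stime
  refine (add_le_powN hx b13 b14).trans ?_
  exact Nat.pow_le_pow_right (by omega) (by norm_num)

end Bounds

theorem time_sampler : ∃ C : ℕ, ∀ (m n : ℕ) [NeZero m] [NeZero n] (b : Mg m n), Ok b →
    ∀ e : ℕ, 1 ≤ e → TimeLe (sampler b e) ((2 * prm b e) ^ C) := by
  refine ⟨13000, fun m n _ _ b hb e he => ?_⟩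
  have hm : 1 ≤ m := Nat.one_le_iff_ne_zero.mpr (NeZero.ne m)
  have hn : 1 ≤ n := Nat.one_le_iff_ne_zero.mpr (NeZero.ne n)
  have hl := len_pos b
  have hp : prm b e = (m + n) * len b * e := rfl
  have h1 : 1 ≤ (m + n) * len b := by nlinarith
  have h2 : 1 ≤ prm b e := by rw [hp]; nlinarith
  refine timeLe_mono (time_sampler' hb e) (stime_le ?_ ?_ ?_ ?_ ?_)
  · omega
  · rw [hp]
    nlinarith [Nat.mul_le_mul_left (m + n) hl, Nat.mul_le_mul_left ((m + n) * len b) he]
  · rw [hp]
    nlinarith [Nat.mul_le_mul_right (len b) (show 1 ≤ m + n by omega),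
      Nat.mul_le_mul_left ((m + n) * len b) he]
  · rw [hp]
    nlinarith [Nat.mul_le_mul_right e h1]
  · omega

section Counter

theorem jump_pos (m n : ℕ) (t : ℤ) : 1 ≤ jump m n t := le_max_left _ _

theorem jump_le {m n : ℕ} (hm : 1 ≤ m) {t : ℤ} (ht : 1 ≤ t) : jump m n t ≤ t := by
  unfold jump
  refine max_le ht ?_
  have h1 : (1 : ℤ) ≤ 48 * (m + n) := by
    have : (1 : ℤ) ≤ m := by exact_mod_cast hm
    have h2 : (0 : ℤ) ≤ n := by positivity
    linarith
  exact Int.ediv_le_self _ (by omega)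

theorem len_mono {b b' : Mg m n} (h : tot b' ≤ tot b) : len b' ≤ len b := by
  unfold len
  have : (tot b').toNat ≤ (tot b).toNat := Int.toNat_le_toNat h
  have := Nat.log_mono_right (b := 2) this
  omega

variable [NeZero m] [NeZero n]

theorem one_le_amax {b : Mg m n} (hb : Ok b) (ht : 0 < tot b) :
    1 ≤ b.1 (amax b.1) ∧ 1 ≤ b.2 (amax b.2) := by
  constructor
  · by_contra hlt
    have : tot b ≤ 0 := Finset.sum_nonpos fun i _ => by
      have := amax_spec b.1 i
      omega
    omega
  · by_contra hlt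
    have h1 : ∑ j, b.2 j ≤ 0 := Finset.sum_nonpos fun j _ => by
      have := amax_spec b.2 j
      omega
    have h2 : tot b = ∑ j, b.2 j := hb.2.2
    omega

/-- the margins after one factor of the counter -/
theorem ok_next {b : Mg m n} (hb : Ok b) (ht : 0 < tot b) :
    Ok (b - jump m n (min (b.1 (amax b.1)) (b.2 (amax b.2))) • mar (one (amax b.1) (amax b.2))) ∧
    tot (b - jump m n (min (b.1 (amax b.1)) (b.2 (amax b.2))) • mar (one (amax b.1) (amax b.2))) =
      tot b - jump m n (min (b.1 (amax b.1)) (b.2 (amax b.2))) := by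
  set i := amax b.1 with hi
  set j := amax b.2 with hj
  set h := jump m n (min (b.1 i) (b.2 j)) with hh
  have h1 := one_le_amax hb ht
  have h2 : h ≤ min (b.1 i) (b.2 j) :=
    jump_le (Nat.one_le_iff_ne_zero.mpr (NeZero.ne m)) (le_min h1.1 h1.2)
  have h3 : ∀ i', (b - h • mar (one i j)).1 i' = b.1 i' - (if i' = i then h else 0) := by
    intro i'
    have : (mar (one i j)).1 i' = if i' = i then 1 else 0 := mar_one_fst i j i'
    change b.1 i' - h • (mar (one i j)).1 i' = _
    rw [this]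
    split_ifs <;> simp
  have h4 : ∀ j', (b - h • mar (one i j)).2 j' = b.2 j' - (if j' = j then h else 0) := by
    intro j'
    have : (mar (one i j)).2 j' = if j' = j then 1 else 0 := mar_one_snd i j j'
    change b.2 j' - h • (mar (one i j)).2 j' = _
    rw [this]
    split_ifs <;> simp
  have s1 : ∑ i', (b - h • mar (one i j)).1 i' = ∑ i', b.1 i' - h := by
    rw [Finset.sum_congr rfl fun i' _ => h3 i', Finset.sum_sub_distrib]
    simp
  have s2 : ∑ j', (b - h • mar (one i j)).2 j' = ∑ j', b.2 j' - h := by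
    rw [Finset.sum_congr rfl fun j' _ => h4 j', Finset.sum_sub_distrib]
    simp
  refine ⟨⟨fun i' => ?_, fun j' => ?_, ?_⟩, s1⟩
  · rw [h3 i']
    have := hb.1 i'
    split_ifs with h5
    · subst h5
      have := h2.trans (min_le_left _ _)
      omega
    · omega
  · rw [h4 j']
    have := hb.2.1 j'
    split_ifs with h5
    · subst h5
      have := h2.trans (min_le_right _ _)
      omega
    · omega
  · rw [s1, s2, hb.2.2]

theorem time_count {b : Mg m n} (hb : Ok b) (e : ℕ) (i : Fin m) (j : Fin n) (h : ℤ) (k : ℕ) :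
    TimeLe (count b e i j h k) (k * (stime b e + 3)) := by
  induction k with
  | zero => exact timeLe_mono (timeLe_ret _) (Nat.zero_le _)
  | succ k ih =>
    rw [count]
    refine timeLe_mono (timeLe_andThen ih fun z _ =>
      timeLe_andThen (time_sampler' hb e) fun X _ =>
        timeLe_charge (k := 3) (timeLe_ret _)) ?_
    apply le_of_eq
    ring

theorem time_ratios {e N St : ℕ} {b0 : Mg m n}
    (hSt : ∀ b' : Mg m n, Ok b' → tot b' ≤ tot b0 → stime b' e ≤ St) (f : ℕ) {b : Mg m n}
    (hb : Ok b) (ht0 : tot b ≤ tot b0) :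
    TimeLe (ratios e N f b) (f * (100 * (m * n * len b0) + N * (St + 3))) := by
  induction f generalizing b with
  | zero => exact timeLe_mono (timeLe_ret _) (Nat.zero_le _)
  | succ f ih =>
    rw [ratios]
    split_ifs with ht
    · exact timeLe_mono (timeLe_ret _) (Nat.zero_le _)
    · have hnext := ok_next hb (not_le.mp ht)
      have hj := jump_pos m n (min (b.1 (amax b.1)) (b.2 (amax b.2)))
      have hl : 100 * (m * n * len b) ≤ 100 * (m * n * len b0) :=
        Nat.mul_le_mul_left _ (Nat.mul_le_mul_left _ (len_mono ht0))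
      refine timeLe_mono (timeLe_charge (timeLe_andThen
        (timeLe_mono (time_count hb e _ _ _ N) (Nat.mul_le_mul_left N
          (Nat.add_le_add_right (hSt b hb ht0) 3))) fun z _ =>
        timeLe_andThen (ih hnext.1 (by rw [hnext.2]; omega)) fun w _ => timeLe_ret _)) ?_
      refine (Nat.add_le_add_right hl _).trans (le_of_eq ?_)
      ring

end Counter

theorem time_counter : ∃ C : ℕ, ∀ (m n : ℕ) [NeZero m] [NeZero n] (b : Mg m n), Ok b →
    ∀ e d : ℕ, 1 ≤ e → TimeLe (counter b e d) ((2 * prm b e * (d + 1)) ^ C) := by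
  refine ⟨19 * 13000 + 100, fun m n _ _ b hb e d he => ?_⟩
  have hm : 1 ≤ m := Nat.one_le_iff_ne_zero.mpr (NeZero.ne m)
  have hn : 1 ≤ n := Nat.one_le_iff_ne_zero.mpr (NeZero.ne n)
  have hl := len_pos b
  have hp : prm b e = (m + n) * len b * e := rfl
  have h1 : 1 ≤ (m + n) * len b := by nlinarith
  have h2 : 1 ≤ prm b e := by rw [hp]; nlinarith
  set y := 2 * prm b e * (d + 1) with hy
  have hyp : 2 * prm b e ≤ y := by
    rw [hy]
    nlinarith [Nat.zero_le (prm b e * d)]
  have hx : 2 ≤ y := by omega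
  have c1 : m + n ≤ prm b e := by
    rw [hp]
    nlinarith [Nat.mul_le_mul_left (m + n) hl, Nat.mul_le_mul_left ((m + n) * len b) he]
  have c2 : len b ≤ prm b e := by
    rw [hp]
    nlinarith [Nat.mul_le_mul_right (len b) (show 1 ≤ m + n by omega),
      Nat.mul_le_mul_left ((m + n) * len b) he]
  have c3 : e ≤ prm b e := by
    rw [hp]
    nlinarith [Nat.mul_le_mul_right e h1]
  have a1 : m + n ≤ y ^ 1 := by rw [pow_one]; omega
  have a2 : len b ≤ y ^ 1 := by rw [pow_one]; omega
  have a3 : e ≤ y ^ 1 := by rw [pow_one]; omega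
  have a4 : d ≤ y ^ 1 := by
    rw [pow_one, hy]
    nlinarith [Nat.mul_le_mul_right (d + 1) (show 1 ≤ 2 * prm b e by omega)]
  have a5 : 1 ≤ y ^ 0 := by simp
  have a6 : m * n ≤ y ^ 2 :=
    (Nat.mul_le_mul (show m ≤ m + n by omega) (show n ≤ m + n by omega)).trans (mul_le_powN a1 a1)
  have h2y : ∀ k : ℕ, 2 ^ k ≤ y ^ k := fun k => Nat.pow_le_pow_left hx k
  set e2 := 1600 * (m + n) ^ 4 * len b * e with he2
  have b1 : e2 ≤ y ^ 17 := by
    have h1600 : 1600 ≤ y ^ 11 := (show 1600 ≤ 2 ^ 11 by norm_num).trans (h2y 11)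
    exact mul_le_powN (mul_le_powN (mul_le_powN h1600 (pow_le_powN (j := 4) a1)) a2) a3
  obtain ⟨k, hk⟩ : ∃ k : ℕ, k = 19 * 13000 := ⟨_, rfl⟩
  have b2 : ∀ b' : Mg m n, Ok b' → tot b' ≤ tot b → stime b' e2 ≤ y ^ k := by
    intro b' _ hb'
    have hlen := len_mono hb'
    rw [hk, pow_mul]
    have hy19 : y ≤ y ^ 19 := by
      calc y = y ^ 1 := (pow_one y).symm
        _ ≤ y ^ 19 := Nat.pow_le_pow_right (by omega) (by norm_num)
    refine stime_le (hx.trans hy19) ?_ ?_ ?_ ?_
    · rw [pow_one] at a1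
      exact a1.trans hy19
    · rw [pow_one] at a2
      exact (hlen.trans a2).trans hy19
    · exact b1.trans (Nat.pow_le_pow_right (by omega) (by norm_num))
    · unfold prm
      exact mul_le_powN (i := 2) (j := 17) (mul_le_powN a1 (hlen.trans a2)) b1
  unfold counter
  rw [← he2]
  refine timeLe_mono (timeLe_charge (time_ratios b2 _ hb le_rfl)) ?_
  have f1 : 100 * (m + n) ^ 2 * len b ≤ y ^ 10 := by
    have h100 : 100 ≤ y ^ 7 := (show 100 ≤ 2 ^ 7 by norm_num).trans (h2y 7)
    exact mul_le_powN (mul_le_powN h100 (pow_le_powN (j := 2) a1)) a2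
  have f2 : 200 * (m + n) ^ 2 * len b ≤ y ^ 11 := by
    have h200 : 200 ≤ y ^ 8 := (show 200 ≤ 2 ^ 8 by norm_num).trans (h2y 8)
    exact mul_le_powN (mul_le_powN h200 (pow_le_powN (j := 2) a1)) a2
  have f3 : d + 200 * (m + n) ^ 2 * len b ≤ y ^ 13 := add_le_powN hx a4 f2
  have f4 : 4 * e2 ^ 2 * (d + 200 * (m + n) ^ 2 * len b) ≤ y ^ 49 := by
    have h4 : 4 ≤ y ^ 2 := (show 4 ≤ 2 ^ 2 by norm_num).trans (h2y 2)
    exact mul_le_powN (mul_le_powN h4 (pow_le_powN (j := 2) b1)) f3
  have a7 : 3 ≤ y ^ 2 := (show 3 ≤ 2 ^ 2 by norm_num).trans (h2y 2)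
  have f5 : y ^ k + 3 ≤ y ^ (k + 2 + 1) := add_le_powN hx le_rfl a7
  have f6 := mul_le_powN f4 f5
  have f0 : 100 * (m * n * len b) ≤ y ^ 10 := by
    refine (Nat.mul_le_mul_right _ (show 100 ≤ 2 ^ 7 by norm_num)).trans ?_
    exact mul_le_powN (h2y 7) (mul_le_powN a6 a2)
  have f7 := add_le_powN hx f0 f6
  have f8 := add_le_powN hx f0 (mul_le_powN f1 f7)
  refine f8.trans (Nat.pow_le_pow_right (by omega) ?_)
  omega

end P328
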