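import Vale.Agent.P328.Defs
import Vale.Agent.P328.Defs2

/-!
# P328 : the parity patterns are sampled uniformly
-/

namespace P328

open Finset

variable {m n : ℕ}

section aux

theorem bv_eq (c : Bool) : bv c = 0 ∨ bv c = 1 := by
  cases c <;> simp [bv]

theorem bv_decide {z : ℤ} (hz : z = 0 ∨ z = 1) : bv (decide (z = 1)) = z := by
  rcases hz with rfl | rfl <;> simp [bv]

theorem first_mem {k : ℕ} [NeZero k] {I : Finset (Fin k)} (h : I.Nonempty) : first I ∈ I := by
  unfold first
  rw [dif_pos h]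
  exact I.min'_mem h

theorem amax_spec {k : ℕ} [NeZero k] (f : Fin k → ℤ) (i : Fin k) : f i ≤ f (amax f) := by
  have hne : (univ.filter fun i => ∀ i', f i' ≤ f i).Nonempty := by
    obtain ⟨a, _, ha⟩ := Finset.exists_max_image univ f ⟨0, mem_univ _⟩
    exact ⟨a, Finset.mem_filter.mpr ⟨mem_univ _, fun i' => ha i' (mem_univ _)⟩⟩
  exact (Finset.mem_filter.mp (first_mem hne)).2 i

theorem mem_Par {I : Finset (Fin m)} {J : Finset (Fin n)} {b : Mg m n} {R : Tb m n} :
    R ∈ Par I J b ↔ (∀ p, R p = 0 ∨ R p = 1) ∧ (∀ p, ¬ (p.1 ∈ I ∧ p.2 ∈ J) → R p = 0) ∧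
      (∀ i, (b.1 i - ∑ j, R (i, j)) % 2 = 0) ∧ ∀ j, (b.2 j - ∑ i, R (i, j)) % 2 = 0 := by
  unfold Par
  rw [mem_filter, mem_Icc]
  constructor
  · rintro ⟨⟨h1, h2⟩, h3⟩
    refine ⟨fun p => ?_, h3⟩
    have a1 : (0 : ℤ) ≤ R p := h1 p
    have a2 : R p ≤ 1 := h2 p
    omega
  · rintro ⟨h1, h3⟩
    refine ⟨⟨fun p => ?_, fun p => ?_⟩, h3⟩
    · rcases h1 p with h | h <;> simp [h]
    · rcases h1 p with h | h <;> simp [h]

theorem sum_row_off {I : Finset (Fin m)} {J : Finset (Fin n)} {R : Tb m n}
    (h : ∀ p, ¬ (p.1 ∈ I ∧ p.2 ∈ J) → R p = 0) {j0 : Fin n} (hj0 : j0 ∈ J) (i : Fin m) :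
    ∑ j, R (i, j) = ∑ j ∈ J.erase j0, R (i, j) + R (i, j0) := by
  rw [Finset.sum_erase_add J (fun j => R (i, j)) hj0]
  symm
  apply Finset.sum_subset (Finset.subset_univ J)
  intro j _ hj
  exact h (i, j) (fun hh => hj hh.2)

theorem sum_col_off {I : Finset (Fin m)} {J : Finset (Fin n)} {R : Tb m n}
    (h : ∀ p, ¬ (p.1 ∈ I ∧ p.2 ∈ J) → R p = 0) {i0 : Fin m} (hi0 : i0 ∈ I) (j : Fin n) :
    ∑ i, R (i, j) = ∑ i ∈ I.erase i0, R (i, j) + R (i0, j) := by
  rw [Finset.sum_erase_add I (fun i => R (i, j)) hi0]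
  symm
  apply Finset.sum_subset (Finset.subset_univ I)
  intro i _ hi
  exact h (i, j) (fun hh => hi hh.1)

end aux

variable [NeZero m] [NeZero n]

section comp

variable {I : Finset (Fin m)} {J : Finset (Fin n)} {b : Mg m n} {β : Fin m × Fin n → Bool}

theorem comp_off {p : Fin m × Fin n} (h : ¬ (p.1 ∈ I ∧ p.2 ∈ J)) : comp I J b β p = 0 := by
  unfold comp
  rw [if_neg h]

theorem comp_in {i : Fin m} {j : Fin n} (hi : i ∈ I.erase (first I)) (hj : j ∈ J.erase (first J)) :
    comp I J b β (i, j) = bv (β (i, j)) := by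
  rw [mem_erase] at hi hj
  unfold comp
  rw [if_pos ⟨hi.2, hj.2⟩, if_pos hi.1, if_pos hj.1]

theorem comp_col (hJ0 : J.Nonempty) {i : Fin m} (hi : i ∈ I.erase (first I)) :
    comp I J b β (i, first J) = (b.1 i - ∑ j ∈ J.erase (first J), comp I J b β (i, j)) % 2 := by
  have h1 : ∑ j ∈ J.erase (first J), comp I J b β (i, j) =
      ∑ j ∈ J.erase (first J), bv (β (i, j)) :=
    Finset.sum_congr rfl fun j hj => comp_in hi hj
  rw [h1]
  rw [mem_erase] at hi
  unfold comp
  rw [if_pos ⟨hi.2, first_mem hJ0⟩, if_pos hi.1, if_neg (not_not.mpr rfl)]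

theorem comp_row (hI0 : I.Nonempty) {j : Fin n} (hj : j ∈ J.erase (first J)) :
    comp I J b β (first I, j) = (b.2 j - ∑ i ∈ I.erase (first I), comp I J b β (i, j)) % 2 := by
  have h1 : ∑ i ∈ I.erase (first I), comp I J b β (i, j) =
      ∑ i ∈ I.erase (first I), bv (β (i, j)) :=
    Finset.sum_congr rfl fun i hi => comp_in hi hj
  rw [h1]
  rw [mem_erase] at hj
  unfold comp
  rw [if_pos ⟨first_mem hI0, hj.2⟩, if_neg (not_not.mpr rfl), if_pos hj.1]

theorem comp_corner (hI0 : I.Nonempty) (hJ0 : J.Nonempty) :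
    comp I J b β (first I, first J) =
      (b.1 (first I) - ∑ j ∈ J.erase (first J), comp I J b β (first I, j)) % 2 := by
  have h1 : ∑ j ∈ J.erase (first J), comp I J b β (first I, j) =
      ∑ j ∈ J.erase (first J), ((b.2 j - ∑ i ∈ I.erase (first I), bv (β (i, j))) % 2) := by
    refine Finset.sum_congr rfl fun j hj => ?_
    rw [comp_row hI0 hj]
    congr 2
    exact Finset.sum_congr rfl fun i hi => comp_in hi hj
  rw [h1]
  unfold comp
  rw [if_pos ⟨first_mem hI0, first_mem hJ0⟩, if_neg (not_not.mpr rfl), if_neg (not_not.mpr rfl)]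

theorem comp_mem (hI0 : I.Nonempty) (hJ0 : J.Nonempty) (hI : ∀ i, i ∉ I → b.1 i % 2 = 0)
    (hJ : ∀ j, j ∉ J → b.2 j % 2 = 0) (hb : ∑ i, b.1 i = ∑ j, b.2 j) :
    comp I J b β ∈ Par I J b := by
  rw [mem_Par]
  have hoff : ∀ p, ¬ (p.1 ∈ I ∧ p.2 ∈ J) → comp I J b β p = 0 := fun p h => comp_off h
  have hrow : ∀ i, (b.1 i - ∑ j, comp I J b β (i, j)) % 2 = 0 := by
    intro i
    by_cases hi : i ∈ I
    · rw [sum_row_off hoff (first_mem hJ0) i]
      by_cases hif : i = first I
      · subst hif
        rw [comp_corner hI0 hJ0]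
        omega
      · rw [comp_col hJ0 (mem_erase.mpr ⟨hif, hi⟩)]
        omega
    · have h0 : ∑ j, comp I J b β (i, j) = 0 :=
        Finset.sum_eq_zero fun j _ => hoff (i, j) (fun h => hi h.1)
      rw [h0, sub_zero]
      exact hI i hi
  have hcol' : ∀ j, j ≠ first J → (b.2 j - ∑ i, comp I J b β (i, j)) % 2 = 0 := by
    intro j hjf
    by_cases hj : j ∈ J
    · rw [sum_col_off hoff (first_mem hI0) j, comp_row hI0 (mem_erase.mpr ⟨hjf, hj⟩)]
      omega
    · have h0 : ∑ i, comp I J b β (i, j) = 0 :=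
        Finset.sum_eq_zero fun i _ => hoff (i, j) (fun h => hj h.2)
      rw [h0, sub_zero]
      exact hJ j hj
  refine ⟨?_, hoff, hrow, ?_⟩
  · intro p
    by_cases hp : p.1 ∈ I ∧ p.2 ∈ J
    · by_cases h1 : p.1 = first I
      · by_cases h2 : p.2 = first J
        · have : p = (first I, first J) := Prod.ext h1 h2
          rw [this, comp_corner hI0 hJ0]
          omega
        · have : p = (first I, p.2) := Prod.ext h1 rfl
          rw [this, comp_row hI0 (mem_erase.mpr ⟨h2, hp.2⟩)]
          omega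
      · by_cases h2 : p.2 = first J
        · have : p = (p.1, first J) := Prod.ext rfl h2
          rw [this, comp_col hJ0 (mem_erase.mpr ⟨h1, hp.1⟩)]
          omega
        · have : comp I J b β p = bv (β p) :=
            comp_in (i := p.1) (j := p.2) (mem_erase.mpr ⟨h1, hp.1⟩) (mem_erase.mpr ⟨h2, hp.2⟩)
          rw [this]
          exact bv_eq _
    · left
      exact hoff p hp
  · intro j
    by_cases hjf : j = first J
    · subst hjf
      have e1 : (∑ i, (b.1 i - ∑ j, comp I J b β (i, j))) % 2 = 0 := by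
        apply Int.emod_eq_zero_of_dvd
        exact Finset.dvd_sum fun i _ => Int.dvd_of_emod_eq_zero (hrow i)
      have e2 : (∑ j ∈ univ.erase (first J), (b.2 j - ∑ i, comp I J b β (i, j))) % 2 = 0 := by
        apply Int.emod_eq_zero_of_dvd
        exact Finset.dvd_sum fun j hj =>
          Int.dvd_of_emod_eq_zero (hcol' j (mem_erase.mp hj).1)
      have e3 : ∑ j, (b.2 j - ∑ i, comp I J b β (i, j)) =
          ∑ j ∈ univ.erase (first J), (b.2 j - ∑ i, comp I J b β (i, j)) +
            (b.2 (first J) - ∑ i, comp I J b β (i, first J)) :=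
        (Finset.sum_erase_add _ _ (mem_univ _)).symm
      have e4 : ∑ j, (b.2 j - ∑ i, comp I J b β (i, j)) =
          ∑ i, (b.1 i - ∑ j, comp I J b β (i, j)) := by
        rw [Finset.sum_sub_distrib, Finset.sum_sub_distrib, hb, Finset.sum_comm]
      omega
    · exact hcol' j hjf

/-- the tables of bits completed to a given parity pattern -/
theorem comp_fiber (hI0 : I.Nonempty) (hJ0 : J.Nonempty) {R : Tb m n} (hR : R ∈ Par I J b) :
    comp I J b β = R ↔
      β ∈ Fintype.piFinset (fun p : Fin m × Fin n =>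
        if p.1 ∈ I.erase (first I) ∧ p.2 ∈ J.erase (first J) then {decide (R p = 1)} else univ) := by
  rw [mem_Par] at hR
  obtain ⟨h01, hoff, hrow, hcol⟩ := hR
  rw [Fintype.mem_piFinset]
  constructor
  · rintro rfl p
    split_ifs with hp
    · rw [mem_singleton]
      have h := comp_in (b := b) (β := β) hp.1 hp.2
      rw [Prod.mk.eta] at h
      rw [h]
      cases β p <;> simp [bv]
    · exact mem_univ _
  · intro h
    have hin : ∀ i ∈ I.erase (first I), ∀ j ∈ J.erase (first J),
        comp I J b β (i, j) = R (i, j) := by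
      intro i hi j hj
      rw [comp_in hi hj]
      have := h (i, j)
      rw [if_pos ⟨hi, hj⟩, mem_singleton] at this
      rw [this]
      exact bv_decide (h01 _)
    have hc : ∀ i ∈ I.erase (first I), comp I J b β (i, first J) = R (i, first J) := by
      intro i hi
      rw [comp_col hJ0 hi, Finset.sum_congr rfl (hin i hi)]
      have h1 := hrow i
      rw [sum_row_off hoff (first_mem hJ0) i] at h1
      have h2 := h01 (i, first J)
      omega
    have hr : ∀ j ∈ J.erase (first J), comp I J b β (first I, j) = R (first I, j) := by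
      intro j hj
      rw [comp_row hI0 hj, Finset.sum_congr rfl (fun i hi => hin i hi j hj)]
      have h1 := hcol j
      rw [sum_col_off hoff (first_mem hI0) j] at h1
      have h2 := h01 (first I, j)
      omega
    have hcor : comp I J b β (first I, first J) = R (first I, first J) := by
      rw [comp_corner hI0 hJ0, Finset.sum_congr rfl hr]
      have h1 := hrow (first I)
      rw [sum_row_off hoff (first_mem hJ0) (first I)] at h1
      have h2 := h01 (first I, first J)
      omega
    funext p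
    obtain ⟨i, j⟩ := p
    by_cases hp : i ∈ I ∧ j ∈ J
    · by_cases h1 : i = first I
      · subst h1
        by_cases h2 : j = first J
        · subst h2
          exact hcor
        · exact hr j (mem_erase.mpr ⟨h2, hp.2⟩)
      · by_cases h2 : j = first J
        · subst h2
          exact hc i (mem_erase.mpr ⟨h1, hp.1⟩)
        · exact hin i (mem_erase.mpr ⟨h1, hp.1⟩) j (mem_erase.mpr ⟨h2, hp.2⟩)
    · rw [comp_off hp, hoff (i, j) hp]

end comp

omit [NeZero m] [NeZero n] in
theorem law_bits : law (bits (m := m) (n := n)) =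
    PMF.uniformOfFintype (Fin m × Fin n → Bool) := by
  unfold law bits
  rw [PMF.map_comp]
  exact PMF.map_id _

theorem law_bits_comp {b : Mg m n} {I : Finset (Fin m)}
    {J : Finset (Fin n)} (hI0 : I.Nonempty) (hJ0 : J.Nonempty)
    (hI : ∀ i, i ∉ I → b.1 i % 2 = 0) (hJ : ∀ j, j ∉ J → b.2 j % 2 = 0)
    (hb : ∑ i, b.1 i = ∑ j, b.2 j) :
    ∃ h : (Par I J b).Nonempty,
      (law (bits (m := m) (n := n))).map (comp I J b) = PMF.uniformOfFinset (Par I J b) h := by
  classical
  have hmem : ∀ β, comp I J b β ∈ Par I J b := fun β => comp_mem hI0 hJ0 hI hJ hb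
  have hne : (Par I J b).Nonempty := ⟨_, hmem (fun _ => true)⟩
  refine ⟨hne, ?_⟩
  rw [law_bits]
  -- the common cardinality of the fibers
  set c : ℕ := ∏ p : Fin m × Fin n,
    (if p.1 ∈ I.erase (first I) ∧ p.2 ∈ J.erase (first J) then 1 else 2) with hc
  have hcard : ∀ R ∈ Par I J b,
      (univ.filter fun β : Fin m × Fin n → Bool => comp I J b β = R).card = c := by
    intro R hR
    have : (univ.filter fun β : Fin m × Fin n → Bool => comp I J b β = R) =
        Fintype.piFinset (fun p : Fin m × Fin n =>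
        if p.1 ∈ I.erase (first I) ∧ p.2 ∈ J.erase (first J) then {decide (R p = 1)} else univ) := by
      ext β
      rw [mem_filter]
      simp only [mem_univ, true_and]
      exact comp_fiber hI0 hJ0 hR
    rw [this, Fintype.card_piFinset, hc]
    apply Finset.prod_congr rfl
    intro p _
    split_ifs <;> simp
  have htot : (Par I J b).card * c = Fintype.card (Fin m × Fin n → Bool) := by
    rw [← Finset.card_univ, Finset.card_eq_sum_card_fiberwise (f := comp I J b) (t := Par I J b)
      (fun β _ => hmem β), Finset.sum_congr rfl hcard, Finset.sum_const, smul_eq_mul]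
  ext R
  rw [PMF.map_apply, PMF.uniformOfFinset_apply]
  have h1 : (∑' β : Fin m × Fin n → Bool, if comp I J b β = R then
      ((Fintype.card (Fin m × Fin n → Bool) : ENNReal))⁻¹ else 0) =
      ((univ.filter fun β : Fin m × Fin n → Bool => comp I J b β = R).card : ENNReal) *
        ((Fintype.card (Fin m × Fin n → Bool) : ENNReal))⁻¹ := by
    rw [tsum_fintype, ← Finset.sum_filter, Finset.sum_const, nsmul_eq_mul]
  refine (tsum_congr (g := fun β : Fin m × Fin n → Bool => if comp I J b β = R then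
      ((Fintype.card (Fin m × Fin n → Bool) : ENNReal))⁻¹ else 0) fun β => ?_).trans ?_
  · rw [PMF.uniformOfFintype_apply]
    by_cases h : comp I J b β = R
    · rw [if_pos h, if_pos h.symm]
    · rw [if_neg h, if_neg (fun h' => h h'.symm)]
  rw [h1]
  by_cases hR : R ∈ Par I J b
  · rw [if_pos hR, hcard R hR, ← htot]
    have hc0 : (c : ENNReal) ≠ 0 := by
      have : c ≠ 0 := by
        rw [hc]
        apply Finset.prod_ne_zero_iff.mpr
        intro p _
        split_ifs <;> norm_num
      exact_mod_cast this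
    have hct : (c : ENNReal) ≠ ⊤ := ENNReal.natCast_ne_top c
    push_cast
    rw [ENNReal.mul_inv (Or.inr hct) (Or.inr hc0), mul_comm, mul_assoc,
      ENNReal.inv_mul_cancel hc0 hct, mul_one]
  · rw [if_neg hR]
    have : (univ.filter fun β : Fin m × Fin n → Bool => comp I J b β = R) = ∅ := by
      apply Finset.filter_eq_empty_iff.mpr
      intro β _ h
      exact hR (h ▸ hmem β)
    rw [this]
    simp

end P328
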