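import Vale.Agent.P328.EE
import Vale.Agent.P328.Cap
import Vale.Agent.P328.Parity
import Vale.Agent.P328.Om
import Vale.Agent.P328.Unary
import Vale.Agent.P328.Coarse

/-!
# P328 : the sampler, one level and the recursion
-/

namespace P328

open Finset

variable {m n : ℕ}

namespace SampAux

theorem unifOm_eq {b : Mg m n} (h : (Om b).Nonempty) :
    unifOm b = PMF.uniformOfFinset (Om b) h := by
  unfold unifOm
  rw [dif_pos h]

theorem EE_unifOm {b : Mg m n} (h : (Om b).Nonempty) (g : Tb m n → ℝ) :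
    EE (unifOm b) g = Ex b g := by
  rw [unifOm_eq h, EE_finset]
  rfl

theorem abs_Ex_le {b : Mg m n} {g : Tb m n → ℝ} (hg : ∀ X ∈ Om b, |g X| ≤ 1) : |Ex b g| ≤ 1 := by
  unfold Ex
  rcases (Om b).eq_empty_or_nonempty with h | h
  · rw [h]; simp
  · have hc : (0 : ℝ) < (Om b).card := by exact_mod_cast Finset.card_pos.2 h
    rw [abs_div, abs_of_pos hc, div_le_one hc]
    refine (Finset.abs_sum_le_sum_abs _ _).trans ((Finset.sum_le_sum hg).trans ?_)
    simp

theorem mem_bigR {K : ℤ} {b : Mg m n} {i : Fin m} : i ∈ bigR K b ↔ K ≤ b.1 i := by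
  simp [bigR]

theorem mem_bigC {K : ℤ} {b : Mg m n} {j : Fin n} : j ∈ bigC K b ↔ K ≤ b.2 j := by
  simp [bigC]

theorem small_in {K : ℤ} {b : Mg m n} {X : Tb m n} {p : Fin m × Fin n}
    (h1 : p.1 ∈ bigR K b) (h2 : p.2 ∈ bigC K b) : small K b X p = 0 := by
  rw [mem_bigR] at h1
  rw [mem_bigC] at h2
  unfold small
  rw [if_neg]
  omega

theorem small_out {K : ℤ} {b : Mg m n} {X : Tb m n} {p : Fin m × Fin n}
    (h : ¬ (p.1 ∈ bigR K b ∧ p.2 ∈ bigC K b)) : small K b X p = X p := by
  rw [mem_bigR, mem_bigC] at h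
  unfold small
  rw [if_pos]
  omega

theorem small_nonneg {K : ℤ} {b : Mg m n} {X : Tb m n} (hX : 0 ≤ X) : 0 ≤ small K b X := by
  intro p
  unfold small
  split_ifs
  · exact hX p
  · exact le_rfl

theorem small_le {K : ℤ} {b : Mg m n} {X : Tb m n} (hX : 0 ≤ X) : small K b X ≤ X := by
  intro p
  unfold small
  split_ifs
  · exact le_rfl
  · exact hX p

/-- the remaining margins -/
theorem rest_fst {K : ℤ} {b : Mg m n} {X : Tb m n} (hX : X ∈ Om b) (i : Fin m) :
    (b - mar (small K b X)).1 i = ∑ j, (X (i, j) - small K b X (i, j)) := by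
  have h := (mem_Om.1 hX).2
  rw [Finset.sum_sub_distrib]
  rw [Prod.fst_sub, Pi.sub_apply]
  have h1 : b.1 i = ∑ j, X (i, j) := by rw [← h]; rfl
  rw [h1]
  rfl

theorem rest_snd {K : ℤ} {b : Mg m n} {X : Tb m n} (hX : X ∈ Om b) (j : Fin n) :
    (b - mar (small K b X)).2 j = ∑ i, (X (i, j) - small K b X (i, j)) := by
  have h := (mem_Om.1 hX).2
  rw [Finset.sum_sub_distrib]
  rw [Prod.snd_sub, Pi.sub_apply]
  have h1 : b.2 j = ∑ i, X (i, j) := by rw [← h]; rfl
  rw [h1]
  rfl

theorem rest_fst_zero {K : ℤ} {b : Mg m n} {X : Tb m n} (hX : X ∈ Om b) {i : Fin m}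
    (hi : i ∉ bigR K b) : (b - mar (small K b X)).1 i = 0 := by
  rw [rest_fst hX]
  refine Finset.sum_eq_zero fun j _ => ?_
  rw [small_out (by rintro ⟨h, -⟩; exact hi h), sub_self]

theorem rest_snd_zero {K : ℤ} {b : Mg m n} {X : Tb m n} (hX : X ∈ Om b) {j : Fin n}
    (hj : j ∉ bigC K b) : (b - mar (small K b X)).2 j = 0 := by
  rw [rest_snd hX]
  refine Finset.sum_eq_zero fun i _ => ?_
  rw [small_out (by rintro ⟨-, h⟩; exact hj h), sub_self]

theorem sub_mem {K : ℤ} {b : Mg m n} {X : Tb m n} (hX : X ∈ Om b) :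
    X - small K b X ∈ Om (b - mar (small K b X)) := by
  rw [mem_Om] at hX ⊢
  refine ⟨sub_nonneg.2 (small_le hX.1), ?_⟩
  rw [map_sub, hX.2]

theorem off_zero {K : ℤ} {b : Mg m n} {X Z : Tb m n} (hX : X ∈ Om b)
    (hZ : Z ∈ Om (b - mar (small K b X))) {p : Fin m × Fin n}
    (h : ¬ (p.1 ∈ bigR K b ∧ p.2 ∈ bigC K b)) : Z p = 0 := by
  have h0 := (mem_Om.1 hZ).1 p
  have h1 := le_row hZ p
  rw [not_and_or] at h
  rcases h with h | h
  · rw [rest_fst_zero hX h] at h1
    exact le_antisymm h1.1 h0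
  · rw [rest_snd_zero hX h] at h1
    exact le_antisymm h1.2 h0

theorem small_add {K : ℤ} {b : Mg m n} {X Z : Tb m n} (hX : X ∈ Om b)
    (hZ : Z ∈ Om (b - mar (small K b X))) : small K b (small K b X + Z) = small K b X := by
  funext p
  by_cases h : p.1 ∈ bigR K b ∧ p.2 ∈ bigC K b
  · rw [small_in h.1 h.2, small_in h.1 h.2]
  · rw [small_out h, Pi.add_apply, off_zero hX hZ h, add_zero]

theorem fiber_sum {K : ℤ} {b : Mg m n} {X : Tb m n} (hX : X ∈ Om b) (g : Tb m n → ℝ) :
    ∑ Y ∈ (Om b).filter (fun Y => small K b Y = small K b X), g Y =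
      ∑ Z ∈ Om (b - mar (small K b X)), g (small K b X + Z) := by
  refine Finset.sum_nbij' (fun Y => Y - small K b X) (fun Z => small K b X + Z) ?_ ?_ ?_ ?_ ?_
  · intro Y hY
    rw [Finset.mem_filter] at hY
    have := sub_mem (K := K) hY.1
    rwa [hY.2] at this
  · intro Z hZ
    rw [Finset.mem_filter]
    refine ⟨?_, small_add hX hZ⟩
    have h1 := mem_Om.1 hX
    have h2 := mem_Om.1 hZ
    rw [mem_Om]
    refine ⟨add_nonneg (small_nonneg h1.1) h2.1, ?_⟩
    rw [map_add, h2.2]
    abel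
  · intro Y _
    abel
  · intro Z _
    abel
  · intro Y _
    congr 1
    abel

/-- disintegration of the uniform law over the small part -/
theorem Ex_small (K : ℤ) (b : Mg m n) (g : Tb m n → ℝ) :
    Ex b g = Ex b fun X => Ex (b - mar (small K b X)) fun Z => g (small K b X + Z) := by
  unfold Ex
  congr 1
  rw [sum_fiber_avg (Om b) (small K b) g]
  refine Finset.sum_congr rfl fun X hX => ?_
  rw [fiber_sum hX g]
  congr 1
  have h := fiber_sum (K := K) hX fun _ => 1
  simpa using h

/-- the bad tables are rare -/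
theorem bad_le {b : Mg m n} {K t : ℤ} (hK : 0 < K) (ht0 : 0 < t)
    (hI0 : (bigR K b).Nonempty) (hJ0 : (bigC K b).Nonempty) :
    ((((Om b).filter fun X => ¬ ((∀ i ∈ bigR K b, t ≤ (b - mar (small K b X)).1 i) ∧
      ∀ j ∈ bigC K b, t ≤ (b - mar (small K b X)).2 j)).card : ℕ) : ℝ) ≤
      24 * (m + n) ^ 2 * t / K * (Om b).card := by
  obtain ⟨i0, hi0⟩ := hI0
  obtain ⟨j0, hj0⟩ := hJ0
  have hsub : ((Om b).filter fun X => ¬ ((∀ i ∈ bigR K b, t ≤ (b - mar (small K b X)).1 i) ∧
      ∀ j ∈ bigC K b, t ≤ (b - mar (small K b X)).2 j)) ⊆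
      ((bigR K b).biUnion fun i => (Om b).filter fun X => X (i, j0) < t) ∪
      ((bigC K b).biUnion fun j => (Om b).filter fun X => X (i0, j) < t) := by
    intro X hX
    rw [Finset.mem_filter, not_and_or] at hX
    obtain ⟨hXb, hX⟩ := hX
    have hX0 := (mem_Om.1 hXb).1
    have hsm := small_le (K := K) (b := b) hX0
    rw [Finset.mem_union]
    rcases hX with hX | hX
    · left
      push Not at hX
      obtain ⟨i, hi, hlt⟩ := hX
      rw [Finset.mem_biUnion]
      refine ⟨i, hi, Finset.mem_filter.2 ⟨hXb, ?_⟩⟩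
      rw [rest_fst hXb] at hlt
      refine lt_of_le_of_lt ?_ hlt
      have h1 := Finset.single_le_sum (f := fun j => X (i, j) - small K b X (i, j))
        (fun j _ => sub_nonneg.2 (hsm (i, j))) (Finset.mem_univ j0)
      rwa [small_in (p := (i, j0)) hi hj0, sub_zero] at h1
    · right
      push Not at hX
      obtain ⟨j, hj, hlt⟩ := hX
      rw [Finset.mem_biUnion]
      refine ⟨j, hj, Finset.mem_filter.2 ⟨hXb, ?_⟩⟩
      rw [rest_snd hXb] at hlt
      refine lt_of_le_of_lt ?_ hlt
      have h1 := Finset.single_le_sum (f := fun i => X (i, j) - small K b X (i, j))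
        (fun i _ => sub_nonneg.2 (hsm (i, j))) (Finset.mem_univ i0)
      rwa [small_in (p := (i0, j)) hi0 hj, sub_zero] at h1
  have hKr : (0 : ℝ) < K := by exact_mod_cast hK
  have htr : (0 : ℝ) < t := by exact_mod_cast ht0
  have hc : (0 : ℝ) ≤ 24 * (m + n) * t / K * (Om b).card := by positivity
  have h1 : ((((bigR K b).biUnion fun i => (Om b).filter fun X => X (i, j0) < t).card : ℕ) : ℝ) ≤
      m * (24 * (m + n) * t / K * (Om b).card) := by
    have h2 : ((((bigR K b).biUnion fun i => (Om b).filter fun X => X (i, j0) < t).card : ℕ) : ℝ)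
        ≤ ∑ i ∈ bigR K b, (((Om b).filter fun X => X (i, j0) < t).card : ℝ) := by
      exact_mod_cast Finset.card_biUnion_le
    refine h2.trans ?_
    have h3 : ∀ i ∈ bigR K b, (((Om b).filter fun X => X (i, j0) < t).card : ℝ) ≤
        24 * (m + n) * t / K * (Om b).card := fun i hi =>
      flat i j0 hK (mem_bigR.1 hi) (mem_bigC.1 hj0) ht0.le
    refine (Finset.sum_le_sum h3).trans ?_
    rw [Finset.sum_const, nsmul_eq_mul]
    refine mul_le_mul_of_nonneg_right ?_ hc
    have h4 := Finset.card_le_univ (bigR K b)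
    rw [Fintype.card_fin] at h4
    exact_mod_cast h4
  have h1' : ((((bigC K b).biUnion fun j => (Om b).filter fun X => X (i0, j) < t).card : ℕ) : ℝ)
      ≤ n * (24 * (m + n) * t / K * (Om b).card) := by
    have h2 : ((((bigC K b).biUnion fun j => (Om b).filter fun X => X (i0, j) < t).card : ℕ) : ℝ)
        ≤ ∑ j ∈ bigC K b, (((Om b).filter fun X => X (i0, j) < t).card : ℝ) := by
      exact_mod_cast Finset.card_biUnion_le
    refine h2.trans ?_
    have h3 : ∀ j ∈ bigC K b, (((Om b).filter fun X => X (i0, j) < t).card : ℝ) ≤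
        24 * (m + n) * t / K * (Om b).card := fun j hj =>
      flat i0 j hK (mem_bigR.1 hi0) (mem_bigC.1 hj) ht0.le
    refine (Finset.sum_le_sum h3).trans ?_
    rw [Finset.sum_const, nsmul_eq_mul]
    refine mul_le_mul_of_nonneg_right ?_ hc
    have h4 := Finset.card_le_univ (bigC K b)
    rw [Fintype.card_fin] at h4
    exact_mod_cast h4
  have h5 : ((((Om b).filter fun X => ¬ ((∀ i ∈ bigR K b, t ≤ (b - mar (small K b X)).1 i) ∧
      ∀ j ∈ bigC K b, t ≤ (b - mar (small K b X)).2 j)).card : ℕ) : ℝ) ≤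
      (((bigR K b).biUnion fun i => (Om b).filter fun X => X (i, j0) < t).card : ℝ) +
      (((bigC K b).biUnion fun j => (Om b).filter fun X => X (i0, j) < t).card : ℝ) := by
    exact_mod_cast (Finset.card_le_card hsub).trans (Finset.card_union_le _ _)
  refine h5.trans ((add_le_add h1 h1').trans (le_of_eq ?_))
  ring

theorem half_fst_le {b : Mg m n} {R : Tb m n} (hR : 0 ≤ R) (i : Fin m) :
    2 * (half b R).1 i ≤ b.1 i := by
  have h : 0 ≤ ∑ j, R (i, j) := Finset.sum_nonneg fun j _ => hR (i, j)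
  change 2 * ((b.1 i - ∑ j, R (i, j)) / 2) ≤ b.1 i
  omega

theorem tot_half_le {b : Mg m n} {R : Tb m n} (hR : 0 ≤ R) : 2 * tot (half b R) ≤ tot b := by
  unfold tot
  rw [Finset.mul_sum]
  exact Finset.sum_le_sum fun i _ => half_fst_le hR i

/-- one level, given the small part, when the remaining margins are large -/
theorem good_est [NeZero m] [NeZero n] {b : Mg m n} (hb : Ok b) {I : Finset (Fin m)}
    {J : Finset (Fin n)} (hI0 : I.Nonempty) (hJ0 : J.Nonempty)
    (hI : ∀ i, i ∉ I → b.1 i = 0) (hJ : ∀ j, j ∉ J → b.2 j = 0) {t : ℤ}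
    (hIt : ∀ i ∈ I, t ≤ b.1 i) (hJt : ∀ j ∈ J, t ≤ b.2 j)
    (ht : 200 * (m + n) * (m * n) ≤ t) (ht0 : 0 < t) {εr : ℝ} (F : Mg m n → PMF (Tb m n))
    (hF : ∀ b', Ok b' → 2 * tot b' ≤ tot b → tv (F b') (unifOm b') ≤ εr)
    {g : Tb m n → ℝ} (hg : ∀ X, |g X| ≤ 1) {ψ : Tb m n → ℝ} (hψ1 : ∀ R, |ψ R| ≤ 1)
    (hψ : ∀ R, Ok (half b R) → ψ R = EE (F (half b R)) fun Q => g (R + 2 • Q)) :
    |EE (law (bits (m := m) (n := n))) (fun β => ψ (comp I J b β)) - Ex b g| ≤
      2 * εr + 200 * (m + n) * (m * n) / t := by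
  obtain ⟨hP, hlaw⟩ := law_bits_comp hI0 hJ0 (fun i hi => by rw [hI i hi]; rfl)
    (fun j hj => by rw [hJ j hj]; rfl) hb.2.2
  obtain ⟨κ, hκ⟩ : ∃ κ : ℝ, κ = 200 * (m + n) * (m * n) / t := ⟨_, rfl⟩
  have ht0' : (0 : ℝ) < t := by exact_mod_cast ht0
  have hκ0 : 0 ≤ κ := by
    rw [hκ]
    positivity
  rw [← hκ]
  have e1 : EE (law (bits (m := m) (n := n))) (fun β => ψ (comp I J b β)) =
      (∑ R ∈ Par I J b, ψ R) / (Par I J b).card := by
    rw [← EE_map _ _ hψ1, hlaw, EE_finset]
  have e2 : ∑ X ∈ Om b, g X = ∑ R ∈ Par I J b, ∑ Q ∈ Om (half b R), g (R + 2 • Q) :=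
    sum_half hI hJ g
  have e3 : ((Om b).card : ℝ) = ∑ R ∈ Par I J b, ((Om (half b R)).card : ℝ) := by
    have := sum_half hI hJ (fun _ => (1 : ℝ))
    simpa using this
  have hco : ∀ R ∈ Par I J b, ∀ R' ∈ Par I J b, ((Om (half b R)).card : ℝ) ≤
      (1 + κ) * (Om (half b R')).card := fun R hR R' hR' => by
    rw [hκ]
    exact coarse hb hI hJ hIt hJt ht ht0 hR hR'
  have hNb : (0 : ℝ) < (Om b).card := by
    exact_mod_cast Finset.card_pos.2 (Om_nonempty hb)
  have hPc : (0 : ℝ) < (Par I J b).card := by exact_mod_cast Finset.card_pos.2 hP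
  have hup : ∀ R ∈ Par I J b, ((Par I J b).card : ℝ) * (Om (half b R)).card ≤
      (1 + κ) * (Om b).card := by
    intro R hR
    have h1 := Finset.sum_le_sum fun R' hR' => hco R hR R' hR'
    rwa [Finset.sum_const, nsmul_eq_mul, ← Finset.mul_sum, ← e3] at h1
  have hlow : ∀ R ∈ Par I J b, ((Om b).card : ℝ) ≤
      (1 + κ) * ((Par I J b).card * (Om (half b R)).card) := by
    intro R hR
    have h1 := Finset.sum_le_sum fun R' hR' => hco R' hR' R hR
    rw [Finset.sum_const, nsmul_eq_mul, ← e3] at h1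
    linarith
  have hpos : ∀ R ∈ Par I J b, (0 : ℝ) < (Om (half b R)).card := by
    intro R hR
    have h1 := hlow R hR
    have h2 : (0 : ℝ) < (1 + κ) * ((Par I J b).card * (Om (half b R)).card) :=
      lt_of_lt_of_le hNb h1
    by_contra h3
    have h4 : ((Om (half b R)).card : ℝ) = 0 := le_antisymm (not_lt.1 h3) (by positivity)
    rw [h4, mul_zero, mul_zero] at h2
    exact lt_irrefl _ h2
  have hne : ∀ R ∈ Par I J b, (Om (half b R)).Nonempty := by
    intro R hR
    have := hpos R hR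
    exact Finset.card_pos.1 (by exact_mod_cast this)
  have hR0 : ∀ R ∈ Par I J b, 0 ≤ R := by
    intro R hR p
    rcases (mem_Par.1 hR).1 p with h | h
    · rw [h]; exact le_rfl
    · rw [h]; exact zero_le_one
  -- pointwise comparison
  have hpt : ∀ R ∈ Par I J b, |ψ R / (Par I J b).card -
      (∑ Q ∈ Om (half b R), g (R + 2 • Q)) / (Om b).card| ≤
      (2 * εr + κ) / (Par I J b).card := by
    intro R hR
    obtain ⟨X, hX⟩ := hne R hR
    have hok : Ok (half b R) := ok_of_mem hX
    have h1 := abs_EE_sub_le_tv (F (half b R)) (unifOm (half b R))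
      (g := fun Q => g (R + 2 • Q)) (fun Q => hg _)
    rw [← hψ R hok, EE_unifOm (hne R hR)] at h1
    have h2 := hF (half b R) hok (tot_half_le (hR0 R hR))
    have h3 : |ψ R - Ex (half b R) fun Q => g (R + 2 • Q)| ≤ 2 * εr := h1.trans (by linarith)
    have h4 : |Ex (half b R) fun Q => g (R + 2 • Q)| ≤ 1 := abs_Ex_le fun Q _ => hg _
    have hN := hpos R hR
    have h5 : (∑ Q ∈ Om (half b R), g (R + 2 • Q)) =
        (Om (half b R)).card * Ex (half b R) fun Q => g (R + 2 • Q) := by
      unfold Ex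
      field_simp
    rw [h5]
    generalize (Ex (half b R) fun Q => g (R + 2 • Q)) = e at h3 h4
    have h6 : ψ R / (Par I J b).card - (Om (half b R)).card * e / (Om b).card =
        (ψ R - e) / (Par I J b).card +
        e * (1 / (Par I J b).card - (Om (half b R)).card / (Om b).card) := by
      ring
    rw [h6]
    have h7 : |(1 : ℝ) / (Par I J b).card - (Om (half b R)).card / (Om b).card| ≤
        κ / (Par I J b).card := by
      have ha := hup R hR
      have hb' := hlow R hR
      rw [abs_le]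
      constructor
      · rw [neg_le_sub_iff_le_add, ← add_div, div_le_div_iff₀ hNb hPc]
        linarith
      · rw [sub_le_iff_le_add, ← sub_le_iff_le_add', ← sub_div, div_le_div_iff₀ hPc hNb]
        have h8 : (1 - κ) * (Om b).card ≤ (1 - κ ^ 2) * ((Par I J b).card * (Om (half b R)).card)
            ∨ 1 < κ := by
          rcases le_or_gt κ 1 with h9 | h9
          · left
            have := mul_le_mul_of_nonneg_left hb' (sub_nonneg.2 h9)
            linarith
          · right; exact h9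
        have h10 : 0 ≤ ((Par I J b).card : ℝ) * (Om (half b R)).card := by positivity
        rcases h8 with h8 | h8
        · nlinarith [sq_nonneg κ]
        · nlinarith
    calc |(ψ R - e) / (Par I J b).card +
          e * (1 / (Par I J b).card - (Om (half b R)).card / (Om b).card)|
        ≤ |(ψ R - e) / (Par I J b).card| +
          |e * (1 / (Par I J b).card - (Om (half b R)).card / (Om b).card)| := abs_add_le _ _
      _ ≤ 2 * εr / (Par I J b).card + κ / (Par I J b).card := by
          refine add_le_add ?_ ?_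
          · rw [abs_div, abs_of_pos hPc]
            gcongr
          · rw [abs_mul]
            calc |e| * _ ≤ 1 * (κ / (Par I J b).card) :=
                  mul_le_mul h4 h7 (abs_nonneg _) zero_le_one
              _ = _ := one_mul _
      _ = _ := by ring
  rw [e1]
  unfold Ex
  rw [e2, Finset.sum_div, Finset.sum_div, ← Finset.sum_sub_distrib]
  refine (Finset.abs_sum_le_sum_abs _ _).trans ((Finset.sum_le_sum hpt).trans ?_)
  rw [Finset.sum_const, nsmul_eq_mul]
  field_simp
  exact le_rfl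

/-- comparison of two means when the functions are close except on rare tables -/
theorem Ex_sub_le {b : Mg m n} (h : (Om b).Nonempty) {f g : Tb m n → ℝ} {ε δ : ℝ}
    (hf : ∀ X ∈ Om b, |f X| ≤ 1) (hg : ∀ X ∈ Om b, |g X| ≤ 1) (hε : 0 ≤ ε)
    (P : Tb m n → Prop) [DecidablePred P]
    (hP : (((Om b).filter fun X => ¬ P X).card : ℝ) ≤ δ * (Om b).card)
    (hfg : ∀ X ∈ Om b, P X → |f X - g X| ≤ ε) : |Ex b f - Ex b g| ≤ ε + 2 * δ := by
  have hc : (0 : ℝ) < (Om b).card := by exact_mod_cast Finset.card_pos.2 h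
  unfold Ex
  rw [← sub_div, ← Finset.sum_sub_distrib, abs_div, abs_of_pos hc, div_le_iff₀ hc]
  have h1 : ∀ X ∈ Om b, |f X - g X| ≤ ε + 2 * (if ¬ P X then 1 else 0) := by
    intro X hX
    by_cases hp : P X
    · rw [if_neg (not_not.2 hp)]
      linarith [hfg X hX hp]
    · rw [if_pos hp]
      have h2 := hf X hX
      have h3 := hg X hX
      have h4 : |f X - g X| ≤ |f X| + |g X| := by
        rw [abs_le] at *
        constructor <;> linarith [neg_abs_le (f X), le_abs_self (f X), neg_abs_le (g X),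
          le_abs_self (g X)]
      linarith
  refine (Finset.abs_sum_le_sum_abs _ _).trans ((Finset.sum_le_sum h1).trans ?_)
  rw [Finset.sum_add_distrib, Finset.sum_const, nsmul_eq_mul, ← Finset.mul_sum]
  have h5 : ∑ X ∈ Om b, (if ¬ P X then (1 : ℝ) else 0) =
      (((Om b).filter fun X => ¬ P X).card : ℝ) := by
    rw [Finset.card_filter]
    push_cast
    rfl
  rw [h5]
  nlinarith

end SampAux

open SampAux

theorem samp_succ [NeZero m] [NeZero n] {b : Mg m n} (hb : Ok b) {K K2 t : ℤ} {T f : ℕ}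
    (hbig : (m + n) * K2 < tot b)
    (hK : 0 < K) (hKK : K ≤ K2) (hK2 : 200 * (m + n) ≤ K2) (ht : 200 * (m + n) * (m * n) ≤ t)
    (ht0 : 0 < t) {εu εr : ℝ}
    (hu : tv (law (unary T (cap K2 b))) (unifOm (cap K2 b)) ≤ εu)
    (hr : ∀ b' : Mg m n, Ok b' → 2 * tot b' ≤ tot b → tv (law (samp K K2 T f b')) (unifOm b') ≤ εr) :
    tv (law (samp K K2 T (f + 1) b)) (unifOm b) ≤
      εr + εu + 10 ^ 6 * ((m * n) ^ 2 * (m + n) ^ 2) * K ^ 2 / K2 +
        24 * (m + n) ^ 2 * t / K + 200 * (m + n) * (m * n) / t := by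
  classical
  have hK20 : 0 ≤ K2 := hK.le.trans hKK
  have hne := Om_nonempty hb
  have hcap := cap_ok hb hK20
  have hnec := Om_nonempty hcap
  -- `εr` is nonnegative
  have htot0 : 0 ≤ tot b := Finset.sum_nonneg fun i _ => hb.1 i
  have hεr : 0 ≤ εr := by
    have h0 : Ok (0 : Mg m n) := ⟨fun _ => le_rfl, fun _ => le_rfl, by simp⟩
    refine (tv_nonneg _ _).trans (hr 0 h0 ?_)
    have : tot (0 : Mg m n) = 0 := by simp [tot]
    rw [this]
    omega
  have hKr : (0 : ℝ) < K := by exact_mod_cast hK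
  have htr : (0 : ℝ) < t := by exact_mod_cast ht0
  have hI0 : (bigR K b).Nonempty := by
    by_contra h
    rw [Finset.not_nonempty_iff_eq_empty] at h
    have h1 : ∀ i, b.1 i ≤ K2 := fun i => by
      have h2 : i ∉ bigR K b := by rw [h]; simp
      rw [mem_bigR] at h2
      omega
    have h3 : tot b ≤ ∑ _i : Fin m, K2 := Finset.sum_le_sum fun i _ => h1 i
    rw [Finset.sum_const, Finset.card_univ, Fintype.card_fin, nsmul_eq_mul] at h3
    have : 0 ≤ (n : ℤ) * K2 := by positivity
    nlinarith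
  have hJ0 : (bigC K b).Nonempty := by
    by_contra h
    rw [Finset.not_nonempty_iff_eq_empty] at h
    have h1 : ∀ j, b.2 j ≤ K2 := fun j => by
      have h2 : j ∉ bigC K b := by rw [h]; simp
      rw [mem_bigC] at h2
      omega
    have h3 : tot b ≤ ∑ _j : Fin n, K2 := by
      unfold tot
      rw [hb.2.2]
      exact Finset.sum_le_sum fun j _ => h1 j
    rw [Finset.sum_const, Finset.card_univ, Fintype.card_fin, nsmul_eq_mul] at h3
    have : 0 ≤ (m : ℤ) * K2 := by positivity
    nlinarith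
  have hmain : ∀ g : Tb m n → ℝ, (∀ X, |g X| ≤ 1) →
      |EE (law (samp K K2 T (f + 1) b)) g - EE (unifOm b) g| ≤
      2 * (εr + εu + 10 ^ 6 * ((m * n) ^ 2 * (m + n) ^ 2) * K ^ 2 / K2 +
        24 * (m + n) ^ 2 * t / K + 200 * (m + n) * (m * n) / t) := by
    intro g hg
    -- the program after the small part
    set ψ : Tb m n → Tb m n → ℝ := fun A R => EE (law
      (if Ok (half (b - mar A) R) then
        andThen (samp K K2 T f (half (b - mar A) R)) fun Q => ret (A + R + 2 • Q)
      else ret 0)) g with hψdef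
    set Φ : Tb m n → ℝ := fun A => EE (law (bits (m := m) (n := n))) fun β =>
      ψ A (comp (bigR K b) (bigC K b) (b - mar A) β) with hΦdef
    have hψ1 : ∀ A R, |ψ A R| ≤ 1 := fun A R => abs_EE_le _ hg
    have hΦ1 : ∀ A, |Φ A| ≤ 1 := fun A => abs_EE_le _ fun β => hψ1 _ _
    have h1 : EE (law (samp K K2 T (f + 1) b)) g =
        EE (law (unary T (cap K2 b))) fun X => Φ (small K b X) := by
      have hs : samp K K2 T (f + 1) b =
          charge (100 * (m * n)) (andThen (unary T (cap K2 b)) fun X =>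
            andThen bits fun β =>
              if Ok (half (b - mar (small K b X))
                  (comp (bigR K b) (bigC K b) (b - mar (small K b X)) β)) then
                andThen (samp K K2 T f (half (b - mar (small K b X))
                  (comp (bigR K b) (bigC K b) (b - mar (small K b X)) β))) fun Q =>
                  ret (small K b X + comp (bigR K b) (bigC K b) (b - mar (small K b X)) β +
                    2 • Q)
              else ret 0) := by
        rw [samp]
        rw [if_neg (not_le.2 hbig)]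
      rw [hs, law_charge, law_andThen, EE_bind _ _ hg]
      refine EE_congr _ fun X _ => ?_
      simp only [law_andThen]
      rw [EE_bind _ _ hg]
    -- step 1
    have h2 : |EE (law (unary T (cap K2 b))) (fun X => Φ (small K b X)) -
        Ex (cap K2 b) fun X => Φ (small K b X)| ≤ 2 * εu := by
      have := abs_EE_sub_le_tv (law (unary T (cap K2 b))) (unifOm (cap K2 b))
        (g := fun X => Φ (small K b X)) fun X => hΦ1 _
      rw [EE_unifOm hnec] at this
      exact this.trans (by linarith)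
    -- step 2
    have h3 : |(Ex b fun X => Φ (small K b X)) - Ex (cap K2 b) fun X => Φ (small K b X)| ≤
        10 ^ 6 * ((m * n) ^ 2 * (m + n) ^ 2) * K ^ 2 / K2 :=
      cap_err hb hK.le hKK hK2 (fun X => Φ (small K b X)) (fun X => hΦ1 _)
        fun X Y hXY => by simp only [hXY]
    -- step 3
    have h4 : |(Ex b fun X => Φ (small K b X)) - Ex b g| ≤
        (2 * εr + 200 * (m + n) * (m * n) / t) + 2 * (24 * (m + n) ^ 2 * t / K) := by
      rw [Ex_small K b g]
      refine Ex_sub_le hne (fun X _ => hΦ1 _) (fun X _ => abs_Ex_le fun Z _ => hg _)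
        (by positivity)
        (fun X => (∀ i ∈ bigR K b, t ≤ (b - mar (small K b X)).1 i) ∧
          ∀ j ∈ bigC K b, t ≤ (b - mar (small K b X)).2 j) ?_ ?_
      · convert SampAux.bad_le hK ht0 hI0 hJ0 using 1
      · intro X hX hgood
        have hok' : Ok (b - mar (small K b X)) := ok_of_mem (sub_mem hX)
        have htot' : tot (b - mar (small K b X)) ≤ tot b := by
          unfold tot
          refine Finset.sum_le_sum fun i _ => ?_
          rw [Prod.fst_sub, Pi.sub_apply]
          have h6 : 0 ≤ ∑ j, small K b X (i, j) :=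
            Finset.sum_nonneg fun j _ => small_nonneg (mem_Om.1 hX).1 (i, j)
          have h7 : 0 ≤ (mar (small K b X)).1 i := h6
          omega
        refine good_est hok' hI0 hJ0 (fun i hi => rest_fst_zero hX hi)
          (fun j hj => rest_snd_zero hX hj) hgood.1 hgood.2 ht ht0
          (fun b' => law (samp K K2 T f b')) (fun b' hb' h5 => hr b' hb' (h5.trans htot'))
          (g := fun Z => g (small K b X + Z)) (fun Z => hg _)
          (ψ := fun R => ψ (small K b X) R) (fun R => hψ1 _ _) ?_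
        intro R hR
        simp only [hψdef]
        rw [if_pos hR, law_andThen, EE_bind _ _ hg]
        refine EE_congr _ fun Q _ => ?_
        rw [law_ret, EE_pure, add_assoc]
    rw [h1, EE_unifOm hne]
    have h5 : |EE (law (unary T (cap K2 b))) (fun X => Φ (small K b X)) - Ex b g| ≤
        2 * εu + 10 ^ 6 * ((m * n) ^ 2 * (m + n) ^ 2) * K ^ 2 / K2 +
        ((2 * εr + 200 * (m + n) * (m * n) / t) + 2 * (24 * (m + n) ^ 2 * t / K)) := by
      rw [abs_sub_comm] at h3
      have h6 := abs_sub_le (EE (law (unary T (cap K2 b))) fun X => Φ (small K b X))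
        (Ex (cap K2 b) fun X => Φ (small K b X)) (Ex b g)
      have h7 := abs_sub_le (Ex (cap K2 b) fun X => Φ (small K b X))
        (Ex b fun X => Φ (small K b X)) (Ex b g)
      linarith
    refine h5.trans ?_
    have h8 : (0 : ℝ) ≤ 10 ^ 6 * ((m * n) ^ 2 * (m + n) ^ 2) * K ^ 2 / K2 := by
      have : (0 : ℝ) ≤ K2 := by exact_mod_cast hK20
      positivity
    have h9 : (0 : ℝ) ≤ 200 * (m + n) * (m * n) / t := by positivity
    linarith
  have := tv_le_of_EE _ _ hmain
  linarith

namespace SampAux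

theorem num_cap {m n y : ℝ} (hm : 1 ≤ m) (hn : 1 ≤ n) (hy : 1 ≤ y) :
    10 ^ 6 * ((m * n) ^ 2 * (m + n) ^ 2) * (2 ^ 20 * ((m + n) * y) ^ 5) ^ 2 /
      (2 ^ 80 * ((m + n) * y) ^ 16) ≤ 1 / (16 * y) := by
  have hx : 0 < m + n := by linarith
  have hy0 : 0 < y := by linarith
  rw [div_le_div_iff₀ (by positivity) (by positivity)]
  have h1 : (m * n) ^ 2 ≤ (m + n) ^ 4 / 16 := by
    have h2 : m * n ≤ (m + n) ^ 2 / 4 := by nlinarith [sq_nonneg (m - n)]
    calc (m * n) ^ 2 ≤ ((m + n) ^ 2 / 4) ^ 2 := by gcongr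
      _ = _ := by ring
  have h3 : y ≤ y ^ 6 := le_self_pow₀ hy (by norm_num)
  calc 10 ^ 6 * ((m * n) ^ 2 * (m + n) ^ 2) * (2 ^ 20 * ((m + n) * y) ^ 5) ^ 2 * (16 * y)
      ≤ 10 ^ 6 * (((m + n) ^ 4 / 16) * (m + n) ^ 2) * (2 ^ 20 * ((m + n) * y) ^ 5) ^ 2 *
        (16 * y ^ 6) := by gcongr
    _ = 10 ^ 6 * 2 ^ 40 * ((m + n) * y) ^ 16 := by ring
    _ ≤ 1 * (2 ^ 80 * ((m + n) * y) ^ 16) := by
        rw [one_mul]
        gcongr
        norm_num

theorem num_bad {m n y : ℝ} (hm : 1 ≤ m) (hn : 1 ≤ n) (hy : 1 ≤ y) :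
    24 * (m + n) ^ 2 * (2 ^ 10 * ((m + n) * y) ^ 3) / (2 ^ 20 * ((m + n) * y) ^ 5) ≤
      1 / (16 * y) := by
  have hx : 0 < m + n := by linarith
  have hy0 : 0 < y := by linarith
  rw [div_le_div_iff₀ (by positivity) (by positivity)]
  have h3 : y ≤ y ^ 2 := le_self_pow₀ hy (by norm_num)
  calc 24 * (m + n) ^ 2 * (2 ^ 10 * ((m + n) * y) ^ 3) * (16 * y)
      ≤ 24 * (m + n) ^ 2 * (2 ^ 10 * ((m + n) * y) ^ 3) * (16 * y ^ 2) := by gcongr
    _ = (24 * 2 ^ 10 * 16) * ((m + n) * y) ^ 5 := by ring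
    _ ≤ 1 * (2 ^ 20 * ((m + n) * y) ^ 5) := by
        rw [one_mul]
        gcongr
        norm_num

theorem num_par {m n y : ℝ} (hm : 1 ≤ m) (hn : 1 ≤ n) (hy : 1 ≤ y) :
    200 * (m + n) * (m * n) / (2 ^ 10 * ((m + n) * y) ^ 3) ≤ 1 / (16 * y) := by
  have hx : 0 < m + n := by linarith
  have hy0 : 0 < y := by linarith
  rw [div_le_div_iff₀ (by positivity) (by positivity)]
  have h2 : m * n ≤ (m + n) ^ 2 / 4 := by nlinarith [sq_nonneg (m - n)]
  have h3 : y ≤ y ^ 3 := le_self_pow₀ hy (by norm_num)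
  calc 200 * (m + n) * (m * n) * (16 * y)
      ≤ 200 * (m + n) * ((m + n) ^ 2 / 4) * (16 * y ^ 3) := by gcongr
    _ = 800 * ((m + n) * y) ^ 3 := by ring
    _ ≤ 1 * (2 ^ 10 * ((m + n) * y) ^ 3) := by
        rw [one_mul]
        gcongr
        norm_num

theorem tot_lt' (b : Mg m n) : tot b < 2 ^ len b := by
  unfold len
  have h := Nat.lt_pow_succ_log_self (b := 2) (by norm_num) (tot b).toNat
  have h2 : tot b ≤ (tot b).toNat := Int.self_le_toNat _
  have h3 : ((tot b).toNat : ℤ) < 2 ^ (Nat.log 2 (tot b).toNat + 1) := by exact_mod_cast h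
  omega

theorem len_pos' (b : Mg m n) : 1 ≤ len b := by
  unfold len
  omega

/-- the recursion -/
theorem samp_tv [NeZero m] [NeZero n] {b : Mg m n} {e : ℕ} (he : 1 ≤ e) (f : ℕ) :
    ∀ b' : Mg m n, Ok b' → tot b' < 2 ^ f →
      tv (law (samp (KK b e) (KK2 b e) (TT b e) f b')) (unifOm b') ≤
        ((f : ℝ) / 2 + 1 / 8) / (len b * e) := by
  have hm1 : 1 ≤ m := Nat.one_le_iff_ne_zero.2 (NeZero.ne m)
  have hn1 : 1 ≤ n := Nat.one_le_iff_ne_zero.2 (NeZero.ne n)
  have hl1 := len_pos' b
  have hm : (1 : ℝ) ≤ m := by exact_mod_cast hm1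
  have hn : (1 : ℝ) ≤ n := by exact_mod_cast hn1
  have hl : (1 : ℝ) ≤ len b := by exact_mod_cast hl1
  have he' : (1 : ℝ) ≤ e := by exact_mod_cast he
  have hy : (1 : ℝ) ≤ len b * e := one_le_mul_of_one_le_of_one_le hl he'
  have hy0 : (0 : ℝ) < len b * e := by positivity
  have hP1 : 1 ≤ prm b e := by
    unfold prm
    have : 1 ≤ m + n := by omega
    exact Nat.one_le_iff_ne_zero.2 (by positivity)
  have hPn : m + n ≤ prm b e := by
    unfold prm
    calc m + n = (m + n) * 1 * 1 := by ring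
      _ ≤ (m + n) * len b * e := by gcongr
  have hu : ∀ b' : Mg m n, Ok b' → tot b' ≤ (((m + n) * KK2 b e : ℕ) : ℤ) →
      tv (law (unary (TT b e) b')) (unifOm b') ≤ 1 / (8 * (len b * e)) := by
    intro b' hb' hN
    have h := unary_tv hb' (N := (m + n) * KK2 b e) (e := 8 * len b * e) (T := TT b e) hN
      (Nat.one_le_iff_ne_zero.2 (by positivity)) (le_refl _)
    refine h.trans (le_of_eq ?_)
    push_cast
    ring
  induction f with
  | zero =>
    intro b' hb' htot
    have h := hu b' hb' (by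
      rw [pow_zero] at htot
      have : (0 : ℤ) ≤ (((m + n) * KK2 b e : ℕ) : ℤ) := by positivity
      omega)
    have hs : samp (KK b e) (KK2 b e) (TT b e) 0 b' = unary (TT b e) b' := by rw [samp]
    rw [hs]
    refine h.trans (le_of_eq ?_)
    push_cast
    field_simp
    ring
  | succ f ih =>
    intro b' hb' htot
    by_cases hsm : tot b' ≤ (m + n) * (KK2 b e : ℤ)
    · have hs : samp (KK b e) (KK2 b e) (TT b e) (f + 1) b' = unary (TT b e) b' := by
        rw [samp, if_pos hsm]
      rw [hs]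
      refine (hu b' hb' (by push_cast; exact hsm)).trans ?_
      rw [div_le_div_iff₀ (by positivity) hy0]
      push_cast
      have : (0 : ℝ) ≤ f := by positivity
      nlinarith
    · push Not at hsm
      have hK : (0 : ℤ) < (KK b e : ℤ) := by
        unfold KK
        positivity
      have hKK : (KK b e : ℤ) ≤ (KK2 b e : ℤ) := by
        unfold KK KK2
        have h1 : prm b e ^ 5 ≤ prm b e ^ 16 := Nat.pow_le_pow_right hP1 (by norm_num)
        have h2 : 2 ^ 20 * prm b e ^ 5 ≤ 2 ^ 80 * prm b e ^ 16 := by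
          gcongr <;> norm_num
        exact_mod_cast h2
      have hK2 : 200 * (m + n) ≤ (KK2 b e : ℤ) := by
        unfold KK2
        have h1 : prm b e ≤ prm b e ^ 16 := Nat.le_self_pow (by norm_num) _
        have h2 : 200 * (m + n) ≤ 2 ^ 80 * prm b e ^ 16 := by
          calc 200 * (m + n) ≤ 2 ^ 80 * prm b e := by
                gcongr
                norm_num
            _ ≤ _ := by gcongr
        exact_mod_cast h2
      have ht : 200 * (m + n) * (m * n) ≤ (((2 ^ 10 * prm b e ^ 3 : ℕ)) : ℤ) := by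
        have h0 : 4 * (m * n) ≤ (m + n) ^ 2 := by
          zify
          nlinarith [sq_nonneg ((m : ℤ) - n)]
        have h2 : 200 * (m + n) * (m * n) ≤ 2 ^ 10 * prm b e ^ 3 := by
          calc 200 * (m + n) * (m * n) = 50 * (m + n) * (4 * (m * n)) := by ring
            _ ≤ 50 * (m + n) * (m + n) ^ 2 := by gcongr
            _ = 50 * (m + n) ^ 3 := by ring
            _ ≤ 2 ^ 10 * prm b e ^ 3 := by
              gcongr
              norm_num
        exact_mod_cast h2
      have ht0 : (0 : ℤ) < ((2 ^ 10 * prm b e ^ 3 : ℕ) : ℤ) := by positivity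
      have hcap := cap_ok hb' (hK.le.trans hKK)
      have hcu := hu (cap (KK2 b e) b') hcap (by
        push_cast
        exact cap_tot hb' (hK.le.trans hKK))
      have key := samp_succ hb' (T := TT b e) (f := f) hsm hK hKK hK2 ht ht0 hcu
        (εr := ((f : ℝ) / 2 + 1 / 8) / (len b * e)) (fun b'' hb'' h2 => by
          refine ih b'' hb'' ?_
          rw [pow_succ] at htot
          omega)
      refine key.trans ?_
      have hPr : (prm b e : ℝ) = (m + n) * (len b * e) := by
        unfold prm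
        push_cast
        ring
      have e1 : ((KK b e : ℤ) : ℝ) = 2 ^ 20 * ((m + n) * (len b * e)) ^ 5 := by
        unfold KK
        push_cast
        rw [hPr]
        norm_num
      have e2 : ((KK2 b e : ℤ) : ℝ) = 2 ^ 80 * ((m + n) * (len b * e)) ^ 16 := by
        unfold KK2
        push_cast
        rw [hPr]
        norm_num
      have e3 : (((2 ^ 10 * prm b e ^ 3 : ℕ) : ℤ) : ℝ) =
          2 ^ 10 * ((m + n) * (len b * e)) ^ 3 := by
        push_cast
        rw [hPr]
        norm_num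
      rw [e1, e2, e3]
      have i1 := num_cap hm hn hy
      have i2 := num_bad hm hn hy
      have i3 := num_par hm hn hy
      have i4 : ((f : ℝ) / 2 + 1 / 8) / (len b * e) + 1 / (8 * (len b * e)) +
          1 / (16 * (len b * e)) + 1 / (16 * (len b * e)) + 1 / (16 * (len b * e)) ≤
          (((f + 1 : ℕ) : ℝ) / 2 + 1 / 8) / (len b * e) := by
        have h5 : ((f : ℝ) / 2 + 1 / 8) / (len b * e) + 1 / (8 * (len b * e)) +
          1 / (16 * (len b * e)) + 1 / (16 * (len b * e)) + 1 / (16 * (len b * e)) =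
          ((f : ℝ) / 2 + 7 / 16) / (len b * e) := by
          field_simp
          ring
        rw [h5, div_le_div_iff_of_pos_right hy0]
        push_cast
        linarith
      linarith

end SampAux

theorem sampler_law [NeZero m] [NeZero n] (b : Mg m n) (e : ℕ) :
    law (sampler b e) = (law (samp (KK b e) (KK2 b e) (TT b e) (len b) b)).bind fun X =>
      PMF.pure (if X ∈ Om b then X else corner b) := by
  unfold sampler
  rw [law_andThen]
  congr 1
  funext X
  rw [law_charge, law_ret]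

theorem sampler_tv [NeZero m] [NeZero n] {b : Mg m n} (hb : Ok b) {e : ℕ} (he : 1 ≤ e) :
    tv (law (sampler b e)) (unifOm b) ≤ 1 / e := by
  have hne := Om_nonempty hb
  have h1 := samp_tv (b := b) he (len b) b hb (tot_lt' b)
  have hl : (1 : ℝ) ≤ len b := by exact_mod_cast len_pos' b
  have he' : (1 : ℝ) ≤ e := by exact_mod_cast he
  have h2 : ((len b : ℝ) / 2 + 1 / 8) / (len b * e) ≤ 1 / e := by
    rw [div_le_div_iff₀ (by positivity) (by positivity)]
    nlinarith
  have h3 : tv (law (sampler b e)) (unifOm b) ≤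
      2 * tv (law (samp (KK b e) (KK2 b e) (TT b e) (len b) b)) (unifOm b) / 2 := by
    refine tv_le_of_EE _ _ fun g hg => ?_
    have e1 : EE (law (sampler b e)) g =
        EE (law (samp (KK b e) (KK2 b e) (TT b e) (len b) b)) fun X =>
          g (if X ∈ Om b then X else corner b) := by
      rw [sampler_law, EE_bind _ _ hg]
      exact EE_congr _ fun X _ => EE_pure _ _
    have e2 : EE (unifOm b) g = EE (unifOm b) fun X => g (if X ∈ Om b then X else corner b) := by
      refine EE_congr _ fun X hX => ?_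
      rw [unifOm_eq hne, PMF.mem_support_uniformOfFinset_iff] at hX
      rw [if_pos hX]
    rw [e1, e2]
    exact abs_EE_sub_le_tv _ _ fun X => hg _
  linarith

theorem sampler_support [NeZero m] [NeZero n] {b : Mg m n} (hb : Ok b) (e : ℕ) :
    ∀ X ∈ (law (sampler b e)).support, X ∈ Om b := by
  intro X hX
  rw [sampler_law, PMF.mem_support_bind_iff] at hX
  obtain ⟨Y, -, hY⟩ := hX
  rw [PMF.support_pure, Set.mem_singleton_iff] at hY
  rw [hY]
  split_ifs with h
  · exact h
  · exact corner_mem hb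

end P328
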