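import Vale.Agent.P328.Tv
import Vale.Agent.P328.Kappa
import Vale.Agent.P328.Om
import Vale.Agent.P328.Flat
import Vale.Agent.P328.Conc
import Vale.Agent.P328.Samp

/-!
# P328, module X : the approximate counter
-/

namespace P328.RA

open Finset

section Bind

variable {α β : Type}

theorem outer_le_one (μ : PMF α) (s : Set α) : μ.toOuterMeasure s ≤ 1 := by
  have h1 : μ.toOuterMeasure Set.univ = 1 :=
    (PMF.toOuterMeasure_apply_eq_one_iff μ _).mpr (Set.subset_univ _)
  rw [← h1]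
  exact μ.toOuterMeasure.mono (Set.subset_univ s)

theorem outer_ne_top (μ : PMF α) (s : Set α) : μ.toOuterMeasure s ≠ ⊤ :=
  ne_top_of_le_ne_top ENNReal.one_ne_top (outer_le_one μ s)

theorem outer_bind_le (μ : PMF α) (f : α → PMF β) (A : Set α) (s : Set β) {ε : ENNReal}
    (h : ∀ a, a ∉ A → (f a).toOuterMeasure s ≤ ε) :
    (μ.bind f).toOuterMeasure s ≤ μ.toOuterMeasure A + ε := by
  rw [PMF.toOuterMeasure_bind_apply, PMF.toOuterMeasure_apply]
  have h1 : ∀ a, μ a * (f a).toOuterMeasure s ≤ A.indicator μ a + μ a * ε := by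
    intro a
    by_cases ha : a ∈ A
    · rw [Set.indicator_of_mem ha]
      refine le_trans ?_ le_self_add
      exact mul_le_of_le_one_right' (outer_le_one _ _)
    · rw [Set.indicator_of_notMem ha, zero_add]
      gcongr
      exact h a ha
  refine (ENNReal.tsum_le_tsum h1).trans ?_
  rw [ENNReal.tsum_add, ENNReal.tsum_mul_right, μ.tsum_coe, one_mul]

theorem outer_bind_pure (μ : PMF α) (f : α → β) (s : Set β) :
    (μ.bind fun a => PMF.pure (f a)).toOuterMeasure s = μ.toOuterMeasure (f ⁻¹' s) := by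
  have h : (μ.bind fun a => PMF.pure (f a)) = μ.map f := rfl
  rw [h, PMF.toOuterMeasure_map_apply]

theorem outer_ge (μ : PMF α) (s : Set α) {x : ℝ} (hx : 0 ≤ x)
    (h : μ.toOuterMeasure sᶜ ≤ ENNReal.ofReal x) : 1 - x ≤ (μ.toOuterMeasure s).toReal := by
  have h1 : μ.toOuterMeasure Set.univ = 1 :=
    (PMF.toOuterMeasure_apply_eq_one_iff μ _).mpr (Set.subset_univ _)
  have h2 : μ.toOuterMeasure (s ∪ sᶜ) ≤ μ.toOuterMeasure s + μ.toOuterMeasure sᶜ :=
    MeasureTheory.measure_union_le s sᶜ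
  rw [Set.union_compl_self, h1] at h2
  have h3 : (1 : ENNReal).toReal ≤ (μ.toOuterMeasure s + μ.toOuterMeasure sᶜ).toReal :=
    ENNReal.toReal_mono (ENNReal.add_ne_top.mpr ⟨outer_ne_top _ _, outer_ne_top _ _⟩) h2
  rw [ENNReal.toReal_one, ENNReal.toReal_add (outer_ne_top _ _) (outer_ne_top _ _)] at h3
  have h4 : (μ.toOuterMeasure sᶜ).toReal ≤ x := ENNReal.toReal_le_of_le_ofReal hx h
  linarith

end Bind

section Amax

theorem le_amax {k : ℕ} [NeZero k] (f : Fin k → ℤ) (i : Fin k) : f i ≤ f (amax f) :=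
  amax_spec f i

theorem sum_le_amax {k : ℕ} [NeZero k] (f : Fin k → ℤ) : ∑ i, f i ≤ k * f (amax f) := by
  have h := Finset.sum_le_card_nsmul (univ : Finset (Fin k)) f (f (amax f))
    fun i _ => le_amax f i
  rwa [Finset.card_univ, Fintype.card_fin, nsmul_eq_mul] at h

theorem one_le_jump (m n : ℕ) (t : ℤ) : 1 ≤ jump m n t := le_max_left _ _

theorem jump_le {m n : ℕ} {t : ℤ} (ht : 1 ≤ t) : jump m n t ≤ t :=
  max_le ht (Int.ediv_le_self _ (by omega))

theorem le_jump (m n : ℕ) [NeZero m] (t : ℤ) : t ≤ 96 * (m + n) * jump m n t := by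
  have hm : (1 : ℤ) ≤ m := by exact_mod_cast NeZero.one_le
  have hs : (0 : ℤ) < 48 * (m + n) := by positivity
  have h1 := Int.lt_ediv_add_one_mul_self t hs
  have h2 : t / (48 * (m + n)) ≤ jump m n t := le_max_right _ _
  have h3 := one_le_jump m n t
  nlinarith

end Amax

section Arith

/-- one step of the product estimate -/
theorem step_arith {x p c c' w zr : ℝ} {f : ℕ} (hx0 : 0 ≤ x) (hx1 : x < 1) (hp : 0 < p)
    (hc : 0 ≤ c) (hc' : c' = p * c) (hz : |zr - p| ≤ x * p) (h1 : (1 - x) ^ f * c' ≤ w)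
    (h2 : w * (1 - x) ^ f ≤ c') :
    (1 - x) ^ (f + 1) * c ≤ w / zr ∧ w / zr * (1 - x) ^ (f + 1) ≤ c := by
  rw [abs_le] at hz
  have hz1 : (1 - x) * p ≤ zr := by nlinarith
  have hz2 : zr ≤ (1 + x) * p := by nlinarith
  have h1x : 0 < 1 - x := by linarith
  have hz0 : 0 < zr := lt_of_lt_of_le (mul_pos h1x hp) hz1
  have hf : 0 ≤ (1 - x) ^ f := by positivity
  constructor
  · rw [le_div_iff₀ hz0]
    refine le_trans ?_ h1
    rw [hc', pow_succ]
    have h3 : (1 - x) * zr ≤ p := by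
      have : (1 - x) * zr ≤ (1 - x) * ((1 + x) * p) := mul_le_mul_of_nonneg_left hz2 h1x.le
      nlinarith [mul_nonneg hx0 hx0, mul_nonneg (mul_nonneg hx0 hx0) hp.le]
    calc (1 - x) ^ f * (1 - x) * c * zr = (1 - x) ^ f * c * ((1 - x) * zr) := by ring
      _ ≤ (1 - x) ^ f * c * p := mul_le_mul_of_nonneg_left h3 (mul_nonneg hf hc)
      _ = _ := by ring
  · rw [div_mul_eq_mul_div, div_le_iff₀ hz0, pow_succ]
    calc w * ((1 - x) ^ f * (1 - x)) = (w * (1 - x) ^ f) * (1 - x) := by ring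
      _ ≤ c' * (1 - x) := mul_le_mul_of_nonneg_right h2 h1x.le
      _ = c * ((1 - x) * p) := by rw [hc']; ring
      _ ≤ c * zr := mul_le_mul_of_nonneg_left hz1 hc

end Arith

section Tables

variable {m n : ℕ}

theorem Om_eq_tab {b : Mg m n} {N : ℤ} (hN : tot b ≤ N) : Om b = tab N b := by
  ext z
  rw [mem_tab' hN]
  exact mem_tab' (le_refl (∑ i, b.1 i))

theorem sub_fst (b : Mg m n) (h : ℤ) (i : Fin m) (j : Fin n) (k : Fin m) :
    (b - h • mar (one i j)).1 k = if k = i then b.1 k - h else b.1 k := by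
  rw [Prod.fst_sub, Pi.sub_apply, Prod.smul_fst, Pi.smul_apply, mar_one_fst, smul_eq_mul]
  split_ifs <;> ring

theorem sub_snd (b : Mg m n) (h : ℤ) (i : Fin m) (j : Fin n) (k : Fin n) :
    (b - h • mar (one i j)).2 k = if k = j then b.2 k - h else b.2 k := by
  rw [Prod.snd_sub, Pi.sub_apply, Prod.smul_snd, Pi.smul_apply, mar_one_snd, smul_eq_mul]
  split_ifs <;> ring

theorem sum_sub_fst (b : Mg m n) (h : ℤ) (i : Fin m) (j : Fin n) :
    ∑ k, (b - h • mar (one i j)).1 k = (∑ k, b.1 k) - h := by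
  have h1 : ∀ k, (b - h • mar (one i j)).1 k = b.1 k - if k = i then h else 0 := fun k => by
    rw [sub_fst]
    split_ifs <;> ring
  simp_rw [h1]
  rw [Finset.sum_sub_distrib, Finset.sum_ite_eq' univ i, if_pos (mem_univ i)]

theorem sum_sub_snd (b : Mg m n) (h : ℤ) (i : Fin m) (j : Fin n) :
    ∑ k, (b - h • mar (one i j)).2 k = (∑ k, b.2 k) - h := by
  have h1 : ∀ k, (b - h • mar (one i j)).2 k = b.2 k - if k = j then h else 0 := fun k => by
    rw [sub_snd]
    split_ifs <;> ring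
  simp_rw [h1]
  rw [Finset.sum_sub_distrib, Finset.sum_ite_eq' univ j, if_pos (mem_univ j)]

theorem tot_sub (b : Mg m n) (h : ℤ) (i : Fin m) (j : Fin n) :
    tot (b - h • mar (one i j)) = tot b - h := sum_sub_fst b h i j

theorem ok_sub {b : Mg m n} (hb : Ok b) {h : ℤ} {i : Fin m} {j : Fin n}
    (hi : h ≤ b.1 i) (hj : h ≤ b.2 j) : Ok (b - h • mar (one i j)) := by
  refine ⟨fun k => ?_, fun k => ?_, ?_⟩
  · rw [sub_fst]
    split_ifs with hk
    · subst hk
      omega
    · exact hb.1 k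
  · rw [sub_snd]
    split_ifs with hk
    · subst hk
      omega
    · exact hb.2.1 k
  · rw [sum_sub_fst, sum_sub_snd, hb.2.2]

theorem card_Om_zero {b : Mg m n} (hb : Ok b) (h0 : tot b ≤ 0) : (Om b).card = 1 := by
  obtain ⟨X, hX⟩ := P328.Om_nonempty hb
  rw [Finset.card_eq_one]
  have hrow : ∀ i, b.1 i ≤ 0 := fun i =>
    (Finset.single_le_sum (f := b.1) (fun i _ => hb.1 i) (mem_univ i)).trans h0
  have key : ∀ Y ∈ Om b, Y = 0 := by
    intro Y hY
    funext p
    have h1 := (P328.le_row hY p).1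
    have h2 := (P328.mem_Om.mp hY).1 p
    have h3 := hrow p.1
    simp only [Pi.zero_apply] at h2 ⊢
    omega
  refine ⟨0, ?_⟩
  rw [Finset.eq_singleton_iff_unique_mem]
  exact ⟨key X hX ▸ hX, key⟩

theorem card_sub (b : Mg m n) {h : ℤ} (hh : 0 ≤ h) (i : Fin m) (j : Fin n) :
    (Om (b - h • mar (one i j))).card = ((Om b).filter fun X => h ≤ X (i, j)).card := by
  have h1 := P328.sum_shift (b := b - h • mar (one i j)) hh i j fun _ => (1 : ℝ)
  rw [sub_add_cancel, Finset.sum_const, Finset.sum_const, nsmul_eq_mul, nsmul_eq_mul, mul_one,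
    mul_one] at h1
  exact_mod_cast h1

/-- the ratio of the numbers of tables is not too small -/
theorem ratio_ge [NeZero m] [NeZero n] {b : Mg m n} (hb : Ok b) {i : Fin m} {j : Fin n} {t : ℤ}
    (ht : 1 ≤ t) (hi : t ≤ b.1 i) (hj : t ≤ b.2 j) :
    2 * ((Om b).card : ℝ) ≤
      ((m : ℝ) + n) ^ 2 * (Om (b - jump m n t • mar (one i j))).card := by
  have hm : (1 : ℝ) ≤ m := by exact_mod_cast NeZero.one_le
  have hn : (1 : ℝ) ≤ n := by exact_mod_cast NeZero.one_le
  have hjt := jump_le (m := m) (n := n) ht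
  by_cases hcase : t / (48 * (m + n)) ≤ 1
  · have h1 : jump m n t = 1 := by
      unfold jump
      exact max_eq_left hcase
    rw [h1]
    have hb' : Ok (b - (1 : ℤ) • mar (one i j)) := ok_sub hb (by omega) (by omega)
    have h2 := tab_card_add (N := tot b) (b := b - (1 : ℤ) • mar (one i j)) (i := i) (j := j)
      (by
        have := tot_sub b 1 i j
        unfold tot at this ⊢
        omega) (hb'.1 i) (hb'.2.1 j)
    have h3 : b - (1 : ℤ) • mar (one i j) + mar (one i j) = b := by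
      rw [one_smul, sub_add_cancel]
    rw [h3] at h2
    rw [Om_eq_tab (b := b - (1 : ℤ) • mar (one i j)) (N := tot b) (by rw [tot_sub]; omega)]
    have h4 : (0 : ℝ) ≤ (tab (tot b) (b - (1 : ℤ) • mar (one i j))).card := Nat.cast_nonneg _
    have h5 : 2 * ((m : ℝ) * n + 1) ≤ ((m : ℝ) + n) ^ 2 := by nlinarith
    have h6 : ((Om b).card : ℝ) ≤ ((m : ℝ) * n + 1) *
      (tab (tot b) (b - (1 : ℤ) • mar (one i j))).card := h2
    nlinarith [mul_le_mul_of_nonneg_right h5 h4]
  · have h1 : jump m n t = t / (48 * (m + n)) := by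
      unfold jump
      exact max_eq_right (by omega)
    have hh : 0 ≤ jump m n t := le_trans zero_le_one (one_le_jump m n t)
    have h2 : 48 * (m + n) * jump m n t ≤ t := by
      rw [h1]
      exact Int.mul_ediv_self_le (by
        have : (1 : ℤ) ≤ m := by exact_mod_cast NeZero.one_le
        omega)
    have h3 := P328.flat (b := b) i j (t := t) (k := jump m n t) (by omega) hi hj hh
    have h4 := card_sub b hh i j
    have h5 : ((Om b).filter fun X => jump m n t ≤ X (i, j)).card +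
        ((Om b).filter fun X => X (i, j) < jump m n t).card = (Om b).card := by
      have h6 := Finset.card_filter_add_card_filter_not (s := Om b)
        (fun X => jump m n t ≤ X (i, j))
      simp only [not_le] at h6
      exact h6
    have ht0 : (0 : ℝ) < t := by exact_mod_cast ht
    have h7 : 24 * ((m : ℝ) + n) * jump m n t / t ≤ 1 / 2 := by
      rw [div_le_iff₀ ht0]
      have h8 : (48 * ((m : ℝ) + n) * jump m n t) ≤ t := by exact_mod_cast h2
      linarith
    have h8 : (((Om b).filter fun X => jump m n t ≤ X (i, j)).card : ℝ) +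
        ((Om b).filter fun X => X (i, j) < jump m n t).card = (Om b).card := by
      exact_mod_cast h5
    have h9 : (0 : ℝ) ≤ (Om b).card := Nat.cast_nonneg _
    have h10 : (((Om b).filter fun X => X (i, j) < jump m n t).card : ℝ) ≤
        1 / 2 * (Om b).card := h3.trans (mul_le_mul_of_nonneg_right h7 h9)
    rw [h4]
    have h11 : (4 : ℝ) ≤ ((m : ℝ) + n) ^ 2 := by nlinarith
    have h12 : (1 : ℝ) / 2 * (Om b).card ≤
        ((Om b).filter fun X => jump m n t ≤ X (i, j)).card := by linarith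
    nlinarith [mul_le_mul_of_nonneg_right h11 (Nat.cast_nonneg (α := ℝ)
      ((Om b).filter fun X => jump m n t ≤ X (i, j)).card)]

theorem unifOm_event {b : Mg m n} (hb : Ok b) (h : ℤ) (i : Fin m) (j : Fin n) :
    ((unifOm b).toOuterMeasure {X | h ≤ X (i, j)}).toReal =
      (((Om b).filter fun X => h ≤ X (i, j)).card : ℝ) / (Om b).card := by
  have hne := P328.Om_nonempty hb
  unfold unifOm
  rw [dif_pos hne, PMF.toOuterMeasure_uniformOfFinset_apply, ENNReal.toReal_div,
    ENNReal.toReal_natCast, ENNReal.toReal_natCast]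
  congr 3
  ext X
  simp only [Finset.mem_filter, Set.mem_ofPred_eq]

end Tables

section Main

variable {m n : ℕ} [NeZero m] [NeZero n]

/-- the probability that a ratio is badly estimated -/
theorem count_bad {b : Mg m n} (hb : Ok b) (i : Fin m) (j : Fin n) (h : ℤ) {e N : ℕ} (he : 1 ≤ e)
    (hN : 1 ≤ N) :
    (law (count b e i j h N)).toOuterMeasure {z | ¬ |(z : ℝ) / N -
      (((Om b).filter fun X => h ≤ X (i, j)).card : ℝ) / (Om b).card| ≤ 2 / e} ≤
      ENNReal.ofReal (2 * Real.exp (-(N * (1 / (e : ℝ)) ^ 2 / 4))) := by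
  have he' : (1 : ℝ) ≤ e := by exact_mod_cast he
  have h1 := P328.count_conc b e i j h hN (τ := 1 / (e : ℝ)) (by positivity)
    ((div_le_one (by positivity)).mpr he')
  rw [← ENNReal.le_ofReal_iff_toReal_le (outer_ne_top _ _) (by positivity)] at h1
  refine le_trans ((law (count b e i j h N)).toOuterMeasure.mono ?_) h1
  intro z hz
  rw [Set.mem_ofPred_eq] at hz ⊢
  by_contra hc
  refine hz ?_
  have h2 := tv_event (law (sampler b e)) (unifOm b) {X | h ≤ X (i, j)}
  have h3 := P328.sampler_tv hb he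
  rw [unifOm_event hb] at h2
  have h4 := abs_sub_le ((z : ℝ) / N)
    (((law (sampler b e)).toOuterMeasure {X | h ≤ X (i, j)}).toReal)
    ((((Om b).filter fun X => h ≤ X (i, j)).card : ℝ) / (Om b).card)
  have h5 : (2 : ℝ) / e = 1 / e + 1 / e := by ring
  rw [h5]
  exact h4.trans (add_le_add (not_lt.mp hc) (h2.trans h3))

theorem ratios_succ (e N f : ℕ) {b : Mg m n} (h0 : 0 < tot b) :
    law (ratios e N (f + 1) b) =
      (law (count b e (amax b.1) (amax b.2)
        (jump m n (min (b.1 (amax b.1)) (b.2 (amax b.2)))) N)).bind fun z =>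
      (law (ratios e N f (b - jump m n (min (b.1 (amax b.1)) (b.2 (amax b.2))) •
        mar (one (amax b.1) (amax b.2))))).bind fun w => PMF.pure (w * (N / z)) := by
  rw [ratios, if_neg (not_le.mpr h0)]
  simp only
  rw [law_charge, law_andThen]
  congr 1
  funext z
  rw [law_andThen]
  congr 1
  funext w
  rw [law_ret]

/-- the estimates `w` of the number of tables which are correct up to the factor `(1 - x) ^ f` -/
def Good (x : ℝ) (f : ℕ) (b : Mg m n) : Set ℚ :=
  {w | (1 - x) ^ f * (Om b).card ≤ (w : ℝ) ∧ (w : ℝ) * (1 - x) ^ f ≤ (Om b).card}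

theorem ratios_bad {e N : ℕ} (he : 1 ≤ e) (hN : 1 ≤ N) {x : ℝ} (hx : x = ((m : ℝ) + n) ^ 2 / e)
    (hx1 : x < 1) (f : ℕ) : ∀ b : Mg m n, Ok b →
    (tot b : ℝ) * (1 - 1 / (96 * ((m : ℝ) + n) ^ 2)) ^ f < 1 →
    (law (ratios e N f b)).toOuterMeasure (Good x f b)ᶜ ≤
      f * ENNReal.ofReal (2 * Real.exp (-(N * (1 / (e : ℝ)) ^ 2 / 4))) := by
  have he' : (0 : ℝ) < e := by exact_mod_cast he
  have hm : (1 : ℝ) ≤ m := by exact_mod_cast NeZero.one_le
  have hn : (1 : ℝ) ≤ n := by exact_mod_cast NeZero.one_le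
  have hx0 : 0 ≤ x := by
    rw [hx]
    positivity
  have h1x : (1 - x) ≤ 1 := by linarith
  have hzero : ∀ (f : ℕ) (b : Mg m n), Ok b → tot b ≤ 0 →
      (PMF.pure (1 : ℚ)).toOuterMeasure (Good x f b)ᶜ = 0 := by
    intro f b hb h0
    rw [PMF.toOuterMeasure_pure_apply, if_neg]
    rw [Set.mem_compl_iff, not_not]
    have hc := card_Om_zero hb h0
    have h2 : (1 - x) ^ f ≤ 1 := pow_le_one₀ (by linarith) h1x
    refine ⟨?_, ?_⟩
    · rw [hc, Nat.cast_one, mul_one, Rat.cast_one]
      exact h2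
    · rw [hc, Nat.cast_one, Rat.cast_one, one_mul]
      exact h2
  induction f with
  | zero =>
    intro b hb h0
    rw [pow_zero, mul_one] at h0
    have h1 : tot b ≤ 0 := by
      have : tot b < 1 := by exact_mod_cast h0
      omega
    rw [ratios, law_ret, hzero 0 b hb h1]
    exact zero_le
  | succ f ih =>
    intro b hb h0
    by_cases hcase : tot b ≤ 0
    · rw [ratios, if_pos hcase, law_ret, hzero (f + 1) b hb hcase]
      exact zero_le
    · have htot : 0 < tot b := not_le.mp hcase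
      rw [ratios_succ e N f htot]
      set i := amax b.1 with hi
      set j := amax b.2 with hj
      set t := min (b.1 i) (b.2 j) with ht
      set h := jump m n t with hh
      have hmZ : (1 : ℤ) ≤ m := by exact_mod_cast NeZero.one_le
      have hnZ : (1 : ℤ) ≤ n := by exact_mod_cast NeZero.one_le
      have h1 : tot b ≤ m * b.1 i := sum_le_amax b.1
      have h2 : tot b ≤ n * b.2 j := by
        have : tot b = ∑ j, b.2 j := hb.2.2
        rw [this]
        exact sum_le_amax b.2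
      have hi0 : 0 ≤ b.1 i := hb.1 i
      have hj0 : 0 ≤ b.2 j := hb.2.1 j
      have h3 : tot b ≤ (m + n) * t := by
        rw [ht]
        rcases min_choice (b.1 i) (b.2 j) with h | h
        · rw [h]
          nlinarith
        · rw [h]
          nlinarith
      have ht1 : 1 ≤ t := by
        by_contra hc
        have : t ≤ 0 := by omega
        nlinarith
      have hti : t ≤ b.1 i := min_le_left _ _
      have htj : t ≤ b.2 j := min_le_right _ _
      have hh1 : 1 ≤ h := one_le_jump m n t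
      have hht : h ≤ t := jump_le ht1
      have hth : t ≤ 96 * (m + n) * h := le_jump m n t
      have hb' : Ok (b - h • mar (one i j)) := ok_sub hb (hht.trans hti) (hht.trans htj)
      have htot' : tot (b - h • mar (one i j)) = tot b - h := tot_sub b h i j
      have h4 : tot b ≤ 96 * (m + n) ^ 2 * h := by
        have : ((m : ℤ) + n) * t ≤ (m + n) * (96 * (m + n) * h) :=
          mul_le_mul_of_nonneg_left hth (by positivity)
        calc tot b ≤ (m + n) * t := h3
          _ ≤ (m + n) * (96 * (m + n) * h) := this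
          _ = _ := by ring
      have h5 : (tot b : ℝ) ≤ 96 * ((m : ℝ) + n) ^ 2 * h := by exact_mod_cast h4
      have hs0 : (0 : ℝ) < 96 * ((m : ℝ) + n) ^ 2 := by positivity
      have h6 : (tot (b - h • mar (one i j)) : ℝ) ≤
          tot b * (1 - 1 / (96 * ((m : ℝ) + n) ^ 2)) := by
        rw [htot']
        push_cast
        have h7 : (tot b : ℝ) * (1 / (96 * ((m : ℝ) + n) ^ 2)) ≤ h := by
          rw [mul_one_div, div_le_iff₀ hs0]
          linarith
        linarith
      have hρ0 : 0 ≤ 1 - 1 / (96 * ((m : ℝ) + n) ^ 2) := by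
        rw [sub_nonneg, div_le_one hs0]
        nlinarith
      have h7 := ih (b - h • mar (one i j)) hb' (by
        refine lt_of_le_of_lt ?_ h0
        rw [pow_succ' _ f, ← mul_assoc]
        exact mul_le_mul_of_nonneg_right h6 (pow_nonneg hρ0 f))
      have h8 := count_bad hb i j h he hN
      rw [Nat.cast_succ, add_mul, one_mul, add_comm ((f : ENNReal) * _)]
      refine le_trans (outer_bind_le _ _ _ _ fun z hz => ?_) (add_le_add h8 le_rfl)
      rw [Set.mem_ofPred_eq, not_not] at hz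
      rw [outer_bind_pure]
      refine le_trans (PMF.toOuterMeasure _ |>.mono ?_) h7
      intro w hw
      rw [Set.mem_preimage, Set.mem_compl_iff] at hw
      rw [Set.mem_compl_iff]
      intro hw'
      refine hw ?_
      have hcpos : (0 : ℝ) < (Om b).card := by
        exact_mod_cast Finset.card_pos.mpr (P328.Om_nonempty hb)
      have hge := ratio_ge hb ht1 hti htj
      rw [← hh] at hge
      have hceq := card_sub b (le_trans zero_le_one hh1) i j
      have hs2 : (0 : ℝ) < ((m : ℝ) + n) ^ 2 := by positivity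
      set c' : ℝ := ((Om (b - h • mar (one i j))).card : ℝ) with hc'
      set c : ℝ := ((Om b).card : ℝ) with hc
      have hc'pos : 0 < c' := by
        by_contra hcc
        have : c' ≤ 0 := not_lt.mp hcc
        nlinarith
      rw [← hceq, ← hc'] at hz
      have hp : 0 < c' / c := div_pos hc'pos hcpos
      have h9 : |(z : ℝ) / N - c' / c| ≤ x * (c' / c) := by
        refine hz.trans ?_
        rw [hx, div_mul_eq_mul_div]
        refine div_le_div_of_nonneg_right ?_ he'.le
        rw [mul_div_assoc', le_div_iff₀ hcpos]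
        exact hge
      have h10 := step_arith (w := w) (f := f) hx0 hx1 hp hcpos.le
        (div_mul_cancel₀ c' hcpos.ne').symm h9 hw'.1 hw'.2
      have h11 : ((w * ((N : ℚ) / z) : ℚ) : ℝ) = (w : ℝ) / ((z : ℝ) / N) := by
        push_cast
        rw [div_div_eq_mul_div, mul_div_assoc]
      unfold Good
      rw [Set.mem_ofPred_eq, h11]
      exact h10

omit [NeZero m] [NeZero n] in
theorem fuel_ok {b : Mg m n} (hb : Ok b) {s f : ℝ} {k : ℕ} (hs : 2 ≤ s) (hk : (k : ℝ) = f)
    (hf : f = 100 * s ^ 2 * len b) : (tot b : ℝ) * (1 - 1 / (96 * s ^ 2)) ^ k < 1 := by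
  have h1 : (tot b).toNat < 2 ^ len b := Nat.lt_pow_succ_log_self (by norm_num) _
  have htot : 0 ≤ tot b := Finset.sum_nonneg fun i _ => hb.1 i
  have hs0 : 0 < s := by linarith
  have h2 : (tot b : ℝ) < 2 ^ len b := by
    have h3 : ((tot b).toNat : ℤ) = tot b := Int.toNat_of_nonneg htot
    have h4 : (tot b : ℤ) < 2 ^ len b := by
      rw [← h3]
      exact_mod_cast h1
    exact_mod_cast h4
  have h5 : 1 - 1 / (96 * s ^ 2) ≤ Real.exp (-(1 / (96 * s ^ 2))) := by
    have := Real.add_one_le_exp (-(1 / (96 * s ^ 2)))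
    linarith
  have h5' : 0 ≤ 1 - 1 / (96 * s ^ 2) := by
    rw [sub_nonneg, div_le_one (by positivity)]
    nlinarith
  have hl0 : (0 : ℝ) ≤ len b := Nat.cast_nonneg _
  have h6 : (1 - 1 / (96 * s ^ 2)) ^ k ≤ Real.exp (-(len b : ℝ)) := by
    refine (pow_le_pow_left₀ h5' h5 k).trans ?_
    rw [← Real.exp_nat_mul]
    refine Real.exp_le_exp.mpr ?_
    have h7 : (k : ℝ) * -(1 / (96 * s ^ 2)) = -(100 / 96 * len b) := by
      rw [hk, hf]
      field_simp
    rw [h7]
    linarith
  have h7 : (2 : ℝ) ^ len b ≤ Real.exp (len b) := by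
    have h8 : (2 : ℝ) ≤ Real.exp 1 := by
      have := Real.add_one_le_exp (1 : ℝ)
      linarith
    calc (2 : ℝ) ^ len b ≤ (Real.exp 1) ^ len b := pow_le_pow_left₀ (by norm_num) h8 _
      _ = Real.exp (len b) := by rw [← Real.exp_nat_mul, mul_one]
  have h9 : Real.exp (len b) * Real.exp (-(len b : ℝ)) = 1 := by
    rw [← Real.exp_add, add_neg_cancel, Real.exp_zero]
  have h10 : 0 < Real.exp (-(len b : ℝ)) := Real.exp_pos _
  have h11 : (0 : ℝ) ≤ tot b := by exact_mod_cast htot
  calc (tot b : ℝ) * (1 - 1 / (96 * s ^ 2)) ^ k ≤ tot b * Real.exp (-(len b : ℝ)) :=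
        mul_le_mul_of_nonneg_left h6 h11
    _ < Real.exp (len b) * Real.exp (-(len b : ℝ)) :=
        mul_lt_mul_of_pos_right (lt_of_lt_of_le h2 h7) h10
    _ = 1 := h9

theorem prob_ok {f N d : ℕ} {e2 : ℝ} (he2 : 0 < e2) (hN : (N : ℝ) = 4 * e2 ^ 2 * (d + 2 * f)) :
    (f : ENNReal) * ENNReal.ofReal (2 * Real.exp (-(N * (1 / e2) ^ 2 / 4))) ≤
      ENNReal.ofReal (Real.exp (-d)) := by
  rw [← ENNReal.ofReal_natCast, ← ENNReal.ofReal_mul (Nat.cast_nonneg f)]
  refine ENNReal.ofReal_le_ofReal ?_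
  have h1 : (N : ℝ) * (1 / e2) ^ 2 / 4 = d + 2 * f := by
    rw [hN]
    field_simp
  rw [h1, neg_add, Real.exp_add]
  have h2 : 2 * (f : ℝ) * Real.exp (-(2 * f)) ≤ 1 := by
    have h3 := Real.add_one_le_exp (2 * (f : ℝ))
    rw [Real.exp_neg, mul_inv_le_iff₀ (Real.exp_pos _)]
    linarith
  calc (f : ℝ) * (2 * (Real.exp (-d) * Real.exp (-(2 * f)))) =
        Real.exp (-d) * (2 * f * Real.exp (-(2 * f))) := by ring
    _ ≤ Real.exp (-d) * 1 := mul_le_mul_of_nonneg_left h2 (Real.exp_pos _).le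
    _ = _ := mul_one _

theorem final_ok {x e c w : ℝ} {f : ℕ} (he : 1 ≤ e) (hx1 : x < 1)
    (hfx : f * x = 1 / (16 * e)) (hc0 : 0 ≤ c) (h1 : (1 - x) ^ f * c ≤ w)
    (h2 : w * (1 - x) ^ f ≤ c) : (1 - 1 / e) * c ≤ w ∧ w ≤ (1 + 1 / e) * c := by
  have he0 : 0 < e := by linarith
  have h3 : 1 - 1 / (16 * e) ≤ (1 - x) ^ f := by
    have h4 := one_add_mul_le_pow (a := -x) (by linarith) f
    rw [← hfx]
    have h5 : (1 : ℝ) + f * -x = 1 - f * x := by ring
    rw [h5, ← sub_eq_add_neg] at h4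
    exact h4
  have he16 : 1 / (16 * e) = 1 / e / 16 := by
    field_simp
  rw [he16] at h3
  set y : ℝ := 1 / e with hy
  have hy0 : 0 < y := by positivity
  have hy1 : y ≤ 1 := (div_le_one (by positivity)).mpr he
  have hp0 : 0 ≤ (1 - x) ^ f := pow_nonneg (by linarith) f
  have hw0 : 0 ≤ w := le_trans (mul_nonneg hp0 hc0) h1
  constructor
  · refine le_trans (mul_le_mul_of_nonneg_right ?_ hc0) h1
    linarith
  · have h4 : w * (1 - y / 16) ≤ c := (mul_le_mul_of_nonneg_left h3 hw0).trans h2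
    have h5 : 1 ≤ (1 + y) * (1 - y / 16) := by nlinarith
    calc w ≤ w * ((1 + y) * (1 - y / 16)) := le_mul_of_one_le_right hw0 h5
      _ = (1 + y) * (w * (1 - y / 16)) := by ring
      _ ≤ (1 + y) * c := mul_le_mul_of_nonneg_left h4 (by linarith)

theorem counter_ok {b : Mg m n} (hb : Ok b) {e : ℕ} (he : 1 ≤ e) (d : ℕ) :
    1 - Real.exp (-d) ≤ ((law (counter b e d)).toOuterMeasure
      {z | (1 - 1 / (e : ℝ)) * (Om b).card ≤ (z : ℝ) ∧
        (z : ℝ) ≤ (1 + 1 / (e : ℝ)) * (Om b).card}).toReal := by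
  have he' : (1 : ℝ) ≤ e := by exact_mod_cast he
  have hm : (1 : ℝ) ≤ m := by exact_mod_cast NeZero.one_le
  have hn : (1 : ℝ) ≤ n := by exact_mod_cast NeZero.one_le
  have hlN : 1 ≤ len b := Nat.le_add_left 1 _
  have hl : (1 : ℝ) ≤ len b := by exact_mod_cast hlN
  have hmN : 1 ≤ m := NeZero.one_le
  obtain ⟨s, hs⟩ : ∃ s : ℝ, s = (m : ℝ) + n := ⟨_, rfl⟩
  have hs2 : 2 ≤ s := by linarith
  have hs0 : 0 < s := by linarith
  obtain ⟨e2, he2⟩ : ∃ e2 : ℕ, e2 = 1600 * (m + n) ^ 4 * len b * e := ⟨_, rfl⟩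
  obtain ⟨f, hf⟩ : ∃ f : ℕ, f = 100 * (m + n) ^ 2 * len b := ⟨_, rfl⟩
  obtain ⟨N, hN⟩ : ∃ N : ℕ, N = 4 * e2 ^ 2 * (d + 200 * (m + n) ^ 2 * len b) := ⟨_, rfl⟩
  have he2' : (e2 : ℝ) = 1600 * s ^ 4 * len b * e := by
    rw [he2, hs]
    push_cast
    rfl
  have hf' : (f : ℝ) = 100 * s ^ 2 * len b := by
    rw [hf, hs]
    push_cast
    rfl
  have hN' : (N : ℝ) = 4 * (e2 : ℝ) ^ 2 * (d + 2 * f) := by
    rw [hN, hf]
    push_cast
    ring
  have he2pos : 1 ≤ e2 := by
    rw [he2]
    exact Nat.one_le_iff_ne_zero.mpr (by positivity)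
  have he2R : (0 : ℝ) < e2 := by exact_mod_cast he2pos
  have hNpos : 1 ≤ N := by
    rw [hN]
    exact Nat.one_le_iff_ne_zero.mpr (by positivity)
  have hfx : f * (s ^ 2 / e2) = 1 / (16 * e) := by
    rw [he2', hf']
    field_simp
    norm_num
  have hx0 : 0 < s ^ 2 / e2 := by positivity
  have hx1 : s ^ 2 / e2 < 1 := by
    rw [div_lt_one he2R, he2']
    have h1 : (1 : ℝ) ≤ len b * e := by nlinarith
    have h3 : 4 ≤ s ^ 2 := by nlinarith
    have h2 : s ^ 2 < 1600 * s ^ 4 := by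
      have h4 : s ^ 4 = s ^ 2 * s ^ 2 := by ring
      rw [h4]
      nlinarith
    calc s ^ 2 < 1600 * s ^ 4 := h2
      _ ≤ 1600 * s ^ 4 * (len b * e) := le_mul_of_one_le_right (by positivity) h1
      _ = _ := by ring
  have hfuel := fuel_ok hb hs2 (k := f) rfl hf'
  rw [hs] at hfuel
  have hbad := ratios_bad (m := m) (n := n) he2pos hNpos (x := s ^ 2 / e2) (by rw [hs]) hx1 f b hb
    hfuel
  have hcnt : law (counter b e d) = law (ratios e2 N f b) := by
    rw [hN, hf, he2, counter, law_charge]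
  rw [hcnt]
  refine outer_ge _ _ (Real.exp_pos _).le (le_trans ?_ (hbad.trans (prob_ok he2R hN')))
  refine (law (ratios e2 N f b)).toOuterMeasure.mono ?_
  rw [Set.compl_subset_compl]
  rintro w ⟨h1, h2⟩
  exact final_ok he' hx1 hfx (Nat.cast_nonneg _) h1 h2

end Main

end P328.RA

namespace P328

theorem counter_ok {m n : ℕ} [NeZero m] [NeZero n] {b : Mg m n} (hb : Ok b) {e : ℕ} (he : 1 ≤ e)
    (d : ℕ) : 1 - Real.exp (-d) ≤ ((law (counter b e d)).toOuterMeasure
      {z | (1 - 1 / (e : ℝ)) * (Om b).card ≤ (z : ℝ) ∧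
        (z : ℝ) ≤ (1 + 1 / (e : ℝ)) * (Om b).card}).toReal :=
  RA.counter_ok hb he d

end P328
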