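import Vale.Agent.P328.Base

/-!
# P328 : definitions (abstract part: boxes with margins, the halving functional; tables)
-/

namespace P328

open Finset

section Abstract

variable {E : Type*} [Fintype E] [DecidableEq E] {B : Type*} [AddCommGroup B] [DecidableEq B]

/-- lower corner of the box of the `z` such that both `z` and `u - z` lie in `[lo, hi]` -/
def Lo (lo hi u : E → ℤ) : E → ℤ := lo ⊔ (u - hi)

/-- upper corner of the same box -/
def Hi (lo hi u : E → ℤ) : E → ℤ := hi ⊓ (u - lo)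

/-- all the sums of two points of `S M b lo hi` -/
noncomputable def U (M : (E → ℤ) →+ B) (b : B) (lo hi : E → ℤ) : Finset (E → ℤ) :=
  ((S M b lo hi) ×ˢ (S M b lo hi)).image fun p => p.1 + p.2

/-- rounding down `u / 2` -/
def Dn (u : E → ℤ) : E → ℤ := fun e => u e / 2

/-- rounding up `u / 2` -/
def Up (u : E → ℤ) : E → ℤ := fun e => (u e + 1) / 2

/-- the rounding property: a half integral point with margins `b` can be rounded -/
def Rounding (M : (E → ℤ) →+ B) (b : B) : Prop :=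
  ∀ v : E → ℤ, M v = b + b → (S M b (Dn v) (Up v)).Nonempty

/-- `T0 g = (1 / |S|) ∑_{x, y ∈ S} g x y` -/
noncomputable def T0 (M : (E → ℤ) →+ B) (b : B) (g : (E → ℤ) → (E → ℤ) → ℝ)
    (lo hi : E → ℤ) : ℝ :=
  (∑ x ∈ S M b lo hi, ∑ y ∈ S M b lo hi, g x y) / (S M b lo hi).card

/-- one halving step, for a functional `F` of the box -/
noncomputable def halve (M : (E → ℤ) →+ B) (b : B) (F : (E → ℤ) → (E → ℤ) → ℝ)
    (lo hi : E → ℤ) : ℝ :=
  2 / (S M b lo hi).card * ∑ u ∈ U M b lo hi, F (Lo lo hi u) (Hi lo hi u)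

/-- the functional after `L` halving steps -/
noncomputable def T (M : (E → ℤ) →+ B) (b : B) (g : (E → ℤ) → (E → ℤ) → ℝ) (L : ℕ) :
    (E → ℤ) → (E → ℤ) → ℝ :=
  (halve M b)^[L] (T0 M b g)

/-- the functional of the second phase: only the pairs `|x - y| ≤ 1` are kept -/
noncomputable def B0 (M : (E → ℤ) →+ B) (b : B) (g : (E → ℤ) → (E → ℤ) → ℝ) (L : ℕ)
    (lo hi : E → ℤ) : ℝ :=
  2 / (S M b lo hi).card * ∑ u ∈ U M b lo hi, T M b g L (Dn u) (Up u)

/-- squared difference of `f` -/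
noncomputable def gd (f : (E → ℤ) → ℝ) (x y : E → ℤ) : ℝ := (f x - f y) ^ 2

/-- quartic potential of the cell `c` -/
noncomputable def gc (c : E) (x y : E → ℤ) : ℝ :=
  ((x c - y c : ℤ) : ℝ) ^ 2 * (((x c - y c : ℤ) : ℝ) ^ 2 - 1)

/-- near pairs -/
def Near (x y : E → ℤ) : Prop := ∀ e, |x e - y e| ≤ 1

/-- bad pairs: more than one cycle -/
def Bad (M : (E → ℤ) →+ B) (b : B) (x y : E → ℤ) : Prop :=
  3 ≤ (S M b (Dn (x + y)) (Up (x + y))).card

end Abstract

section Tables

variable {m n : ℕ}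

open Classical in
/-- local Dirichlet form of the unit `2 × 2` moves at the table `w` -/
noncomputable def DD (f : (Fin m × Fin n → ℤ) → ℝ) (w : Fin m × Fin n → ℤ) : ℝ :=
  ∑ q : (Fin m × Fin m) × (Fin n × Fin n),
    if 0 ≤ w + quad q then (f w - f (w + quad q)) ^ 2 else 0

end Tables

end P328
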