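import Vale.Agent.P328.Tv

/-!
# P328 : expectations of bounded functions
-/

namespace P328

open Finset

/-- the expectation of a bounded function -/
noncomputable def EE {α : Type} (μ : PMF α) (g : α → ℝ) : ℝ := ∑' a, (μ a).toReal * g a

section

variable {α β : Type}

theorem abs_mul_le_pmf (μ : PMF α) {g : α → ℝ} {C : ℝ} (hg : ∀ a, |g a| ≤ C) (a : α) :
    |(μ a).toReal * g a| ≤ (μ a).toReal * C := by
  rw [abs_mul, abs_of_nonneg ENNReal.toReal_nonneg]
  exact mul_le_mul_of_nonneg_left (hg a) ENNReal.toReal_nonneg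

theorem summable_EE (μ : PMF α) {g : α → ℝ} {C : ℝ} (hg : ∀ a, |g a| ≤ C) :
    Summable fun a => (μ a).toReal * g a :=
  Summable.of_norm_bounded (f := fun a => (μ a).toReal * g a)
    ((summable_pmf μ).mul_right C) fun a => abs_mul_le_pmf μ hg a

theorem abs_EE_le (μ : PMF α) {g : α → ℝ} {C : ℝ} (hg : ∀ a, |g a| ≤ C) : |EE μ g| ≤ C := by
  unfold EE
  have h := tsum_of_norm_bounded (f := fun a => (μ a).toReal * g a)
    ((summable_pmf μ).mul_right C).hasSum fun a => abs_mul_le_pmf μ hg a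
  rwa [tsum_mul_right, tsum_pmf, one_mul] at h

theorem EE_congr (μ : PMF α) {f g : α → ℝ} (h : ∀ a ∈ μ.support, f a = g a) :
    EE μ f = EE μ g := by
  unfold EE
  refine tsum_congr fun a => ?_
  by_cases ha : a ∈ μ.support
  · rw [h a ha]
  · rw [PMF.mem_support_iff, not_not] at ha
    rw [ha, ENNReal.toReal_zero, zero_mul, zero_mul]

theorem EE_sub (μ : PMF α) {f g : α → ℝ} {C D : ℝ} (hf : ∀ a, |f a| ≤ C) (hg : ∀ a, |g a| ≤ D) :
    EE μ f - EE μ g = EE μ fun a => f a - g a := by
  unfold EE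
  rw [← (summable_EE μ hf).tsum_sub (summable_EE μ hg)]
  exact tsum_congr fun a => by ring

/-- pointwise comparison on the support -/
theorem abs_EE_sub_le (μ : PMF α) {f g : α → ℝ} {C ε : ℝ} (hf : ∀ a, |f a| ≤ C)
    (hg : ∀ a, |g a| ≤ C) (h : ∀ a ∈ μ.support, |f a - g a| ≤ ε) : |EE μ f - EE μ g| ≤ ε := by
  rw [EE_sub μ hf hg]
  unfold EE
  have hb : ∀ a, ‖(μ a).toReal * (f a - g a)‖ ≤ (μ a).toReal * ε := by
    intro a
    rw [Real.norm_eq_abs, abs_mul, abs_of_nonneg ENNReal.toReal_nonneg]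
    by_cases ha : a ∈ μ.support
    · exact mul_le_mul_of_nonneg_left (h a ha) ENNReal.toReal_nonneg
    · rw [PMF.mem_support_iff, not_not] at ha
      rw [ha, ENNReal.toReal_zero, zero_mul, zero_mul]
  have h := tsum_of_norm_bounded ((summable_pmf μ).mul_right ε).hasSum hb
  rwa [tsum_mul_right, tsum_pmf, one_mul] at h

theorem EE_pure (a : α) (g : α → ℝ) : EE (PMF.pure a) g = g a := by
  unfold EE
  rw [tsum_eq_single a]
  · rw [PMF.pure_apply, if_pos rfl, ENNReal.toReal_one, one_mul]
  · intro b hb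
    rw [PMF.pure_apply, if_neg hb, ENNReal.toReal_zero, zero_mul]

theorem EE_bind (μ : PMF α) (f : α → PMF β) {g : β → ℝ} {C : ℝ} (hg : ∀ a, |g a| ≤ C) :
    EE (μ.bind f) g = EE μ fun a => EE (f a) g := by
  rcases isEmpty_or_nonempty β with hβ | hβ
  · exfalso
    obtain ⟨b, -⟩ := (f (μ.support_nonempty.some)).support_nonempty
    exact hβ.elim b
  have hC : 0 ≤ C := (abs_nonneg _).trans (hg (Classical.arbitrary β))
  unfold EE
  have hs1 : Summable fun p : α × β => (μ p.1).toReal * (f p.1 p.2).toReal := by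
    have h0 : ∀ p : α × β, 0 ≤ (μ p.1).toReal * (f p.1 p.2).toReal := fun p =>
      mul_nonneg ENNReal.toReal_nonneg ENNReal.toReal_nonneg
    have h00 : ∀ a : α, Summable fun b : β => (μ a).toReal * (f a b).toReal := fun a =>
      (summable_pmf (f a)).mul_left (μ a).toReal
    refine (summable_prod_of_nonneg h0).mpr ⟨h00, ?_⟩
    have : (fun a => ∑' b, (μ a).toReal * (f a b).toReal) = fun a => (μ a).toReal := by
      funext a
      rw [tsum_mul_left, tsum_pmf, mul_one]
    rw [this]
    exact summable_pmf μ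
  have hs2 : Summable fun p : α × β => (μ p.1).toReal * (f p.1 p.2).toReal * g p.2 := by
    refine Summable.of_norm_bounded (hs1.mul_right C) fun p => ?_
    rw [norm_mul, Real.norm_of_nonneg (mul_nonneg ENNReal.toReal_nonneg ENNReal.toReal_nonneg)]
    exact mul_le_mul_of_nonneg_left (hg _) (mul_nonneg ENNReal.toReal_nonneg
      ENNReal.toReal_nonneg)
  have h3 := Summable.tsum_comm (f := fun a b => (μ a).toReal * (f a b).toReal * g b) hs2
  calc ∑' b, ((μ.bind f) b).toReal * g b
      = ∑' b, ∑' a, (μ a).toReal * (f a b).toReal * g b := by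
        refine tsum_congr fun b => ?_
        rw [toReal_bind, tsum_mul_right]
    _ = ∑' a, ∑' b, (μ a).toReal * (f a b).toReal * g b := h3
    _ = ∑' a, (μ a).toReal * ∑' b, (f a b).toReal * g b := by
        refine tsum_congr fun a => ?_
        rw [← tsum_mul_left]
        exact tsum_congr fun b => by ring

theorem EE_map (μ : PMF α) (f : α → β) {g : β → ℝ} {C : ℝ} (hg : ∀ a, |g a| ≤ C) :
    EE (μ.map f) g = EE μ fun a => g (f a) := by
  rw [← PMF.bind_pure_comp, EE_bind μ _ hg]
  unfold EE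
  refine tsum_congr fun a => ?_
  have h := EE_pure (f a) g
  unfold EE at h
  simp only [Function.comp_apply, h]

theorem EE_finset (S : Finset α) (h : S.Nonempty) (g : α → ℝ) :
    EE (PMF.uniformOfFinset S h) g = (∑ a ∈ S, g a) / S.card := by
  unfold EE
  rw [tsum_eq_sum (s := S)]
  · rw [Finset.sum_div]
    refine Finset.sum_congr rfl fun a ha => ?_
    rw [PMF.uniformOfFinset_apply_of_mem h ha, ENNReal.toReal_inv, ENNReal.toReal_natCast]
    ring
  · intro a ha
    rw [PMF.uniformOfFinset_apply_of_notMem h ha, ENNReal.toReal_zero, zero_mul]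

/-- comparison of expectations from the total variation distance -/
theorem abs_EE_sub_le_tv (μ ν : PMF α) {g : α → ℝ} (hg : ∀ a, |g a| ≤ 1) :
    |EE μ g - EE ν g| ≤ 2 * tv μ ν := by
  unfold EE tv
  rw [← (summable_EE μ hg).tsum_sub (summable_EE ν hg)]
  have hb : ∀ a, ‖(μ a).toReal * g a - (ν a).toReal * g a‖ ≤ |(μ a).toReal - (ν a).toReal| := by
    intro a
    rw [← sub_mul, Real.norm_eq_abs, abs_mul]
    exact mul_le_of_le_one_right (abs_nonneg _) (hg a)
  have h := tsum_of_norm_bounded (summable_diff μ ν).hasSum hb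
  rw [Real.norm_eq_abs] at h
  linarith

theorem tv_le_of_EE (μ ν : PMF α) {ε : ℝ}
    (h : ∀ g : α → ℝ, (∀ a, |g a| ≤ 1) → |EE μ g - EE ν g| ≤ ε) : tv μ ν ≤ ε / 2 := by
  have hg : ∀ a, |(fun a => if 0 ≤ (μ a).toReal - (ν a).toReal then (1 : ℝ) else -1) a| ≤ 1 := by
    intro a
    simp only
    split_ifs
    · rw [abs_one]
    · rw [abs_neg, abs_one]
  have h2 := h _ hg
  unfold EE at h2
  rw [← (summable_EE μ hg).tsum_sub (summable_EE ν hg)] at h2
  unfold tv
  have h3 : ∑' a, |(μ a).toReal - (ν a).toReal| ≤ ε := by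
    refine le_trans (le_of_eq ?_) ((le_abs_self _).trans h2)
    refine tsum_congr fun a => ?_
    split_ifs with h0
    · rw [abs_of_nonneg h0]
      ring
    · rw [abs_of_neg (not_le.mp h0)]
      ring
  linarith

/-- the sum over a finite set is the sum of the averages over the fibers -/
theorem sum_fiber_avg {γ : Type*} [DecidableEq γ] (S : Finset α) (φ : α → γ) (g : α → ℝ) :
    ∑ x ∈ S, g x = ∑ x ∈ S, (∑ y ∈ S.filter (fun y => φ y = φ x), g y) /
      (S.filter fun y => φ y = φ x).card := by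
  have h1 : ∀ x ∈ S, (∑ y ∈ S.filter (fun y => φ y = φ x), g y) /
      ((S.filter fun y => φ y = φ x).card : ℝ) =
      ∑ y ∈ S, if φ y = φ x then g y / (S.filter fun z => φ z = φ y).card else 0 := by
    intro x _
    rw [Finset.sum_filter, Finset.sum_div]
    refine Finset.sum_congr rfl fun y _ => ?_
    split_ifs with h
    · rw [h]
    · rw [zero_div]
  rw [Finset.sum_congr rfl h1, Finset.sum_comm]
  refine Finset.sum_congr rfl fun y hy => ?_
  rw [← Finset.sum_filter, Finset.sum_const]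
  have h2 : (S.filter fun x => φ y = φ x) = S.filter fun z => φ z = φ y :=
    Finset.filter_congr fun x _ => eq_comm
  rw [h2, nsmul_eq_mul]
  have h3 : ((S.filter fun z => φ z = φ y).card : ℝ) ≠ 0 := by
    rw [Nat.cast_ne_zero, Finset.card_ne_zero]
    exact ⟨y, Finset.mem_filter.2 ⟨hy, rfl⟩⟩
  field_simp

end

end P328
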