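import Mathlib

/-!
# P328 : moment inequality for symmetric unimodal distributions
-/

namespace P328

open Finset

/-- shift of a sequence by two -/
def sh (Φ : ℕ → ℤ) : ℕ → ℤ
  | 0 => 0
  | 1 => 0
  | n + 2 => Φ n

theorem abel_two (a Φ : ℕ → ℤ) (n : ℕ) :
    ∑ j ∈ range n, (a j - a (j + 2)) * Φ j =
      ∑ j ∈ range n, a j * (Φ j - sh Φ j) - a n * sh Φ n - a (n + 1) * sh Φ (n + 1) := by
  induction n with
  | zero => simp [sh]
  | succ n ih =>
    rw [Finset.sum_range_succ, Finset.sum_range_succ, ih]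
    have : sh Φ (n + 1 + 1) = Φ n := rfl
    rw [this]
    ring

theorem sum_even {α : Type*} (s : Finset α) (D : α → ℤ)
    (hsymm : ∀ k : ℤ, (s.filter fun x => D x = k).card = (s.filter fun x => D x = -k).card)
    (φ : ℤ → ℤ) (hφ : ∀ k, φ (-k) = φ k) (Φ : ℕ → ℤ) (h0 : Φ 0 = φ 0) (h1 : Φ 1 = 2 * φ 1)
    (h2 : ∀ j : ℕ, Φ (j + 2) = Φ j + 2 * φ (j + 2)) {n : ℕ} (hn : ∀ x ∈ s, (D x).natAbs < n) :
    ∑ x ∈ s, φ (D x) = ∑ j ∈ range n,
      (((s.filter fun x => D x = (j : ℕ)).card : ℤ) -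
        (s.filter fun x => D x = ((j + 2 : ℕ) : ℤ)).card) * Φ j := by
  classical
  have e0 : ∀ k : ℕ, n ≤ k → (s.filter fun x => D x = (k : ℤ)).card = 0 := by
    intro k hk
    rw [Finset.card_eq_zero, Finset.filter_eq_empty_iff]
    intro x hx h
    have := hn x hx
    rw [h, Int.natAbs_natCast] at this
    omega
  have e1 := abel_two (fun j => ((s.filter fun x => D x = (j : ℤ)).card : ℤ)) Φ n
  simp only [e0 n le_rfl, e0 (n + 1) (Nat.le_succ n), Nat.cast_zero, zero_mul, sub_zero] at e1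
  rw [e1]
  rw [← Finset.sum_fiberwise_of_maps_to (s := s) (t := range n) (g := fun x => (D x).natAbs)
    (fun x hx => Finset.mem_range.2 (hn x hx))]
  refine Finset.sum_congr rfl fun j _ => ?_
  have hcst : ∀ x ∈ s.filter (fun x => (D x).natAbs = j), φ (D x) = φ j := by
    intro x hx
    have h := (Finset.mem_filter.1 hx).2
    rcases Int.natAbs_eq (D x) with h3 | h3
    · rw [h3, h]
    · rw [h3, h, hφ]
  rw [Finset.sum_congr rfl hcst, Finset.sum_const, nsmul_eq_mul]
  rcases j with _ | _ | j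
  · simp only [sh, Nat.cast_zero, sub_zero, h0, Int.natAbs_eq_zero]
  · have hsplit : s.filter (fun x => (D x).natAbs = 0 + 1) =
        s.filter (fun x => D x = 1) ∪ s.filter (fun x => D x = -1) := by
      rw [← Finset.filter_or]
      refine Finset.filter_congr fun x _ => ?_
      omega
    have hdis : Disjoint (s.filter fun x => D x = 1) (s.filter fun x => D x = -1) := by
      rw [Finset.disjoint_filter]
      intro x _ h3 h4
      omega
    rw [hsplit, Finset.card_union_of_disjoint hdis, ← hsymm 1]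
    simp only [sh, zero_add, Nat.cast_one, sub_zero, h1]
    push_cast
    ring
  · have hsplit : s.filter (fun x => (D x).natAbs = j + 1 + 1) =
        s.filter (fun x => D x = ((j + 1 + 1 : ℕ) : ℤ)) ∪
          s.filter (fun x => D x = -((j + 1 + 1 : ℕ) : ℤ)) := by
      rw [← Finset.filter_or]
      refine Finset.filter_congr fun x _ => ?_
      omega
    have hdis : Disjoint (s.filter fun x => D x = ((j + 1 + 1 : ℕ) : ℤ))
        (s.filter fun x => D x = -((j + 1 + 1 : ℕ) : ℤ)) := by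
      rw [Finset.disjoint_filter]
      intro x _ h3 h4
      omega
    rw [hsplit, Finset.card_union_of_disjoint hdis, ← hsymm]
    have e3 : Φ (j + 1 + 1) - sh Φ (j + 1 + 1) = 2 * φ ((j + 1 + 1 : ℕ) : ℤ) := by
      have h3 := h2 j
      have h4 : ((j + 1 + 1 : ℕ) : ℤ) = (j : ℤ) + 2 := by push_cast; ring
      have h5 : sh Φ (j + 1 + 1) = Φ j := rfl
      rw [h4, h5]
      linarith
    rw [e3]
    push_cast
    ring

/-- moment inequality for a symmetric unimodal distribution on the integers of fixed parity -/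
theorem moment {α : Type*} (s : Finset α) (D : α → ℤ)
    (hsymm : ∀ k : ℤ, (s.filter fun x => D x = k).card = (s.filter fun x => D x = -k).card)
    (huni : ∀ k : ℤ, 0 ≤ k →
      (s.filter fun x => D x = k + 2).card ≤ (s.filter fun x => D x = k).card) :
    9 * (∑ x ∈ s, D x ^ 2) ^ 2 ≤ s.card * (5 * ∑ x ∈ s, D x ^ 4 + 4 * ∑ x ∈ s, D x ^ 2) := by
  obtain ⟨n, hn⟩ : ∃ n : ℕ, ∀ x ∈ s, (D x).natAbs < n :=
    ⟨s.sup (fun x => (D x).natAbs) + 1, fun x hx =>
      Nat.lt_succ_of_le (Finset.le_sup (f := fun x => (D x).natAbs) hx)⟩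
  have s0 := sum_even s D hsymm (fun _ => 1) (fun _ => rfl) (fun j => (j : ℤ) + 1) (by simp)
    (by simp) (fun j => by push_cast; ring) hn
  have s2 := sum_even s D hsymm (fun k => 3 * k ^ 2) (fun k => by ring)
    (fun j => ((j : ℤ) + 1) * (j * (j + 2))) (by simp) (by simp)
    (fun j => by push_cast; ring) hn
  have s4 := sum_even s D hsymm (fun k => 5 * k ^ 4 + 4 * k ^ 2) (fun k => by ring)
    (fun j => ((j : ℤ) + 1) * (j * (j + 2)) ^ 2) (by simp) (by norm_num)
    (fun j => by push_cast; ring) hn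
  have d0 : ∀ j : ℕ, 0 ≤ (((s.filter fun x => D x = (j : ℕ)).card : ℤ) -
        (s.filter fun x => D x = ((j + 2 : ℕ) : ℤ)).card) := by
    intro j
    have := huni j (by positivity)
    push_cast
    omega
  have cs := Finset.sum_sq_le_sum_mul_sum_of_sq_le_mul (range n)
    (r := fun j => (((s.filter fun x => D x = (j : ℕ)).card : ℤ) -
        (s.filter fun x => D x = ((j + 2 : ℕ) : ℤ)).card) * (((j : ℤ) + 1) * (j * (j + 2))))
    (f := fun j => (((s.filter fun x => D x = (j : ℕ)).card : ℤ) -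
        (s.filter fun x => D x = ((j + 2 : ℕ) : ℤ)).card) * ((j : ℤ) + 1))
    (g := fun j => (((s.filter fun x => D x = (j : ℕ)).card : ℤ) -
        (s.filter fun x => D x = ((j + 2 : ℕ) : ℤ)).card) * (((j : ℤ) + 1) * (j * (j + 2)) ^ 2))
    (fun j _ => mul_nonneg (d0 j) (by positivity))
    (fun j _ => mul_nonneg (d0 j) (by positivity))
    (fun j _ => le_of_eq (by ring))
  rw [← s0, ← s2, ← s4] at cs
  rw [Finset.sum_const, nsmul_eq_mul, mul_one, ← Finset.mul_sum, Finset.sum_add_distrib,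
    ← Finset.mul_sum, ← Finset.mul_sum] at cs
  linarith

end P328
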