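import Vale.Agent.P328.Defs

/-!
# P328 : the path between two near tables
-/

namespace P328

open Finset

variable {m n : ℕ}

namespace PathAux

theorem one_app (i : Fin m) (j : Fin n) (e : Fin m × Fin n) :
    one i j e = if e = (i, j) then 1 else 0 := by
  unfold one
  rw [Pi.single_apply]

theorem rowsum_one (i : Fin m) (j : Fin n) (k : Fin m) :
    ∑ l, one i j (k, l) = if k = i then 1 else 0 := by
  simp only [one_app, Prod.mk.injEq]
  by_cases h : k = i
  · simp [h]
  · simp [h]

theorem colsum_one (i : Fin m) (j : Fin n) (l : Fin n) :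
    ∑ k, one i j (k, l) = if l = j then 1 else 0 := by
  simp only [one_app, Prod.mk.injEq]
  by_cases h : l = j
  · simp [h]
  · simp [h]

theorem mem_tab {N : ℤ} {b : (Fin m → ℤ) × (Fin n → ℤ)} {w : Fin m × Fin n → ℤ} :
    w ∈ tab N b ↔ (0 ≤ w ∧ w ≤ fun _ => N) ∧ mar w = b := by
  unfold tab S
  rw [Finset.mem_filter, Finset.mem_Icc]

theorem mem_tab_of {N : ℤ} {b : (Fin m → ℤ) × (Fin n → ℤ)} (hN : ∑ i, b.1 i ≤ N)
    {w : Fin m × Fin n → ℤ} (h0 : 0 ≤ w) (hm : mar w = b) : w ∈ tab N b := by
  rw [mem_tab]
  refine ⟨⟨h0, fun e => ?_⟩, hm⟩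
  refine le_trans ?_ hN
  have h1 : ∀ i, b.1 i = ∑ j, w (i, j) := fun i => by rw [← hm]; rfl
  calc w e ≤ ∑ j, w (e.1, j) :=
        Finset.single_le_sum (f := fun j => w (e.1, j)) (fun j _ => h0 (e.1, j))
          (Finset.mem_univ e.2)
    _ ≤ ∑ i, ∑ j, w (i, j) :=
        Finset.single_le_sum (f := fun i => ∑ j, w (i, j))
          (fun i _ => Finset.sum_nonneg fun j _ => h0 (i, j)) (Finset.mem_univ e.1)
    _ = ∑ i, b.1 i := by simp_rw [h1]

open Classical in
/-- right-hand side -/
noncomputable def RR (N : ℤ) (b : (Fin m → ℤ) × (Fin n → ℤ)) (f : (Fin m × Fin n → ℤ) → ℝ)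
    (lo hi : Fin m × Fin n → ℤ) : ℝ :=
  ∑ w ∈ tab N b, ∑ p : Fin m × Fin n,
    if lo ≤ w - one p.1 p.2 ∧ w - one p.1 p.2 ≤ hi then DD f w else 0

theorem DD_nonneg (f : (Fin m × Fin n → ℤ) → ℝ) (w : Fin m × Fin n → ℤ) : 0 ≤ DD f w := by
  classical
  unfold DD
  apply Finset.sum_nonneg
  intro q _
  split_ifs
  · positivity
  · exact le_rfl

theorem RR_nonneg (N : ℤ) (b : (Fin m → ℤ) × (Fin n → ℤ)) (f : (Fin m × Fin n → ℤ) → ℝ)
    (lo hi : Fin m × Fin n → ℤ) : 0 ≤ RR N b f lo hi := by
  classical
  unfold RR
  refine Finset.sum_nonneg fun w _ => Finset.sum_nonneg fun p _ => ?_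
  split_ifs
  · exact DD_nonneg f w
  · exact le_rfl

theorem DD_le_RR {N : ℤ} {b : (Fin m → ℤ) × (Fin n → ℤ)} (f : (Fin m × Fin n → ℤ) → ℝ)
    {lo hi w : Fin m × Fin n → ℤ} (hw : w ∈ tab N b) (i : Fin m) (j : Fin n)
    (h1 : lo ≤ w - one i j) (h2 : w - one i j ≤ hi) : DD f w ≤ RR N b f lo hi := by
  classical
  unfold RR
  have hnn : ∀ w : Fin m × Fin n → ℤ, ∀ p : Fin m × Fin n,
      0 ≤ (if lo ≤ w - one p.1 p.2 ∧ w - one p.1 p.2 ≤ hi then DD f w else 0) := by
    intro w p
    split_ifs
    · exact DD_nonneg f w
    · exact le_rfl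
  calc DD f w = (if lo ≤ w - one (i, j).1 (i, j).2 ∧ w - one (i, j).1 (i, j).2 ≤ hi
        then DD f w else 0) := by rw [if_pos ⟨h1, h2⟩]
    _ ≤ ∑ p : Fin m × Fin n,
        if lo ≤ w - one p.1 p.2 ∧ w - one p.1 p.2 ≤ hi then DD f w else 0 :=
      Finset.single_le_sum (f := fun p : Fin m × Fin n =>
        if lo ≤ w - one p.1 p.2 ∧ w - one p.1 p.2 ≤ hi then DD f w else 0)
        (fun p _ => hnn w p) (Finset.mem_univ (i, j))
    _ ≤ _ := Finset.single_le_sum (f := fun w => ∑ p : Fin m × Fin n,
        if lo ≤ w - one p.1 p.2 ∧ w - one p.1 p.2 ≤ hi then DD f w else 0)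
        (fun w _ => Finset.sum_nonneg fun p _ => hnn w p) hw

theorem sq_le_DD (f : (Fin m × Fin n → ℤ) → ℝ) (w : Fin m × Fin n → ℤ)
    (q : (Fin m × Fin m) × (Fin n × Fin n)) (h : 0 ≤ w + quad q) :
    (f w - f (w + quad q)) ^ 2 ≤ DD f w := by
  classical
  unfold DD
  calc (f w - f (w + quad q)) ^ 2 = (if 0 ≤ w + quad q then (f w - f (w + quad q)) ^ 2 else 0) := by
        rw [if_pos h]
    _ ≤ _ := Finset.single_le_sum (f := fun q => if 0 ≤ w + quad q then
        (f w - f (w + quad q)) ^ 2 else 0) (fun q _ => by split_ifs <;> positivity)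
        (Finset.mem_univ q)

/-- number of cells where `z` and `y` differ -/
noncomputable def dif (z y : Fin m × Fin n → ℤ) : ℕ := (univ.filter fun e => z e ≠ y e).card

theorem dif_lt_of {z z' y : Fin m × Fin n → ℤ} (h : ∀ e, z' e ≠ y e → z e ≠ y e)
    {e : Fin m × Fin n} (h1 : z e ≠ y e) (h2 : z' e = y e) : dif z' y < dif z y := by
  unfold dif
  apply Finset.card_lt_card
  rw [Finset.ssubset_iff_of_subset]
  · exact ⟨e, by simpa using h1, by simpa using h2⟩
  · intro a ha
    rw [Finset.mem_filter] at ha ⊢
    exact ⟨ha.1, h a ha.2⟩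

theorem mar_one_one (i i' : Fin m) (j j' : Fin n) :
    mar (one i j) + mar (one i' j') = mar (one i j') + mar (one i' j) := by
  refine Prod.ext (funext fun k => ?_) (funext fun k => ?_)
  · change (∑ l, one i j (k, l)) + (∑ l, one i' j' (k, l)) =
      (∑ l, one i j' (k, l)) + (∑ l, one i' j (k, l))
    simp only [rowsum_one]
  · change (∑ l, one i j (l, k)) + (∑ l, one i' j' (l, k)) =
      (∑ l, one i j' (l, k)) + (∑ l, one i' j (l, k))
    simp only [colsum_one]
    ring

/-- tables with the same margins: if different, the first one is larger somewhere -/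
theorem exists_gt {w y : Fin m × Fin n → ℤ} (h : mar w = mar y) (hne : w ≠ y) :
    ∃ i j, y (i, j) < w (i, j) := by
  by_contra hc
  push Not at hc
  apply hne
  funext e
  have h1 : ∑ j, w (e.1, j) = ∑ j, y (e.1, j) := congrFun (congrArg Prod.fst h) e.1
  have h2 := (Finset.sum_eq_sum_iff_of_le (fun j _ => hc e.1 j)).1 h1
  exact h2 e.2 (Finset.mem_univ _)

theorem main_claim {N : ℤ} {b : (Fin m → ℤ) × (Fin n → ℤ)} (hN : ∑ i, b.1 i ≤ N)
    (f : (Fin m × Fin n → ℤ) → ℝ) {x y : Fin m × Fin n → ℤ} (hx : 0 ≤ x)
    (hy0 : 0 ≤ y) (hy : mar y = b) (hxy : Near x y) (D : ℕ) :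
    ∀ (i : Fin m) (j : Fin n) (z : Fin m × Fin n → ℤ), dif z y ≤ D → x ⊓ y ≤ z → z ≤ x ⊔ y →
      mar (z + one i j) = b →
      |f (z + one i j) - f y| ≤ D * Real.sqrt (RR N b f (x ⊓ y) (x ⊔ y)) := by
  have hRR := Real.sqrt_nonneg (RR N b f (x ⊓ y) (x ⊔ y))
  have hl : ∀ e, x e ⊓ y e ≥ 0 := fun e => le_inf (hx e) (hy0 e)
  induction D with
  | zero =>
    intro i j z hd hz1 hz2 hm
    exfalso
    have hzy : z = y := by
      funext e
      by_contra hne
      have : (univ.filter fun e => z e ≠ y e) = ∅ := by
        rw [← Finset.card_eq_zero]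
        exact Nat.le_zero.1 hd
      have he : e ∈ (univ.filter fun e => z e ≠ y e) := by simpa using hne
      rw [this] at he
      simp at he
    rw [hzy, map_add, hy] at hm
    have h3 : mar (one i j) = 0 := by
      have := congrArg (fun t => t - b) hm
      simpa using this
    have h4 : (∑ l, one i j (i, l)) = 0 := congrFun (congrArg Prod.fst h3) i
    rw [rowsum_one] at h4
    simp at h4
  | succ D ih =>
    intro i j z hd hz1 hz2 hm
    have hnear : ∀ e, x e - y e ≤ 1 ∧ y e - x e ≤ 1 := by
      intro e
      have := abs_le.1 (hxy e)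
      constructor <;> omega
    have hz1' : ∀ e, x e ⊓ y e ≤ z e := fun e => hz1 e
    have hz2' : ∀ e, z e ≤ x e ⊔ y e := fun e => hz2 e
    have hlow : ∀ e, y e - 1 ≤ z e := by
      intro e
      have h1 := hz1' e
      have h2 := hnear e
      have h3 : y e - 1 ≤ x e ⊓ y e := le_inf (by omega) (by omega)
      omega
    have hD : ((D + 1 : ℕ) : ℝ) = (D : ℝ) + 1 := by push_cast; ring
    have hgoal : ∀ w : Fin m × Fin n → ℤ,
        |f w - f y| ≤ (D : ℝ) * Real.sqrt (RR N b f (x ⊓ y) (x ⊔ y)) →
        |f w - f y| ≤ ((D + 1 : ℕ) : ℝ) * Real.sqrt (RR N b f (x ⊓ y) (x ⊔ y)) := by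
      intro w hw
      rw [hD]
      nlinarith
    by_cases hij : z (i, j) < y (i, j)
    · have hzij : z (i, j) + 1 = y (i, j) := by
        have := hlow (i, j)
        omega
      by_cases hwy : z + one i j = y
      · rw [hwy, sub_self, abs_zero]
        positivity
      · obtain ⟨i', j', h'⟩ := exists_gt (hm.trans hy.symm) hwy
        have hw : ∀ e, (z + one i j) e = z e + if e = (i, j) then 1 else 0 := fun e => by
          rw [Pi.add_apply, one_app]
        have hne : (i', j') ≠ (i, j) := by
          intro h
          rw [h, hw, if_pos rfl] at h'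
          omega
        have hz' : ∀ e, (z + one i j - one i' j') e =
            z e + (if e = (i, j) then 1 else 0) - if e = (i', j') then 1 else 0 := fun e => by
          rw [Pi.sub_apply, hw, one_app]
        rw [hw, if_neg hne, add_zero] at h'
        apply hgoal
        have key := ih i' j' (z + one i j - one i' j') ?_ ?_ ?_ ?_
        · rwa [sub_add_cancel] at key
        · have : dif (z + one i j - one i' j') y < dif z y := by
            refine dif_lt_of (e := (i, j)) ?_ (by omega) ?_
            · intro e he
              rw [hz'] at he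
              by_cases h1 : e = (i, j)
              · subst h1
                rw [if_pos rfl, if_neg (Ne.symm hne)] at he
                omega
              · by_cases h2 : e = (i', j')
                · subst h2
                  omega
                · rw [if_neg h1, if_neg h2] at he
                  omega
            · rw [hz', if_pos rfl, if_neg (Ne.symm hne)]
              omega
          omega
        · intro e
          rw [hz']
          have h1 := hz1' e
          change x e ⊓ y e ≤ _
          by_cases h2 : e = (i', j')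
          · subst h2
            rw [if_pos rfl, if_neg hne]
            have : x (i', j') ⊓ y (i', j') ≤ y (i', j') := inf_le_right
            omega
          · rw [if_neg h2]
            split_ifs <;> omega
        · intro e
          rw [hz']
          have h1 := hz2' e
          change _ ≤ x e ⊔ y e
          by_cases h2 : e = (i, j)
          · subst h2
            rw [if_pos rfl, if_neg (Ne.symm hne)]
            have : y (i, j) ≤ x (i, j) ⊔ y (i, j) := le_sup_right
            omega
          · rw [if_neg h2]
            split_ifs <;> omega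
        · rw [sub_add_cancel]
          exact hm
    · -- some other cell of the column `j`
      have hcol : (∑ k, (z + one i j) (k, j)) = ∑ k, y (k, j) :=
        congrFun (congrArg Prod.snd (hm.trans hy.symm)) j
      simp only [Pi.add_apply, Finset.sum_add_distrib, colsum_one, if_true] at hcol
      obtain ⟨k, hk⟩ : ∃ k, z (k, j) < y (k, j) := by
        by_contra hc
        push Not at hc
        have := Finset.sum_le_sum (s := univ) (fun k _ => hc k)
        omega
      have hki : k ≠ i := by
        rintro rfl
        exact hij hk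
      have hrow : (∑ l, (z + one i j) (k, l)) = ∑ l, y (k, l) :=
        congrFun (congrArg Prod.fst (hm.trans hy.symm)) k
      simp only [Pi.add_apply, Finset.sum_add_distrib, rowsum_one, if_neg hki, add_zero] at hrow
      obtain ⟨l, hl'⟩ : ∃ l, y (k, l) < z (k, l) := by
        by_contra hc
        push Not at hc
        have h2 := (Finset.sum_eq_sum_iff_of_le (fun l _ => hc l)).1 hrow
        have := h2 j (Finset.mem_univ _)
        omega
      have hlj : l ≠ j := by
        rintro rfl
        omega
      have hne : (k, l) ≠ (k, j) := by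
        intro h
        exact hlj (Prod.ext_iff.1 h).2
      have hz' : ∀ e, (z + one k j - one k l) e =
          z e + (if e = (k, j) then 1 else 0) - if e = (k, l) then 1 else 0 := fun e => by
        rw [Pi.sub_apply, Pi.add_apply, one_app, one_app]
      have hzkj : z (k, j) + 1 = y (k, j) := by
        have := hlow (k, j)
        omega
      have hlo : x ⊓ y ≤ z + one k j - one k l := by
        intro e
        rw [hz']
        have h1 := hz1' e
        change x e ⊓ y e ≤ _
        by_cases h2 : e = (k, l)
        · subst h2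
          rw [if_pos rfl, if_neg hne]
          have : x (k, l) ⊓ y (k, l) ≤ y (k, l) := inf_le_right
          omega
        · rw [if_neg h2]
          split_ifs <;> omega
      have hhi : z + one k j - one k l ≤ x ⊔ y := by
        intro e
        rw [hz']
        have h1 := hz2' e
        change _ ≤ x e ⊔ y e
        by_cases h2 : e = (k, j)
        · subst h2
          rw [if_pos rfl, if_neg (Ne.symm hne)]
          have : y (k, j) ≤ x (k, j) ⊔ y (k, j) := le_sup_right
          omega
        · rw [if_neg h2]
          split_ifs <;> omega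
      have hwq : z + one i j + quad ((i, k), (l, j)) = z + one k j - one k l + one i l := by
        unfold quad
        simp only
        abel
      have hmq : mar (z + one k j - one k l + one i l) = b := by
        rw [← hm]
        rw [map_add, map_sub, map_add, map_add]
        have := mar_one_one i k l j
        calc mar z + mar (one k j) - mar (one k l) + mar (one i l)
            = mar z + (mar (one i l) + mar (one k j)) - mar (one k l) := by abel
          _ = mar z + mar (one i j) := by rw [this]; abel
      have hz0 : 0 ≤ z := fun e => le_trans (hl e) (hz1' e)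
      have hone : ∀ (i : Fin m) (j : Fin n), 0 ≤ one i j := by
        intro i j e
        rw [one_app]
        split_ifs
        · exact zero_le_one
        · exact le_rfl
      have hw0 : 0 ≤ z + one i j := add_nonneg hz0 (hone i j)
      have hw0' : 0 ≤ z + one k j - one k l + one i l := by
        refine add_nonneg ?_ (hone i l)
        exact fun e => le_trans (hl e) (hlo e)
      have hstep : |f (z + one i j) - f (z + one k j - one k l + one i l)| ≤
          Real.sqrt (RR N b f (x ⊓ y) (x ⊔ y)) := by
        apply Real.abs_le_sqrt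
        have h1 := sq_le_DD f (z + one i j) ((i, k), (l, j)) (by rw [hwq]; exact hw0')
        rw [hwq] at h1
        refine h1.trans (DD_le_RR f (mem_tab_of hN hw0 hm) i j ?_ ?_)
        · rw [add_sub_cancel_right]
          exact hz1
        · rw [add_sub_cancel_right]
          exact hz2
      have key := ih i l (z + one k j - one k l) ?_ hlo hhi hmq
      · rw [hD]
        have := abs_sub_le (f (z + one i j)) (f (z + one k j - one k l + one i l)) (f y)
        nlinarith
      · have : dif (z + one k j - one k l) y < dif z y := by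
          refine dif_lt_of (e := (k, j)) ?_ (by omega) ?_
          · intro e he
            rw [hz'] at he
            by_cases h1 : e = (k, j)
            · subst h1
              omega
            · by_cases h2 : e = (k, l)
              · subst h2
                omega
              · rw [if_neg h1, if_neg h2] at he
                omega
          · rw [hz', if_pos rfl, if_neg (Ne.symm hne)]
            omega
        omega

end PathAux

open PathAux

open Classical in
theorem near_path {N : ℤ} {b : (Fin m → ℤ) × (Fin n → ℤ)} (hN : ∑ i, b.1 i ≤ N)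
    (f : (Fin m × Fin n → ℤ) → ℝ) {x y : Fin m × Fin n → ℤ} (hx : x ∈ tab N b)
    (hy : y ∈ tab N b) (hxy : Near x y) :
    (f x - f y) ^ 2 ≤ ((m : ℝ) * n) ^ 2 * ∑ w ∈ tab N b, ∑ p : Fin m × Fin n,
      if x ⊓ y ≤ w - one p.1 p.2 ∧ w - one p.1 p.2 ≤ x ⊔ y then DD f w else 0 := by
  have hR : (∑ w ∈ tab N b, ∑ p : Fin m × Fin n,
      if x ⊓ y ≤ w - one p.1 p.2 ∧ w - one p.1 p.2 ≤ x ⊔ y then DD f w else 0) =
      RR N b f (x ⊓ y) (x ⊔ y) := by
    unfold RR
    refine Finset.sum_congr rfl fun w _ => Finset.sum_congr rfl fun p _ => ?_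
    congr
  rw [hR]
  rw [PathAux.mem_tab] at hx hy
  have hRR := RR_nonneg N b f (x ⊓ y) (x ⊔ y)
  by_cases hne : x = y
  · rw [hne, sub_self]
    rw [hne] at hRR
    rw [zero_pow two_ne_zero]
    positivity
  · obtain ⟨i, j, hij⟩ := exists_gt (hx.2.trans hy.2.symm) hne
    have h := main_claim hN f hx.1.1 hy.1.1 hy.2 hxy (m * n) i j (x - one i j) ?_ ?_ ?_ ?_
    · rw [sub_add_cancel] at h
      have h2 := Real.sq_sqrt hRR
      have h3 : (f x - f y) ^ 2 ≤ (((m * n : ℕ) : ℝ) * Real.sqrt (RR N b f (x ⊓ y) (x ⊔ y))) ^ 2 := by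
        rw [← sq_abs (f x - f y)]
        gcongr
      rw [mul_pow, h2] at h3
      push_cast at h3
      exact h3
    · unfold dif
      refine le_trans (Finset.card_le_univ _) ?_
      simp
    · intro e
      change x e ⊓ y e ≤ x e - one i j e
      rw [one_app]
      by_cases h2 : e = (i, j)
      · subst h2
        rw [if_pos rfl]
        have : x (i, j) ⊓ y (i, j) ≤ y (i, j) := inf_le_right
        omega
      · rw [if_neg h2, sub_zero]
        exact inf_le_left
    · intro e
      change x e - one i j e ≤ x e ⊔ y e
      rw [one_app]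
      have : x e ≤ x e ⊔ y e := le_sup_left
      split_ifs <;> omega
    · rw [sub_add_cancel]
      exact hx.2

end P328
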