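import Vale.Agent.P328.Defs

/-!
# P328 : module A, comparison of the numbers of points with two different margins
-/

namespace P328

open Finset

section Ratio

variable {E : Type*} [Fintype E] [DecidableEq E] {B : Type*} [AddCommGroup B] [DecidableEq B]
  {M : (E → ℤ) →+ B} {b : B} {lo hi : E → ℤ}

theorem ratio_mem_S {z : E → ℤ} : z ∈ S M b lo hi ↔ (lo ≤ z ∧ z ≤ hi) ∧ M z = b := by
  simp [S, Finset.mem_filter, Finset.mem_Icc]

theorem ratio_reflect (M : (E → ℤ) →+ B) (T t : B) (h : M (lo + hi) = T) :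
    (S M t lo hi).card = (S M (T - t) lo hi).card := by
  refine Finset.card_bij' (fun z _ => lo + hi - z) (fun z _ => lo + hi - z) ?_ ?_ ?_ ?_
  · intro z hz
    rw [ratio_mem_S] at hz ⊢
    obtain ⟨⟨h1, h2⟩, h3⟩ := hz
    refine ⟨⟨fun e => ?_, fun e => ?_⟩, ?_⟩
    · have : z e ≤ hi e := h2 e
      simp only [Pi.sub_apply, Pi.add_apply]
      omega
    · have : lo e ≤ z e := h1 e
      simp only [Pi.sub_apply, Pi.add_apply]
      omega
    · rw [map_sub, h, h3]
  · intro z hz
    rw [ratio_mem_S] at hz ⊢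
    obtain ⟨⟨h1, h2⟩, h3⟩ := hz
    refine ⟨⟨fun e => ?_, fun e => ?_⟩, ?_⟩
    · have : z e ≤ hi e := h2 e
      simp only [Pi.sub_apply, Pi.add_apply]
      omega
    · have : lo e ≤ z e := h1 e
      simp only [Pi.sub_apply, Pi.add_apply]
      omega
    · rw [map_sub, h, h3]
      abel
  · intro z _
    simp
  · intro z _
    simp

/-- all the possible sums with total margin `T` -/
noncomputable def ratioV (M : (E → ℤ) →+ B) (T : B) (lo hi : E → ℤ) : Finset (E → ℤ) :=
  (Icc (lo + lo) (hi + hi)).filter fun v => M v = T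

theorem ratio_card_sq (M : (E → ℤ) →+ B) (T t : B) (h : M (lo + hi) = T) :
    (S M t lo hi).card ^ 2 =
      ∑ v ∈ ratioV M T lo hi, (S M t (Lo lo hi v) (Hi lo hi v)).card := by
  have h1 : (S M t lo hi).card ^ 2 = ((S M t lo hi) ×ˢ (S M (T - t) lo hi)).card := by
    rw [Finset.card_product, ← ratio_reflect M T t h, sq]
  rw [h1]
  rw [Finset.card_eq_sum_card_fiberwise (f := fun p : (E → ℤ) × (E → ℤ) => p.1 + p.2)
    (t := ratioV M T lo hi)]
  · refine Finset.sum_congr rfl fun v hv => ?_
    have hMv : M v = T := (Finset.mem_filter.mp hv).2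
    refine Finset.card_bij' (fun p _ => p.1) (fun x _ => (x, v - x)) ?_ ?_ ?_ ?_
    · intro p hp
      rw [Finset.mem_filter, Finset.mem_product, ratio_mem_S, ratio_mem_S] at hp
      obtain ⟨⟨⟨⟨h1, h2⟩, h3⟩, ⟨h4, h5⟩, h6⟩, h7⟩ := hp
      rw [ratio_mem_S]
      refine ⟨⟨fun e => ?_, fun e => ?_⟩, h3⟩
      · have a1 : lo e ≤ p.1 e := h1 e
        have a2 : p.2 e ≤ hi e := h5 e
        have a3 := congrFun h7 e
        simp only [Pi.add_apply] at a3
        simp only [Lo, Pi.sup_apply, Pi.sub_apply]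
        exact sup_le a1 (by omega)
      · have a1 : p.1 e ≤ hi e := h2 e
        have a2 : lo e ≤ p.2 e := h4 e
        have a3 := congrFun h7 e
        simp only [Pi.add_apply] at a3
        simp only [Hi, Pi.inf_apply, Pi.sub_apply]
        exact le_inf a1 (by omega)
    · intro x hx
      rw [ratio_mem_S] at hx
      obtain ⟨⟨h1, h2⟩, h3⟩ := hx
      rw [Finset.mem_filter, Finset.mem_product, ratio_mem_S, ratio_mem_S]
      refine ⟨⟨⟨⟨fun e => ?_, fun e => ?_⟩, h3⟩, ⟨fun e => ?_, fun e => ?_⟩, ?_⟩, ?_⟩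
      · have a1 := h1 e
        simp only [Lo, Pi.sup_apply, Pi.sub_apply] at a1
        exact le_trans le_sup_left a1
      · have a1 := h2 e
        simp only [Hi, Pi.inf_apply, Pi.sub_apply] at a1
        exact le_trans a1 inf_le_left
      · have a1 := h2 e
        simp only [Hi, Pi.inf_apply, Pi.sub_apply] at a1
        have a2 := le_trans a1 inf_le_right
        simp only [Pi.sub_apply]
        omega
      · have a1 := h1 e
        simp only [Lo, Pi.sup_apply, Pi.sub_apply] at a1
        have a2 := le_trans le_sup_right a1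
        simp only [Pi.sub_apply]
        omega
      · rw [map_sub, hMv, h3]
      · simp
    · intro p hp
      rw [Finset.mem_filter] at hp
      have h7 := hp.2
      ext e
      · rfl
      · have a3 := congrFun h7 e
        simp only [Pi.add_apply] at a3
        simp only [Pi.sub_apply]
        omega
    · intro x _
      rfl
  · intro p hp
    rw [Finset.mem_coe, Finset.mem_product, ratio_mem_S, ratio_mem_S] at hp
    obtain ⟨⟨⟨h1, h2⟩, h3⟩, ⟨h4, h5⟩, h6⟩ := hp
    rw [Finset.mem_coe, ratioV, Finset.mem_filter, Finset.mem_Icc]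
    refine ⟨⟨add_le_add h1 h4, add_le_add h2 h5⟩, ?_⟩
    rw [map_add, h3, h6]
    abel

/-- key inequality: in a box with `M (lo + hi) = T`, if feasibility of the target `t` implies
feasibility of `t'` for all the boxes with the same `T`, then `t` has at most as many points
as `t'`. -/
theorem card_le_of_feasible (M : (E → ℤ) →+ B) (T t t' : B)
    (H : ∀ lo hi : E → ℤ, M (lo + hi) = T → (S M t lo hi).Nonempty → (S M t' lo hi).Nonempty)
    (h : M (lo + hi) = T) : (S M t lo hi).card ≤ (S M t' lo hi).card := by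
  classical
  -- the set of the admissible constants
  let P : ℝ → Prop := fun C => ∀ lo' hi' : E → ℤ, lo ≤ lo' → hi' ≤ hi → M (lo' + hi') = T →
    ((S M t lo' hi').card : ℝ) ≤ C * ((S M t' lo' hi').card : ℝ)
  let K : Set ℝ := {C | 0 ≤ C ∧ P C}
  have hne : K.Nonempty := by
    refine ⟨((Icc lo hi).card : ℝ), Nat.cast_nonneg _, fun lo' hi' h1 h2 h3 => ?_⟩
    rcases (S M t lo' hi').eq_empty_or_nonempty with h0 | h0
    · rw [h0]
      simp only [Finset.card_empty, Nat.cast_zero]
      positivity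
    · have h4 := H lo' hi' h3 h0
      have h5 : (1 : ℝ) ≤ ((S M t' lo' hi').card : ℝ) := by
        exact_mod_cast h4.card_pos
      have h6 : ((S M t lo' hi').card : ℝ) ≤ ((Icc lo hi).card : ℝ) := by
        refine Nat.cast_le.mpr (Finset.card_le_card fun z hz => ?_)
        rw [ratio_mem_S] at hz
        rw [Finset.mem_Icc]
        exact ⟨h1.trans hz.1.1, hz.1.2.trans h2⟩
      have h7 : (0 : ℝ) ≤ ((Icc lo hi).card : ℝ) := Nat.cast_nonneg _
      nlinarith
  have hbdd : BddBelow K := ⟨0, fun C hC => hC.1⟩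
  have hstep : ∀ C, 0 ≤ C → P C → P (Real.sqrt C) := by
    intro C hC hP lo' hi' h1 h2 h3
    have e1 := ratio_card_sq (lo := lo') (hi := hi') M T t h3
    have e2 := ratio_card_sq (lo := lo') (hi := hi') M T t' h3
    have e3 : ((S M t lo' hi').card : ℝ) ^ 2 ≤ C * ((S M t' lo' hi').card : ℝ) ^ 2 := by
      have e1' : ((S M t lo' hi').card : ℝ) ^ 2 =
          ∑ v ∈ ratioV M T lo' hi', ((S M t (Lo lo' hi' v) (Hi lo' hi' v)).card : ℝ) := by
        exact_mod_cast e1
      have e2' : ((S M t' lo' hi').card : ℝ) ^ 2 =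
          ∑ v ∈ ratioV M T lo' hi', ((S M t' (Lo lo' hi' v) (Hi lo' hi' v)).card : ℝ) := by
        exact_mod_cast e2
      rw [e1', e2', Finset.mul_sum]
      refine Finset.sum_le_sum fun v hv => ?_
      have hMv : M v = T := (Finset.mem_filter.mp hv).2
      refine hP _ _ (h1.trans le_sup_left) (le_trans inf_le_left h2) ?_
      have : Lo lo' hi' v + Hi lo' hi' v = v := by
        ext e
        simp only [Lo, Hi, Pi.add_apply, Pi.sup_apply, Pi.inf_apply, Pi.sub_apply]
        rcases le_total (lo' e) (v e - hi' e) with hh | hh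
        · rw [sup_eq_right.mpr hh, inf_eq_left.mpr (by omega)]
          omega
        · rw [sup_eq_left.mpr hh, inf_eq_right.mpr (by omega)]
          omega
      rw [this, hMv]
    have e4 : 0 ≤ Real.sqrt C * ((S M t' lo' hi').card : ℝ) := by positivity
    refine le_of_sq_le_sq ?_ e4
    rw [mul_pow, Real.sq_sqrt hC]
    exact e3
  have hinf : P (sInf K) := by
    intro lo' hi' h1 h2 h3
    rcases Nat.eq_zero_or_pos (S M t' lo' hi').card with h0 | h0
    · obtain ⟨C, hC⟩ := hne
      have := hC.2 lo' hi' h1 h2 h3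
      rw [h0, Nat.cast_zero, mul_zero] at this ⊢
      exact this
    · have h0' : (0 : ℝ) < ((S M t' lo' hi').card : ℝ) := by exact_mod_cast h0
      rw [← div_le_iff₀ h0']
      refine le_csInf hne fun C hC => ?_
      rw [div_le_iff₀ h0']
      exact hC.2 lo' hi' h1 h2 h3
  have hinf0 : 0 ≤ sInf K := le_csInf hne fun C hC => hC.1
  have hle : sInf K ≤ Real.sqrt (sInf K) :=
    csInf_le hbdd ⟨Real.sqrt_nonneg _, hstep _ hinf0 hinf⟩
  have hle1 : sInf K ≤ 1 := by
    have h1 : (sInf K) ^ 2 ≤ sInf K := by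
      calc (sInf K) ^ 2 ≤ (Real.sqrt (sInf K)) ^ 2 := by gcongr
        _ = sInf K := Real.sq_sqrt hinf0
    nlinarith
  have := hinf lo hi le_rfl le_rfl h
  have h2 : ((S M t lo hi).card : ℝ) ≤ ((S M t' lo hi).card : ℝ) := by
    refine this.trans ?_
    have : (0 : ℝ) ≤ ((S M t' lo hi).card : ℝ) := Nat.cast_nonneg _
    nlinarith
  exact_mod_cast h2

theorem near_card (hR : Rounding M b) (h : M (lo + hi) = b + b) (b' : B) :
    (S M b' lo hi).card ≤ (S M b lo hi).card := by
  refine card_le_of_feasible M (b + b) b' b (fun lo' hi' h1 h2 => ?_) h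
  obtain ⟨x, hx⟩ := h2
  rw [ratio_mem_S] at hx
  have hle : lo' ≤ hi' := hx.1.1.trans hx.1.2
  obtain ⟨z, hz⟩ := hR _ h1
  rw [ratio_mem_S] at hz
  refine ⟨z, ?_⟩
  rw [ratio_mem_S]
  refine ⟨⟨fun e => ?_, fun e => ?_⟩, hz.2⟩
  · have a1 : Dn (lo' + hi') e ≤ z e := hz.1.1 e
    have a2 : lo' e ≤ hi' e := hle e
    simp only [Dn, Pi.add_apply] at a1
    show lo' e ≤ z e
    omega
  · have a1 : z e ≤ Up (lo' + hi') e := hz.1.2 e
    have a2 : lo' e ≤ hi' e := hle e
    simp only [Up, Pi.add_apply] at a1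
    show z e ≤ hi' e
    omega

/-- unimodality of a cell in a symmetric instance -/
theorem unimodal (hR : Rounding M b) (h : M (lo + hi) = b + b) (c : E) (k : ℤ)
    (hk : 2 * k + 1 ≤ lo c + hi c) :
    ((S M b lo hi).filter fun x => x c = k).card ≤
      ((S M b lo hi).filter fun x => x c = k + 1).card := by
  classical
  let M' : (E → ℤ) →+ B × ℤ := M.prod (Pi.evalAddMonoidHom (fun _ : E => ℤ) c)
  have hM' : ∀ x : E → ℤ, M' x = (M x, x c) := fun x => rfl
  have hS : ∀ (lo hi : E → ℤ) (k : ℤ),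
      (S M b lo hi).filter (fun x => x c = k) = S M' (b, k) lo hi := by
    intro lo hi k
    ext x
    rw [Finset.mem_filter, ratio_mem_S, ratio_mem_S, hM', Prod.mk.injEq, and_assoc]
  rw [hS, hS]
  refine card_le_of_feasible M' (b + b, lo c + hi c) (b, k) (b, k + 1) (fun lo' hi' h1 h2 => ?_) ?_
  · rw [hM', Prod.mk.injEq] at h1
    obtain ⟨h1, h1'⟩ := h1
    obtain ⟨x, hx⟩ := h2
    rw [← hS, Finset.mem_filter, ratio_mem_S] at hx
    obtain ⟨⟨⟨x1, x2⟩, x3⟩, x4⟩ := hx
    -- the points of the box with a larger entry in the cell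
    let W : Finset (E → ℤ) := (S M b lo' hi').filter fun w => k + 1 ≤ w c
    have hW : W.Nonempty := by
      refine ⟨lo' + hi' - x, ?_⟩
      rw [Finset.mem_filter, ratio_mem_S]
      refine ⟨⟨⟨fun e => ?_, fun e => ?_⟩, ?_⟩, ?_⟩
      · have : x e ≤ hi' e := x2 e
        simp only [Pi.sub_apply, Pi.add_apply]
        omega
      · have : lo' e ≤ x e := x1 e
        simp only [Pi.sub_apply, Pi.add_apply]
        omega
      · rw [map_sub, h1, x3]
        abel
      · simp only [Pi.add_apply] at h1'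
        simp only [Pi.sub_apply, Pi.add_apply]
        omega
    obtain ⟨w, hw, hmin⟩ := Finset.exists_min_image W (fun w => w c) hW
    rw [Finset.mem_filter, ratio_mem_S] at hw
    obtain ⟨⟨⟨w1, w2⟩, w3⟩, w4⟩ := hw
    by_cases hcase : w c = k + 1
    · refine ⟨w, ?_⟩
      rw [← hS, Finset.mem_filter, ratio_mem_S]
      exact ⟨⟨⟨w1, w2⟩, w3⟩, hcase⟩
    · exfalso
      obtain ⟨z, hz⟩ := hR (x + w) (by rw [map_add, x3, w3])
      rw [ratio_mem_S] at hz
      obtain ⟨⟨z1, z2⟩, z3⟩ := hz
      have zc1 := z1 c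
      have zc2 := z2 c
      simp only [Dn, Up, Pi.add_apply] at zc1 zc2
      have hzW : z ∈ W := by
        rw [Finset.mem_filter, ratio_mem_S]
        refine ⟨⟨⟨fun e => ?_, fun e => ?_⟩, z3⟩, ?_⟩
        · have a1 : Dn (x + w) e ≤ z e := z1 e
          have a2 : lo' e ≤ x e := x1 e
          have a3 : lo' e ≤ w e := w1 e
          simp only [Dn, Pi.add_apply] at a1
          show lo' e ≤ z e
          omega
        · have a1 : z e ≤ Up (x + w) e := z2 e
          have a2 : x e ≤ hi' e := x2 e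
          have a3 : w e ≤ hi' e := w2 e
          simp only [Up, Pi.add_apply] at a1
          show z e ≤ hi' e
          omega
        · omega
      have := hmin z hzW
      omega
  · rw [hM', h, Pi.add_apply]

end Ratio

end P328
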