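import Vale.Agent.P328.Basic
import Vale.Agent.P328.Moment
import Vale.Agent.P328.Ratio

/-!
# P328, module E : the quartic cell potential contracts by `2 / 3`
-/

namespace P328

open Finset

variable {E : Type*} [Fintype E] [DecidableEq E] {B : Type*} [AddCommGroup B] [DecidableEq B]
  {M : (E → ℤ) →+ B} {b : B} {lo hi : E → ℤ}

/-- the main inequality in the sub-box of `u` -/
theorem cell_step (hR : Rounding M b) (c : E) {u : E → ℤ} (hu : u ∈ U M b lo hi) :
    2 * T0 M b (gc c) (Lo lo hi u) (Hi lo hi u) ≤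
      2 / 3 * ∑ x ∈ S M b (Lo lo hi u) (Hi lo hi u), gc c x (u - x) := by
  have hM := M_of_mem_U hu
  have hMs : M (Lo lo hi u + Hi lo hi u) = b + b := by rw [Lo_add_Hi, hM]
  set s := S M b (Lo lo hi u) (Hi lo hi u) with hs
  set D : (E → ℤ) → ℤ := fun x => 2 * x c - u c with hD
  have hrefl : ∀ x ∈ s, u - x ∈ s := fun x hx => (mem_sub hM).mpr (by
    have h5 := (mem_sub hM).mp hx
    exact ⟨h5.2, by rw [sub_sub_cancel]; exact h5.1⟩)
  have hDr : ∀ x, D (u - x) = -D x := fun x => by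
    simp only [hD, Pi.sub_apply]
    ring
  have hsymm : ∀ k : ℤ, (s.filter fun x => D x = k).card = (s.filter fun x => D x = -k).card := by
    intro k
    refine Finset.card_bij' (fun x _ => u - x) (fun x _ => u - x) ?_ ?_ ?_ ?_
    · intro x hx
      obtain ⟨h1, h2⟩ := Finset.mem_filter.mp hx
      exact Finset.mem_filter.mpr ⟨hrefl x h1, by rw [hDr, h2]⟩
    · intro x hx
      obtain ⟨h1, h2⟩ := Finset.mem_filter.mp hx
      exact Finset.mem_filter.mpr ⟨hrefl x h1, by rw [hDr, h2, neg_neg]⟩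
    · intro x _
      exact sub_sub_cancel u x
    · intro x _
      exact sub_sub_cancel u x
  have huni : ∀ k : ℤ, 0 ≤ k →
      (s.filter fun x => D x = k + 2).card ≤ (s.filter fun x => D x = k).card := by
    intro k hk
    rw [hsymm (k + 2), hsymm k]
    rcases Int.even_or_odd' (u c - k) with ⟨j, hj | hj⟩
    · have h1 := unimodal hR hMs c (j - 1) (by
        have h2 : Lo lo hi u c + Hi lo hi u c = u c := by
          rw [← Pi.add_apply, Lo_add_Hi]
        omega)
      have h2 : (s.filter fun x => D x = -(k + 2)) = s.filter fun x => x c = j - 1 := by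
        refine Finset.filter_congr fun x _ => ?_
        simp only [hD]
        omega
      have h3 : (s.filter fun x => D x = -k) = s.filter fun x => x c = j - 1 + 1 := by
        refine Finset.filter_congr fun x _ => ?_
        simp only [hD]
        omega
      rw [h2, h3]
      exact h1
    · have h2 : (s.filter fun x => D x = -(k + 2)) = ∅ := by
        refine Finset.filter_false_of_mem fun x _ => ?_
        simp only [hD]
        omega
      rw [h2]
      simp
  have hmom := moment s D hsymm huni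
  -- odd moments vanish
  have hodd : ∀ F : ℤ → ℝ, (∀ k, F (-k) = -F k) → ∑ x ∈ s, F (D x) = 0 := by
    intro F hF
    have h1 : ∑ x ∈ s, F (D x) = ∑ x ∈ s, F (D (u - x)) :=
      Finset.sum_bij' (fun x _ => u - x) (fun x _ => u - x) hrefl hrefl
        (fun x _ => sub_sub_cancel u x) (fun x _ => sub_sub_cancel u x) (fun x _ => by
          rw [sub_sub_cancel])
    have h2 : ∑ x ∈ s, F (D (u - x)) = -∑ x ∈ s, F (D x) := by
      rw [← Finset.sum_neg_distrib]
      exact Finset.sum_congr rfl fun x _ => by rw [hDr, hF]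
    linarith
  set m2 : ℝ := ∑ x ∈ s, (D x : ℝ) ^ 2 with hm2
  set m4 : ℝ := ∑ x ∈ s, (D x : ℝ) ^ 4 with hm4
  have hm1 : ∑ x ∈ s, (D x : ℝ) = 0 := hodd (fun k => (k : ℝ)) fun k => by push_cast; ring
  have hm3 : ∑ x ∈ s, (D x : ℝ) ^ 3 = 0 := hodd (fun k => (k : ℝ) ^ 3) fun k => by
    push_cast
    ring
  have hmomR : 9 * m2 ^ 2 ≤ s.card * (5 * m4 + 4 * m2) := by
    have h1 : ((9 * (∑ x ∈ s, D x ^ 2) ^ 2 : ℤ) : ℝ) ≤
        ((s.card * (5 * ∑ x ∈ s, D x ^ 4 + 4 * ∑ x ∈ s, D x ^ 2) : ℤ) : ℝ) := by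
      exact_mod_cast hmom
    push_cast at h1
    exact h1
  have hr : ∑ x ∈ s, gc c x (u - x) = m4 - m2 := by
    rw [hm4, hm2, ← Finset.sum_sub_distrib]
    refine Finset.sum_congr rfl fun x _ => ?_
    unfold gc
    have h1 : x c - (u - x) c = D x := by
      simp only [hD, Pi.sub_apply]
      ring
    rw [h1]
    ring
  have hl : ∑ x ∈ s, ∑ y ∈ s, gc c x y = s.card * m4 / 8 + 3 * m2 ^ 2 / 8 - s.card * m2 / 2 := by
    have h1 : ∀ x ∈ s, ∑ y ∈ s, gc c x y = (s.card * (D x : ℝ) ^ 4 + 6 * (D x : ℝ) ^ 2 * m2 + m4)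
        / 16 - (s.card * (D x : ℝ) ^ 2 + m2) / 4 := by
      intro x _
      have h2 : ∀ y ∈ s, gc c x y = ((D x : ℝ) ^ 4 + (6 * (D x : ℝ) ^ 2) * (D y : ℝ) ^ 2 +
          (D y : ℝ) ^ 4 - (4 * (D x : ℝ) ^ 3) * (D y : ℝ) - (4 * (D x : ℝ)) * (D y : ℝ) ^ 3) / 16
          - ((D x : ℝ) ^ 2 + (D y : ℝ) ^ 2 - (2 * (D x : ℝ)) * (D y : ℝ)) / 4 := by
        intro y _
        unfold gc
        have h3 : ((x c - y c : ℤ) : ℝ) = ((D x : ℝ) - (D y : ℝ)) / 2 := by
          simp only [hD]
          push_cast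
          ring
        rw [h3]
        ring
      rw [Finset.sum_congr rfl h2, Finset.sum_sub_distrib, ← Finset.sum_div, ← Finset.sum_div]
      simp only [Finset.sum_sub_distrib, Finset.sum_add_distrib, Finset.sum_const, nsmul_eq_mul,
        ← Finset.mul_sum, hm1, hm3, ← hm2, ← hm4]
      ring
    rw [Finset.sum_congr rfl h1, Finset.sum_sub_distrib, ← Finset.sum_div, ← Finset.sum_div]
    simp only [Finset.sum_add_distrib, Finset.sum_const, nsmul_eq_mul, ← Finset.mul_sum,
      ← Finset.sum_mul, ← hm2, ← hm4]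
    ring
  rcases Nat.eq_zero_or_pos s.card with h0 | h0
  · have h1 : s = ∅ := Finset.card_eq_zero.mp h0
    unfold T0
    rw [← hs, h1]
    simp
  have hc : (0 : ℝ) < s.card := by exact_mod_cast h0
  unfold T0
  rw [← hs, hl, hr, mul_div_assoc', div_le_iff₀ hc]
  nlinarith

theorem halve_cell (hR : Rounding M b) (c : E) :
    halve M b (T0 M b (gc c)) lo hi ≤ 2 / 3 * T0 M b (gc c) lo hi := by
  have h1 : T0 M b (gc c) lo hi =
      (∑ u ∈ U M b lo hi, ∑ x ∈ S M b (Lo lo hi u) (Hi lo hi u), gc c x (u - x)) /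
        (S M b lo hi).card := by
    unfold T0
    rw [sum_fiber (fun u x => gc c x (u - x))]
    simp only [add_sub_cancel_left]
  have h2 : ∑ u ∈ U M b lo hi, 2 * T0 M b (gc c) (Lo lo hi u) (Hi lo hi u) ≤
      ∑ u ∈ U M b lo hi, 2 / 3 * ∑ x ∈ S M b (Lo lo hi u) (Hi lo hi u), gc c x (u - x) :=
    Finset.sum_le_sum fun u hu => cell_step hR c hu
  rw [← Finset.mul_sum, ← Finset.mul_sum] at h2
  rw [h1]
  unfold halve
  have hc : (0 : ℝ) ≤ (S M b lo hi).card := Nat.cast_nonneg _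
  generalize (∑ u ∈ U M b lo hi, T0 M b (gc c) (Lo lo hi u) (Hi lo hi u)) = A at h2
  generalize (∑ u ∈ U M b lo hi, ∑ x ∈ S M b (Lo lo hi u) (Hi lo hi u), gc c x (u - x)) = A'
    at h2
  generalize ((S M b lo hi).card : ℝ) = k at hc
  have h3 := div_le_div_of_nonneg_right h2 hc
  calc 2 / k * A = 2 * A / k := by ring
    _ ≤ 2 / 3 * A' / k := h3
    _ = _ := by ring

theorem T_cell (hR : Rounding M b) (c : E) (L : ℕ) :
    T M b (gc c) L lo hi ≤ (2 / 3) ^ L * T0 M b (gc c) lo hi := by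
  induction L generalizing lo hi with
  | zero => simp [T_zero]
  | succ L ih =>
    rw [T_succ]
    have ha : (0 : ℝ) ≤ (2 / 3) ^ L := by positivity
    have ih' : ∀ lo hi : E → ℤ, T M b (gc c) L lo hi ≤ (2 / 3) ^ L * T0 M b (gc c) lo hi :=
      fun _ _ => ih
    rw [pow_succ]
    generalize (2 / 3 : ℝ) ^ L = a at ha ih'
    have h1 : halve M b (T M b (gc c) L) lo hi ≤
        halve M b (fun lo hi => a * T0 M b (gc c) lo hi) lo hi :=
      halve_mono fun u _ => ih' _ _
    rw [halve_mul] at h1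
    have h2 := halve_cell (lo := lo) (hi := hi) hR c
    have h3 := mul_le_mul_of_nonneg_left h2 ha
    refine h1.trans (h3.trans (le_of_eq ?_))
    ring

end P328
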