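import Vale.Agent.P328.Basic

/-!
# P328 : phase 2, boxes of width at most one (module G)
-/

namespace P328

open Finset

section Phase2

variable {E : Type*} [Fintype E] [DecidableEq E] {B : Type*} [AddCommGroup B] [DecidableEq B]

/-- number of points of the box of `u` whose cells `e`, `e'` have the same relative parity -/
noncomputable def c0 (M : (E → ℤ) →+ B) (b : B) (e e' : E) (u : E → ℤ) : ℕ :=
  ((S M b (Dn u) (Up u)).filter fun x => x e - Dn u e = x e' - Dn u e').card

/-- number of points of the box of `u` whose cells `e`, `e'` have different relative parity -/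
noncomputable def c1 (M : (E → ℤ) →+ B) (b : B) (e e' : E) (u : E → ℤ) : ℕ :=
  ((S M b (Dn u) (Up u)).filter fun x => ¬ x e - Dn u e = x e' - Dn u e').card

/-- size of the minority class -/
noncomputable def mq (M : (E → ℤ) →+ B) (b : B) (e e' : E) (u : E → ℤ) : ℕ :=
  if Odd (u e) ∧ Odd (u e') then min (c0 M b e e' u) (c1 M b e e' u) else 0

/-- the potential of the pair of cells `e`, `e'` -/
noncomputable def kq (M : (E → ℤ) →+ B) (b : B) (e e' : E) (x y : E → ℤ) : ℝ :=
  (mq M b e e' (x + y) : ℝ) / (S M b (Dn (x + y)) (Up (x + y))).card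

variable {M : (E → ℤ) →+ B} {b : B}

theorem c0_add_c1 (e e' : E) (u : E → ℤ) :
    c0 M b e e' u + c1 M b e e' u = (S M b (Dn u) (Up u)).card :=
  Finset.card_filter_add_card_filter_not _

theorem two_mq_le (e e' : E) (u : E → ℤ) :
    2 * mq M b e e' u ≤ (S M b (Dn u) (Up u)).card := by
  have h := c0_add_c1 (M := M) (b := b) e e' u
  unfold mq
  split_ifs
  · have h1 := min_le_left (c0 M b e e' u) (c1 M b e e' u)
    have h2 := min_le_right (c0 M b e e' u) (c1 M b e e' u)
    omega
  · omega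

theorem kq_le_half (e e' : E) (x y : E → ℤ) : kq M b e e' x y ≤ 1 / 2 := by
  unfold kq
  have h := two_mq_le (M := M) (b := b) e e' (x + y)
  have h' : 2 * (mq M b e e' (x + y) : ℝ) ≤ (S M b (Dn (x + y)) (Up (x + y))).card := by
    exact_mod_cast h
  rcases (Nat.eq_zero_or_pos (S M b (Dn (x + y)) (Up (x + y))).card) with h0 | h0
  · rw [h0]; norm_num
  · have h1 : (0 : ℝ) < (S M b (Dn (x + y)) (Up (x + y))).card := by exact_mod_cast h0
    rw [div_le_iff₀ h1]
    linarith

theorem kq_nonneg (e e' : E) (x y : E → ℤ) : 0 ≤ kq M b e e' x y := by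
  unfold kq; positivity

/-- coordinates of the points of the box of `u` -/
theorem coord {u x : E → ℤ} (hx : x ∈ S M b (Dn u) (Up u)) (e : E) :
    x e = u e / 2 ∨ (x e = u e / 2 + 1 ∧ Odd (u e)) := by
  have h := (mem_S.1 hx).1
  have h1 : u e / 2 ≤ x e := h.1 e
  have h2 : x e ≤ (u e + 1) / 2 := h.2 e
  rcases Int.even_or_odd (u e) with h3 | h3
  · left
    obtain ⟨k, hk⟩ := h3
    omega
  · obtain ⟨k, hk⟩ := id h3
    by_cases h4 : x e = u e / 2
    · left; exact h4
    · right; exact ⟨by omega, h3⟩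

theorem T0_kq (e e' : E) (v : E → ℤ) :
    T0 M b (kq M b e e') (Dn v) (Up v) =
      (∑ u ∈ U M b (Dn v) (Up v), (mq M b e e' u : ℝ)) / (S M b (Dn v) (Up v)).card := by
  unfold T0
  congr 1
  have h := sum_fiber (M := M) (b := b) (lo := Dn v) (hi := Up v)
    (fun u _ => (mq M b e e' u : ℝ) / (S M b (Dn u) (Up u)).card)
  refine Eq.trans h.symm ?_
  apply Finset.sum_congr rfl
  intro u hu
  obtain ⟨h1, h2⟩ := Lo_Hi_of_width hu
  rw [h1, h2, Finset.sum_const, nsmul_eq_mul]
  rcases (Nat.eq_zero_or_pos (S M b (Dn u) (Up u)).card) with h0 | h0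
  · have := two_mq_le (M := M) (b := b) e e' u
    have h3 : mq M b e e' u = 0 := by omega
    rw [h0, h3]; simp
  · have h1 : ((S M b (Dn u) (Up u)).card : ℝ) ≠ 0 := by
      have : (0 : ℝ) < (S M b (Dn u) (Up u)).card := by exact_mod_cast h0
      exact this.ne'
    field_simp

omit [Fintype E] [DecidableEq E] in
/-- at most half of the ordered pairs of a set are separated by a cell with two values -/
theorem sep_le (C : Finset (E → ℤ)) (e : E) (a : ℤ) (P : (E → ℤ) → (E → ℤ) → ℝ)
    (hP : ∀ x ∈ C, ∀ y ∈ C, P x y ≤ (1 - (if x e = a then 1 else -1) *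
      (if y e = a then 1 else -1)) / 2) :
    ∑ x ∈ C, ∑ y ∈ C, P x y ≤ (C.card : ℝ) ^ 2 / 2 := by
  have h1 : ∑ x ∈ C, ∑ y ∈ C, P x y ≤ ∑ x ∈ C, ∑ y ∈ C,
      ((1 - (if x e = a then (1 : ℝ) else -1) * (if y e = a then 1 else -1)) / 2) :=
    Finset.sum_le_sum fun x hx => Finset.sum_le_sum fun y hy => hP x hx y hy
  refine h1.trans ?_
  have h2 : ∑ x ∈ C, ∑ y ∈ C,
      ((1 - (if x e = a then (1 : ℝ) else -1) * (if y e = a then 1 else -1)) / 2) =
      ((C.card : ℝ) ^ 2 - (∑ x ∈ C, if x e = a then (1 : ℝ) else -1) ^ 2) / 2 := by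
    rw [sq (∑ x ∈ C, if x e = a then (1 : ℝ) else -1), Finset.sum_mul_sum]
    simp only [sub_div, Finset.sum_sub_distrib, Finset.sum_const, nsmul_eq_mul,
      ← Finset.sum_div]
    ring
  rw [h2]
  have := sq_nonneg (∑ x ∈ C, if x e = a then (1 : ℝ) else -1)
  linarith

/-- the coordinate of a sum of two points -/
theorem odd_add_iff {u x y : E → ℤ} (hx : x ∈ S M b (Dn u) (Up u))
    (hy : y ∈ S M b (Dn u) (Up u)) (e : E) :
    Odd ((x + y) e) ↔ x e ≠ y e := by
  have hs : (x + y) e = x e + y e := rfl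
  rw [hs]
  rcases coord hx e with h1 | ⟨h1, _⟩ <;> rcases coord hy e with h2 | ⟨h2, _⟩
  · rw [h1, h2]
    constructor
    · rintro ⟨k, hk⟩; omega
    · intro h; exact absurd rfl h
  · rw [h1, h2]
    constructor
    · intro _ h; omega
    · intro _; exact ⟨u e / 2, by ring⟩
  · rw [h1, h2]
    constructor
    · intro _ h; omega
    · intro _; exact ⟨u e / 2, by ring⟩
  · rw [h1, h2]
    constructor
    · rintro ⟨k, hk⟩; omega
    · intro h; exact absurd rfl h

/-- the relative parity of a point in the box of `x + y` and in the box of `u` agree on the cells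
separated by `x` and `y` -/
theorem rel_eq {u x y : E → ℤ} (hx : x ∈ S M b (Dn u) (Up u))
    (hy : y ∈ S M b (Dn u) (Up u)) {e : E} (he : x e ≠ y e) :
    x e - Dn (x + y) e = x e - Dn u e ∧ y e - Dn u e = 1 - (x e - Dn u e) := by
  have hs : Dn (x + y) e = (x e + y e) / 2 := rfl
  have hd : Dn u e = u e / 2 := rfl
  rw [hs, hd]
  rcases coord hx e with h1 | ⟨h1, _⟩ <;> rcases coord hy e with h2 | ⟨h2, _⟩ <;>
    constructor <;> omega

theorem sum_mq_le (e e' : E) (u : E → ℤ) :
    ∑ w ∈ U M b (Dn u) (Up u), (mq M b e e' w : ℝ) ≤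
      (mq M b e e' u : ℝ) * (S M b (Dn u) (Up u)).card / 4 := by
  classical
  -- the two upper bounds
  have key : ∀ (R : ℤ → ℤ → Prop) [DecidableRel R] (_ : ∀ s t, R s t → R (1 - s) (1 - t)),
      ∑ w ∈ U M b (Dn u) (Up u), (if Odd (w e) ∧ Odd (w e') then
        (((S M b (Dn w) (Up w)).filter fun x => R (x e - Dn w e) (x e' - Dn w e')).card : ℝ)
        else 0) ≤
      (((S M b (Dn u) (Up u)).filter fun x =>
        R (x e - Dn u e) (x e' - Dn u e')).card : ℝ) ^ 2 / 2 := by
    intro R _ hR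
    have h := sum_fiber (M := M) (b := b) (lo := Dn u) (hi := Up u)
      (fun w x => if Odd (w e) ∧ Odd (w e') ∧ R (x e - Dn w e) (x e' - Dn w e') then (1 : ℝ)
        else 0)
    have h1 : ∑ w ∈ U M b (Dn u) (Up u), (if Odd (w e) ∧ Odd (w e') then
        (((S M b (Dn w) (Up w)).filter fun x => R (x e - Dn w e) (x e' - Dn w e')).card : ℝ)
        else 0) = ∑ w ∈ U M b (Dn u) (Up u),
        ∑ x ∈ S M b (Lo (Dn u) (Up u) w) (Hi (Dn u) (Up u) w),
        if Odd (w e) ∧ Odd (w e') ∧ R (x e - Dn w e) (x e' - Dn w e') then (1 : ℝ) else 0 := by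
      apply Finset.sum_congr rfl
      intro w hw
      obtain ⟨g1, g2⟩ := Lo_Hi_of_width hw
      rw [g1, g2]
      by_cases ho : Odd (w e) ∧ Odd (w e')
      · rw [if_pos ho, Finset.card_filter, Nat.cast_sum]
        apply Finset.sum_congr rfl
        intro x _
        by_cases hr : R (x e - Dn w e) (x e' - Dn w e')
        · simp [hr, ho.1, ho.2]
        · simp [hr]
      · rw [if_neg ho]
        symm
        apply Finset.sum_eq_zero
        intro x _
        rw [if_neg (fun hh => ho ⟨hh.1, hh.2.1⟩)]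
    rw [h1, h]
    set C := (S M b (Dn u) (Up u)).filter fun x => R (x e - Dn u e) (x e' - Dn u e') with hC
    have h2 : ∑ x ∈ S M b (Dn u) (Up u), ∑ y ∈ S M b (Dn u) (Up u),
        (if Odd ((x + y) e) ∧ Odd ((x + y) e') ∧
          R (x e - Dn (x + y) e) (x e' - Dn (x + y) e') then (1 : ℝ) else 0) =
        ∑ x ∈ C, ∑ y ∈ C, (if x e ≠ y e ∧ x e' ≠ y e' then (1 : ℝ) else 0) := by
      rw [hC, Finset.sum_filter]
      apply Finset.sum_congr rfl
      intro x hx
      by_cases hr : R (x e - Dn u e) (x e' - Dn u e')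
      · rw [if_pos hr, Finset.sum_filter]
        apply Finset.sum_congr rfl
        intro y hy
        have o1 := odd_add_iff hx hy e
        have o2 := odd_add_iff hx hy e'
        by_cases hn : x e ≠ y e ∧ x e' ≠ y e'
        · obtain ⟨a1, a2⟩ := rel_eq hx hy hn.1
          obtain ⟨a3, a4⟩ := rel_eq hx hy hn.2
          rw [if_pos hn, if_pos, if_pos]
          · rw [a2, a4]; exact hR _ _ hr
          · rw [a1, a3]; exact ⟨o1.2 hn.1, o2.2 hn.2, hr⟩
        · rw [if_neg hn, if_neg (fun hh => hn ⟨o1.1 hh.1, o2.1 hh.2.1⟩)]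
          split_ifs <;> rfl
      · rw [if_neg hr]
        apply Finset.sum_eq_zero
        intro y hy
        rw [if_neg]
        rintro ⟨b1, b2, b3⟩
        rw [(rel_eq hx hy ((odd_add_iff hx hy e).1 b1)).1,
          (rel_eq hx hy ((odd_add_iff hx hy e').1 b2)).1] at b3
        exact hr b3
    rw [h2]
    apply sep_le C e (u e / 2)
    intro x hx y hy
    have hx' := (Finset.mem_filter.1 hx).1
    have hy' := (Finset.mem_filter.1 hy).1
    by_cases hn : x e ≠ y e ∧ x e' ≠ y e'
    · rw [if_pos hn]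
      rcases coord hx' e with h1 | ⟨h1, _⟩ <;> rcases coord hy' e with h2 | ⟨h2, _⟩
      · exact absurd (h1.trans h2.symm) hn.1
      · rw [if_pos h1, if_neg (by omega)]; norm_num
      · rw [if_neg (by omega), if_pos h2]; norm_num
      · exact absurd (h1.trans h2.symm) hn.1
    · rw [if_neg hn]
      split_ifs <;> norm_num
  have k0 := key (fun s t => s = t) (fun s t h => by rw [h])
  have k1 := key (fun s t => ¬ s = t) (fun s t h h' => h (by omega))
  have le0 : ∑ w ∈ U M b (Dn u) (Up u), (mq M b e e' w : ℝ) ≤ (c0 M b e e' u : ℝ) ^ 2 / 2 := by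
    refine le_trans (Finset.sum_le_sum fun w _ => ?_) k0
    unfold mq c0
    split_ifs
    · exact_mod_cast min_le_left _ _
    · simp
  have le1 : ∑ w ∈ U M b (Dn u) (Up u), (mq M b e e' w : ℝ) ≤ (c1 M b e e' u : ℝ) ^ 2 / 2 := by
    refine le_trans (Finset.sum_le_sum fun w _ => ?_) k1
    unfold mq c1
    split_ifs
    · exact_mod_cast min_le_right _ _
    · simp
  by_cases ho : Odd (u e) ∧ Odd (u e')
  · have hm : mq M b e e' u = min (c0 M b e e' u) (c1 M b e e' u) := if_pos ho
    have h2 := two_mq_le (M := M) (b := b) e e' u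
    have h2' : 2 * (mq M b e e' u : ℝ) ≤ (S M b (Dn u) (Up u)).card := by exact_mod_cast h2
    have h3 : ∑ w ∈ U M b (Dn u) (Up u), (mq M b e e' w : ℝ) ≤ (mq M b e e' u : ℝ) ^ 2 / 2 := by
      rw [hm]
      rcases min_choice (c0 M b e e' u) (c1 M b e e' u) with h | h
      · rw [h]; exact le0
      · rw [h]; exact le1
    refine h3.trans ?_
    have h4 : (0 : ℝ) ≤ mq M b e e' u := Nat.cast_nonneg _
    nlinarith
  · have hz : ∑ w ∈ U M b (Dn u) (Up u), (mq M b e e' w : ℝ) = 0 := by
      apply Finset.sum_eq_zero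
      intro w hw
      have hw' : mq M b e e' w = 0 := by
        unfold mq
        rw [if_neg]
        rintro ⟨o1, o2⟩
        apply ho
        unfold U at hw
        obtain ⟨⟨x, y⟩, hp, rfl⟩ := Finset.mem_image.1 hw
        rw [Finset.mem_product] at hp
        have e1 := (odd_add_iff hp.1 hp.2 e).1 o1
        have e2 := (odd_add_iff hp.1 hp.2 e').1 o2
        constructor
        · rcases coord hp.1 e with h1 | ⟨h1, h1'⟩
          · rcases coord hp.2 e with h2 | ⟨h2, h2'⟩
            · exact absurd (h1.trans h2.symm) e1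
            · exact h2'
          · exact h1'
        · rcases coord hp.1 e' with h1 | ⟨h1, h1'⟩
          · rcases coord hp.2 e' with h2 | ⟨h2, h2'⟩
            · exact absurd (h1.trans h2.symm) e2
            · exact h2'
          · exact h1'
      rw [hw']; simp
    rw [hz]; positivity

theorem halve_kq (e e' : E) (v : E → ℤ) :
    halve M b (T0 M b (kq M b e e')) (Dn v) (Up v) ≤
      1 / 2 * T0 M b (kq M b e e') (Dn v) (Up v) := by
  have h1 : ∑ u ∈ U M b (Dn v) (Up v),
      T0 M b (kq M b e e') (Lo (Dn v) (Up v) u) (Hi (Dn v) (Up v) u) ≤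
      ∑ u ∈ U M b (Dn v) (Up v), (mq M b e e' u : ℝ) / 4 := by
    apply Finset.sum_le_sum
    intro u hu
    obtain ⟨g1, g2⟩ := Lo_Hi_of_width hu
    rw [g1, g2, T0_kq]
    rcases (Nat.eq_zero_or_pos (S M b (Dn u) (Up u)).card) with h0 | h0
    · rw [h0]; simp; positivity
    · have h1 : (0 : ℝ) < (S M b (Dn u) (Up u)).card := by exact_mod_cast h0
      rw [div_le_iff₀ h1]
      have := sum_mq_le (M := M) (b := b) e e' u
      linarith
  unfold halve
  rw [T0_kq]
  calc 2 / ((S M b (Dn v) (Up v)).card : ℝ) * ∑ u ∈ U M b (Dn v) (Up v),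
        T0 M b (kq M b e e') (Lo (Dn v) (Up v) u) (Hi (Dn v) (Up v) u)
      ≤ 2 / ((S M b (Dn v) (Up v)).card : ℝ) *
        ∑ u ∈ U M b (Dn v) (Up v), (mq M b e e' u : ℝ) / 4 :=
        mul_le_mul_of_nonneg_left h1 (by positivity)
    _ = 1 / 2 * ((∑ u ∈ U M b (Dn v) (Up v), (mq M b e e' u : ℝ)) /
        (S M b (Dn v) (Up v)).card) := by
        rw [← Finset.sum_div]; ring

theorem T_kq (e e' : E) (L : ℕ) {v : E → ℤ} (hv : M v = b + b) :
    T M b (kq M b e e') L (Dn v) (Up v) ≤
      (1 / 2) ^ L * T0 M b (kq M b e e') (Dn v) (Up v) := by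
  induction L with
  | zero => rw [T_zero]; simp
  | succ L ih =>
    have h1 : T M b (kq M b e e') (L + 1) (Dn v) (Up v) =
        (halve M b)^[L] (halve M b (T0 M b (kq M b e e'))) (Dn v) (Up v) := by
      unfold T
      rw [Function.iterate_succ_apply]
    rw [h1]
    have h2 := iter_mono (M := M) (b := b) (lo := Dn v) (hi := Up v)
      (Inv := fun lo hi => ∃ w : E → ℤ, M w = b + b ∧ lo = Dn w ∧ hi = Up w)
      (by
        rintro lo hi ⟨w, hw, rfl, rfl⟩ u hu
        obtain ⟨g1, g2⟩ := Lo_Hi_of_width hu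
        exact ⟨u, M_of_mem_U hu, g1, g2⟩)
      (F := halve M b (T0 M b (kq M b e e')))
      (G := fun lo hi => 1 / 2 * T0 M b (kq M b e e') lo hi)
      (by
        rintro lo hi ⟨w, hw, rfl, rfl⟩
        exact halve_kq e e' w) L ⟨v, hv, rfl, rfl⟩
    refine h2.trans ?_
    rw [iter_mul, pow_succ]
    have h3 : (halve M b)^[L] (T0 M b (kq M b e e')) (Dn v) (Up v) =
      T M b (kq M b e e') L (Dn v) (Up v) := rfl
    rw [h3]
    calc 1 / 2 * T M b (kq M b e e') L (Dn v) (Up v)
        ≤ 1 / 2 * ((1 / 2) ^ L * T0 M b (kq M b e e') (Dn v) (Up v)) :=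
          mul_le_mul_of_nonneg_left ih (by norm_num)
      _ = _ := by ring

theorem T0_kq_le (e e' : E) (lo hi : E → ℤ) :
    T0 M b (kq M b e e') lo hi ≤ (S M b lo hi).card / 2 := by
  unfold T0
  rcases (Nat.eq_zero_or_pos (S M b lo hi).card) with h0 | h0
  · rw [h0]; simp
  · have h1 : (0 : ℝ) < (S M b lo hi).card := by exact_mod_cast h0
    rw [div_le_iff₀ h1]
    calc ∑ x ∈ S M b lo hi, ∑ y ∈ S M b lo hi, kq M b e e' x y
        ≤ ∑ x ∈ S M b lo hi, ∑ y ∈ S M b lo hi, (1 / 2 : ℝ) :=
          Finset.sum_le_sum fun x _ => Finset.sum_le_sum fun y _ => kq_le_half e e' x y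
      _ = _ := by
          simp only [Finset.sum_const, nsmul_eq_mul]
          ring

/-- in a box with at least three points some pair of cells has a large minority class -/
theorem bad_le {w : E → ℤ} (hw : M w = b + b) (h3 : 3 ≤ (S M b (Dn w) (Up w)).card) :
    ((S M b (Dn w) (Up w)).card : ℝ) ≤ 2 * ∑ e : E, ∑ e' : E, (mq M b e e' w : ℝ) := by
  classical
  set X := S M b (Dn w) (Up w) with hX
  -- a free cell
  obtain ⟨x1, hx1, x2, hx2, hne⟩ := Finset.one_lt_card.1 (show 1 < X.card by omega)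
  obtain ⟨e0, he0⟩ : ∃ e, x1 e ≠ x2 e := by
    by_contra hcon
    push Not at hcon
    exact hne (funext hcon)
  have hodd : Odd (w e0) := by
    rcases coord hx1 e0 with h1 | ⟨_, h1⟩
    · rcases coord hx2 e0 with h2 | ⟨_, h2⟩
      · exact absurd (h1.trans h2.symm) he0
      · exact h2
    · exact h1
  set Fr := Finset.univ.filter fun e : E => Odd (w e) with hFr
  -- majority
  let maj : E → Prop := fun e => c1 M b e0 e w ≤ c0 M b e0 e w
  let dis : (E → ℤ) → E → Prop := fun x e =>
    ¬ ((x e0 - Dn w e0 = x e - Dn w e) ↔ maj e)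
  have hmq : ∀ e ∈ Fr, mq M b e0 e w = (X.filter fun x => dis x e).card := by
    intro e he
    have he' : Odd (w e) := (Finset.mem_filter.1 he).2
    have h0 : mq M b e0 e w = min (c0 M b e0 e w) (c1 M b e0 e w) := if_pos ⟨hodd, he'⟩
    rw [h0]
    by_cases hm : maj e
    · rw [min_eq_right hm]
      unfold c1
      congr 1
      apply Finset.filter_congr
      intro x _
      simp only [dis, hm, iff_true]
    · have hm' : c0 M b e0 e w ≤ c1 M b e0 e w := by
        have : ¬ c1 M b e0 e w ≤ c0 M b e0 e w := hm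
        omega
      rw [min_eq_left hm']
      unfold c0
      congr 1
      apply Finset.filter_congr
      intro x _
      simp only [dis, hm, iff_false, not_not]
  -- the points with the majority pattern
  set P := X.filter fun x => ∀ e ∈ Fr, ¬ dis x e with hP
  set Q := X.filter fun x => ¬ ∀ e ∈ Fr, ¬ dis x e with hQ
  have hPQ : P.card + Q.card = X.card := Finset.card_filter_add_card_filter_not _
  have hP2 : P.card ≤ 2 := by
    have hinj : Set.InjOn (fun x : E → ℤ => x e0 - Dn w e0) (P : Set (E → ℤ)) := by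
      intro x hx y hy hxy
      have hx' := Finset.mem_filter.1 (Finset.mem_coe.1 hx)
      have hy' := Finset.mem_filter.1 (Finset.mem_coe.1 hy)
      have hxy' : x e0 - Dn w e0 = y e0 - Dn w e0 := hxy
      funext e
      have hd : Dn w e = w e / 2 := rfl
      by_cases he : Odd (w e)
      · have heF : e ∈ Fr := Finset.mem_filter.2 ⟨Finset.mem_univ _, he⟩
        have a1 := hx'.2 e heF
        have a2 := hy'.2 e heF
        simp only [dis, not_not] at a1 a2
        have hd0 : Dn w e0 = w e0 / 2 := rfl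
        rcases coord hx'.1 e with h1 | ⟨h1, _⟩ <;> rcases coord hy'.1 e with h2 | ⟨h2, _⟩
        · rw [h1, h2]
        · exfalso
          rcases coord hx'.1 e0 with h5 | ⟨h5, _⟩
          · have b1 : x e0 - Dn w e0 = x e - Dn w e := by omega
            have b2 : ¬ y e0 - Dn w e0 = y e - Dn w e := by omega
            exact b2 (a2.2 (a1.1 b1))
          · have b1 : ¬ x e0 - Dn w e0 = x e - Dn w e := by omega
            have b2 : y e0 - Dn w e0 = y e - Dn w e := by omega
            exact b1 (a1.2 (a2.1 b2))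
        · exfalso
          rcases coord hx'.1 e0 with h5 | ⟨h5, _⟩
          · have b1 : ¬ x e0 - Dn w e0 = x e - Dn w e := by omega
            have b2 : y e0 - Dn w e0 = y e - Dn w e := by omega
            exact b1 (a1.2 (a2.1 b2))
          · have b1 : x e0 - Dn w e0 = x e - Dn w e := by omega
            have b2 : ¬ y e0 - Dn w e0 = y e - Dn w e := by omega
            exact b2 (a2.2 (a1.1 b1))
        · rw [h1, h2]
      · rcases coord hx'.1 e with h1 | ⟨_, h1⟩
        · rcases coord hy'.1 e with h2 | ⟨_, h2⟩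
          · rw [h1, h2]
          · exact absurd h2 he
        · exact absurd h1 he
    have himg : P.image (fun x : E → ℤ => x e0 - Dn w e0) ⊆ {0, 1} := by
      intro t ht
      obtain ⟨x, hx, rfl⟩ := Finset.mem_image.1 ht
      have hd : Dn w e0 = w e0 / 2 := rfl
      rcases coord (Finset.mem_filter.1 hx).1 e0 with h1 | ⟨h1, _⟩
      · have : x e0 - Dn w e0 = 0 := by omega
        simp [this]
      · have : x e0 - Dn w e0 = 1 := by omega
        simp [this]
    have h1 := Finset.card_le_card himg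
    rw [Finset.card_image_of_injOn hinj] at h1
    exact h1.trans Finset.card_le_two
  -- the reflection
  have hQ2 : 1 ≤ Q.card → 2 ≤ Q.card := by
    intro h1
    obtain ⟨x, hx⟩ := Finset.card_pos.1 h1
    have hx' := Finset.mem_filter.1 hx
    have hrefl : w - x ∈ X := by
      have hs := mem_S.1 hx'.1
      have hDU := Dn_add_Up w
      refine mem_S.2 ⟨⟨?_, ?_⟩, ?_⟩
      · intro e
        have a1 : x e ≤ Up w e := hs.1.2 e
        have a2 : Dn w e + Up w e = w e := congrFun hDU e
        change Dn w e ≤ w e - x e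
        omega
      · intro e
        have a1 : Dn w e ≤ x e := hs.1.1 e
        have a2 : Dn w e + Up w e = w e := congrFun hDU e
        change w e - x e ≤ Up w e
        omega
      · rw [map_sub, hw, hs.2]; abel
    have hflip : ∀ e ∈ Fr, (dis (w - x) e ↔ dis x e) := by
      intro e he
      obtain ⟨k, hk⟩ := (Finset.mem_filter.1 he).2
      obtain ⟨k0, hk0⟩ := id hodd
      have hd : Dn w e = w e / 2 := rfl
      have hd0 : Dn w e0 = w e0 / 2 := rfl
      have hs : (w - x) e = w e - x e := rfl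
      have hs0 : (w - x) e0 = w e0 - x e0 := rfl
      have : ((w - x) e0 - Dn w e0 = (w - x) e - Dn w e) ↔
          (x e0 - Dn w e0 = x e - Dn w e) := by
        rw [hs, hs0, hd, hd0]
        constructor <;> intro h <;> omega
      simp only [dis, this]
    have hmem : w - x ∈ Q := by
      refine Finset.mem_filter.2 ⟨hrefl, ?_⟩
      intro hall
      apply hx'.2
      intro e he hd
      exact hall e he ((hflip e he).2 hd)
    have hne' : w - x ≠ x := by
      intro h
      have h1 : w e0 - x e0 = x e0 := congrFun h e0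
      obtain ⟨k0, hk0⟩ := id hodd
      omega
    have : 1 < Q.card := Finset.one_lt_card.2 ⟨w - x, hmem, x, hx, hne'⟩
    omega
  have hQbig : X.card ≤ 2 * Q.card := by omega
  -- double counting
  have hcount : Q.card ≤ ∑ e ∈ Fr, (X.filter fun x => dis x e).card := by
    have h1 : Q ⊆ Fr.biUnion fun e => X.filter fun x => dis x e := by
      intro x hx
      have hx' := Finset.mem_filter.1 hx
      have h2 := hx'.2
      push Not at h2
      obtain ⟨e, he, hd⟩ := h2
      exact Finset.mem_biUnion.2 ⟨e, he, Finset.mem_filter.2 ⟨hx'.1, hd⟩⟩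
    exact (Finset.card_le_card h1).trans Finset.card_biUnion_le
  have hfin : X.card ≤ 2 * ∑ e ∈ Fr, mq M b e0 e w := by
    rw [Finset.sum_congr rfl hmq]
    omega
  have hfin' : (X.card : ℝ) ≤ 2 * ∑ e ∈ Fr, (mq M b e0 e w : ℝ) := by exact_mod_cast hfin
  have h5 : ∑ e ∈ Fr, (mq M b e0 e w : ℝ) ≤ ∑ e : E, (mq M b e0 e w : ℝ) :=
    Finset.sum_le_sum_of_subset_of_nonneg (Finset.subset_univ _)
      fun _ _ _ => Nat.cast_nonneg _
  have h6 : ∑ e : E, (mq M b e0 e w : ℝ) ≤ ∑ e1 : E, ∑ e : E, (mq M b e1 e w : ℝ) :=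
    Finset.single_le_sum (f := fun e1 => ∑ e : E, (mq M b e1 e w : ℝ))
      (fun e1 _ => Finset.sum_nonneg fun _ _ => Nat.cast_nonneg _) (Finset.mem_univ e0)
  linarith

open Classical in
theorem T_bad (L : ℕ) {u : E → ℤ} (hu : M u = b + b) :
    T M b (fun x y => if Bad M b x y then 1 else 0) L (Dn u) (Up u) ≤
      (Fintype.card E : ℝ) ^ 2 * (1 / 2) ^ L * (S M b (Dn u) (Up u)).card := by
  have h1 : T M b (fun x y => if Bad M b x y then 1 else 0) L (Dn u) (Up u) ≤
      T M b (fun x y => 2 * ∑ e : E, ∑ e' : E, kq M b e e' x y) L (Dn u) (Up u) := by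
    apply T_mono
    intro x hx y hy
    have hM : M (x + y) = b + b := by
      rw [map_add, (mem_S.1 hx).2, (mem_S.1 hy).2]
    have hnn : 0 ≤ ∑ e : E, ∑ e' : E, kq M b e e' x y :=
      Finset.sum_nonneg fun e _ => Finset.sum_nonneg fun e' _ => kq_nonneg e e' x y
    split_ifs with hbad
    · have hb := bad_le hM hbad
      have hpos : (0 : ℝ) < (S M b (Dn (x + y)) (Up (x + y))).card := by
        have : 0 < (S M b (Dn (x + y)) (Up (x + y))).card := by
          unfold Bad at hbad; omega
        exact_mod_cast this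
      unfold kq
      simp only [← Finset.sum_div]
      rw [← mul_div_assoc, le_div_iff₀ hpos, one_mul]
      exact hb
    · linarith
  refine h1.trans ?_
  rw [T_mul, T_sum]
  have h2 : ∀ e : E, T M b (fun x y => ∑ e' : E, kq M b e e' x y) L (Dn u) (Up u) ≤
      ∑ _e' : E, (1 / 2 : ℝ) ^ L * ((S M b (Dn u) (Up u)).card / 2) := by
    intro e
    rw [T_sum]
    apply Finset.sum_le_sum
    intro e' _
    have h3 : T M b (fun x y => kq M b e e' x y) L (Dn u) (Up u) ≤
      (1 / 2) ^ L * T0 M b (kq M b e e') (Dn u) (Up u) := T_kq e e' L hu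
    exact h3.trans (mul_le_mul_of_nonneg_left (T0_kq_le e e' _ _) (by positivity))
  have h4 := Finset.sum_le_sum (s := Finset.univ) fun (e : E) _ => h2 e
  have h5 : ∑ _e : E, ∑ _e' : E, (1 / 2 : ℝ) ^ L * ((S M b (Dn u) (Up u)).card / 2) =
      (Fintype.card E : ℝ) ^ 2 * ((1 / 2 : ℝ) ^ L * ((S M b (Dn u) (Up u)).card / 2)) := by
    simp only [Finset.sum_const, Finset.card_univ, nsmul_eq_mul]
    ring
  rw [h5] at h4
  linarith

end Phase2

end P328
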