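import Vale.Agent.P328.Switch
import Vale.Agent.P328.Kappa
import Vale.Agent.P328.Path
import Vale.Agent.P328.Phase1
import Vale.Agent.P328.Phase2
import Vale.Agent.P328.Cong

/-!
# P328 : the Poincaré type inequality (assembly)
-/

namespace P328

open Finset

section Abstract

variable {E : Type*} [Fintype E] [DecidableEq E] {B : Type*} [AddCommGroup B] [DecidableEq B]
  {M : (E → ℤ) →+ B} {b : B} {lo hi : E → ℤ}

theorem B0_le_of {g g' : (E → ℤ) → (E → ℤ) → ℝ} (L : ℕ)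
    (h : ∀ u ∈ U M b lo hi, ∀ x ∈ S M b (Dn u) (Up u), ∀ y ∈ S M b (Dn u) (Up u),
      g x y ≤ g' x y) : B0 M b g L lo hi ≤ B0 M b g' L lo hi := by
  unfold B0
  refine mul_le_mul_of_nonneg_left ?_ (by positivity)
  exact Finset.sum_le_sum fun u hu => T_mono L (h u hu)

theorem B0_add (g g' : (E → ℤ) → (E → ℤ) → ℝ) (L : ℕ) :
    B0 M b (fun x y => g x y + g' x y) L lo hi = B0 M b g L lo hi + B0 M b g' L lo hi := by
  unfold B0
  rw [← mul_add, ← Finset.sum_add_distrib]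
  congr 1
  exact Finset.sum_congr rfl fun u _ => T_add g g' L

theorem B0_mul (a : ℝ) (g : (E → ℤ) → (E → ℤ) → ℝ) (L : ℕ) :
    B0 M b (fun x y => a * g x y) L lo hi = a * B0 M b g L lo hi := by
  unfold B0
  rw [Finset.sum_congr rfl fun u _ => T_mul a g L, ← Finset.mul_sum]
  ring

theorem B0_sum {ι : Type*} (s : Finset ι) (g : ι → (E → ℤ) → (E → ℤ) → ℝ) (L : ℕ) :
    B0 M b (fun x y => ∑ i ∈ s, g i x y) L lo hi = ∑ i ∈ s, B0 M b (g i) L lo hi := by
  unfold B0
  rw [Finset.sum_congr rfl fun u _ => T_sum s g L, Finset.sum_comm, ← Finset.mul_sum]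

theorem gc_nonneg (c : E) (x y : E → ℤ) : 0 ≤ gc c x y := by
  have h : (0 : ℤ) ≤ (x c - y c) ^ 2 * ((x c - y c) ^ 2 - 1) := by
    rcases eq_or_ne (x c - y c) 0 with h0 | h0
    · rw [h0]; norm_num
    · have : 1 ≤ (x c - y c) ^ 2 := by
        have := sq_pos_of_ne_zero h0
        omega
      exact mul_nonneg (sq_nonneg _) (by omega)
  unfold gc
  exact_mod_cast h

theorem twelve_le_gc {c : E} {x y : E → ℤ} (h : ¬ |x c - y c| ≤ 1) : 12 ≤ gc c x y := by
  have h1 : (4 : ℤ) ≤ (x c - y c) ^ 2 := by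
    push Not at h
    have : (2 : ℤ) ≤ |x c - y c| := by omega
    rw [← sq_abs]
    nlinarith
  have h2 : (12 : ℤ) ≤ (x c - y c) ^ 2 * ((x c - y c) ^ 2 - 1) := by nlinarith
  unfold gc
  exact_mod_cast h2

theorem gc_le {N : ℕ} {c : E} {x y : E → ℤ} (hx : 0 ≤ x c ∧ x c ≤ N) (hy : 0 ≤ y c ∧ y c ≤ N) :
    gc c x y ≤ (N : ℝ) ^ 4 := by
  have h1 : (x c - y c) ^ 2 ≤ (N : ℤ) ^ 2 := sq_le_sq' (by omega) (by omega)
  have h0 : 0 ≤ (x c - y c) ^ 2 := sq_nonneg _
  have h2 : (x c - y c) ^ 2 * ((x c - y c) ^ 2 - 1) ≤ (N : ℤ) ^ 4 := by nlinarith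
  unfold gc
  exact_mod_cast h2

end Abstract

section Tables

variable {m n : ℕ}

theorem DD_nonneg (f : (Fin m × Fin n → ℤ) → ℝ) (w : Fin m × Fin n → ℤ) : 0 ≤ DD f w := by
  classical
  unfold DD
  refine Finset.sum_nonneg fun q _ => ?_
  split_ifs
  · exact sq_nonneg _
  · exact le_rfl

open Classical in
theorem poincare {N : ℕ} {b : (Fin m → ℤ) × (Fin n → ℤ)} (hN : ∑ i, b.1 i ≤ N)
    (f : (Fin m × Fin n → ℤ) → ℝ) {W : ℝ} (hW : ∀ x ∈ tab N b, ∀ y ∈ tab N b, (f x - f y) ^ 2 ≤ W)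
    (L1 L2 : ℕ) :
    (∑ x ∈ tab N b, ∑ y ∈ tab N b, (f x - f y) ^ 2) / (tab N b).card ≤
      ((m : ℝ) * n) ^ 3 * (m * n + 1) * 2 ^ (L1 + L2 + 3) * ∑ w ∈ tab N b, DD f w +
      W * (tab N b).card * ((m : ℝ) * n * N ^ 4 * (2 / 3) ^ (L1 + 1) +
        2 ^ (L1 + 2) * (m * n) ^ 2 * (1 / 2) ^ L2) := by
  rcases (tab (N : ℤ) b).eq_empty_or_nonempty with he | ⟨x₀, hx₀⟩
  · rw [he]; simp
  have hW0 : 0 ≤ W := (sq_nonneg _).trans (hW x₀ hx₀ x₀ hx₀)
  have hR := rounding b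
  set M : (Fin m × Fin n → ℤ) →+ (Fin m → ℤ) × (Fin n → ℤ) := mar with hM
  set top : Fin m × Fin n → ℤ := fun _ => (N : ℤ) with htop
  have htab : tab (N : ℤ) b = S M b 0 top := rfl
  have hcard : (Fintype.card (Fin m × Fin n) : ℝ) = (m : ℝ) * n := by
    rw [Fintype.card_prod, Fintype.card_fin, Fintype.card_fin]; push_cast; ring
  -- the far part
  have hfar : T M b (fun x y => if Near x y then 0 else gd f x y) (L1 + 1) 0 top ≤
      W * (tab N b).card * ((m : ℝ) * n * N ^ 4 * (2 / 3) ^ (L1 + 1)) := by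
    have h1 : T M b (fun x y => if Near x y then 0 else gd f x y) (L1 + 1) 0 top ≤
        T M b (fun x y => ∑ c : Fin m × Fin n, (fun x y => W * gc c x y) x y) (L1 + 1) 0 top := by
      refine T_mono _ fun x hx y hy => ?_
      split_ifs with hn
      · exact Finset.sum_nonneg fun c _ => mul_nonneg hW0 (gc_nonneg c x y)
      · unfold Near at hn
        push Not at hn
        obtain ⟨c, hc⟩ := hn
        have h2 : 12 ≤ gc c x y := twelve_le_gc (not_le.2 hc)
        have h3 : W * gc c x y ≤ ∑ c : Fin m × Fin n, W * gc c x y :=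
          Finset.single_le_sum (f := fun c => W * gc c x y)
            (fun c _ => mul_nonneg hW0 (gc_nonneg c x y)) (Finset.mem_univ c)
        have h4 : gd f x y ≤ W := hW x hx y hy
        have h5 : W ≤ W * gc c x y := by nlinarith
        exact h4.trans (h5.trans h3)
    refine h1.trans ?_
    rw [T_sum]
    have h2 : ∀ c : Fin m × Fin n, T M b (fun x y => W * gc c x y) (L1 + 1) 0 top ≤
        W * ((2 / 3) ^ (L1 + 1) * ((tab N b).card * N ^ 4)) := by
      intro c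
      rw [T_mul]
      refine mul_le_mul_of_nonneg_left ?_ hW0
      refine (T_cell hR c (L1 + 1)).trans ?_
      refine mul_le_mul_of_nonneg_left ?_ (by positivity)
      unfold T0
      rw [← htab]
      have hs : (0 : ℝ) < (tab (N : ℤ) b).card := by
        exact_mod_cast Finset.card_pos.2 ⟨x₀, hx₀⟩
      rw [div_le_iff₀ hs]
      calc ∑ x ∈ tab (N : ℤ) b, ∑ y ∈ tab (N : ℤ) b, gc c x y
          ≤ ∑ x ∈ tab (N : ℤ) b, ∑ y ∈ tab (N : ℤ) b, (N : ℝ) ^ 4 := by
            refine Finset.sum_le_sum fun x hx => Finset.sum_le_sum fun y hy => ?_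
            obtain ⟨⟨x1, x2⟩, _⟩ := mem_S.1 hx
            obtain ⟨⟨y1, y2⟩, _⟩ := mem_S.1 hy
            exact gc_le ⟨x1 c, x2 c⟩ ⟨y1 c, y2 c⟩
        _ = (tab (N : ℤ) b).card * (N : ℝ) ^ 4 * (tab (N : ℤ) b).card := by
            rw [Finset.sum_const, Finset.sum_const, nsmul_eq_mul, nsmul_eq_mul]; ring
    refine (Finset.sum_le_sum fun c _ => h2 c).trans (le_of_eq ?_)
    rw [Finset.sum_const, Finset.card_univ, nsmul_eq_mul, hcard]
    ring
  -- the near part
  let hz : (Fin m × Fin n → ℤ) → (Fin m × Fin n → ℤ) → (Fin m × Fin n → ℤ) → ℝ :=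
    fun z x y => if Near x y ∧ ¬ Bad M b x y ∧ x ⊓ y ≤ z ∧ z ≤ x ⊔ y then 1 else 0
  let G : (Fin m × Fin n → ℤ) → (Fin m × Fin n → ℤ) → ℝ := fun x y =>
    W * (if Bad M b x y then 1 else 0) + ∑ w ∈ tab N b, ∑ p : Fin m × Fin n,
      ((m : ℝ) * n) ^ 2 * DD f w * hz (w - one p.1 p.2) x y
  have hnear : T M b (fun x y => if Near x y then gd f x y else 0) (L1 + 1) 0 top ≤
      (halve M b)^[L1 + 1] (B0 M b G L2) 0 top := by
    have h1 : (halve M b)^[L1 + 1] (T0 M b fun x y => if Near x y then gd f x y else 0) 0 top ≤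
        (halve M b)^[L1 + 1] (B0 M b (gd f) L2) 0 top :=
      iter_mono (Inv := fun _ _ => True) (fun _ _ _ _ _ => trivial)
        (fun lo hi _ => T0_near_le f L2) (L1 + 1) trivial
    refine le_trans h1 ?_
    refine iter_mono (Inv := fun lo hi => 0 ≤ lo ∧ hi ≤ top) ?_ ?_ (L1 + 1)
      ⟨le_rfl, le_rfl⟩
    · intro lo hi h u _
      exact ⟨h.1.trans le_sup_left, le_trans inf_le_left h.2⟩
    · intro lo hi h
      refine B0_le_of L2 fun u hu x hx y hy => ?_
      obtain ⟨u1, u2⟩ := Dn_Up_sub hu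
      have hlo : 0 ≤ Dn u := h.1.trans (le_trans le_sup_left u1)
      have hhi : Up u ≤ top := (u2.trans inf_le_left).trans h.2
      obtain ⟨⟨x1, x2⟩, x3⟩ := mem_S.1 hx
      obtain ⟨⟨y1, y2⟩, y3⟩ := mem_S.1 hy
      have hxt : x ∈ tab (N : ℤ) b := mem_S.2 ⟨⟨hlo.trans x1, x2.trans hhi⟩, x3⟩
      have hyt : y ∈ tab (N : ℤ) b := mem_S.2 ⟨⟨hlo.trans y1, y2.trans hhi⟩, y3⟩
      have hnr : Near x y := by
        intro e
        have a1 := x1 e
        have a2 := x2 e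
        have a3 := y1 e
        have a4 := y2 e
        simp only [Dn, Up] at a1 a2 a3 a4
        rw [abs_le]
        omega
      have hpos : ∀ w ∈ tab (N : ℤ) b, ∀ p : Fin m × Fin n,
          0 ≤ ((m : ℝ) * n) ^ 2 * DD f w * hz (w - one p.1 p.2) x y := by
        intro w _ p
        refine mul_nonneg (mul_nonneg (by positivity) (DD_nonneg f w)) ?_
        simp only [hz]
        split_ifs <;> norm_num
      by_cases hbad : Bad M b x y
      · have h2 : gd f x y ≤ W := hW x hxt y hyt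
        have h3 : 0 ≤ ∑ w ∈ tab (N : ℤ) b, ∑ p : Fin m × Fin n,
          ((m : ℝ) * n) ^ 2 * DD f w * hz (w - one p.1 p.2) x y :=
          Finset.sum_nonneg fun w hw => Finset.sum_nonneg fun p _ => hpos w hw p
        simp only [G]
        rw [if_pos hbad]
        linarith
      · simp only [G]
        rw [if_neg hbad, mul_zero, zero_add]
        refine (near_path hN f hxt hyt hnr).trans (le_of_eq ?_)
        rw [Finset.mul_sum]
        refine Finset.sum_congr rfl fun w _ => ?_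
        rw [Finset.mul_sum]
        refine Finset.sum_congr rfl fun p _ => ?_
        simp only [hz]
        by_cases hc : x ⊓ y ≤ w - one p.1 p.2 ∧ w - one p.1 p.2 ≤ x ⊔ y
        · rw [if_pos hc, if_pos ⟨hnr, hbad, hc⟩]; ring
        · rw [if_neg hc, if_neg (fun h => hc h.2.2)]; ring
  -- the bad part
  have hbad : (halve M b)^[L1 + 1] (B0 M b (fun x y => if Bad M b x y then 1 else 0) L2) 0 top ≤
      (tab (N : ℤ) b).card * (2 ^ (L1 + 2) * ((m : ℝ) * n) ^ 2 * (1 / 2) ^ L2) := by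
    have h1 : ∀ lo hi, B0 M b (fun x y => if Bad M b x y then 1 else 0) L2 lo hi ≤
        (2 * (((m : ℝ) * n) ^ 2 * (1 / 2) ^ L2)) * (S M b lo hi).card := by
      intro lo hi
      refine B0_card (by positivity) L2 fun u hu => ?_
      have := T_bad L2 hu
      rwa [hcard] at this
    refine (iter_card h1 (L1 + 1)).trans (le_of_eq ?_)
    rw [← htab]
    ring
  -- the good part
  have hgood : ∀ w ∈ tab (N : ℤ) b, ∀ p : Fin m × Fin n,
      (halve M b)^[L1 + 1] (B0 M b (hz (w - one p.1 p.2)) L2) 0 top ≤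
        ((m : ℝ) * n + 1) * 2 ^ (L1 + L2 + 3) := by
    intro w hw p
    obtain ⟨⟨w1, w2⟩, w3⟩ := mem_S.1 hw
    refine cong hR (w - one p.1 p.2) (by positivity) ?_ L1 L2
    have e1 : b + b - M (w - one p.1 p.2) = b + mar (one p.1 p.2) := by
      rw [map_sub, w3, hM]; abel
    rw [e1]
    refine tab_card_add hN ?_ ?_
    · rw [← w3]
      change (0 : ℤ) ≤ ∑ j, w (p.1, j)
      exact Finset.sum_nonneg fun j _ => w1 (p.1, j)
    · rw [← w3]
      change (0 : ℤ) ≤ ∑ i, w (i, p.2)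
      exact Finset.sum_nonneg fun i _ => w1 (i, p.2)
  -- linearity
  have hG : (halve M b)^[L1 + 1] (B0 M b G L2) 0 top =
      W * (halve M b)^[L1 + 1] (B0 M b (fun x y => if Bad M b x y then 1 else 0) L2) 0 top +
      ∑ w ∈ tab (N : ℤ) b, ∑ p : Fin m × Fin n, ((m : ℝ) * n) ^ 2 * DD f w *
        (halve M b)^[L1 + 1] (B0 M b (hz (w - one p.1 p.2)) L2) 0 top := by
    have e1 : B0 M b G L2 = fun lo hi =>
        (fun lo hi => W * B0 M b (fun x y => if Bad M b x y then 1 else 0) L2 lo hi) lo hi +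
        (fun lo hi => ∑ w ∈ tab (N : ℤ) b, (fun w lo hi => ∑ p : Fin m × Fin n,
          (fun p lo hi => ((m : ℝ) * n) ^ 2 * DD f w *
            B0 M b (hz (w - one p.1 p.2)) L2 lo hi) p lo hi) w lo hi) lo hi := by
      funext lo hi
      simp only [G]
      rw [B0_add, B0_mul, B0_sum]
      congr 1
      refine Finset.sum_congr rfl fun w _ => ?_
      rw [B0_sum]
      refine Finset.sum_congr rfl fun p _ => ?_
      rw [B0_mul]
    rw [e1, iter_add, iter_mul, iter_sum]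
    congr 1
    refine Finset.sum_congr rfl fun w _ => ?_
    rw [iter_sum]
    refine Finset.sum_congr rfl fun p _ => ?_
    rw [iter_mul]
  have hgood' : ∑ w ∈ tab (N : ℤ) b, ∑ p : Fin m × Fin n, ((m : ℝ) * n) ^ 2 * DD f w *
        (halve M b)^[L1 + 1] (B0 M b (hz (w - one p.1 p.2)) L2) 0 top ≤
      ((m : ℝ) * n) ^ 3 * (m * n + 1) * 2 ^ (L1 + L2 + 3) * ∑ w ∈ tab (N : ℤ) b, DD f w := by
    rw [Finset.mul_sum]
    refine Finset.sum_le_sum fun w hw => ?_
    have h1 : ∀ p : Fin m × Fin n, ((m : ℝ) * n) ^ 2 * DD f w *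
        (halve M b)^[L1 + 1] (B0 M b (hz (w - one p.1 p.2)) L2) 0 top ≤
        ((m : ℝ) * n) ^ 2 * DD f w * (((m : ℝ) * n + 1) * 2 ^ (L1 + L2 + 3)) := fun p =>
      mul_le_mul_of_nonneg_left (hgood w hw p) (mul_nonneg (by positivity) (DD_nonneg f w))
    refine (Finset.sum_le_sum fun p _ => h1 p).trans (le_of_eq ?_)
    rw [Finset.sum_const, Finset.card_univ, nsmul_eq_mul, hcard]
    ring
  -- conclusion
  have hsplit : T M b (gd f) (L1 + 1) 0 top =
      T M b (fun x y => if Near x y then gd f x y else 0) (L1 + 1) 0 top +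
      T M b (fun x y => if Near x y then 0 else gd f x y) (L1 + 1) 0 top := by
    rw [← T_add]
    congr 1
    funext x y
    split_ifs <;> simp
  have h0 : (∑ x ∈ tab (N : ℤ) b, ∑ y ∈ tab (N : ℤ) b, (f x - f y) ^ 2) / (tab (N : ℤ) b).card =
      T0 M b (gd f) 0 top := rfl
  rw [h0]
  have h1 := T0_le_T (M := M) (b := b) (lo := 0) (hi := top) f (L1 + 1)
  have h2 := mul_le_mul_of_nonneg_left hbad hW0
  rw [hG] at hnear
  rw [hsplit] at h1
  have e : W * (tab (N : ℤ) b).card * ((m : ℝ) * n * N ^ 4 * (2 / 3) ^ (L1 + 1) +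
        2 ^ (L1 + 2) * (m * n) ^ 2 * (1 / 2) ^ L2) =
      W * (tab (N : ℤ) b).card * ((m : ℝ) * n * N ^ 4 * (2 / 3) ^ (L1 + 1)) +
      W * ((tab (N : ℤ) b).card * (2 ^ (L1 + 2) * ((m : ℝ) * n) ^ 2 * (1 / 2) ^ L2)) := by ring
  rw [e]
  linarith

end Tables

end P328
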