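import Vale.Agent.P328.Defs

/-!
# P328, module J : balanced colourings and rounding
-/

namespace P328

open Finset

variable {m n : ℕ}

theorem one_apply (i : Fin m) (j : Fin n) (p : Fin m × Fin n) :
    one i j p = if p = (i, j) then 1 else 0 := by
  unfold one
  rw [Pi.single_apply]

theorem row_one (i : Fin m) (j : Fin n) (k : Fin m) :
    ∑ l, one i j (k, l) = if k = i then 1 else 0 := by
  simp only [one_apply, Prod.mk.injEq]
  by_cases h : k = i
  · simp [h]
  · simp [h]

theorem col_one (i : Fin m) (j : Fin n) (k : Fin n) :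
    ∑ l, one i j (l, k) = if k = j then 1 else 0 := by
  simp only [one_apply, Prod.mk.injEq]
  by_cases h : k = j
  · simp [h]
  · simp [h]

theorem even_card_symmDiff {α : Type*} [DecidableEq α] {A B : Finset α} (hA : Even A.card)
    (hB : Even B.card) : Even (symmDiff A B).card := by
  have h1 : (symmDiff A B).card + 2 * (A ∩ B).card = A.card + B.card := by
    have h2 : (symmDiff A B).card = (A \ B).card + (B \ A).card := by
      rw [symmDiff_def, Finset.sup_eq_union, Finset.card_union_of_disjoint]
      exact disjoint_sdiff_sdiff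
    have h3 := Finset.card_sdiff_add_card_inter A B
    have h4 := Finset.card_sdiff_add_card_inter B A
    rw [Finset.inter_comm B A] at h4
    omega
  rw [Nat.even_iff] at *
  omega

/-- an even bipartite graph has a balanced 2-colouring of its edges -/
theorem balanced (H : Finset (Fin m × Fin n))
    (h1 : ∀ i, Even (H.filter fun p => p.1 = i).card)
    (h2 : ∀ j, Even (H.filter fun p => p.2 = j).card) :
    ∃ s : Fin m × Fin n → ℤ, (∀ p ∈ H, s p = 1 ∨ s p = -1) ∧ (∀ p ∉ H, s p = 0) ∧
      (∀ i, ∑ j, s (i, j) = 0) ∧ ∀ j, ∑ i, s (i, j) = 0 := by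
  induction hN : H.card using Nat.strong_induction_on generalizing H with
  | _ N ih =>
    rcases H.eq_empty_or_nonempty with rfl | ⟨⟨i, j⟩, hij⟩
    · exact ⟨fun _ => 0, by simp, by simp, by simp, by simp⟩
    -- another cell in the row `i`
    obtain ⟨j', hj'H, hj'⟩ : ∃ j', (i, j') ∈ H ∧ j' ≠ j := by
      have h3 : 1 < (H.filter fun p => p.1 = i).card := by
        have h4 := h1 i
        have h5 : 0 < (H.filter fun p => p.1 = i).card :=
          Finset.card_pos.mpr ⟨(i, j), Finset.mem_filter.mpr ⟨hij, rfl⟩⟩
        rw [Nat.even_iff] at h4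
        omega
      obtain ⟨p, hp, hne⟩ := Finset.exists_mem_ne h3 (i, j)
      obtain ⟨hp1, hp2⟩ := Finset.mem_filter.mp hp
      obtain ⟨a, c⟩ := p
      simp only at hp2
      subst hp2
      exact ⟨c, hp1, fun h => hne (by rw [h])⟩
    -- another cell in the column `j'`
    obtain ⟨i', hi'H, hi'⟩ : ∃ i', (i', j') ∈ H ∧ i' ≠ i := by
      have h3 : 1 < (H.filter fun p => p.2 = j').card := by
        have h4 := h2 j'
        have h5 : 0 < (H.filter fun p => p.2 = j').card :=
          Finset.card_pos.mpr ⟨(i, j'), Finset.mem_filter.mpr ⟨hj'H, rfl⟩⟩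
        rw [Nat.even_iff] at h4
        omega
      obtain ⟨p, hp, hne⟩ := Finset.exists_mem_ne h3 (i, j')
      obtain ⟨hp1, hp2⟩ := Finset.mem_filter.mp hp
      obtain ⟨a, c⟩ := p
      simp only at hp2
      subst hp2
      exact ⟨a, hp1, fun h => hne (by rw [h])⟩
    -- the rectangle
    set R : Finset (Fin m × Fin n) := {(i, j), (i, j'), (i', j'), (i', j)} with hR
    have hd1 : (i, j) ∉ ({(i, j'), (i', j'), (i', j)} : Finset (Fin m × Fin n)) := by
      simp [hj'.symm, hi'.symm]
    have hd2 : (i, j') ∉ ({(i', j'), (i', j)} : Finset (Fin m × Fin n)) := by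
      simp [hi'.symm]
    have hd3 : (i', j') ∉ ({(i', j)} : Finset (Fin m × Fin n)) := by
      simp [hj']
    have hRsum : ∀ F : Fin m × Fin n → ℕ, ∑ p ∈ R, F p = F (i, j) + (F (i, j') + (F (i', j') +
        F (i', j))) := by
      intro F
      rw [hR, Finset.sum_insert hd1, Finset.sum_insert hd2, Finset.sum_insert hd3,
        Finset.sum_singleton]
    have hRcard : R.card = 4 := by
      rw [Finset.card_eq_sum_ones, hRsum]
    have hfil : ∀ P : Fin m × Fin n → Prop, ∀ _ : DecidablePred P,
        (symmDiff H R).filter P = symmDiff (H.filter P) (R.filter P) := by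
      intro P _
      ext p
      simp only [Finset.mem_filter, Finset.mem_symmDiff]
      tauto
    have hlt : (symmDiff H R).card < N := by
      have h2 : (symmDiff H R).card = (H \ R).card + (R \ H).card := by
        rw [symmDiff_def, Finset.sup_eq_union, Finset.card_union_of_disjoint]
        exact disjoint_sdiff_sdiff
      have h3 := Finset.card_sdiff_add_card_inter H R
      have h4 := Finset.card_sdiff_add_card_inter R H
      rw [Finset.inter_comm R H] at h4
      have h5 : 3 ≤ (H ∩ R).card := by
        have h6 : ({(i, j), (i, j'), (i', j')} : Finset (Fin m × Fin n)) ⊆ H ∩ R := by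
          intro p hp
          rw [Finset.mem_inter]
          simp only [Finset.mem_insert, Finset.mem_singleton] at hp
          rcases hp with rfl | rfl | rfl
          · exact ⟨hij, by simp [hR]⟩
          · exact ⟨hj'H, by simp [hR]⟩
          · exact ⟨hi'H, by simp [hR]⟩
        have h7 : ({(i, j), (i, j'), (i', j')} : Finset (Fin m × Fin n)).card = 3 := by
          rw [Finset.card_insert_of_notMem (by simp [hj'.symm, hi'.symm]),
            Finset.card_insert_of_notMem (by simp [hi'.symm]), Finset.card_singleton]
        rw [← h7]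
        exact Finset.card_le_card h6
      omega
    obtain ⟨s', hs1, hs2, hs3, hs4⟩ := ih _ hlt (symmDiff H R)
      (by
        intro k
        rw [hfil _ inferInstance]
        refine even_card_symmDiff (h1 k) ?_
        rw [Finset.card_filter, hRsum]
        simp only
        rw [Nat.even_iff]
        split_ifs <;> norm_num)
      (by
        intro k
        rw [hfil _ inferInstance]
        refine even_card_symmDiff (h2 k) ?_
        rw [Finset.card_filter, hRsum]
        simp only
        rw [Nat.even_iff]
        split_ifs <;> norm_num) rfl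
    -- the sign
    obtain ⟨ε, hε1, hε2⟩ : ∃ ε : ℤ, (ε = 1 ∨ ε = -1) ∧ ((i', j) ∉ H → s' (i', j) = ε) := by
      by_cases h : (i', j) ∈ H
      · exact ⟨1, Or.inl rfl, fun h' => absurd h h'⟩
      · exact ⟨s' (i', j), hs1 _ (Finset.mem_symmDiff.mpr (Or.inr ⟨by simp [hR], h⟩)),
          fun _ => rfl⟩
    refine ⟨fun p => s' p + ε * (one i j p - one i j' p + one i' j' p - one i' j p), ?_, ?_, ?_,
      ?_⟩
    · intro p hp
      by_cases hpR : p ∈ R
      · have h0 : s' p = 0 := hs2 p (by
          rw [Finset.mem_symmDiff]
          tauto)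
        rw [hR] at hpR
        simp only [Finset.mem_insert, Finset.mem_singleton] at hpR
        rcases hpR with rfl | rfl | rfl | rfl <;>
          simp only [h0, one_apply, Prod.mk.injEq, hj', hj'.symm, hi', hi'.symm, and_true,
            and_false, if_true, if_false, true_and, and_self] <;> omega
      · have h0 : p ∈ symmDiff H R := by
          rw [Finset.mem_symmDiff]
          tauto
        rw [hR] at hpR
        simp only [Finset.mem_insert, Finset.mem_singleton, not_or] at hpR
        simp only [one_apply, hpR.1, hpR.2.1, hpR.2.2.1, hpR.2.2.2, if_false]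
        simpa using hs1 p h0
    · intro p hp
      by_cases hpR : p ∈ R
      · have h9 : p = (i', j) := by
          rw [hR] at hpR
          simp only [Finset.mem_insert, Finset.mem_singleton] at hpR
          rcases hpR with rfl | rfl | rfl | rfl
          · exact absurd hij hp
          · exact absurd hj'H hp
          · exact absurd hi'H hp
          · rfl
        subst h9
        simp only [hε2 hp, one_apply, Prod.mk.injEq, hj', hj'.symm, hi', hi'.symm, and_true,
            and_false, if_true, if_false, true_and, and_self]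
        ring
      · have h0 : p ∉ symmDiff H R := by
          rw [Finset.mem_symmDiff]
          tauto
        rw [hR] at hpR
        simp only [Finset.mem_insert, Finset.mem_singleton, not_or] at hpR
        simp only [one_apply, hpR.1, hpR.2.1, hpR.2.2.1, hpR.2.2.2, if_false]
        simpa using hs2 p h0
    · intro k
      simp only [Finset.sum_add_distrib, ← Finset.mul_sum, Finset.sum_sub_distrib, row_one, hs3]
      ring
    · intro k
      simp only [Finset.sum_add_distrib, ← Finset.mul_sum, Finset.sum_sub_distrib, col_one, hs4]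
      ring

theorem even_filter_odd {ι : Type*} (s : Finset ι) (v : ι → ℤ) (h : Even (∑ i ∈ s, v i)) :
    Even (s.filter fun i => Odd (v i)).card := by
  classical
  have key : (∑ i ∈ s, v i) % 2 = ((s.filter fun i => Odd (v i)).card : ℤ) % 2 := by
    clear h
    induction s using Finset.induction_on with
    | empty => simp
    | insert a s ha ih =>
      rw [Finset.sum_insert ha, Finset.filter_insert]
      split_ifs with h1
      · rw [Finset.card_insert_of_notMem (fun h => ha (Finset.mem_filter.mp h).1)]
        rw [Int.odd_iff] at h1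
        push_cast
        omega
      · rw [Int.not_odd_iff_even, Int.even_iff] at h1
        omega
  rw [Int.even_iff] at h
  rw [Nat.even_iff]
  omega

theorem rounding (b : (Fin m → ℤ) × (Fin n → ℤ)) : Rounding mar b := by
  intro v hv
  have hr : ∀ i, ∑ j, v (i, j) = b.1 i + b.1 i := fun i => congrFun (congrArg Prod.fst hv) i
  have hc : ∀ j, ∑ i, v (i, j) = b.2 j + b.2 j := fun j => congrFun (congrArg Prod.snd hv) j
  set H : Finset (Fin m × Fin n) := Finset.univ.filter fun p => Odd (v p) with hH
  have h1 : ∀ i, Even (H.filter fun p => p.1 = i).card := by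
    intro i
    have h3 : (H.filter fun p => p.1 = i) =
        (Finset.univ.filter fun j => Odd (v (i, j))).map ⟨fun j => (i, j), fun a c h => by
          simpa using h⟩ := by
      ext ⟨a, c⟩
      simp only [hH, Finset.mem_filter, Finset.mem_univ, true_and, Finset.mem_map]
      constructor
      · rintro ⟨h4, rfl⟩
        exact ⟨c, h4, rfl⟩
      · rintro ⟨x, h4, h5⟩
        obtain ⟨rfl, rfl⟩ := Prod.mk.inj h5
        exact ⟨h4, rfl⟩
    rw [h3, Finset.card_map]
    exact even_filter_odd _ _ (by rw [hr]; exact ⟨_, rfl⟩)
  have h2 : ∀ j, Even (H.filter fun p => p.2 = j).card := by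
    intro j
    have h3 : (H.filter fun p => p.2 = j) =
        (Finset.univ.filter fun i => Odd (v (i, j))).map ⟨fun i => (i, j), fun a c h => by
          simpa using h⟩ := by
      ext ⟨a, c⟩
      simp only [hH, Finset.mem_filter, Finset.mem_univ, true_and, Finset.mem_map]
      constructor
      · rintro ⟨h4, rfl⟩
        exact ⟨a, h4, rfl⟩
      · rintro ⟨x, h4, h5⟩
        obtain ⟨rfl, rfl⟩ := Prod.mk.inj h5
        exact ⟨h4, rfl⟩
    rw [h3, Finset.card_map]
    exact even_filter_odd _ _ (by rw [hc]; exact ⟨_, rfl⟩)
  obtain ⟨s, hs1, hs2, hs3, hs4⟩ := balanced H h1 h2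
  have hcase : ∀ p, ((v p) % 2 = 1 ∧ (s p = 1 ∨ s p = -1)) ∨ ((v p) % 2 = 0 ∧ s p = 0) := by
    intro p
    by_cases hp : p ∈ H
    · left
      have h3 : Odd (v p) := (Finset.mem_filter.mp hp).2
      exact ⟨Int.odd_iff.mp h3, hs1 p hp⟩
    · right
      have h3 : ¬ Odd (v p) := fun h => hp (Finset.mem_filter.mpr ⟨Finset.mem_univ _, h⟩)
      rw [Int.not_odd_iff_even, Int.even_iff] at h3
      exact ⟨h3, hs2 p hp⟩
  set z : Fin m × Fin n → ℤ := fun p => (v p + s p) / 2 with hz
  have hz2 : ∀ p, 2 * z p = v p + s p := by
    intro p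
    rcases hcase p with ⟨h3, h4⟩ | ⟨h3, h4⟩ <;> simp only [hz] <;> omega
  refine ⟨z, ?_⟩
  unfold S
  rw [Finset.mem_filter, Finset.mem_Icc]
  refine ⟨⟨fun p => ?_, fun p => ?_⟩, ?_⟩
  · rcases hcase p with ⟨h3, h4⟩ | ⟨h3, h4⟩ <;> simp only [hz, Dn] <;> omega
  · rcases hcase p with ⟨h3, h4⟩ | ⟨h3, h4⟩ <;> simp only [hz, Up] <;> omega
  · have hr' : ∀ i, ∑ j, z (i, j) = b.1 i := by
      intro i
      have h3 : 2 * ∑ j, z (i, j) = 2 * b.1 i := by
        rw [Finset.mul_sum]
        simp only [hz2, Finset.sum_add_distrib, hr, hs3]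
        ring
      omega
    have hc' : ∀ j, ∑ i, z (i, j) = b.2 j := by
      intro j
      have h3 : 2 * ∑ i, z (i, j) = 2 * b.2 j := by
        rw [Finset.mul_sum]
        simp only [hz2, Finset.sum_add_distrib, hc, hs4]
        ring
      omega
    exact Prod.ext (funext hr') (funext hc')

end P328
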