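import Vale.Agent.P328.Tv
import Vale.Agent.P328.Poinc
import Vale.Agent.P328.Chain

/-!
# P328, module O2 : mixing of the chain of unit moves from a warm start
-/

namespace P328

open Finset

variable {m n : ℕ}

/-! ### numerical part -/

theorem stage_numeric {x P : ℝ} {N0 T : ℕ} (hx1 : 1 ≤ x) (hxP : x + 1 ≤ P ^ 2) (hP : 1 ≤ P)
    (hN : (N0 : ℝ) ≤ P) (hT : (50 * P) ^ 100 ≤ T) :
    ∃ L1 L2 : ℕ, 1 ≤ x ^ 5 * (x + 1) * 2 ^ (L1 + L2 + 3) ∧
      (x + 1) ^ 2 * ((1 - 1 / (2 * (x ^ 5 * (x + 1) * 2 ^ (L1 + L2 + 3)))) ^ T +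
        (x * N0 ^ 4 * (2 / 3) ^ (L1 + 1) + 2 ^ (L1 + 2) * x ^ 2 * (1 / 2) ^ L2)) ≤
        3 / P ^ 2 := by
  obtain ⟨k, hk1, hk2⟩ := exists_nat_pow_near (x := P ^ 12) (y := 2) (one_le_pow₀ hP) one_lt_two
  obtain ⟨l, hl1, hl2⟩ := exists_nat_pow_near (x := 32 * P ^ 34) (y := 2)
    (by have := one_le_pow₀ hP (n := 34); linarith) one_lt_two
  have hP0 : 0 < P := by linarith
  have hx0 : 0 ≤ x := by linarith
  have hxP' : x ≤ P ^ 2 := by linarith
  have h2k : (1 : ℝ) ≤ 2 ^ k := one_le_pow₀ one_le_two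
  have h2l : (1 : ℝ) ≤ 2 ^ l := one_le_pow₀ one_le_two
  have hN4 : (N0 : ℝ) ^ 4 ≤ P ^ 4 := pow_le_pow_left₀ (Nat.cast_nonneg _) hN 4
  have hx5 : x ^ 5 ≤ (P ^ 2) ^ 5 := pow_le_pow_left₀ hx0 hxP' 5
  have hx12 : (x + 1) ^ 2 ≤ (P ^ 2) ^ 2 := pow_le_pow_left₀ (by linarith) hxP 2
  have hx2 : x ^ 2 ≤ (P ^ 2) ^ 2 := pow_le_pow_left₀ hx0 hxP' 2
  refine ⟨2 * k + 1, l + 1, ?_, ?_⟩
  · have h1 : (1 : ℝ) ≤ x ^ 5 := one_le_pow₀ hx1
    have h2 : (1 : ℝ) ≤ 2 ^ (2 * k + 1 + (l + 1) + 3) := one_le_pow₀ one_le_two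
    have h3 : (1 : ℝ) ≤ x ^ 5 * (x + 1) := by nlinarith
    nlinarith
  · have e1 : (2 : ℝ) ^ (2 * k + 1 + (l + 1) + 3) = 32 * (2 ^ k) ^ 2 * 2 ^ l := by ring
    -- the first error
    have b1 : (x + 1) ^ 2 * (x * N0 ^ 4 * (2 / 3) ^ (2 * k + 1 + 1)) ≤ 1 / P ^ 2 := by
      have h1 : ((2 : ℝ) / 3) ^ (2 * k + 1 + 1) ≤ 1 / P ^ 12 := by
        have h2 : ((2 : ℝ) / 3) ^ (2 * k + 1 + 1) = (4 / 9) ^ (k + 1) := by
          rw [show 2 * k + 1 + 1 = 2 * (k + 1) by ring, pow_mul]; norm_num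
        rw [h2]
        calc ((4 : ℝ) / 9) ^ (k + 1) ≤ (1 / 2) ^ (k + 1) :=
              pow_le_pow_left₀ (by norm_num) (by norm_num) _
          _ = 1 / 2 ^ (k + 1) := by rw [one_div_pow]
          _ ≤ 1 / P ^ 12 := one_div_le_one_div_of_le (by positivity) hk2.le
      calc (x + 1) ^ 2 * (x * N0 ^ 4 * (2 / 3) ^ (2 * k + 1 + 1))
          ≤ (P ^ 2) ^ 2 * (P ^ 2 * P ^ 4 * (1 / P ^ 12)) := by gcongr
        _ = 1 / P ^ 2 := by field_simp
    -- the second error
    have b2 : (x + 1) ^ 2 * (2 ^ (2 * k + 1 + 2) * x ^ 2 * (1 / 2) ^ (l + 1)) ≤ 1 / P ^ 2 := by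
      have h1 : ((1 : ℝ) / 2) ^ (l + 1) ≤ 1 / (32 * P ^ 34) := by
        rw [one_div_pow]
        exact one_div_le_one_div_of_le (by positivity) hl2.le
      have h2 : (2 : ℝ) ^ (2 * k + 1 + 2) ≤ 8 * (P ^ 12) ^ 2 := by
        have : (2 : ℝ) ^ (2 * k + 1 + 2) = 8 * (2 ^ k) ^ 2 := by ring
        rw [this]
        gcongr
      calc (x + 1) ^ 2 * (2 ^ (2 * k + 1 + 2) * x ^ 2 * (1 / 2) ^ (l + 1))
          ≤ (P ^ 2) ^ 2 * (8 * (P ^ 12) ^ 2 * (P ^ 2) ^ 2 * (1 / (32 * P ^ 34))) := by gcongr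
        _ = 1 / 4 * (1 / P ^ 2) := by field_simp; norm_num
        _ ≤ 1 / P ^ 2 := by
            have : 0 ≤ 1 / P ^ 2 := by positivity
            linarith
    -- the mixing term
    set A := x ^ 5 * (x + 1) * 2 ^ (2 * k + 1 + (l + 1) + 3) with hA
    have hA0 : 1 ≤ A := by
      have h1 : (1 : ℝ) ≤ x ^ 5 := one_le_pow₀ hx1
      have h2 : (1 : ℝ) ≤ 2 ^ (2 * k + 1 + (l + 1) + 3) := one_le_pow₀ one_le_two
      have h3 : (1 : ℝ) ≤ x ^ 5 * (x + 1) := by nlinarith
      rw [hA]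
      nlinarith
    have hA1 : A ≤ 1024 * P ^ 70 := by
      rw [hA, e1]
      calc x ^ 5 * (x + 1) * (32 * (2 ^ k) ^ 2 * 2 ^ l)
          ≤ (P ^ 2) ^ 5 * P ^ 2 * (32 * (P ^ 12) ^ 2 * (32 * P ^ 34)) := by gcongr
        _ = 1024 * P ^ 70 := by ring
    have b3 : (x + 1) ^ 2 * (1 - 1 / (2 * A)) ^ T ≤ 1 / P ^ 2 := by
      have hT0 : (0 : ℝ) < T := lt_of_lt_of_le (by positivity) hT
      have h1 : (1 - 1 / (2 * A)) ^ T ≤ 2 * A / T := by
        have h2 : 1 - 1 / (2 * A) ≤ Real.exp (-(1 / (2 * A))) := by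
          have := Real.add_one_le_exp (-(1 / (2 * A)))
          linarith
        have h3 : 0 ≤ 1 - 1 / (2 * A) := by
          have : 1 / (2 * A) ≤ 1 := by
            rw [div_le_one (by positivity)]; linarith
          linarith
        have h4 : (1 - 1 / (2 * A)) ^ T ≤ Real.exp (-(1 / (2 * A))) ^ T :=
          pow_le_pow_left₀ h3 h2 T
        have h5 : Real.exp (-(1 / (2 * A))) ^ T = (Real.exp (T / (2 * A)))⁻¹ := by
          rw [← Real.exp_nat_mul, ← Real.exp_neg]
          congr 1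
          ring
        have h6 : T / (2 * A) ≤ Real.exp (T / (2 * A)) := by
          have := Real.add_one_le_exp (T / (2 * A))
          linarith
        have h7 : 0 < T / (2 * A) := by positivity
        calc (1 - 1 / (2 * A)) ^ T ≤ (Real.exp (T / (2 * A)))⁻¹ := by rw [← h5]; exact h4
          _ ≤ (T / (2 * A))⁻¹ := inv_anti₀ h7 h6
          _ = 2 * A / T := by rw [inv_div]
      have h8 : 2 * A / T ≤ 2 * (1024 * P ^ 70) / (50 * P) ^ 100 := by
        gcongr
      calc (x + 1) ^ 2 * (1 - 1 / (2 * A)) ^ T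
          ≤ (P ^ 2) ^ 2 * (2 * (1024 * P ^ 70) / (50 * P) ^ 100) := by
            refine mul_le_mul hx12 (h1.trans h8) ?_ (by positivity)
            refine pow_nonneg ?_ _
            have : 1 / (2 * A) ≤ 1 := by
              rw [div_le_one (by positivity)]; linarith
            linarith
        _ ≤ 1 / P ^ 2 := by
            rw [mul_div_assoc', div_le_div_iff₀ (by positivity) (by positivity)]
            have h9 : (P ^ 2) ^ 2 * (2 * (1024 * P ^ 70)) * P ^ 2 = 2048 * P ^ 76 := by ring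
            have h10 : 1 * (50 * P) ^ 100 = 50 ^ 100 * P ^ 24 * P ^ 76 := by ring
            rw [h9, h10]
            have h11 : (1 : ℝ) ≤ P ^ 24 := one_le_pow₀ hP
            have h12 : (2048 : ℝ) ≤ 50 ^ 100 * P ^ 24 := by
              have : (2048 : ℝ) ≤ 50 ^ 100 := by norm_num
              nlinarith
            exact mul_le_mul_of_nonneg_right h12 (by positivity)
    have e2 : (x + 1) ^ 2 * ((1 - 1 / (2 * A)) ^ T +
        (x * N0 ^ 4 * (2 / 3) ^ (2 * k + 1 + 1) +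
          2 ^ (2 * k + 1 + 2) * x ^ 2 * (1 / 2) ^ (l + 1))) =
        (x + 1) ^ 2 * (1 - 1 / (2 * A)) ^ T +
        (x + 1) ^ 2 * (x * N0 ^ 4 * (2 / 3) ^ (2 * k + 1 + 1)) +
        (x + 1) ^ 2 * (2 ^ (2 * k + 1 + 2) * x ^ 2 * (1 / 2) ^ (l + 1)) := by ring
    rw [e2]
    have e3 : 3 / P ^ 2 = 1 / P ^ 2 + 1 / P ^ 2 + 1 / P ^ 2 := by ring
    rw [e3]
    linarith

/-! ### the kernel -/

theorem mar_quad_zero (q : (Fin m × Fin m) × (Fin n × Fin n)) : mar (quad q) = 0 := by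
  unfold quad
  rw [map_sub, map_sub, map_add, mar_quad]
  abel

theorem quad_swap (q : (Fin m × Fin m) × (Fin n × Fin n)) :
    quad ((q.1.2, q.1.1), q.2) = -quad q := by
  unfold quad
  simp only
  abel

open Classical in
/-- the (non lazy) move of index `q` -/
noncomputable def mv (q : (Fin m × Fin m) × (Fin n × Fin n)) (X : Tb m n) : Tb m n :=
  if 0 ≤ X + quad q then X + quad q else X

theorem mem_Om_iff {b : Mg m n} {X : Tb m n} : X ∈ Om b ↔ 0 ≤ X ∧ mar X = b :=
  mem_tab' le_rfl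

theorem mv_mem {b : Mg m n} {X : Tb m n} (hX : X ∈ Om b)
    (q : (Fin m × Fin m) × (Fin n × Fin n)) : mv q X ∈ Om b := by
  unfold mv
  split_ifs with h
  · rw [mem_Om_iff] at hX ⊢
    exact ⟨h, by rw [map_add, mar_quad_zero, add_zero, hX.2]⟩
  · exact hX

/-- the swapped move goes back -/
theorem mv_swap {X Y : Tb m n} (hX : 0 ≤ X) (q : (Fin m × Fin m) × (Fin n × Fin n))
    (hne : X ≠ Y) (h : mv q X = Y) : mv ((q.1.2, q.1.1), q.2) Y = X := by
  unfold mv at h ⊢
  by_cases hc : 0 ≤ X + quad q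
  · rw [if_pos hc] at h
    have : Y + quad ((q.1.2, q.1.1), q.2) = X := by
      rw [← h, quad_swap]; abel
    rw [this, if_pos hX]
  · rw [if_neg hc] at h
    exact absurd h hne

open Classical in
/-- transition matrix -/
noncomputable def KK' (b : Mg m n) (x y : {X // X ∈ Om b}) : ℝ :=
  (∑ q : (Fin m × Fin m) × (Fin n × Fin n), if mv q x.1 = y.1 then (1 : ℝ) else 0) /
    ((m : ℝ) * n) ^ 2

theorem KK'_nonneg (b : Mg m n) (x y : {X // X ∈ Om b}) : 0 ≤ KK' b x y := by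
  unfold KK'
  refine div_nonneg (Finset.sum_nonneg fun q _ => ?_) (by positivity)
  split_ifs <;> norm_num

theorem KK'_symm (b : Mg m n) (x y : {X // X ∈ Om b}) : KK' b x y = KK' b y x := by
  classical
  by_cases hxy : x = y
  · rw [hxy]
  have hne : x.1 ≠ y.1 := fun h => hxy (Subtype.ext h)
  unfold KK'
  congr 1
  let σ : (Fin m × Fin m) × (Fin n × Fin n) ≃ (Fin m × Fin m) × (Fin n × Fin n) :=
    (Equiv.prodComm _ _).prodCongr (Equiv.refl _)
  refine Fintype.sum_equiv σ _ _ fun q => ?_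
  have hσ : σ q = ((q.1.2, q.1.1), q.2) := rfl
  have h1 : mv q x.1 = y.1 ↔ mv (σ q) y.1 = x.1 := by
    rw [hσ]
    constructor
    · exact mv_swap (mem_Om_iff.1 x.2).1 q hne
    · intro h
      exact mv_swap (mem_Om_iff.1 y.2).1 ((q.1.2, q.1.1), q.2) hne.symm h
  by_cases h : mv q x.1 = y.1
  · rw [if_pos h, if_pos (h1.1 h)]
  · rw [if_neg h, if_neg (fun h' => h (h1.2 h'))]

section Prog

variable [NeZero m] [NeZero n]

theorem mn_pos : (0 : ℝ) < (m : ℝ) * n := by
  have h1 : 0 < m := Nat.pos_of_ne_zero (NeZero.ne m)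
  have h2 : 0 < n := Nat.pos_of_ne_zero (NeZero.ne n)
  positivity

/-- sums over the target -/
theorem sum_KK'_mul (b : Mg m n) (x : {X // X ∈ Om b}) (F : {X // X ∈ Om b} → ℝ) :
    ∑ y, KK' b x y * F y =
      (∑ q : (Fin m × Fin m) × (Fin n × Fin n), F ⟨mv q x.1, mv_mem x.2 q⟩) /
        ((m : ℝ) * n) ^ 2 := by
  classical
  unfold KK'
  have e1 : ∀ y : {X // X ∈ Om b},
      (∑ q : (Fin m × Fin m) × (Fin n × Fin n), if mv q x.1 = y.1 then (1 : ℝ) else 0) /
        ((m : ℝ) * n) ^ 2 * F y =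
      (∑ q : (Fin m × Fin m) × (Fin n × Fin n), if mv q x.1 = y.1 then F y else 0) /
        ((m : ℝ) * n) ^ 2 := by
    intro y
    rw [div_mul_eq_mul_div, Finset.sum_mul]
    congr 1
    refine Finset.sum_congr rfl fun q _ => ?_
    split_ifs <;> simp
  rw [Finset.sum_congr rfl fun y _ => e1 y, ← Finset.sum_div, Finset.sum_comm]
  congr 1
  refine Finset.sum_congr rfl fun q _ => ?_
  rw [Finset.sum_eq_single ⟨mv q x.1, mv_mem x.2 q⟩]
  · rw [if_pos rfl]
  · intro y _ hy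
    rw [if_neg]
    intro h
    exact hy (Subtype.ext h.symm)
  · intro h
    exact absurd (Finset.mem_univ _) h

theorem card_q : (Fintype.card ((Fin m × Fin m) × (Fin n × Fin n)) : ℝ) = ((m : ℝ) * n) ^ 2 := by
  simp only [Fintype.card_prod, Fintype.card_fin]
  push_cast
  ring

theorem KK'_row (b : Mg m n) (x : {X // X ∈ Om b}) : ∑ y, KK' b x y = 1 := by
  have h := sum_KK'_mul b x (fun _ => 1)
  simp only [mul_one] at h
  rw [h, Finset.sum_const, Finset.card_univ, nsmul_eq_mul, mul_one, card_q]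
  have := mn_pos (m := m) (n := n)
  exact div_self (by positivity)

theorem sum_KK'_sq (b : Mg m n) (f : Tb m n → ℝ) :
    ∑ x : {X // X ∈ Om b}, ∑ y, KK' b x y * (f x.1 - f y.1) ^ 2 =
      (∑ X ∈ Om b, DD f X) / ((m : ℝ) * n) ^ 2 := by
  classical
  rw [← Finset.sum_coe_sort (Om b) (fun X => DD f X), Finset.sum_div]
  refine Finset.sum_congr rfl fun x _ => ?_
  rw [sum_KK'_mul b x (fun y => (f x.1 - f y.1) ^ 2)]
  congr 1
  unfold DD
  refine Finset.sum_congr rfl fun q _ => ?_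
  by_cases h : 0 ≤ x.1 + quad q
  · rw [if_pos h]
    simp only [mv]
    rw [if_pos h]
  · rw [if_neg h]
    simp only [mv]
    rw [if_neg h, sub_self]
    norm_num

theorem unif_bind {γ β : Type} [Fintype γ] [Nonempty γ] (f : γ → PMF β) (y : β) :
    (((PMF.uniformOfFintype γ).bind f) y).toReal = (∑ a, (f a y).toReal) / Fintype.card γ := by
  rw [toReal_bind, tsum_fintype, Finset.sum_div]
  refine Finset.sum_congr rfl fun a _ => ?_
  rw [PMF.uniformOfFintype_apply, ENNReal.toReal_inv, ENNReal.toReal_natCast]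
  ring

open Classical in
theorem law_step (X Y : Tb m n) :
    (law (step X) Y).toReal = ((if X = Y then (1 : ℝ) else 0) +
      (∑ q : (Fin m × Fin m) × (Fin n × Fin n), if mv q X = Y then (1 : ℝ) else 0) /
        ((m : ℝ) * n) ^ 2) / 2 := by
  have hp : ∀ (Z : Tb m n), ((PMF.pure Z : PMF (Tb m n)) Y).toReal = if Z = Y then (1 : ℝ) else 0 := by
    intro Z
    rw [PMF.pure_apply]
    by_cases h : Z = Y
    · rw [if_pos h, if_pos h.symm, ENNReal.toReal_one]
    · rw [if_neg h, if_neg (fun h' => h h'.symm), ENNReal.toReal_zero]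
  unfold step
  simp only [law_andThen, law_coin, law_draw, law_charge, law_ret]
  rw [unif_bind, Fintype.sum_bool, Fintype.card_bool]
  simp only [unif_bind, hp, Fintype.card_fin, true_and, Bool.false_eq_true, false_and, if_false]
  have hm : (m : ℝ) ≠ 0 := by exact_mod_cast NeZero.ne m
  have hn : (n : ℝ) ≠ 0 := by exact_mod_cast NeZero.ne n
  have e1 : (∑ i : Fin m, (∑ i' : Fin m, (∑ j : Fin n, (∑ j' : Fin n,
      if X = Y then (1 : ℝ) else 0) / n) / n) / m) / m = if X = Y then (1 : ℝ) else 0 := by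
    simp only [Finset.sum_const, Finset.card_univ, Fintype.card_fin, nsmul_eq_mul]
    field_simp
  have e2 : (∑ i : Fin m, (∑ i' : Fin m, (∑ j : Fin n, (∑ j' : Fin n,
      if (if 0 ≤ X + quad ((i, i'), (j, j')) then X + quad ((i, i'), (j, j')) else X) = Y
        then (1 : ℝ) else 0) / n) / n) / m) / m =
      (∑ q : (Fin m × Fin m) × (Fin n × Fin n), if mv q X = Y then (1 : ℝ) else 0) /
        ((m : ℝ) * n) ^ 2 := by
    rw [Fintype.sum_prod_type, Fintype.sum_prod_type]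
    simp only [Fintype.sum_prod_type, mv, Finset.sum_div]
    refine Finset.sum_congr rfl fun i _ => Finset.sum_congr rfl fun i' _ =>
      Finset.sum_congr rfl fun j _ => Finset.sum_congr rfl fun j' _ => ?_
    split_ifs <;> field_simp
  rw [e1, e2]
  ring

/-- the density of a law with respect to the uniform law on `Om b` -/
noncomputable def dens (b : Mg m n) (μ : PMF (Tb m n)) (x : {X // X ∈ Om b}) : ℝ :=
  (Om b).card * (μ x.1).toReal

theorem bind_step_zero {b : Mg m n} (μ : PMF (Tb m n)) (hμ : ∀ X, X ∉ Om b → μ X = 0) (Y : Tb m n)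
    (hY : Y ∉ Om b) : (μ.bind fun X => law (step X)) Y = 0 := by
  classical
  rw [PMF.bind_apply, ENNReal.tsum_eq_zero]
  intro X
  by_cases hX : X ∈ Om b
  · have h1 := law_step X Y
    have h2 : X ≠ Y := fun h => hY (h ▸ hX)
    rw [if_neg h2] at h1
    have h3 : ∑ q : (Fin m × Fin m) × (Fin n × Fin n), (if mv q X = Y then (1 : ℝ) else 0) = 0 := by
      refine Finset.sum_eq_zero fun q _ => if_neg fun h => hY ?_
      rw [← h]
      exact mv_mem hX q
    rw [h3, zero_div, add_zero, zero_div] at h1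
    have h4 : law (step X) Y = 0 := by
      rcases (ENNReal.toReal_eq_zero_iff _).1 h1 with h | h
      · exact h
      · exact absurd h (pmf_ne_top _ _)
    rw [h4, mul_zero]
  · rw [hμ X hX, zero_mul]

theorem dens_step {b : Mg m n} (μ : PMF (Tb m n)) (hμ : ∀ X, X ∉ Om b → μ X = 0) :
    dens b (μ.bind fun X => law (step X)) = lazy (KK' b) (dens b μ) := by
  classical
  funext y
  unfold dens lazy
  rw [toReal_bind, tsum_eq_sum (s := Om b)]
  · rw [← Finset.sum_coe_sort (Om b)]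
    have e1 : ∀ x : {X // X ∈ Om b}, (μ x.1).toReal * (law (step x.1) y.1).toReal =
        ((if x = y then (μ x.1).toReal else 0) + KK' b y x * (μ x.1).toReal) / 2 := by
      intro x
      rw [law_step, KK'_symm b y x, KK']
      by_cases h : x = y
      · rw [if_pos h, if_pos (congrArg Subtype.val h)]; ring
      · rw [if_neg h, if_neg (fun h' => h (Subtype.ext h'))]; ring
    rw [Finset.sum_congr rfl fun x _ => e1 x, ← Finset.sum_div, Finset.sum_add_distrib,
      Finset.sum_ite_eq' Finset.univ y, if_pos (Finset.mem_univ _)]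
    have e2 : ∑ x : {X // X ∈ Om b}, KK' b y x * (((Om b).card : ℝ) * (μ x.1).toReal) =
        (Om b).card * ∑ x : {X // X ∈ Om b}, KK' b y x * (μ x.1).toReal := by
      rw [Finset.mul_sum]
      exact Finset.sum_congr rfl fun x _ => by ring
    rw [e2]
    ring
  · intro X hX
    rw [hμ X hX, ENNReal.toReal_zero, zero_mul]

theorem dens_mix {b : Mg m n} (T : ℕ) : ∀ (μ : PMF (Tb m n)) (_ : ∀ X, X ∉ Om b → μ X = 0),
    (∀ X, X ∉ Om b → (μ.bind fun X => law (mix T X)) X = 0) ∧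
    dens b (μ.bind fun X => law (mix T X)) = (lazy (KK' b))^[T] (dens b μ) := by
  induction T with
  | zero =>
    intro μ hμ
    have h1 : (μ.bind fun X => law (mix 0 X)) = μ := by
      have : (fun X : Tb m n => law (mix 0 X)) = PMF.pure := by
        funext X
        exact law_ret X
      rw [this, PMF.bind_pure]
    rw [h1]
    exact ⟨hμ, rfl⟩
  | succ T ih =>
    intro μ hμ
    have h1 : (μ.bind fun X => law (mix (T + 1) X)) =
        ((μ.bind fun X => law (step X)).bind fun X => law (mix T X)) := by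
      rw [PMF.bind_bind]
      congr 1
      funext X
      exact law_andThen _ _
    rw [h1, Function.iterate_succ_apply, ← dens_step μ hμ]
    exact ih _ (bind_step_zero μ hμ)

theorem tv_dens {b : Mg m n} (μ : PMF (Tb m n)) (hμ : ∀ X, X ∉ Om b → μ X = 0)
    (hne : (Om b).Nonempty) :
    tv μ (unifOm b) = (∑ x, |dens b μ x - 1|) / (Om b).card / 2 := by
  classical
  have hc : (0 : ℝ) < (Om b).card := by exact_mod_cast Finset.card_pos.2 hne
  have hu : ∀ X, (unifOm b X).toReal = if X ∈ Om b then 1 / ((Om b).card : ℝ) else 0 := by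
    intro X
    unfold unifOm
    rw [dif_pos hne, PMF.uniformOfFinset_apply]
    by_cases h : X ∈ Om b
    · rw [if_pos h, if_pos h, ENNReal.toReal_inv, ENNReal.toReal_natCast, one_div]
    · rw [if_neg h, if_neg h, ENNReal.toReal_zero]
  unfold tv
  congr 1
  rw [tsum_eq_sum (s := Om b)]
  · rw [← Finset.sum_coe_sort (Om b), Finset.sum_div]
    refine Finset.sum_congr rfl fun x _ => ?_
    rw [hu, if_pos x.2]
    unfold dens
    rw [eq_div_iff hc.ne', ← abs_of_pos hc, ← abs_mul, abs_of_pos hc]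
    congr 1
    field_simp
  · intro X hX
    rw [hμ X hX, hu, if_neg hX, ENNReal.toReal_zero, sub_zero, abs_zero]

end Prog

end P328
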