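import Vale.Agent.P328.Var

/-!
# P328, module F : switching to near pairs
-/

namespace P328

open Finset

variable {E : Type*} [Fintype E] [DecidableEq E] {B : Type*} [AddCommGroup B] [DecidableEq B]
  {M : (E → ℤ) →+ B} {b : B} {lo hi : E → ℤ}

/-- comparison of an involution with independent pairs -/
theorem switch_reflect {α : Type*} (s : Finset α) (f : α → ℝ) (r : α → α)
    (hr : ∀ x ∈ s, r x ∈ s) (hrr : ∀ x ∈ s, r (r x) = x) :
    ∑ x ∈ s, (f x - f (r x)) ^ 2 ≤ 2 / s.card * ∑ x ∈ s, ∑ y ∈ s, (f x - f y) ^ 2 := by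
  rcases s.eq_empty_or_nonempty with rfl | hne
  · simp
  have hc : (0 : ℝ) < s.card := by exact_mod_cast Finset.card_pos.mpr hne
  set μ : ℝ := (∑ x ∈ s, f x) / s.card with hμ
  have hsum : ∑ x ∈ s, f x = s.card * μ := by
    rw [hμ]
    field_simp
  -- the variance
  have h1 : ∑ x ∈ s, ∑ y ∈ s, (f x - f y) ^ 2 = 2 * s.card * ∑ x ∈ s, (f x - μ) ^ 2 := by
    have h2 : ∀ x ∈ s, ∑ y ∈ s, (f x - f y) ^ 2 =
        s.card * (f x - μ) ^ 2 + ∑ y ∈ s, (f y - μ) ^ 2 := by
      intro x _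
      have h3 : ∀ y ∈ s, (f x - f y) ^ 2 =
          (f x - μ) ^ 2 + (f y - μ) ^ 2 - 2 * (f x - μ) * (f y - μ) := fun y _ => by ring
      rw [Finset.sum_congr rfl h3, Finset.sum_sub_distrib, Finset.sum_add_distrib,
        Finset.sum_const, nsmul_eq_mul, ← Finset.mul_sum, Finset.sum_sub_distrib, hsum,
        Finset.sum_const, nsmul_eq_mul]
      ring
    rw [Finset.sum_congr rfl h2, Finset.sum_add_distrib, Finset.sum_const, nsmul_eq_mul,
      ← Finset.mul_sum]
    ring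
  have h3 : ∑ x ∈ s, (f (r x) - μ) ^ 2 = ∑ x ∈ s, (f x - μ) ^ 2 :=
    Finset.sum_bij' (fun x _ => r x) (fun x _ => r x) hr hr hrr hrr fun _ _ => rfl
  calc ∑ x ∈ s, (f x - f (r x)) ^ 2
      ≤ ∑ x ∈ s, (2 * (f x - μ) ^ 2 + 2 * (f (r x) - μ) ^ 2) := by
        refine Finset.sum_le_sum fun x _ => ?_
        nlinarith [sq_nonneg ((f x - μ) + (f (r x) - μ))]
    _ = 4 * ∑ x ∈ s, (f x - μ) ^ 2 := by
        rw [Finset.sum_add_distrib, ← Finset.mul_sum, ← Finset.mul_sum, h3]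
        ring
    _ = _ := by
        rw [h1, div_mul_eq_mul_div, eq_div_iff hc.ne']
        ring

theorem near_iff {u x : E → ℤ} : Near x (u - x) ↔ Dn u ≤ x ∧ x ≤ Up u := by
  unfold Near Dn Up
  rw [Pi.le_def, Pi.le_def, ← forall_and]
  refine forall_congr' fun e => ?_
  simp only [Pi.sub_apply, abs_le]
  omega

theorem reflect_mem {u x : E → ℤ} (hu : M u = b + b) (hx : x ∈ S M b (Dn u) (Up u)) :
    u - x ∈ S M b (Dn u) (Up u) := by
  obtain ⟨⟨h1, h2⟩, h3⟩ := mem_S.mp hx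
  refine mem_S.mpr ⟨⟨fun e => ?_, fun e => ?_⟩, ?_⟩
  · have h4 := h1 e
    have h5 := h2 e
    simp only [Dn, Up, Pi.sub_apply] at *
    omega
  · have h4 := h1 e
    have h5 := h2 e
    simp only [Dn, Up, Pi.sub_apply] at *
    omega
  · rw [map_sub, hu, h3]
    abel

open Classical in
theorem T0_near_le (f : (E → ℤ) → ℝ) (L : ℕ) :
    T0 M b (fun x y => if Near x y then gd f x y else 0) lo hi ≤ B0 M b (gd f) L lo hi := by
  unfold B0
  have h1 : T0 M b (fun x y => if Near x y then gd f x y else 0) lo hi =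
      (∑ u ∈ U M b lo hi, ∑ x ∈ S M b (Lo lo hi u) (Hi lo hi u),
        if Near x (u - x) then (f x - f (u - x)) ^ 2 else 0) / (S M b lo hi).card := by
    unfold T0
    rw [sum_fiber (fun u x => if Near x (u - x) then (f x - f (u - x)) ^ 2 else 0)]
    simp only [add_sub_cancel_left]
    rfl
  have h2 : ∀ u ∈ U M b lo hi, (∑ x ∈ S M b (Lo lo hi u) (Hi lo hi u),
      if Near x (u - x) then (f x - f (u - x)) ^ 2 else 0) ≤
      2 * T M b (gd f) L (Dn u) (Up u) := by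
    intro u hu
    have hM := M_of_mem_U hu
    have h3 : (S M b (Lo lo hi u) (Hi lo hi u)).filter (fun x => Near x (u - x)) =
        S M b (Dn u) (Up u) := by
      ext x
      rw [Finset.mem_filter, near_iff, mem_S, mem_S]
      obtain ⟨h4, h5⟩ := Dn_Up_sub hu
      constructor
      · rintro ⟨⟨-, h6⟩, h7⟩
        exact ⟨h7, h6⟩
      · rintro ⟨h7, h6⟩
        exact ⟨⟨⟨h4.trans h7.1, h7.2.trans h5⟩, h6⟩, h7⟩
    rw [← Finset.sum_filter, h3]
    have h4 := switch_reflect (S M b (Dn u) (Up u)) f (fun x => u - x)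
      (fun x hx => reflect_mem hM hx) (fun x _ => sub_sub_cancel u x)
    have h5 := T0_le_T (M := M) (b := b) (lo := Dn u) (hi := Up u) f L
    refine h4.trans (le_trans (le_of_eq ?_) (mul_le_mul_of_nonneg_left h5 (by norm_num)))
    unfold T0 gd
    ring
  rw [h1]
  calc (∑ u ∈ U M b lo hi, ∑ x ∈ S M b (Lo lo hi u) (Hi lo hi u),
        if Near x (u - x) then (f x - f (u - x)) ^ 2 else 0) / (S M b lo hi).card
      ≤ (∑ u ∈ U M b lo hi, 2 * T M b (gd f) L (Dn u) (Up u)) / (S M b lo hi).card :=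
        div_le_div_of_nonneg_right (Finset.sum_le_sum h2) (by positivity)
    _ = _ := by
        rw [← Finset.mul_sum]
        ring

theorem B0_card {g : (E → ℤ) → (E → ℤ) → ℝ} {C : ℝ} (hC : 0 ≤ C) (L : ℕ)
    (h : ∀ u, M u = b + b → T M b g L (Dn u) (Up u) ≤ C * (S M b (Dn u) (Up u)).card) :
    B0 M b g L lo hi ≤ 2 * C * (S M b lo hi).card := by
  unfold B0
  rcases Nat.eq_zero_or_pos (S M b lo hi).card with h0 | h0
  · rw [h0]
    simp
  have hc : (0 : ℝ) < (S M b lo hi).card := by exact_mod_cast h0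
  have h1 : ∑ u ∈ U M b lo hi, T M b g L (Dn u) (Up u) ≤ C * ((S M b lo hi).card : ℝ) ^ 2 := by
    rw [← sum_card_fiber, Finset.mul_sum]
    refine Finset.sum_le_sum fun u hu => ?_
    refine (h u (M_of_mem_U hu)).trans (mul_le_mul_of_nonneg_left ?_ hC)
    have h2 : S M b (Dn u) (Up u) ⊆ S M b (Lo lo hi u) (Hi lo hi u) := by
      intro x hx
      obtain ⟨h3, h4⟩ := mem_S.mp hx
      obtain ⟨h5, h6⟩ := Dn_Up_sub hu
      exact mem_S.mpr ⟨⟨h5.trans h3.1, h3.2.trans h6⟩, h4⟩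
    exact_mod_cast Finset.card_le_card h2
  calc 2 / ((S M b lo hi).card : ℝ) * ∑ u ∈ U M b lo hi, T M b g L (Dn u) (Up u)
      ≤ 2 / ((S M b lo hi).card : ℝ) * (C * ((S M b lo hi).card : ℝ) ^ 2) :=
        mul_le_mul_of_nonneg_left h1 (by positivity)
    _ = _ := by
        field_simp

end P328
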