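import Vale.Agent.P328.Basic

/-!
# P328, module C : the variance does not decrease under halving
-/

namespace P328

open Finset

variable {E : Type*} [Fintype E] [DecidableEq E] {B : Type*} [AddCommGroup B] [DecidableEq B]
  {M : (E → ℤ) →+ B} {b : B} {lo hi : E → ℤ}

/-- comparison of an involution with independent pairs -/
theorem var_reflect {α : Type*} (s : Finset α) (f : α → ℝ) (r : α → α)
    (hr : ∀ x ∈ s, r x ∈ s) (hrr : ∀ x ∈ s, r (r x) = x) :
    ∑ x ∈ s, (f x - f (r x)) ^ 2 ≤ 2 / s.card * ∑ x ∈ s, ∑ y ∈ s, (f x - f y) ^ 2 := by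
  rcases s.eq_empty_or_nonempty with rfl | hne
  · simp
  have hc : (0 : ℝ) < s.card := by exact_mod_cast Finset.card_pos.mpr hne
  set μ : ℝ := (∑ x ∈ s, f x) / s.card with hμ
  have hsum : ∑ x ∈ s, f x = s.card * μ := by
    rw [hμ]
    field_simp
  -- the variance
  have h1 : ∑ x ∈ s, ∑ y ∈ s, (f x - f y) ^ 2 = 2 * s.card * ∑ x ∈ s, (f x - μ) ^ 2 := by
    have h2 : ∀ x ∈ s, ∑ y ∈ s, (f x - f y) ^ 2 =
        s.card * (f x - μ) ^ 2 + ∑ y ∈ s, (f y - μ) ^ 2 := by
      intro x _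
      have h3 : ∀ y ∈ s, (f x - f y) ^ 2 =
          (f x - μ) ^ 2 + (f y - μ) ^ 2 - 2 * (f x - μ) * (f y - μ) := fun y _ => by ring
      rw [Finset.sum_congr rfl h3, Finset.sum_sub_distrib, Finset.sum_add_distrib,
        Finset.sum_const, nsmul_eq_mul, ← Finset.mul_sum, Finset.sum_sub_distrib, hsum,
        Finset.sum_const, nsmul_eq_mul]
      ring
    rw [Finset.sum_congr rfl h2, Finset.sum_add_distrib, Finset.sum_const, nsmul_eq_mul,
      ← Finset.mul_sum]
    ring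
  have h3 : ∑ x ∈ s, (f (r x) - μ) ^ 2 = ∑ x ∈ s, (f x - μ) ^ 2 :=
    Finset.sum_bij' (fun x _ => r x) (fun x _ => r x) hr hr hrr hrr fun _ _ => rfl
  calc ∑ x ∈ s, (f x - f (r x)) ^ 2
      ≤ ∑ x ∈ s, (2 * (f x - μ) ^ 2 + 2 * (f (r x) - μ) ^ 2) := by
        refine Finset.sum_le_sum fun x _ => ?_
        nlinarith [sq_nonneg ((f x - μ) + (f (r x) - μ))]
    _ = 4 * ∑ x ∈ s, (f x - μ) ^ 2 := by
        rw [Finset.sum_add_distrib, ← Finset.mul_sum, ← Finset.mul_sum, h3]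
        ring
    _ = _ := by
        rw [h1, div_mul_eq_mul_div, eq_div_iff hc.ne']
        ring

theorem T0_le_halve (f : (E → ℤ) → ℝ) :
    T0 M b (gd f) lo hi ≤ halve M b (T0 M b (gd f)) lo hi := by
  have h1 : T0 M b (gd f) lo hi =
      (∑ u ∈ U M b lo hi, ∑ x ∈ S M b (Lo lo hi u) (Hi lo hi u),
        (f x - f (u - x)) ^ 2) / (S M b lo hi).card := by
    unfold T0
    rw [sum_fiber (fun u x => (f x - f (u - x)) ^ 2)]
    simp only [add_sub_cancel_left]
    rfl
  have h2 : ∀ u ∈ U M b lo hi, (∑ x ∈ S M b (Lo lo hi u) (Hi lo hi u),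
      (f x - f (u - x)) ^ 2) ≤ 2 * T0 M b (gd f) (Lo lo hi u) (Hi lo hi u) := by
    intro u hu
    have hM := M_of_mem_U hu
    have h4 := var_reflect (S M b (Lo lo hi u) (Hi lo hi u)) f (fun x => u - x)
      (fun x hx => (mem_sub hM).mpr (by
        have h5 := (mem_sub hM).mp hx
        exact ⟨h5.2, by rw [sub_sub_cancel]; exact h5.1⟩)) (fun x _ => sub_sub_cancel u x)
    refine h4.trans (le_of_eq ?_)
    unfold T0 gd
    ring
  rw [h1]
  unfold halve
  calc (∑ u ∈ U M b lo hi, ∑ x ∈ S M b (Lo lo hi u) (Hi lo hi u),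
        (f x - f (u - x)) ^ 2) / (S M b lo hi).card
      ≤ (∑ u ∈ U M b lo hi, 2 * T0 M b (gd f) (Lo lo hi u) (Hi lo hi u)) /
          (S M b lo hi).card :=
        div_le_div_of_nonneg_right (Finset.sum_le_sum h2) (by positivity)
    _ = _ := by
        rw [← Finset.mul_sum]
        ring

theorem T0_le_T (f : (E → ℤ) → ℝ) (L : ℕ) : T0 M b (gd f) lo hi ≤ T M b (gd f) L lo hi := by
  induction L generalizing lo hi with
  | zero => exact le_rfl
  | succ L ih =>
    rw [T_succ]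
    exact T0_le_halve f |>.trans (halve_mono fun u _ => ih)

end P328
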